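import Mathlib

/-!
Row 34 (S0045, S0046): counterexamples to Ryser's conjecture.  Basic definitions.
Full paper proof: table `ideas`, row 34 (helper10), parts 1-3.
-/

set_option autoImplicit false

open Finset

namespace Crest.Agent.Ryser

/-- A finite projective plane of order `q` given by finsets of incident objects. -/
structure Plane (P L : Type) [Fintype P] [Fintype L] [DecidableEq P] [DecidableEq L]
    (q : ℕ) where
  pts : L → Finset P
  lns : P → Finset L
  mem_lns : ∀ p l, l ∈ lns p ↔ p ∈ pts l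
  card_pts : ∀ l, (pts l).card = q + 1
  card_lns : ∀ p, (lns p).card = q + 1
  join : P → P → L
  meet : L → L → P
  join_left : ∀ p p', p ≠ p' → p ∈ pts (join p p')
  join_right : ∀ p p', p ≠ p' → p' ∈ pts (join p p')
  join_unique : ∀ p p' l, p ≠ p' → p ∈ pts l → p' ∈ pts l → l = join p p'
  meet_left : ∀ l l', l ≠ l' → meet l l' ∈ pts l
  meet_right : ∀ l l', l ≠ l' → meet l l' ∈ pts l'
  meet_unique : ∀ l l' p, l ≠ l' → p ∈ pts l → p ∈ pts l' → p = meet l l'
  card_P : Fintype.card P = q ^ 2 + q + 1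
  card_L : Fintype.card L = q ^ 2 + q + 1

variable {P L : Type} [Fintype P] [Fintype L] [DecidableEq P] [DecidableEq L] {q : ℕ}

/-- The unit `r = q^(1/1000)`. -/
noncomputable def rr (q : ℕ) : ℝ := (q : ℝ) ^ ((1 : ℝ) / 1000)

namespace Plane

variable (Pl : Plane P L q)

theorem join_comm (p p' : P) (h : p ≠ p') : Pl.join p p' = Pl.join p' p :=
  Pl.join_unique p' p _ h.symm (Pl.join_right p p' h) (Pl.join_left p p' h)

theorem meet_comm (l l' : L) (h : l ≠ l') : Pl.meet l l' = Pl.meet l' l :=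
  Pl.meet_unique l' l _ h.symm (Pl.meet_right l l' h) (Pl.meet_left l l' h)

/-- two points on two distinct lines coincide -/
theorem eq_of_mem_two {l l' : L} {p p' : P} (h : l ≠ l') (h1 : p ∈ Pl.pts l) (h2 : p ∈ Pl.pts l')
    (h3 : p' ∈ Pl.pts l) (h4 : p' ∈ Pl.pts l') : p = p' := by
  rw [Pl.meet_unique l l' p h h1 h2, Pl.meet_unique l l' p' h h3 h4]

theorem line_eq_of_two {l l' : L} {p p' : P} (h : p ≠ p') (h1 : p ∈ Pl.pts l) (h2 : p ∈ Pl.pts l')
    (h3 : p' ∈ Pl.pts l) (h4 : p' ∈ Pl.pts l') : l = l' := by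
  rw [Pl.join_unique p p' l h h1 h3, Pl.join_unique p p' l' h h2 h4]

/-- lines through `P0` avoid the set `B`... : the lines not through `P0` missing `B` -/
def LL (P0 : P) (B : Finset P) : Finset L :=
  univ.filter (fun l => P0 ∉ Pl.pts l ∧ ∀ X ∈ B, X ∉ Pl.pts l)

/-- lines of `LL` through `X` -/
def LX (P0 : P) (B : Finset P) (X : P) : Finset L :=
  (Pl.LL P0 B).filter (fun l => X ∈ Pl.pts l)

/-- number of points of `S` on `l` -/
def tl (S : Finset P) (l : L) : ℕ := (S ∩ Pl.pts l).card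

/-- number of lines (all lines of the plane) missing `S` -/
def mis (S : Finset P) : ℕ := (univ.filter (fun l => Pl.tl S l = 0)).card

/-- number of lines through `Y` containing a point of `S` other than `Y` -/
def sY (S : Finset P) (Y : P) : ℕ :=
  ((Pl.lns Y).filter (fun l => ∃ X ∈ S, X ≠ Y ∧ X ∈ Pl.pts l)).card

/-- The Szonyi-Weiner property of the plane (true for Desarguesian planes). -/
def Dich : Prop := ∀ S : Finset P, S.card = q → ∀ Y : P,
  (Pl.sY S Y : ℤ) * ((q : ℤ) - Pl.sY S Y) ≤ Pl.mis S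

/-- The parts: lines through `P0`. -/
abbrev Prt (P0 : P) : Type := {i : L // i ∈ Pl.lns P0}

end Plane

/-- A test: a family of "clauses" `j ∈ J`, each consisting of the lines `Λ j`, an exempt point set
`Y0`, and a degree bound `M`. -/
structure Test (P L : Type) [DecidableEq P] [DecidableEq L] where
  J : Finset L
  Λ : L → Finset L
  Y0 : Finset P
  M : ℕ

/-- validity of a test -/
structure Test.Valid (Pl : Plane P L q) (P0 : P) (w : ℕ) (τ : Test P L) : Prop where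
  M_pos : 0 < τ.M
  card_le : ∀ j ∈ τ.J, (τ.Λ j).card ≤ w
  notP0 : ∀ j ∈ τ.J, ∀ l ∈ τ.Λ j, P0 ∉ Pl.pts l
  deg : ∀ Z, Z ∉ τ.Y0 → (τ.J.filter (fun j => ∃ l ∈ τ.Λ j, Z ∈ Pl.pts l)).card ≤ τ.M
  degl : ∀ l, (τ.J.filter (fun j => l ∈ τ.Λ j)).card ≤ τ.M

/-- clauses surviving the ban of the point set `B` -/
def Test.surv (Pl : Plane P L q) (B : Finset P) (τ : Test P L) : Finset L :=
  τ.J.filter (fun j => ∀ l ∈ τ.Λ j, ∀ X ∈ B, X ∈ Pl.pts l → X ∈ τ.Y0)

/-- the test is passed with ratio `c` -/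
def Test.Rich (Pl : Plane P L q) (B : Finset P) (c : ℝ) (τ : Test P L) : Prop :=
  c * (τ.J.card : ℝ) ≤ ((τ.surv Pl B).card : ℝ)

/-- Gadgets without the special lines. -/
structure PreConfig (Pl : Plane P L q) (P0 : P) (n : ℕ) where
  base : Pl.Prt P0 → P
  g : Pl.Prt P0 → Bool → L
  Q : Pl.Prt P0 → Bool → Fin n → P
  base_mem : ∀ i, base i ∈ Pl.pts i.1
  base_ne : ∀ i, base i ≠ P0
  g_mem : ∀ i b, base i ∈ Pl.pts (g i b)
  g_ne : ∀ i, g i true ≠ g i false
  g_P0 : ∀ i b, P0 ∉ Pl.pts (g i b)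
  Q_mem : ∀ i b t, Q i b t ∈ Pl.pts (g i b)
  Q_inj : ∀ i b, Function.Injective (Q i b)
  Q_ne_base : ∀ i b t, Q i b t ≠ base i
  Q_part : ∀ i t, Pl.join P0 (Q i true t) ≠ Pl.join P0 (Q i false t)
  base_not_g : ∀ i j b, j ≠ i → base j ∉ Pl.pts (g i b)
  Q_not_g : ∀ i b j b' t, (j, b') ≠ (i, b) → Q j b' t ∉ Pl.pts (g i b)

namespace PreConfig

variable {Pl : Plane P L q} {P0 : P} {n : ℕ} (C : PreConfig Pl P0 n)

/-- banned points -/
def ban : Finset P :=
  (univ.image C.base) ∪ univ.image (fun x : Pl.Prt P0 × Bool × Fin n => C.Q x.1 x.2.1 x.2.2)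

/-- banned points on the G-line `(i,b)` -/
def K (i : Pl.Prt P0) (b : Bool) : Finset P :=
  insert (C.base i) (univ.image (C.Q i b))

/-- candidate point `R` for a line `m` through the base point of `i` -/
def Rof (i : Pl.Prt P0) (m : L) (b : Bool) (t : Fin n) : P :=
  Pl.meet m (Pl.join P0 (C.Q i b t))

/-- the lines belonging to the candidate `m` for `(i,t)` -/
def Lam (i : Pl.Prt P0) (t : Fin n) (m : L) : Finset L :=
  insert m ((univ.filter (fun x : Bool × Fin n => x.2 ≠ t)).image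
    (fun x => Pl.join (C.Q i x.1 x.2) (C.Rof i m x.1 t)))

/-- own banned points of gadget `i` -/
def own (i : Pl.Prt P0) : Finset P := C.K i true ∪ C.K i false

/-- the test used for choosing `mu i t` -/
def dTest (i : Pl.Prt P0) (t : Fin n) : Test P L where
  J := (Pl.lns (C.base i)).filter (fun m => P0 ∉ Pl.pts m ∧ m ≠ C.g i true ∧ m ≠ C.g i false)
  Λ := C.Lam i t
  Y0 := C.own i
  M := 2 * n

end PreConfig

/-- Full gadgets with the special lines. -/
structure Config (Pl : Plane P L q) (P0 : P) (n : ℕ) extends PreConfig Pl P0 n where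
  mu : Pl.Prt P0 → Fin n → L
  mu_mem : ∀ i t, base i ∈ Pl.pts (mu i t)
  mu_P0 : ∀ i t, P0 ∉ Pl.pts (mu i t)
  mu_inj : ∀ i, Function.Injective (mu i)
  mu_ne_g : ∀ i t b, mu i t ≠ g i b
  mu_ban : ∀ i t X, X ∈ toPreConfig.ban → X ∈ Pl.pts (mu i t) → X = base i
  sigma_ban : ∀ i b s t X, s ≠ t → X ∈ toPreConfig.ban →
    X ∈ Pl.pts (Pl.join (Q i b s) (toPreConfig.Rof i (mu i t) b t)) → X = Q i b s

namespace Config

variable {Pl : Plane P L q} {P0 : P} {n : ℕ} (C : Config Pl P0 n)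

def R (i : Pl.Prt P0) (b : Bool) (t : Fin n) : P := C.Rof i (C.mu i t) b t

def sigma (i : Pl.Prt P0) (b : Bool) (s t : Fin n) : L := Pl.join (C.Q i b s) (C.R i b t)

/-- special (banned point, line) pairs -/
def spec : Finset (P × L) :=
  (univ.image (fun x : Pl.Prt P0 × Fin n => (C.base x.1, C.mu x.1 x.2))) ∪
  ((univ.filter (fun x : Pl.Prt P0 × Bool × Fin n × Fin n => x.2.2.1 ≠ x.2.2.2)).image
    (fun x => (C.Q x.1 x.2.1 x.2.2.1, C.sigma x.1 x.2.1 x.2.2.1 x.2.2.2)))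

/-- point part of the modified edge `(i,b)` -/
def gset (i : Pl.Prt P0) (b : Bool) : Finset P :=
  (Pl.pts (C.g i b) \ C.K i b) ∪ univ.image (C.R i b)

/-- general position: few special lines through `Y` have their banned point on `l` -/
def GP : Prop := (∀ (l : L) (Y : P), Y ∉ Pl.pts l → (∀ i b t, ¬ (l = C.g i b ∧ Y = C.R i b t)) →
  (C.spec.filter (fun x => x.1 ∈ Pl.pts l ∧ Y ∈ Pl.pts x.2)).card ≤ 10) ∧
  (∀ i b t s t', t' ≠ t → s ≠ t' → C.R i b t ∉ Pl.pts (C.sigma i b s t'))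

/-- A cover of all edges: `S` = points, `St` = stars. -/
structure IsCover (S : Finset P) (St : Finset (Pl.Prt P0)) : Prop where
  notP0 : P0 ∉ S
  cLL : ∀ l ∈ Pl.LL P0 C.ban, ∃ X ∈ S, X ∈ Pl.pts l
  cspec : ∀ x ∈ C.spec, ∃ X ∈ S, X ∈ Pl.pts x.2
  cg : ∀ i b, i ∈ St ∨ ∃ X ∈ S, X ∈ C.gset i b

end Config

end Crest.Agent.Ryser
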