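import Crest.Agent.Ryser.Basic
import Crest.Agent.RY.Resultant

/-!
Row 34: the Desarguesian plane `PG(2,F)` as a `Plane`, and its Szonyi-Weiner property `Dich`.
-/

set_option autoImplicit false
set_option linter.unusedSectionVars false
set_option linter.unusedSimpArgs false

open Finset

namespace Crest.Agent.Ryser

open Crest.Agent.RY (img resultant_lemma)

section coord

variable {P L : Type} [Fintype P] [Fintype L] [DecidableEq P] [DecidableEq L]
variable {F : Type} [Field F] [Fintype F] [DecidableEq F]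

/-- If `Y ∈ l0`, `l0` meets `S` at most in `Y`, and the plane is coordinatised with `l0` at infinity
and `Y` the direction `0`, then the dichotomy inequality holds at `Y`. -/
theorem dich_of_coord {q : ℕ} (hq : Fintype.card F = q) (Pl : Plane P L q) (Y : P) (l0 : L)
    (hY : Y ∈ Pl.pts l0) (pt : F × F → P) (ln : F × F → L) (hpt : Function.Injective pt)
    (hptr : ∀ X, X ∉ Pl.pts l0 → ∃ p, pt p = X) (hpt0 : ∀ p, pt p ∉ Pl.pts l0)
    (hln : Function.Injective ln)
    (hinc : ∀ p m, pt p ∈ Pl.pts (ln m) ↔ p.2 - m.1 * p.1 = m.2)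
    (hYln : ∀ m, Y ∈ Pl.pts (ln m) ↔ m.1 = 0)
    (hlY : ∀ l, Y ∈ Pl.pts l → l ≠ l0 → ∃ c, ln (0, c) = l)
    (S : Finset P) (hS : S.card = q) (htan : ∀ X ∈ S, X ∈ Pl.pts l0 → X = Y) :
    (Pl.sY S Y : ℤ) * ((q : ℤ) - Pl.sY S Y) ≤ Pl.mis S := by
  classical
  obtain ⟨A, hA⟩ : ∃ A : Finset (F × F), A = univ.filter (fun p => pt p ∈ S) := ⟨_, rfl⟩
  have hAmem : ∀ p, p ∈ A ↔ pt p ∈ S := by intro p; rw [hA]; simp
  have hAY : ∀ p, pt p ≠ Y := fun p h => hpt0 p (h ▸ hY)
  have hAimg : A.image pt = S.erase Y := by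
    ext X
    simp only [Finset.mem_image, Finset.mem_erase]
    constructor
    · rintro ⟨p, hp, rfl⟩
      exact ⟨hAY p, (hAmem p).1 hp⟩
    · rintro ⟨h1, h2⟩
      obtain ⟨p, rfl⟩ := hptr X (fun h => h1 (htan X h2 h))
      exact ⟨p, (hAmem p).2 h2, rfl⟩
  have hAcard : A.card = (S.erase Y).card := by
    rw [← hAimg, Finset.card_image_of_injective _ hpt]
  -- s_Y
  have hsY : Pl.sY S Y = (img A 0).card := by
    have : (Pl.lns Y).filter (fun l => ∃ X ∈ S, X ≠ Y ∧ X ∈ Pl.pts l) =
        (img A 0).image (fun c => ln (0, c)) := by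
      ext l
      simp only [Finset.mem_filter, Finset.mem_image, Pl.mem_lns]
      constructor
      · rintro ⟨h1, X, hX, hXY, hXl⟩
        have hne : l ≠ l0 := by
          rintro rfl
          exact hXY (htan X hX hXl)
        obtain ⟨c, rfl⟩ := hlY l h1 hne
        obtain ⟨p, rfl⟩ := hptr X (fun h => hXY (htan X hX h))
        refine ⟨c, ?_, rfl⟩
        simp only [img, Finset.mem_image]
        exact ⟨p, (hAmem p).2 hX, (hinc p (0, c)).1 hXl⟩
      · rintro ⟨c, hc, rfl⟩
        simp only [img, Finset.mem_image] at hc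
        obtain ⟨p, hp, hpc⟩ := hc
        exact ⟨(hYln _).2 rfl, pt p, (hAmem p).1 hp, hAY p, (hinc p (0, c)).2 hpc⟩
    unfold Plane.sY
    rw [this, Finset.card_image_of_injective]
    intro c c' h
    have := hln h
    simpa using this
  -- missing lines
  obtain ⟨T, hT⟩ : ∃ T : Finset (F × F), T = univ.filter (fun m : F × F =>
    m.2 ∉ img A m.1 ∧ (Y ∈ S → m.1 ≠ 0)) := ⟨_, rfl⟩
  have hTmis : T.card ≤ Pl.mis S := by
    unfold Plane.mis
    rw [← Finset.card_image_of_injective T hln]
    refine Finset.card_le_card ?_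
    intro l hl
    obtain ⟨m, hm, rfl⟩ := Finset.mem_image.1 hl
    rw [hT, Finset.mem_filter] at hm
    obtain ⟨-, hm1, hm2⟩ := hm
    rw [Finset.mem_filter]
    refine ⟨Finset.mem_univ _, ?_⟩
    unfold Plane.tl
    rw [Finset.card_eq_zero, Finset.eq_empty_iff_forall_notMem]
    intro X hX
    rw [Finset.mem_inter] at hX
    obtain ⟨hXS, hXl⟩ := hX
    by_cases hXY : X = Y
    · subst hXY
      exact hm2 hXS ((hYln m).1 hXl)
    · obtain ⟨p, rfl⟩ := hptr X (fun h => hXY (htan X hXS h))
      apply hm1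
      simp only [img, Finset.mem_image]
      exact ⟨p, (hAmem p).2 hXS, (hinc p m).1 hXl⟩
  have hTcard : (T.card : ℤ) = ∑ y : F, (if (Y ∈ S → y ≠ 0) then ((q : ℤ) - (img A y).card) else 0) := by
    have h1 : T = univ.biUnion (fun y : F =>
        (univ.filter (fun c : F => c ∉ img A y ∧ (Y ∈ S → y ≠ 0))).image (fun c => (y, c))) := by
      ext m
      rw [hT]
      simp only [Finset.mem_filter, Finset.mem_univ, true_and, Finset.mem_biUnion, Finset.mem_image]
      constructor
      · intro h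
        exact ⟨m.1, m.2, h, rfl⟩
      · rintro ⟨y, c, h, rfl⟩
        exact h
    rw [h1, Finset.card_biUnion]
    · push_cast
      refine Finset.sum_congr rfl fun y _ => ?_
      rw [Finset.card_image_of_injective _ (fun a b h => by simpa using h)]
      by_cases hy : (Y ∈ S → y ≠ 0)
      · rw [if_pos hy]
        have h2 : univ.filter (fun c : F => c ∉ img A y ∧ (Y ∈ S → y ≠ 0)) = (img A y)ᶜ := by
          ext c
          simp only [Finset.mem_filter, Finset.mem_univ, true_and, Finset.mem_compl]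
          exact ⟨fun h => h.1, fun h => ⟨h, hy⟩⟩
        rw [h2, Finset.card_compl, Nat.cast_sub (Finset.card_le_univ _), hq]
      · rw [if_neg hy]
        have h2 : univ.filter (fun c : F => c ∉ img A y ∧ (Y ∈ S → y ≠ 0)) = ∅ := by
          rw [Finset.filter_eq_empty_iff]
          intro c _ h
          exact hy h.2
        rw [h2]; simp
    · intro y _ y' _ hyy'
      rw [Function.onFun, Finset.disjoint_left]
      intro m hm hm'
      obtain ⟨c, _, rfl⟩ := Finset.mem_image.1 hm
      obtain ⟨c', _, h⟩ := Finset.mem_image.1 hm'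
      exact hyy' (by simpa using (congrArg Prod.fst h).symm)
  have hres := resultant_lemma A (0 : F)
  rw [hq] at hres
  rw [hsY]
  refine le_trans ?_ (by exact_mod_cast hTmis : (T.card : ℤ) ≤ _)
  rw [hTcard]
  obtain ⟨n0, hn0⟩ : ∃ n0, n0 = (img A 0).card := ⟨_, rfl⟩
  rw [← hn0] at hres ⊢
  have hn0q : n0 ≤ q := by rw [hn0, ← hq]; exact Finset.card_le_univ _
  have hn0A : n0 ≤ A.card := by rw [hn0]; exact Finset.card_image_le
  -- sum of (q - n_y) over all y
  have hsum : (q : ℤ) * ((q : ℤ) - n0) - ((A.card : ℤ) - n0) * ((q : ℤ) - n0) ≤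
      ∑ y : F, ((q : ℤ) - (img A y).card) := by
    have h1 : ∑ y : F, (((img A y).card : ℤ) - n0) ≤ ((A.card : ℤ) - n0) * ((q : ℤ) - n0) := by
      have h2 : ((∑ y : F, ((img A y).card - n0) : ℕ) : ℤ) ≤
          (((A.card - n0) * (q - n0) : ℕ) : ℤ) := by exact_mod_cast hres
      rw [Nat.cast_mul, Nat.cast_sub hn0A, Nat.cast_sub hn0q] at h2
      refine le_trans ?_ h2
      push_cast
      refine Finset.sum_le_sum fun y _ => ?_
      omega
    have h3 : ∑ y : F, ((q : ℤ) - (img A y).card) =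
        ∑ y : F, ((q : ℤ) - n0) - ∑ y : F, (((img A y).card : ℤ) - n0) := by
      rw [← Finset.sum_sub_distrib]
      refine Finset.sum_congr rfl fun y _ => ?_
      ring
    rw [h3, Finset.sum_const, Finset.card_univ, hq, nsmul_eq_mul]
    linarith
  by_cases hYS : Y ∈ S
  · have hA1 : (A.card : ℤ) = q - 1 := by
      rw [hAcard, Finset.card_erase_of_mem hYS, hS]
      have : 0 < S.card := Finset.card_pos.2 ⟨Y, hYS⟩
      omega
    have h4 : ∑ y : F, (if (Y ∈ S → y ≠ 0) then ((q : ℤ) - (img A y).card) else 0) =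
        ∑ y : F, ((q : ℤ) - (img A y).card) - ((q : ℤ) - n0) := by
      rw [← Finset.add_sum_erase _ _ (Finset.mem_univ (0 : F)),
        ← Finset.add_sum_erase (univ : Finset F) (fun y => ((q : ℤ) - (img A y).card))
          (Finset.mem_univ (0 : F)), hn0]
      have h5 : ∑ y ∈ univ.erase (0 : F),
          (if (Y ∈ S → y ≠ 0) then ((q : ℤ) - (img A y).card) else 0) =
          ∑ y ∈ univ.erase (0 : F), ((q : ℤ) - (img A y).card) := by
        refine Finset.sum_congr rfl fun y hy => ?_
        rw [if_pos]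
        intro _
        exact Finset.ne_of_mem_erase hy
      rw [h5, if_neg (by simp [hYS])]
      ring
    rw [h4]
    rw [hA1] at hsum
    nlinarith
  · have hA1 : (A.card : ℤ) = q := by
      rw [hAcard, Finset.erase_eq_of_notMem hYS, hS]
    have h4 : ∑ y : F, (if (Y ∈ S → y ≠ 0) then ((q : ℤ) - (img A y).card) else 0) =
        ∑ y : F, ((q : ℤ) - (img A y).card) := by
      refine Finset.sum_congr rfl fun y _ => ?_
      rw [if_pos]
      intro h
      exact absurd h hYS
    rw [h4]
    rw [hA1] at hsum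
    nlinarith

end coord

section pg

open scoped LinearAlgebra.Projectivization
open Matrix Projectivization Configuration Configuration.ofField

variable (F : Type) [Field F] [Fintype F] [DecidableEq F]

noncomputable instance instFintypePG : Fintype (ℙ F (Fin 3 → F)) := by
  classical
  exact Fintype.ofFinite _

noncomputable instance instDecEqPG : DecidableEq (ℙ F (Fin 3 → F)) := Classical.decEq _

theorem order_pg : ProjectivePlane.order (ℙ F (Fin 3 → F)) (ℙ F (Fin 3 → F)) = Fintype.card F := by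
  have h1 := ProjectivePlane.card_points (ℙ F (Fin 3 → F)) (ℙ F (Fin 3 → F))
  have h2 := Projectivization.card_of_finrank F (Fin 3 → F) (n := 3) (by simp)
  rw [Nat.card_eq_fintype_card, h1, Nat.card_eq_fintype_card] at h2
  simp only [Finset.sum_range_succ, Finset.sum_range_zero] at h2
  set n := ProjectivePlane.order (ℙ F (Fin 3 → F)) (ℙ F (Fin 3 → F))
  set m := Fintype.card F
  have : n ^ 2 + n = m ^ 2 + m := by linarith
  nlinarith

noncomputable def pg : Plane (ℙ F (Fin 3 → F)) (ℙ F (Fin 3 → F)) (Fintype.card F) := by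
  classical
  exact
  { pts := fun l => univ.filter (fun p => orthogonal p l)
    lns := fun p => univ.filter (fun l => orthogonal p l)
    mem_lns := by simp
    card_pts := by
      intro l
      have h1 := ProjectivePlane.pointCount_eq (ℙ F (Fin 3 → F)) l
      rw [order_pg, pointCount, Nat.card_eq_fintype_card, Fintype.card_subtype] at h1
      rw [← h1]
      rfl
    card_lns := by
      intro p
      have h1 := ProjectivePlane.lineCount_eq (ℙ F (Fin 3 → F)) p
      rw [order_pg, lineCount, Nat.card_eq_fintype_card, Fintype.card_subtype] at h1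
      rw [← h1]
      rfl
    join := cross
    meet := cross
    join_left := by
      intro p p' h
      simpa using orthogonal_cross_left h
    join_right := by
      intro p p' h
      simpa using orthogonal_cross_right h
    join_unique := by
      intro p p' l h h1 h2
      simp only [Finset.mem_filter, Finset.mem_univ, true_and] at h1 h2
      exact ((eq_or_eq_of_orthogonal h1 h2 (orthogonal_cross_left h)
        (orthogonal_cross_right h)).resolve_left h)
    meet_left := by
      intro l l' h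
      simpa using cross_orthogonal_left h
    meet_right := by
      intro l l' h
      simpa using cross_orthogonal_right h
    meet_unique := by
      intro l l' p h h1 h2
      simp only [Finset.mem_filter, Finset.mem_univ, true_and] at h1 h2
      exact ((eq_or_eq_of_orthogonal h1 (cross_orthogonal_left h) h2
        (cross_orthogonal_right h)).resolve_right h)
    card_P := by
      rw [ProjectivePlane.card_points (ℙ F (Fin 3 → F)) (ℙ F (Fin 3 → F)), order_pg]
    card_L := by
      rw [ProjectivePlane.card_points (ℙ F (Fin 3 → F)) (ℙ F (Fin 3 → F)), order_pg] }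

end pg

section lin

open scoped LinearAlgebra.Projectivization
open Matrix Projectivization Configuration Configuration.ofField

variable {F : Type} [Field F] [Fintype F] [DecidableEq F]

theorem exists_frame (w φ : Fin 3 → F) (hw : w ≠ 0) (hφ : φ ≠ 0) (h : w ⬝ᵥ φ = 0) :
    ∃ W : Matrix (Fin 3) (Fin 3) F, IsUnit W ∧ W 0 = w ∧ W *ᵥ φ = ![0, 0, 1] := by
  classical
  -- functional
  let f : (Fin 3 → F) →ₗ[F] F :=
    { toFun := fun v => v ⬝ᵥ φ
      map_add' := fun v v' => add_dotProduct v v' φ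
      map_smul' := fun c v => by simp [smul_dotProduct] }
  have hf : ∀ v, f v = v ⬝ᵥ φ := fun v => rfl
  obtain ⟨v0, hv0⟩ : ∃ v0, f v0 ≠ 0 := by
    by_contra hcon
    push Not at hcon
    apply hφ
    rw [← dotProduct_eq_zero_iff]
    intro v
    rw [dotProduct_comm]
    exact hcon v
  have hsurj : Function.Surjective f := by
    intro c
    refine ⟨(c / f v0) • v0, ?_⟩
    rw [map_smul, smul_eq_mul]
    field_simp
  have hker : Module.finrank F (LinearMap.ker f) = 2 := by
    have h1 := LinearMap.finrank_range_add_finrank_ker f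
    rw [LinearMap.range_eq_top.2 hsurj, finrank_top, Module.finrank_self, Module.finrank_fin_fun] at h1
    omega
  have hw1 : w ∈ LinearMap.ker f := by rw [LinearMap.mem_ker, hf, h]
  obtain ⟨w2, hw2, hw2'⟩ : ∃ w2 ∈ LinearMap.ker f, w2 ∉ Submodule.span F {w} := by
    by_contra hcon
    push Not at hcon
    have h1 : LinearMap.ker f ≤ Submodule.span F {w} := hcon
    have h2 := Submodule.finrank_mono h1
    have h3 := finrank_span_le_card (R := F) ({w} : Set (Fin 3 → F))
    simp at h3
    omega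
  obtain ⟨w3, hw3⟩ := hsurj 1
  refine ⟨Matrix.of ![w, w2, w3], ?_, rfl, ?_⟩
  · rw [← Matrix.linearIndependent_rows_iff_isUnit]
    rw [Fintype.linearIndependent_iff]
    intro g hg
    simp only [Fin.sum_univ_three] at hg
    have hg' : g 0 • w + g 1 • w2 + g 2 • w3 = 0 := hg
    have h1 := congrArg f hg'
    rw [map_add, map_add, map_smul, map_smul, map_smul, LinearMap.mem_ker.1 hw1,
      LinearMap.mem_ker.1 hw2, hw3, map_zero] at h1
    simp only [smul_zero, zero_add, smul_eq_mul, mul_one, mul_zero] at h1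
    rw [h1, zero_smul, add_zero] at hg'
    have h2 : g 1 = 0 := by
      by_contra hne
      apply hw2'
      rw [Submodule.mem_span_singleton]
      refine ⟨-(g 0) / g 1, ?_⟩
      have : g 1 • w2 = -(g 0) • w := by
        rw [neg_smul, eq_neg_iff_add_eq_zero, add_comm]; exact hg'
      have h3 : w2 = (g 1)⁻¹ • (g 1 • w2) := by
        rw [smul_smul, inv_mul_cancel₀ hne, one_smul]
      rw [h3, this, smul_smul]
      congr 1
      field_simp
    rw [h2, zero_smul, add_zero] at hg'
    have h3 : g 0 = 0 := (smul_eq_zero.1 hg').resolve_right hw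
    intro i
    fin_cases i
    · exact h3
    · exact h2
    · exact h1
  · funext i
    fin_cases i
    · exact h
    · exact LinearMap.mem_ker.1 hw2
    · exact hw3

/-- points in the new frame -/
noncomputable def tauP (W : Matrix (Fin 3) (Fin 3) F) (hW : IsUnit W) (v : Fin 3 → F) (hv : v ≠ 0) :
    ℙ F (Fin 3 → F) :=
  Projectivization.mk F (v ᵥ* W) (by
    intro h
    apply hv
    have : v ᵥ* W ᵥ* W⁻¹ = 0 := by rw [h, zero_vecMul]
    rwa [vecMul_vecMul, Matrix.mul_nonsing_inv _ ((Matrix.isUnit_iff_isUnit_det _).1 hW),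
      vecMul_one] at this)

noncomputable def lamL (W : Matrix (Fin 3) (Fin 3) F) (hW : IsUnit W) (u : Fin 3 → F) (hu : u ≠ 0) :
    ℙ F (Fin 3 → F) :=
  Projectivization.mk F (W⁻¹ *ᵥ u) (by
    intro h
    apply hu
    have : W *ᵥ (W⁻¹ *ᵥ u) = 0 := by rw [h, mulVec_zero]
    rwa [mulVec_mulVec, Matrix.mul_nonsing_inv _ ((Matrix.isUnit_iff_isUnit_det _).1 hW),
      one_mulVec] at this)

theorem orth_tau_lam (W : Matrix (Fin 3) (Fin 3) F) (hW : IsUnit W) (v u : Fin 3 → F) (hv : v ≠ 0)
    (hu : u ≠ 0) : orthogonal (tauP W hW v hv) (lamL W hW u hu) ↔ v ⬝ᵥ u = 0 := by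
  unfold tauP lamL
  rw [orthogonal_mk, ← dotProduct_mulVec, mulVec_mulVec,
    Matrix.mul_nonsing_inv _ ((Matrix.isUnit_iff_isUnit_det _).1 hW), one_mulVec]

theorem tau_eq_iff (W : Matrix (Fin 3) (Fin 3) F) (hW : IsUnit W) (v v' : Fin 3 → F) (hv : v ≠ 0)
    (hv' : v' ≠ 0) : tauP W hW v hv = tauP W hW v' hv' ↔ ∃ a : F, a • v' = v := by
  unfold tauP
  rw [Projectivization.mk_eq_mk_iff']
  constructor
  · rintro ⟨a, ha⟩
    refine ⟨a, ?_⟩
    have h1 : a • v' = (a • v') ᵥ* W ᵥ* W⁻¹ := by
      rw [vecMul_vecMul, Matrix.mul_nonsing_inv _ ((Matrix.isUnit_iff_isUnit_det _).1 hW), vecMul_one]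
    have h2 : v = v ᵥ* W ᵥ* W⁻¹ := by
      rw [vecMul_vecMul, Matrix.mul_nonsing_inv _ ((Matrix.isUnit_iff_isUnit_det _).1 hW), vecMul_one]
    rw [h1, smul_vecMul, ha, ← h2]
  · rintro ⟨a, rfl⟩
    exact ⟨a, by rw [smul_vecMul]⟩

theorem lam_eq_iff (W : Matrix (Fin 3) (Fin 3) F) (hW : IsUnit W) (v v' : Fin 3 → F) (hv : v ≠ 0)
    (hv' : v' ≠ 0) : lamL W hW v hv = lamL W hW v' hv' ↔ ∃ a : F, a • v' = v := by
  unfold lamL
  rw [Projectivization.mk_eq_mk_iff']
  have key : ∀ u : Fin 3 → F, W *ᵥ (W⁻¹ *ᵥ u) = u := by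
    intro u
    rw [mulVec_mulVec, Matrix.mul_nonsing_inv _ ((Matrix.isUnit_iff_isUnit_det _).1 hW), one_mulVec]
  constructor
  · rintro ⟨a, ha⟩
    refine ⟨a, ?_⟩
    rw [← key v, ← ha, mulVec_smul, key]
  · rintro ⟨a, rfl⟩
    exact ⟨a, by rw [mulVec_smul]⟩

theorem tau_surj (W : Matrix (Fin 3) (Fin 3) F) (hW : IsUnit W) (X : ℙ F (Fin 3 → F)) :
    ∃ v, ∃ hv : v ≠ 0, tauP W hW v hv = X := by
  have hdet := (Matrix.isUnit_iff_isUnit_det _).1 hW
  have h1 : X.rep ᵥ* W⁻¹ ᵥ* W = X.rep := by
    rw [vecMul_vecMul, Matrix.nonsing_inv_mul _ hdet, vecMul_one]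
  refine ⟨X.rep ᵥ* W⁻¹, ?_, ?_⟩
  · intro h
    rw [h, zero_vecMul] at h1
    exact X.rep_nonzero h1.symm
  · unfold tauP
    conv_rhs => rw [← X.mk_rep]
    rw [Projectivization.mk_eq_mk_iff']
    exact ⟨1, by rw [one_smul, h1]⟩

theorem lam_surj (W : Matrix (Fin 3) (Fin 3) F) (hW : IsUnit W) (X : ℙ F (Fin 3 → F)) :
    ∃ v, ∃ hv : v ≠ 0, lamL W hW v hv = X := by
  have hdet := (Matrix.isUnit_iff_isUnit_det _).1 hW
  have h1 : W⁻¹ *ᵥ (W *ᵥ X.rep) = X.rep := by
    rw [mulVec_mulVec, Matrix.nonsing_inv_mul _ hdet, one_mulVec]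
  refine ⟨W *ᵥ X.rep, ?_, ?_⟩
  · intro h
    rw [h, mulVec_zero] at h1
    exact X.rep_nonzero h1.symm
  · unfold lamL
    conv_rhs => rw [← X.mk_rep]
    rw [Projectivization.mk_eq_mk_iff']
    exact ⟨1, by rw [one_smul, h1]⟩

theorem pg_mem (X l : ℙ F (Fin 3 → F)) : X ∈ (pg F).pts l ↔ orthogonal X l := by
  simp [pg]

theorem pg_dich : (pg F).Dich := by
  classical
  intro S hS Y
  by_cases htan : ∃ l0 ∈ (pg F).lns Y, ∀ X ∈ S, X ∈ (pg F).pts l0 → X = Y
  swap
  · push Not at htan
    have h1 : (pg F).sY S Y = Fintype.card F + 1 := by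
      unfold Plane.sY
      rw [Finset.filter_true_of_mem, (pg F).card_lns]
      intro l hl
      obtain ⟨X, h1, h2, h3⟩ := htan l hl
      exact ⟨X, h1, h3, h2⟩
    rw [h1]
    push_cast
    have h2 : (0 : ℤ) ≤ (pg F).mis S := by positivity
    have h3 : (0 : ℤ) ≤ Fintype.card F := by positivity
    nlinarith
  obtain ⟨l0, hl0, htan⟩ := htan
  rw [(pg F).mem_lns] at hl0
  have hYl0 := (pg_mem Y l0).1 hl0
  have hdot : Y.rep ⬝ᵥ l0.rep = 0 := by
    rw [← orthogonal_mk Y.rep_nonzero l0.rep_nonzero, Y.mk_rep, l0.mk_rep]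
    exact hYl0
  obtain ⟨W, hW, hW0, hWφ⟩ := exists_frame Y.rep l0.rep Y.rep_nonzero l0.rep_nonzero hdot
  have hdet := (Matrix.isUnit_iff_isUnit_det _).1 hW
  have n1 : ∀ a b : F, (![a, b, 1] : Fin 3 → F) ≠ 0 := by
    intro a b h
    have := congrFun h 2
    simp at this
  have n2 : ∀ a b : F, (![a, -1, b] : Fin 3 → F) ≠ 0 := by
    intro a b h
    have := congrFun h 1
    simp at this
  have n3 : (![1, 0, 0] : Fin 3 → F) ≠ 0 := by
    intro h
    have := congrFun h 0
    simp at this
  have n4 : (![0, 0, 1] : Fin 3 → F) ≠ 0 := n1 0 0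
  have hYtau : Y = tauP W hW ![1, 0, 0] n3 := by
    unfold tauP
    conv_lhs => rw [← Y.mk_rep]
    rw [Projectivization.mk_eq_mk_iff']
    refine ⟨1, ?_⟩
    rw [one_smul, ← hW0]
    funext j
    simp [vecMul, dotProduct, Fin.sum_univ_three]
  have hllam : l0 = lamL W hW ![0, 0, 1] n4 := by
    unfold lamL
    conv_lhs => rw [← l0.mk_rep]
    rw [Projectivization.mk_eq_mk_iff']
    refine ⟨1, ?_⟩
    rw [one_smul, ← hWφ, mulVec_mulVec, Matrix.nonsing_inv_mul _ hdet, one_mulVec]
  refine dich_of_coord rfl (pg F) Y l0 hl0 (fun p => tauP W hW ![p.1, p.2, 1] (n1 _ _))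
    (fun m => lamL W hW ![m.1, -1, m.2] (n2 _ _)) ?_ ?_ ?_ ?_ ?_ ?_ ?_ S hS htan
  · intro p p' h
    obtain ⟨a, ha⟩ := (tau_eq_iff W hW _ _ (n1 _ _) (n1 _ _)).1 h
    have h2 := congrFun ha 2
    have h0 := congrFun ha 0
    have h1 := congrFun ha 1
    simp at h0 h1 h2
    subst h2
    ext <;> simp_all
  · intro X hX
    obtain ⟨v, hv, rfl⟩ := tau_surj W hW X
    rw [pg_mem, hllam, orth_tau_lam] at hX
    have hv2 : v 2 ≠ 0 := by
      intro h
      apply hX
      simp [dotProduct, Fin.sum_univ_three, h]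
    refine ⟨(v 0 / v 2, v 1 / v 2), ?_⟩
    rw [tau_eq_iff]
    refine ⟨(v 2)⁻¹, ?_⟩
    funext i
    fin_cases i
    · simp; field_simp
    · simp; field_simp
    · simp; field_simp
  · intro p hp
    rw [pg_mem, hllam, orth_tau_lam] at hp
    simp [dotProduct, Fin.sum_univ_three] at hp
  · intro p p' h
    obtain ⟨a, ha⟩ := (lam_eq_iff W hW _ _ (n2 _ _) (n2 _ _)).1 h
    have h2 := congrFun ha 2
    have h0 := congrFun ha 0
    have h1 := congrFun ha 1
    simp at h0 h1 h2
    subst h1
    ext <;> simp_all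
  · intro p m
    rw [pg_mem, orth_tau_lam]
    simp only [dotProduct, Fin.sum_univ_three, Matrix.cons_val_zero, Matrix.cons_val_one,
      Matrix.cons_val]
    constructor
    · intro h; linear_combination -h
    · intro h; linear_combination -h
  · intro m
    rw [pg_mem, hYtau, orth_tau_lam]
    simp [dotProduct, Fin.sum_univ_three]
  · intro l hYl hne
    obtain ⟨u, hu, rfl⟩ := lam_surj W hW l
    rw [pg_mem, hYtau, orth_tau_lam] at hYl
    have hu0 : u 0 = 0 := by
      simpa [dotProduct, Fin.sum_univ_three] using hYl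
    have hu1 : u 1 ≠ 0 := by
      intro h
      apply hne
      rw [hllam, lam_eq_iff]
      refine ⟨u 2, ?_⟩
      funext i
      fin_cases i
      · simp [hu0]
      · simp [h]
      · simp
    refine ⟨-(u 2) / u 1, ?_⟩
    rw [lam_eq_iff]
    refine ⟨-(u 1)⁻¹, ?_⟩
    funext i
    fin_cases i
    · simp [hu0]
    · simp; field_simp
    · simp; field_simp

/-- The Desarguesian plane of order `q = |F|`, with the Szonyi-Weiner property. -/
theorem desarg_plane (F : Type) [Field F] [Fintype F] [DecidableEq F] (q : ℕ)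
    (hq : Fintype.card F = q) :
    ∃ (P L : Type) (_ : Fintype P) (_ : Fintype L) (_ : DecidableEq P) (_ : DecidableEq L)
      (Pl : Plane P L q), Pl.Dich := by
  subst hq
  exact ⟨_, _, _, _, _, _, pg F, pg_dich⟩

end lin

end Crest.Agent.Ryser
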