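import Mathlib

/-!
Row 34: marginals of the uniform measure on a finite product of finsets.
`sum_marg`, `marg_le`, `marg_pair`, `marg_triple`, `marg_pairs`.
-/

set_option autoImplicit false

open Finset

namespace Crest.Agent.Ryser

namespace Marg

variable {ι κ α : Type} [Fintype ι] [DecidableEq ι] [Fintype κ] [DecidableEq κ] [DecidableEq α]

/-- number of extensions of a partial function defined on the range of `e` -/
theorem fiber_card (t : ι → Finset α) (e : κ → ι) (he : Function.Injective e) (v : κ → α)
    (hv : v ∈ Fintype.piFinset (fun j => t (e j))) :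
    ((Fintype.piFinset t).filter (fun ω => (fun j => ω (e j)) = v)).card =
      ∏ i, if i ∈ univ.image e then 1 else (t i).card := by
  classical
  rw [Fintype.mem_piFinset] at hv
  have : (Fintype.piFinset t).filter (fun ω => (fun j => ω (e j)) = v) =
      Fintype.piFinset (fun i => if h : ∃ j, e j = i then {v h.choose} else t i) := by
    ext ω
    simp only [mem_filter, Fintype.mem_piFinset]
    constructor
    · rintro ⟨h1, h2⟩ i
      split_ifs with h
      · rw [mem_singleton, ← h2]
        exact congrArg ω h.choose_spec.symm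
      · exact h1 i
    · intro h
      have key : ∀ j, ω (e j) = v j := by
        intro j
        have := h (e j)
        have hex : ∃ j', e j' = e j := ⟨j, rfl⟩
        rw [dif_pos hex, mem_singleton] at this
        rw [this]
        exact congrArg v (he hex.choose_spec)
      refine ⟨fun i => ?_, funext key⟩
      by_cases hi : ∃ j, e j = i
      · obtain ⟨j, rfl⟩ := hi
        rw [key j]; exact hv j
      · have := h i
        rwa [dif_neg hi] at this
  rw [this, Fintype.card_piFinset]
  refine prod_congr rfl fun i _ => ?_
  by_cases hi : ∃ j, e j = i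
  · rw [dif_pos hi, if_pos (by simpa using hi), card_singleton]
  · rw [dif_neg hi, if_neg (by simpa using hi)]

theorem total_card (t : ι → Finset α) (e : κ → ι) (he : Function.Injective e) :
    (Fintype.piFinset t).card = (∏ i, if i ∈ univ.image e then 1 else (t i).card) *
      (Fintype.piFinset (fun j => t (e j))).card := by
  rw [Fintype.card_piFinset, Fintype.card_piFinset]
  have h1 : ∏ j, (t (e j)).card = ∏ i, if i ∈ univ.image e then (t i).card else 1 := by
    rw [← prod_filter, filter_mem_eq_inter, univ_inter, prod_image (fun _ _ _ _ h => he h)]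
  rw [h1, ← prod_mul_distrib]
  refine prod_congr rfl fun i _ => ?_
  split_ifs <;> simp

/-- sum of a function of the coordinates in the range of `e` -/
theorem sum_marg (t : ι → Finset α) (e : κ → ι) (he : Function.Injective e) (f : (κ → α) → ℝ) :
    (∑ ω ∈ Fintype.piFinset t, f (fun j => ω (e j))) *
      ((Fintype.piFinset (fun j => t (e j))).card : ℝ) =
    (∑ v ∈ Fintype.piFinset (fun j => t (e j)), f v) * ((Fintype.piFinset t).card : ℝ) := by
  classical
  have h1 : ∑ ω ∈ Fintype.piFinset t, f (fun j => ω (e j)) =
      ∑ v ∈ Fintype.piFinset (fun j => t (e j)),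
        ∑ ω ∈ (Fintype.piFinset t).filter (fun ω => (fun j => ω (e j)) = v),
          f (fun j => ω (e j)) := by
    rw [sum_fiberwise_of_maps_to]
    intro ω hω
    rw [Fintype.mem_piFinset] at hω ⊢
    exact fun j => hω (e j)
  have h2 : ∀ v ∈ Fintype.piFinset (fun j => t (e j)),
      ∑ ω ∈ (Fintype.piFinset t).filter (fun ω => (fun j => ω (e j)) = v),
          f (fun j => ω (e j)) =
        ((∏ i, if i ∈ univ.image e then 1 else (t i).card : ℕ) : ℝ) * f v := by
    intro v hv
    rw [← fiber_card t e he v hv, ← nsmul_eq_mul, ← sum_const]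
    refine sum_congr rfl fun ω hω => ?_
    rw [(mem_filter.1 hω).2]
  rw [h1, sum_congr rfl h2, ← mul_sum, total_card t e he]
  push_cast
  ring

/-- If the marginal event has probability at most `δ`, so has the event. -/
theorem marg_le (t : ι → Finset α) (e : κ → ι) (he : Function.Injective e)
    (A : (κ → α) → Prop) [DecidablePred A] (δ : ℝ)
    (h : (((Fintype.piFinset (fun j => t (e j))).filter A).card : ℝ) ≤
      δ * ((Fintype.piFinset (fun j => t (e j))).card : ℝ)) :
    (((Fintype.piFinset t).filter (fun ω => A (fun j => ω (e j)))).card : ℝ) ≤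
      δ * ((Fintype.piFinset t).card : ℝ) := by
  classical
  have h1 := sum_marg t e he (fun v => if A v then (1 : ℝ) else 0)
  simp only [sum_boole] at h1
  rcases Nat.eq_zero_or_pos (Fintype.piFinset (fun j => t (e j))).card with h0 | h0
  · have : (Fintype.piFinset t).card = 0 := by rw [total_card t e he, h0, mul_zero]
    rw [card_eq_zero] at this
    rw [this]; simp
  · have h0' : (0 : ℝ) < ((Fintype.piFinset (fun j => t (e j))).card : ℝ) := by exact_mod_cast h0
    refine le_of_mul_le_mul_right ?_ h0'
    rw [h1]
    calc _ ≤ (δ * ((Fintype.piFinset (fun j => t (e j))).card : ℝ)) *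
          ((Fintype.piFinset t).card : ℝ) := by gcongr
      _ = _ := by ring

/-- events depending on two coordinates -/
theorem marg_pair (t : ι → Finset α) (i j : ι) (hij : i ≠ j)
    (A : α → α → Prop) [∀ a b, Decidable (A a b)] (δ : ℝ)
    (h : (((t i ×ˢ t j).filter (fun p => A p.1 p.2)).card : ℝ) ≤
      δ * ((t i).card * (t j).card)) :
    (((Fintype.piFinset t).filter (fun ω => A (ω i) (ω j))).card : ℝ) ≤
      δ * ((Fintype.piFinset t).card : ℝ) := by
  classical
  have he : Function.Injective ![i, j] := by
    intro a b hab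
    fin_cases a <;> fin_cases b <;> simp_all
  refine marg_le t ![i, j] he (fun v => A (v 0) (v 1)) δ ?_
  have h1 : ((Fintype.piFinset (fun l => t (![i, j] l))).filter (fun v => A (v 0) (v 1))).card =
      ((t i ×ˢ t j).filter (fun p => A p.1 p.2)).card := by
    refine card_bij' (fun v _ => (v 0, v 1)) (fun p _ => ![p.1, p.2]) ?_ ?_ ?_ ?_
    · intro v hv
      rw [mem_filter, Fintype.mem_piFinset] at hv
      rw [mem_filter, mem_product]
      exact ⟨⟨hv.1 0, hv.1 1⟩, hv.2⟩
    · intro p hp
      rw [mem_filter, mem_product] at hp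
      rw [mem_filter, Fintype.mem_piFinset]
      refine ⟨fun l => ?_, hp.2⟩
      fin_cases l
      · exact hp.1.1
      · exact hp.1.2
    · intro v _
      ext l; fin_cases l <;> rfl
    · intro p _; rfl
  rw [h1, Fintype.card_piFinset, Fin.prod_univ_two]
  push_cast
  exact h

/-- events depending on three coordinates -/
theorem marg_triple (t : ι → Finset α) (i j l : ι) (hij : i ≠ j) (hil : i ≠ l) (hjl : j ≠ l)
    (A : α → α → α → Prop) [∀ a b c, Decidable (A a b c)] (δ : ℝ)
    (h : ∀ c ∈ t l, (((t i ×ˢ t j).filter (fun p => A p.1 p.2 c)).card : ℝ) ≤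
      δ * ((t i).card * (t j).card)) :
    (((Fintype.piFinset t).filter (fun ω => A (ω i) (ω j) (ω l))).card : ℝ) ≤
      δ * ((Fintype.piFinset t).card : ℝ) := by
  classical
  have he : Function.Injective ![i, j, l] := by
    intro a b hab
    fin_cases a <;> fin_cases b <;> simp_all
  refine marg_le t ![i, j, l] he (fun v => A (v 0) (v 1) (v 2)) δ ?_
  have h1 : ((Fintype.piFinset (fun m => t (![i, j, l] m))).filter
      (fun v => A (v 0) (v 1) (v 2))).card =
      ∑ c ∈ t l, ((t i ×ˢ t j).filter (fun p => A p.1 p.2 c)).card := by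
    rw [card_eq_sum_card_fiberwise (f := fun v => v 2) (t := t l)]
    · refine sum_congr rfl fun c hc => ?_
      refine card_bij' (fun v _ => (v 0, v 1)) (fun p _ => ![p.1, p.2, c]) ?_ ?_ ?_ ?_
      · intro v hv
        rw [mem_filter, mem_filter, Fintype.mem_piFinset] at hv
        rw [mem_filter, mem_product]
        exact ⟨⟨hv.1.1 0, hv.1.1 1⟩, hv.2 ▸ hv.1.2⟩
      · intro p hp
        rw [mem_filter, mem_product] at hp
        rw [mem_filter, mem_filter, Fintype.mem_piFinset]
        refine ⟨⟨fun m => ?_, hp.2⟩, rfl⟩
        fin_cases m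
        · exact hp.1.1
        · exact hp.1.2
        · exact hc
      · intro v hv
        rw [mem_filter] at hv
        ext m; fin_cases m
        · rfl
        · rfl
        · exact hv.2.symm
      · intro p _; rfl
    · intro v hv
      rw [mem_coe, mem_filter, Fintype.mem_piFinset] at hv
      exact hv.1 2
  rw [h1, Fintype.card_piFinset, Fin.prod_univ_three]
  push_cast
  calc (∑ c ∈ t l, (((t i ×ˢ t j).filter (fun p => A p.1 p.2 c)).card : ℝ))
      ≤ ∑ c ∈ t l, δ * ((t i).card * (t j).card) := sum_le_sum h
    _ = δ * ((t i).card * (t j).card * (t l).card) := by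
      rw [sum_const, nsmul_eq_mul]; ring

/-- conjunctions of events depending on disjoint pairs of coordinates -/
theorem marg_pairs (t : ι → Finset α) {m : ℕ} (e e' : Fin m → ι)
    (he : Function.Injective e) (he' : Function.Injective e') (hd : ∀ i j, e i ≠ e' j)
    (A : α → α → Prop) [∀ a b, Decidable (A a b)] (δ : ℝ) (hδ : 0 ≤ δ)
    (h : ∀ i, (((t (e i) ×ˢ t (e' i)).filter (fun p => A p.1 p.2)).card : ℝ) ≤
      δ * ((t (e i)).card * (t (e' i)).card)) :
    (((Fintype.piFinset t).filter (fun ω => ∀ i, A (ω (e i)) (ω (e' i)))).card : ℝ) ≤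
      δ ^ m * ((Fintype.piFinset t).card : ℝ) := by
  classical
  let E : Fin m × Bool → ι := fun x => if x.2 then e x.1 else e' x.1
  have hE : Function.Injective E := by
    rintro ⟨a, b⟩ ⟨a', b'⟩ hab
    cases b <;> cases b' <;> simp only [E, if_true, if_false, Bool.false_eq_true] at hab
    · rw [he' hab]
    · exact absurd hab.symm (hd a' a)
    · exact absurd hab (hd a a')
    · rw [he hab]
  refine marg_le t E hE (fun v => ∀ i, A (v (i, true)) (v (i, false))) (δ ^ m) ?_
  have h1 : ((Fintype.piFinset (fun l => t (E l))).filter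
      (fun v => ∀ i, A (v (i, true)) (v (i, false)))).card =
      ∏ i, ((t (e i) ×ˢ t (e' i)).filter (fun p => A p.1 p.2)).card := by
    rw [← Fintype.card_piFinset]
    refine card_bij' (fun v _ => fun i => (v (i, true), v (i, false)))
      (fun p _ => fun x => if x.2 then (p x.1).1 else (p x.1).2) ?_ ?_ ?_ ?_
    · intro v hv
      rw [mem_filter, Fintype.mem_piFinset] at hv
      rw [Fintype.mem_piFinset]
      intro i
      rw [mem_filter, mem_product]
      exact ⟨⟨by simpa [E] using hv.1 (i, true), by simpa [E] using hv.1 (i, false)⟩, hv.2 i⟩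
    · intro p hp
      rw [Fintype.mem_piFinset] at hp
      rw [mem_filter, Fintype.mem_piFinset]
      constructor
      · rintro ⟨i, b⟩
        have := hp i
        rw [mem_filter, mem_product] at this
        cases b
        · simpa [E] using this.1.2
        · simpa [E] using this.1.1
      · intro i
        have := hp i
        rw [mem_filter] at this
        simpa using this.2
    · intro v _
      ext ⟨i, b⟩
      cases b <;> simp
    · intro p _
      ext i <;> simp
  have h2 : ((Fintype.piFinset (fun l => t (E l))).card : ℝ) =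
      ∏ i, (((t (e i)).card : ℝ) * ((t (e' i)).card : ℝ)) := by
    rw [Fintype.card_piFinset, Fintype.prod_prod_type]
    push_cast
    refine prod_congr rfl fun i _ => ?_
    rw [Fintype.prod_bool]
    simp [E]
  rw [h1, h2]
  push_cast
  calc ∏ i, (((t (e i) ×ˢ t (e' i)).filter (fun p => A p.1 p.2)).card : ℝ)
      ≤ ∏ i : Fin m, (δ * (((t (e i)).card : ℝ) * ((t (e' i)).card : ℝ))) :=
        prod_le_prod (fun _ _ => by positivity) (fun i _ => h i)
    _ = _ := by
        rw [prod_mul_distrib, prod_const, card_univ, Fintype.card_fin]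

end Marg

end Crest.Agent.Ryser
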