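import Crest.Agent.Ryser.Basic

/-! Row 34, chunk RR: elementary facts on `rr q = q^(1/1000)`. -/

set_option autoImplicit false

open Finset

namespace Crest.Agent.Ryser

theorem rr_pow (q : ℕ) : rr q ^ 1000 = q := by
  unfold rr
  rw [← Real.rpow_natCast, ← Real.rpow_mul (Nat.cast_nonneg q)]
  norm_num

theorem rr_nonneg (q : ℕ) : 0 ≤ rr q := Real.rpow_nonneg (Nat.cast_nonneg q) _

/-- `rr q` is eventually larger than anything -/
theorem rr_large (A : ℝ) : ∃ q0 : ℕ, ∀ q : ℕ, q0 ≤ q → A ≤ rr q := by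
  have h : Filter.Tendsto (fun q : ℕ => rr q) Filter.atTop Filter.atTop :=
    (tendsto_rpow_atTop (by norm_num : (0 : ℝ) < 1 / 1000)).comp tendsto_natCast_atTop_atTop
  exact Filter.eventually_atTop.1 (Filter.tendsto_atTop.1 h A)

/-- `log q ≤ ε * rr q` eventually -/
theorem log_le_rr (ε : ℝ) (hε : 0 < ε) : ∃ q0 : ℕ, ∀ q : ℕ, q0 ≤ q → Real.log q ≤ ε * rr q := by
  have h := (isLittleO_log_rpow_atTop (by norm_num : (0 : ℝ) < 1 / 1000)).comp_tendsto
    (tendsto_natCast_atTop_atTop (R := ℝ))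
  have h2 := Asymptotics.isLittleO_iff.1 h hε
  obtain ⟨q0, hq0⟩ := Filter.eventually_atTop.1 h2
  refine ⟨q0, fun q hq => ?_⟩
  have h3 := hq0 q hq
  simp only [Function.comp] at h3
  have h4 : ‖(q : ℝ) ^ ((1 : ℝ) / 1000)‖ = rr q := by
    rw [Real.norm_of_nonneg (Real.rpow_nonneg (Nat.cast_nonneg q) _)]
    rfl
  rw [h4] at h3
  exact (Real.le_norm_self _).trans h3

/-- `A * rr^m ≤ rr^n` eventually, if m < n -/
theorem rr_pow_le (A : ℝ) (m n : ℕ) (hmn : m < n) :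
    ∃ q0 : ℕ, ∀ q : ℕ, q0 ≤ q → A * rr q ^ m ≤ rr q ^ n := by
  obtain ⟨q0, hq0⟩ := rr_large (max A 1)
  refine ⟨q0, fun q hq => ?_⟩
  have h := hq0 q hq
  have hA : A ≤ rr q := (le_max_left _ _).trans h
  have h1 : 1 ≤ rr q := (le_max_right _ _).trans h
  calc A * rr q ^ m ≤ rr q * rr q ^ m :=
        mul_le_mul_of_nonneg_right hA (pow_nonneg (rr_nonneg q) _)
    _ = rr q ^ (m + 1) := by ring
    _ ≤ rr q ^ n := pow_le_pow_right₀ h1 hmn

end Crest.Agent.Ryser
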