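import Crest.Agent.Ryser.GDefs
import Crest.Agent.Ryser.RR
import Crest.Agent.Ryser.Marg

/-! Row 34, chunk G1: the pair density lemma (sampling). -/

set_option autoImplicit false

open Finset

namespace Crest.Agent.Ryser

namespace G1

theorem union_bound {I Ω : Type} [Fintype I] (s : Finset Ω) (A : I → Ω → Prop)
    [∀ i, DecidablePred (A i)] [DecidablePred (fun ω => ∃ i, A i ω)] (δ : ℝ)
    (h : ∀ i, ((s.filter (A i)).card : ℝ) ≤ δ * s.card) :
    ((s.filter (fun ω => ∃ i, A i ω)).card : ℝ) ≤ (Fintype.card I) * δ * s.card := by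
  classical
  have h1 : s.filter (fun ω => ∃ i, A i ω) ⊆ univ.biUnion (fun i => s.filter (A i)) := by
    intro ω hω
    rw [mem_filter] at hω
    obtain ⟨hs, i, hi⟩ := hω
    rw [mem_biUnion]
    exact ⟨i, mem_univ _, mem_filter.2 ⟨hs, hi⟩⟩
  calc ((s.filter (fun ω => ∃ i, A i ω)).card : ℝ)
      ≤ ((univ.biUnion (fun i => s.filter (A i))).card : ℝ) := by exact_mod_cast card_le_card h1
    _ ≤ ((∑ i, (s.filter (A i)).card : ℕ) : ℝ) := by exact_mod_cast card_biUnion_le
    _ = ∑ i, ((s.filter (A i)).card : ℝ) := by push_cast; rfl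
    _ ≤ ∑ _i : I, δ * s.card := sum_le_sum fun i _ => h i
    _ = _ := by rw [sum_const, nsmul_eq_mul, card_univ]; ring

theorem diag_card {α : Type} [DecidableEq α] (X : Finset α) :
    ((X ×ˢ X).filter (fun p => p.1 = p.2)).card = X.card := by
  refine card_bij' (fun p _ => p.1) (fun a _ => (a, a)) ?_ ?_ ?_ ?_
  · intro p hp
    rw [mem_filter, mem_product] at hp
    exact hp.1.1
  · intro a ha
    rw [mem_filter, mem_product]
    exact ⟨⟨ha, ha⟩, rfl⟩
  · rintro ⟨a, b⟩ hp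
    rw [mem_filter] at hp
    have : a = b := hp.2
    rw [this]
  · intro a _; rfl

theorem num6 (r ε k q : ℝ) (hr : 100 ≤ r) (hε : ε = (r ^ 100)⁻¹)
    (hk0 : 0 ≤ k) (hkr : k ≤ r ^ 20) (hq1000 : q = r ^ 1000) :
    (q ^ 2 + q + 1) * (k ^ 34 * k ^ 34) * ε ^ 34 ≤ 3 * (r ^ 40)⁻¹ := by
  have h1 : (q ^ 2 + q + 1) ≤ 3 * r ^ 2000 := by
    have h2 : (1 : ℝ) ≤ r ^ 1000 := one_le_pow₀ (by linarith)
    rw [hq1000]
    have h3 : (r ^ 1000) ^ 2 = r ^ 2000 := by rw [← pow_mul]
    rw [← h3]; nlinarith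
  have : 0 ≤ q := by rw [hq1000]; positivity
  have hε0 : 0 < ε := by rw [hε]; positivity
  calc (q ^ 2 + q + 1) * (k ^ 34 * k ^ 34) * ε ^ 34
      ≤ (3 * r ^ 2000) * ((r ^ 20) ^ 34 * (r ^ 20) ^ 34) * ε ^ 34 := by gcongr
    _ = 3 * (r ^ 40)⁻¹ := by
      rw [hε]; field_simp

variable {P L : Type} [Fintype P] [Fintype L] [DecidableEq P] [DecidableEq L] {q : ℕ}

/-- `Z` sees the pair -/
def see (Pl : Plane P L q) (Z : P) (x y : P) : Prop :=
  x ≠ Z ∧ y ≠ Z ∧ Z ∈ Pl.pts (Pl.join x y)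

instance (Pl : Plane P L q) (Z x y : P) : Decidable (see Pl Z x y) := by
  unfold see; infer_instance

/-- outside the bad events the test is ok -/
theorem ok_of (Pl : Plane P L q) (P0 : P) {k : ℕ} (x y : Fin k → P)
    (h0 : ∀ a b, x a ≠ y b)
    (hx0 : ∀ a, x a ≠ P0) (hy0 : ∀ b, y b ≠ P0)
    (h1 : ∀ a a', a ≠ a' → x a ≠ x a') (h2 : ∀ b b', b ≠ b' → y b ≠ y b')
    (h3 : ∀ a b b', b ≠ b' → ¬ see Pl (y b') (x a) (y b))
    (h4 : ∀ a a' b, a ≠ a' → ¬ see Pl (x a') (x a) (y b))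
    (h5 : ∀ a b, ¬ see Pl P0 (x a) (y b))
    (h6 : ∀ Z, ∀ e e' : Fin 34 → Fin k, Function.Injective e → Function.Injective e' →
      ¬ ∀ i, see Pl Z (x (e i)) (y (e' i))) :
    okPD Pl P0 x y := by
  classical
  have hinj : Function.Injective (fun ab : Fin k × Fin k => Pl.join (x ab.1) (y ab.2)) := by
    rintro ⟨a, b⟩ ⟨a', b'⟩ hab
    simp only at hab
    by_cases ha : a = a'
    · subst ha
      by_cases hb : b = b'
      · rw [hb]
      · exfalso
        refine h3 a b b' hb ⟨h0 a b', h2 b b' hb, ?_⟩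
        rw [hab]
        exact Pl.join_right _ _ (h0 a b')
    · exfalso
      refine h4 a a' b ha ⟨h1 a a' ha, (h0 a' b).symm, ?_⟩
      rw [hab]
      exact Pl.join_left _ _ (h0 a' b')
  refine ⟨⟨by simp [testPD], ?_, ?_, ?_, ?_⟩, ?_⟩
  · intro j _
    simp [testPD]
  · intro j hj l hl hP
    simp only [testPD, mem_singleton] at hl
    subst hl
    simp only [testPD, mem_image, mem_univ, true_and, Prod.exists] at hj
    obtain ⟨a, b, rfl⟩ := hj
    exact h5 a b ⟨hx0 a, hy0 b, hP⟩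
  · intro Z hZ
    simp only [testPD, mem_union, mem_image, mem_univ, true_and, not_or, not_exists] at hZ
    obtain ⟨hZx, hZy⟩ := hZ
    by_contra hcon
    push Not at hcon
    have h34 : 34 ≤ ((testPD Pl x y).J.filter
      (fun j => ∃ l ∈ (testPD Pl x y).Λ j, Z ∈ Pl.pts l)).card := hcon
    obtain ⟨T, hT, hTc⟩ := exists_subset_card_eq h34
    let f : Fin 34 ≃ T := (T.equivFinOfCardEq hTc).symm
    have hf : ∀ i, ∃ ab : Fin k × Fin k, Pl.join (x ab.1) (y ab.2) = (f i : L) ∧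
        Z ∈ Pl.pts (f i : L) := by
      intro i
      have := hT (f i).2
      rw [mem_filter] at this
      obtain ⟨hJ, l, hl, hZl⟩ := this
      simp only [testPD, mem_singleton] at hl
      subst hl
      simp only [testPD, mem_image, mem_univ, true_and] at hJ
      obtain ⟨ab, hab⟩ := hJ
      exact ⟨ab, hab, hZl⟩
    choose g hg hgZ using hf
    have hline : ∀ i j, g i = g j → i = j := by
      intro i j hij
      apply f.injective
      apply Subtype.ext
      rw [← hg i, ← hg j, hij]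
    refine h6 Z (fun i => (g i).1) (fun i => (g i).2) ?_ ?_ ?_
    · intro i j hij
      simp only at hij
      apply hline
      apply hinj
      simp only
      have hz1 : Z ∈ Pl.pts (Pl.join (x (g i).1) (y (g i).2)) := by rw [hg i]; exact hgZ i
      have hz2 : Z ∈ Pl.pts (Pl.join (x (g j).1) (y (g j).2)) := by rw [hg j]; exact hgZ j
      have hx1 := Pl.join_left (x (g i).1) (y (g i).2) (h0 _ _)
      have hx2 := Pl.join_left (x (g j).1) (y (g j).2) (h0 _ _)
      rw [← hij] at hx2 hz2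
      rw [← hij]
      exact Pl.line_eq_of_two (hZx _) hx1 hx2 hz1 hz2
    · intro i j hij
      simp only at hij
      apply hline
      apply hinj
      simp only
      have hz1 : Z ∈ Pl.pts (Pl.join (x (g i).1) (y (g i).2)) := by rw [hg i]; exact hgZ i
      have hz2 : Z ∈ Pl.pts (Pl.join (x (g j).1) (y (g j).2)) := by rw [hg j]; exact hgZ j
      have hx1 := Pl.join_right (x (g i).1) (y (g i).2) (h0 _ _)
      have hx2 := Pl.join_right (x (g j).1) (y (g j).2) (h0 _ _)
      rw [← hij] at hx2 hz2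
      rw [← hij]
      exact Pl.line_eq_of_two (hZy _) hx1 hx2 hz1 hz2
    · intro i
      refine ⟨hZx _, hZy _, ?_⟩
      rw [hg i]; exact hgZ i
  · intro l
    refine (card_le_card (t := {l}) ?_).trans (by simp [testPD])
    intro j hj
    simp only [testPD, mem_filter, mem_singleton] at hj
    rw [mem_singleton]; exact hj.2.symm
  · simp only [testPD]
    rw [card_image_of_injective _ hinj, card_univ, Fintype.card_prod, Fintype.card_fin]
    ring

/-- Rich + ok gives many `LL` pairs -/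
theorem rich_count (Pl : Plane P L q) (P0 : P) (B : Finset P) (c : ℝ) {k : ℕ} (x y : Fin k → P)
    (hx : ∀ a, x a ∉ B) (hy : ∀ b, y b ∉ B)
    (hok : okPD Pl P0 x y) (hr : (testPD Pl x y).Rich Pl B c) :
    c * (k : ℝ) ^ 2 ≤
      ((univ.filter (fun ab : Fin k × Fin k =>
        Pl.join (x ab.1) (y ab.2) ∈ Pl.LL P0 B)).card : ℝ) := by
  classical
  have h1 := hok.2
  unfold Test.Rich at hr
  rw [h1] at hr
  push_cast at hr
  refine hr.trans ?_
  have : (testPD Pl x y).surv Pl B ⊆ (univ.filter (fun ab : Fin k × Fin k =>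
        Pl.join (x ab.1) (y ab.2) ∈ Pl.LL P0 B)).image
          (fun ab => Pl.join (x ab.1) (y ab.2)) := by
    intro j hj
    simp only [Test.surv, mem_filter] at hj
    obtain ⟨hJ, hs⟩ := hj
    have hP := hok.1.notP0 j hJ
    have hJ' := hJ
    simp only [testPD, mem_image, mem_univ, true_and] at hJ'
    obtain ⟨ab, rfl⟩ := hJ'
    rw [mem_image]
    refine ⟨ab, ?_, rfl⟩
    rw [mem_filter]
    refine ⟨mem_univ _, ?_⟩
    simp only [Plane.LL, mem_filter, mem_univ, true_and]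
    refine ⟨hP _ (by simp [testPD]), ?_⟩
    intro X hX hXl
    have := hs _ (by simp [testPD]) X hX hXl
    simp only [testPD, mem_union, mem_image, mem_univ, true_and] at this
    rcases this with ⟨a, rfl⟩ | ⟨a, rfl⟩
    · exact hx a hX
    · exact hy a hX
  exact_mod_cast (card_le_card this).trans card_image_le

end G1

open G1 in
/-- G1. Sample `k = kPD q = ⌊r^20⌋` points `x_a ∈ X1`, `y_b ∈ X2` independently and uniformly.
Bad events, each of small probability: a repeated x or y (≤ k²/r^100); a collinear triple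
`x_a, y_b, y_c` or `x_a, x_c, y_b` (≤ 2 k³ r^-100, the concurrency hypothesis with Z := y_b resp. x_a);
a pair on a line through `P0` (Z := P0, ≤ k² r^-100); some Z not in the sample collinear with 34 pairs
(a_i,b_i), all a_i distinct, all b_i distinct (≤ (q²+q+1)(k² r^-100)^34).  Outside the bad events the test
`testPD x y` is ok, so at least `c k²` of the pairs are joined by a line of LL (exempt set Y0 = sample
is disjoint from B).  Hence `c k² (1 - P(bad)) ≤ E[# LL-pairs] = k² eL/(|X1||X2|)`. -/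
theorem pd_lemma (c : ℝ) (hc : 0 < c) :
    ∃ q0 : ℕ, ∀ (q : ℕ), q0 ≤ q → ∀ (P L : Type) [Fintype P] [Fintype L] [DecidableEq P]
      [DecidableEq L] (Pl : Plane P L q) (P0 : P) (B : Finset P),
      (∀ x y : Fin (kPD q) → P, okPD Pl P0 x y → (testPD Pl x y).Rich Pl B c) →
      PDProp Pl P0 B (c / 2) := by
  classical
  obtain ⟨q0, hq0⟩ := rr_large 100
  refine ⟨q0 + 1, ?_⟩
  intro q hq P L _ _ _ _ Pl P0 B hR X1 X2 hdis hoff hc1 hc2 hconc
  set k := kPD q with hk
  set r := rr q with hr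
  have hr100 : (100 : ℝ) ≤ r := hq0 q (by omega)
  have hr0 : 0 < r := by linarith
  have hkr : (k : ℝ) ≤ r ^ 20 := Nat.floor_le (by positivity)
  have hk1 : 1 ≤ k := by
    rw [hk, kPD, Nat.one_le_floor_iff]
    exact one_le_pow₀ (by linarith)
  have hk1' : (1 : ℝ) ≤ k := by exact_mod_cast hk1
  set ε : ℝ := (r ^ 100)⁻¹ with hε
  have hε0 : 0 < ε := by positivity
  have hN1 : (0 : ℝ) < X1.card := lt_of_lt_of_le (by positivity) hc1
  have hN2 : (0 : ℝ) < X2.card := lt_of_lt_of_le (by positivity) hc2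
  let t : Fin k ⊕ Fin k → Finset P := Sum.elim (fun _ => X1) (fun _ => X2)
  set Ω := Fintype.piFinset t with hΩ
  have hΩ0 : (0 : ℝ) < Ω.card := by
    have : 0 < Ω.card := by
      rw [hΩ, Fintype.card_piFinset]
      refine prod_pos ?_
      rintro (a | b) _
      · simp only [t, Sum.elim_inl]; exact_mod_cast hN1
      · simp only [t, Sum.elim_inr]; exact_mod_cast hN2
    exact_mod_cast this
  -- concurrency as a count over the product
  have hsee : ∀ Z, (((X1 ×ˢ X2).filter (fun p => see Pl Z p.1 p.2)).card : ℝ) ≤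
      ε * ((X1.card : ℝ) * X2.card) := hconc
  -- bad events
  have hb1 : ∀ a a' : Fin k, ((Ω.filter (fun ω => a ≠ a' ∧ ω (Sum.inl a) = ω (Sum.inl a'))).card : ℝ) ≤
      ε * Ω.card := by
    intro a a'
    by_cases h : a = a'
    · rw [filter_false_of_mem (by intro ω _; simp [h])]
      simp only [card_empty, Nat.cast_zero]; positivity
    · have h1 : Ω.filter (fun ω => a ≠ a' ∧ ω (Sum.inl a) = ω (Sum.inl a')) =
          Ω.filter (fun ω => ω (Sum.inl a) = ω (Sum.inl a')) := by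
        refine filter_congr fun ω _ => ?_
        simp [h]
      rw [h1]
      refine Marg.marg_pair t (Sum.inl a) (Sum.inl a') (by simpa using h) (fun u v => u = v) ε ?_
      simp only [t, Sum.elim_inl]
      have h2 : ((X1 ×ˢ X1).filter (fun p => p.1 = p.2)).card = X1.card := diag_card X1
      rw [h2]
      have : (1 : ℝ) ≤ ε * X1.card := by
        rw [hε, ← div_eq_inv_mul, le_div_iff₀ (by positivity)]; linarith
      nlinarith
  have hb2 : ∀ a a' : Fin k, ((Ω.filter (fun ω => a ≠ a' ∧ ω (Sum.inr a) = ω (Sum.inr a'))).card : ℝ) ≤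
      ε * Ω.card := by
    intro a a'
    by_cases h : a = a'
    · rw [filter_false_of_mem (by intro ω _; simp [h])]
      simp only [card_empty, Nat.cast_zero]; positivity
    · have h1 : Ω.filter (fun ω => a ≠ a' ∧ ω (Sum.inr a) = ω (Sum.inr a')) =
          Ω.filter (fun ω => ω (Sum.inr a) = ω (Sum.inr a')) := by
        refine filter_congr fun ω _ => ?_
        simp [h]
      rw [h1]
      refine Marg.marg_pair t (Sum.inr a) (Sum.inr a') (by simpa using h) (fun u v => u = v) ε ?_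
      simp only [t, Sum.elim_inr]
      have h2 : ((X2 ×ˢ X2).filter (fun p => p.1 = p.2)).card = X2.card := diag_card X2
      rw [h2]
      have : (1 : ℝ) ≤ ε * X2.card := by
        rw [hε, ← div_eq_inv_mul, le_div_iff₀ (by positivity)]; linarith
      nlinarith
  have hb3 : ∀ a b b' : Fin k, ((Ω.filter (fun ω => b ≠ b' ∧
      see Pl (ω (Sum.inr b')) (ω (Sum.inl a)) (ω (Sum.inr b)))).card : ℝ) ≤ ε * Ω.card := by
    intro a b b'
    by_cases h : b = b'
    · rw [filter_false_of_mem (by intro ω _; simp [h])]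
      simp only [card_empty, Nat.cast_zero]; positivity
    · have h1 : Ω.filter (fun ω => b ≠ b' ∧
          see Pl (ω (Sum.inr b')) (ω (Sum.inl a)) (ω (Sum.inr b))) =
          Ω.filter (fun ω => see Pl (ω (Sum.inr b')) (ω (Sum.inl a)) (ω (Sum.inr b))) := by
        refine filter_congr fun ω _ => ?_
        simp [h]
      rw [h1]
      refine Marg.marg_triple t (Sum.inl a) (Sum.inr b) (Sum.inr b') (by simp) (by simp)
        (by simpa using h) (fun u v w => see Pl w u v) ε ?_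
      intro Z _
      exact hsee Z
  have hb4 : ∀ a a' b : Fin k, ((Ω.filter (fun ω => a ≠ a' ∧
      see Pl (ω (Sum.inl a')) (ω (Sum.inl a)) (ω (Sum.inr b)))).card : ℝ) ≤ ε * Ω.card := by
    intro a a' b
    by_cases h : a = a'
    · rw [filter_false_of_mem (by intro ω _; simp [h])]
      simp only [card_empty, Nat.cast_zero]; positivity
    · have h1 : Ω.filter (fun ω => a ≠ a' ∧
          see Pl (ω (Sum.inl a')) (ω (Sum.inl a)) (ω (Sum.inr b))) =
          Ω.filter (fun ω => see Pl (ω (Sum.inl a')) (ω (Sum.inl a)) (ω (Sum.inr b))) := by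
        refine filter_congr fun ω _ => ?_
        simp [h]
      rw [h1]
      refine Marg.marg_triple t (Sum.inl a) (Sum.inr b) (Sum.inl a') (by simp)
        (by simpa using h) (by simp) (fun u v w => see Pl w u v) ε ?_
      intro Z _
      exact hsee Z
  have hb5 : ∀ a b : Fin k, ((Ω.filter (fun ω =>
      see Pl P0 (ω (Sum.inl a)) (ω (Sum.inr b)))).card : ℝ) ≤ ε * Ω.card := by
    intro a b
    exact Marg.marg_pair t (Sum.inl a) (Sum.inr b) (by simp) (fun u v => see Pl P0 u v) ε (hsee P0)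
  have hb6 : ∀ (Z : P) (e e' : Fin 34 → Fin k), ((Ω.filter (fun ω => Function.Injective e ∧
      Function.Injective e' ∧ ∀ i, see Pl Z (ω (Sum.inl (e i))) (ω (Sum.inr (e' i))))).card : ℝ) ≤
      ε ^ 34 * Ω.card := by
    intro Z e e'
    by_cases h : Function.Injective e ∧ Function.Injective e'
    · have h1 : Ω.filter (fun ω => Function.Injective e ∧
          Function.Injective e' ∧ ∀ i, see Pl Z (ω (Sum.inl (e i))) (ω (Sum.inr (e' i)))) =
          Ω.filter (fun ω => ∀ i, see Pl Z (ω (Sum.inl (e i))) (ω (Sum.inr (e' i)))) := by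
        refine filter_congr fun ω _ => ?_
        simp [h.1, h.2]
      rw [h1]
      exact Marg.marg_pairs t (fun i => Sum.inl (e i)) (fun i => Sum.inr (e' i))
        (Sum.inl_injective.comp h.1) (Sum.inr_injective.comp h.2) (by simp)
        (fun u v => see Pl Z u v) ε hε0.le (fun i => hsee Z)
    · rw [filter_false_of_mem (by intro ω _ hh; exact h ⟨hh.1, hh.2.1⟩)]
      simp only [card_empty, Nat.cast_zero]; positivity
  -- union bounds
  have U1 := union_bound Ω (fun (p : Fin k × Fin k) ω => p.1 ≠ p.2 ∧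
    ω (Sum.inl p.1) = ω (Sum.inl p.2)) ε (fun p => hb1 p.1 p.2)
  have U2 := union_bound Ω (fun (p : Fin k × Fin k) ω => p.1 ≠ p.2 ∧
    ω (Sum.inr p.1) = ω (Sum.inr p.2)) ε (fun p => hb2 p.1 p.2)
  have U3 := union_bound Ω (fun (p : Fin k × Fin k × Fin k) ω => p.2.1 ≠ p.2.2 ∧
    see Pl (ω (Sum.inr p.2.2)) (ω (Sum.inl p.1)) (ω (Sum.inr p.2.1))) ε
    (fun p => hb3 p.1 p.2.1 p.2.2)
  have U4 := union_bound Ω (fun (p : Fin k × Fin k × Fin k) ω => p.1 ≠ p.2.1 ∧
    see Pl (ω (Sum.inl p.2.1)) (ω (Sum.inl p.1)) (ω (Sum.inr p.2.2))) ε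
    (fun p => hb4 p.1 p.2.1 p.2.2)
  have U5 := union_bound Ω (fun (p : Fin k × Fin k) ω =>
    see Pl P0 (ω (Sum.inl p.1)) (ω (Sum.inr p.2))) ε (fun p => hb5 p.1 p.2)
  have U6 := union_bound Ω (fun (p : P × (Fin 34 → Fin k) × (Fin 34 → Fin k)) ω =>
    Function.Injective p.2.1 ∧ Function.Injective p.2.2 ∧
      ∀ i, see Pl p.1 (ω (Sum.inl (p.2.1 i))) (ω (Sum.inr (p.2.2 i)))) (ε ^ 34)
      (fun p => hb6 p.1 p.2.1 p.2.2)
  simp only [Fintype.card_prod, Fintype.card_fin, Fintype.card_fun, Pl.card_P] at U1 U2 U3 U4 U5 U6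
  push_cast at U1 U2 U3 U4 U5 U6
  -- the good event
  set G := Ω.filter (fun ω => okPD Pl P0 (fun a => ω (Sum.inl a)) (fun b => ω (Sum.inr b))) with hG
  have hcovering : Ω.card ≤ G.card +
      ((Ω.filter (fun ω => ∃ p : Fin k × Fin k, p.1 ≠ p.2 ∧
        ω (Sum.inl p.1) = ω (Sum.inl p.2))).card +
      ((Ω.filter (fun ω => ∃ p : Fin k × Fin k, p.1 ≠ p.2 ∧
        ω (Sum.inr p.1) = ω (Sum.inr p.2))).card +
      ((Ω.filter (fun ω => ∃ p : Fin k × Fin k × Fin k, p.2.1 ≠ p.2.2 ∧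
        see Pl (ω (Sum.inr p.2.2)) (ω (Sum.inl p.1)) (ω (Sum.inr p.2.1)))).card +
      ((Ω.filter (fun ω => ∃ p : Fin k × Fin k × Fin k, p.1 ≠ p.2.1 ∧
        see Pl (ω (Sum.inl p.2.1)) (ω (Sum.inl p.1)) (ω (Sum.inr p.2.2)))).card +
      ((Ω.filter (fun ω => ∃ p : Fin k × Fin k,
        see Pl P0 (ω (Sum.inl p.1)) (ω (Sum.inr p.2)))).card +
      ((Ω.filter (fun ω => ∃ p : P × (Fin 34 → Fin k) × (Fin 34 → Fin k),
        Function.Injective p.2.1 ∧ Function.Injective p.2.2 ∧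
          ∀ i, see Pl p.1 (ω (Sum.inl (p.2.1 i))) (ω (Sum.inr (p.2.2 i))))).card)))))) := by
    refine (card_le_card (t := G ∪ ((Ω.filter (fun ω => ∃ p : Fin k × Fin k, p.1 ≠ p.2 ∧
        ω (Sum.inl p.1) = ω (Sum.inl p.2))) ∪
      ((Ω.filter (fun ω => ∃ p : Fin k × Fin k, p.1 ≠ p.2 ∧
        ω (Sum.inr p.1) = ω (Sum.inr p.2))) ∪
      ((Ω.filter (fun ω => ∃ p : Fin k × Fin k × Fin k, p.2.1 ≠ p.2.2 ∧
        see Pl (ω (Sum.inr p.2.2)) (ω (Sum.inl p.1)) (ω (Sum.inr p.2.1)))) ∪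
      ((Ω.filter (fun ω => ∃ p : Fin k × Fin k × Fin k, p.1 ≠ p.2.1 ∧
        see Pl (ω (Sum.inl p.2.1)) (ω (Sum.inl p.1)) (ω (Sum.inr p.2.2)))) ∪
      ((Ω.filter (fun ω => ∃ p : Fin k × Fin k,
        see Pl P0 (ω (Sum.inl p.1)) (ω (Sum.inr p.2)))) ∪
      ((Ω.filter (fun ω => ∃ p : P × (Fin 34 → Fin k) × (Fin 34 → Fin k),
        Function.Injective p.2.1 ∧ Function.Injective p.2.2 ∧
          ∀ i, see Pl p.1 (ω (Sum.inl (p.2.1 i))) (ω (Sum.inr (p.2.2 i))))))))))))
      ?_).trans ?_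
    · intro ω hω
      by_contra hcon
      simp only [mem_union, mem_filter, hω, true_and, not_or, not_exists, not_and, hG] at hcon
      obtain ⟨n0, n1, n2, n3, n4, n5, n6⟩ := hcon
      have hmem : ∀ z, ω z ∈ t z := Fintype.mem_piFinset.1 hω
      have hm1 : ∀ a, ω (Sum.inl a) ∈ X1 := fun a => hmem (Sum.inl a)
      have hm2 : ∀ a, ω (Sum.inr a) ∈ X2 := fun a => hmem (Sum.inr a)
      apply n0
      refine ok_of Pl P0 _ _ ?_ ?_ ?_ ?_ ?_ ?_ ?_ ?_ ?_
      · intro a b hab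
        exact (disjoint_left.1 hdis) (hm1 a) (hab ▸ hm2 b)
      · intro a
        exact (hoff _ (mem_union_left _ (hm1 a))).2
      · intro b
        exact (hoff _ (mem_union_right _ (hm2 b))).2
      · intro a a' haa
        exact n1 (a, a') haa
      · intro b b' hbb
        exact n2 (b, b') hbb
      · intro a b b' hbb
        exact n3 (a, b, b') hbb
      · intro a a' b haa
        exact n4 (a, a', b) haa
      · intro a b
        exact n5 (a, b)
      · intro Z e e' he he' hall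
        exact n6 (Z, e, e') he he' hall
    · refine (card_union_le _ _).trans (Nat.add_le_add_left ?_ _)
      refine (card_union_le _ _).trans (Nat.add_le_add_left ?_ _)
      refine (card_union_le _ _).trans (Nat.add_le_add_left ?_ _)
      refine (card_union_le _ _).trans (Nat.add_le_add_left ?_ _)
      refine (card_union_le _ _).trans (Nat.add_le_add_left ?_ _)
      exact card_union_le _ _
  have hcov' : (Ω.card : ℝ) ≤ G.card + (k * k * ε * Ω.card + (k * k * ε * Ω.card +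
      (k * (k * k) * ε * Ω.card + (k * (k * k) * ε * Ω.card + (k * k * ε * Ω.card +
      ((q : ℝ) ^ 2 + q + 1) * ((k : ℝ) ^ 34 * (k : ℝ) ^ 34) * ε ^ 34 * Ω.card))))) := by
    have h := (Nat.cast_le (α := ℝ)).2 hcovering
    push_cast at h
    linarith
  -- numerical estimates
  have hq1000 : (q : ℝ) = r ^ 1000 := (rr_pow q).symm
  have hke : (k : ℝ) * k * ε ≤ (r ^ 60)⁻¹ := by
    calc (k : ℝ) * k * ε ≤ r ^ 20 * r ^ 20 * ε := by gcongr
      _ = (r ^ 60)⁻¹ := by
        rw [hε]; field_simp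
  have hke3 : (k : ℝ) * (k * k) * ε ≤ (r ^ 40)⁻¹ := by
    calc (k : ℝ) * (k * k) * ε ≤ r ^ 20 * (r ^ 20 * r ^ 20) * ε := by gcongr
      _ = (r ^ 40)⁻¹ := by
        rw [hε]; field_simp
  have hke6 : ((q : ℝ) ^ 2 + q + 1) * ((k : ℝ) ^ 34 * (k : ℝ) ^ 34) * ε ^ 34 ≤ 3 * (r ^ 40)⁻¹ :=
    num6 r ε k q hr100 hε (by positivity) hkr hq1000
  have hinv40 : (r ^ 40)⁻¹ ≤ 1 / 100 := by
    rw [inv_le_comm₀ (by positivity) (by norm_num)]
    calc ((1 : ℝ) / 100)⁻¹ = 100 := by norm_num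
      _ ≤ r := hr100
      _ ≤ r ^ 40 := le_self_pow₀ (by linarith) (by norm_num)
  have hinv60 : (r ^ 60)⁻¹ ≤ 1 / 100 := by
    rw [inv_le_comm₀ (by positivity) (by norm_num)]
    calc ((1 : ℝ) / 100)⁻¹ = 100 := by norm_num
      _ ≤ r := hr100
      _ ≤ r ^ 60 := le_self_pow₀ (by linarith) (by norm_num)
  have hGbig : (Ω.card : ℝ) / 2 ≤ G.card := by
    have e1 : (k : ℝ) * k * ε * Ω.card ≤ 1 / 100 * Ω.card := by
      gcongr; exact hke.trans hinv60
    have e3 : (k : ℝ) * (k * k) * ε * Ω.card ≤ 1 / 100 * Ω.card := by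
      gcongr; exact hke3.trans hinv40
    have e6 : ((q : ℝ) ^ 2 + q + 1) * ((k : ℝ) ^ 34 * (k : ℝ) ^ 34) * ε ^ 34 * Ω.card ≤
        3 / 100 * Ω.card := by
      gcongr; exact hke6.trans (by linarith)
    linarith
  -- first moment
  have hfirst : ∑ ω ∈ Ω, ((univ.filter (fun ab : Fin k × Fin k =>
        Pl.join (ω (Sum.inl ab.1)) (ω (Sum.inr ab.2)) ∈ Pl.LL P0 B)).card : ℝ) ≤
      k ^ 2 * ((eL Pl P0 B X1 X2 : ℝ) / (X1.card * X2.card)) * Ω.card := by
    have h1 : ∀ ω : Fin k ⊕ Fin k → P, ((univ.filter (fun ab : Fin k × Fin k =>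
        Pl.join (ω (Sum.inl ab.1)) (ω (Sum.inr ab.2)) ∈ Pl.LL P0 B)).card : ℝ) =
        ∑ ab : Fin k × Fin k,
          if Pl.join (ω (Sum.inl ab.1)) (ω (Sum.inr ab.2)) ∈ Pl.LL P0 B then (1 : ℝ) else 0 := by
      intro ω; rw [sum_boole]
    rw [sum_congr rfl (fun ω _ => h1 ω), sum_comm]
    have h2 : ∀ ab : Fin k × Fin k, ∑ ω ∈ Ω,
        (if Pl.join (ω (Sum.inl ab.1)) (ω (Sum.inr ab.2)) ∈ Pl.LL P0 B then (1 : ℝ) else 0) ≤
        ((eL Pl P0 B X1 X2 : ℝ) / (X1.card * X2.card)) * Ω.card := by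
      intro ab
      rw [sum_boole]
      refine Marg.marg_pair t (Sum.inl ab.1) (Sum.inr ab.2) (by simp)
        (fun u v => Pl.join u v ∈ Pl.LL P0 B) _ ?_
      simp only [t, Sum.elim_inl, Sum.elim_inr]
      rw [div_mul_cancel₀ _ (by positivity)]
      have h3 : (X1 ×ˢ X2).filter (fun p => Pl.join p.1 p.2 ∈ Pl.LL P0 B) ⊆
          (X1 ×ˢ X2).filter (fun xy => xy.1 ≠ xy.2 ∧ Pl.join xy.1 xy.2 ∈ Pl.LL P0 B) := by
        intro p hp
        rw [mem_filter, mem_product] at hp ⊢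
        refine ⟨hp.1, ?_, hp.2⟩
        intro h
        exact (disjoint_left.1 hdis) hp.1.1 (h ▸ hp.1.2)
      exact_mod_cast card_le_card h3
    calc _ ≤ ∑ _ab : Fin k × Fin k, ((eL Pl P0 B X1 X2 : ℝ) / (X1.card * X2.card)) * Ω.card :=
          sum_le_sum fun ab _ => h2 ab
      _ = _ := by
        rw [sum_const, nsmul_eq_mul, card_univ, Fintype.card_prod, Fintype.card_fin]
        push_cast; ring
  have hlow : c * (k : ℝ) ^ 2 * G.card ≤ ∑ ω ∈ Ω, ((univ.filter (fun ab : Fin k × Fin k =>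
        Pl.join (ω (Sum.inl ab.1)) (ω (Sum.inr ab.2)) ∈ Pl.LL P0 B)).card : ℝ) := by
    calc c * (k : ℝ) ^ 2 * G.card = ∑ _ω ∈ G, c * (k : ℝ) ^ 2 := by
          rw [sum_const, nsmul_eq_mul]; ring
      _ ≤ ∑ ω ∈ G, ((univ.filter (fun ab : Fin k × Fin k =>
        Pl.join (ω (Sum.inl ab.1)) (ω (Sum.inr ab.2)) ∈ Pl.LL P0 B)).card : ℝ) := by
          refine sum_le_sum fun ω hω => ?_
          rw [hG, mem_filter] at hω
          have hmem : ∀ z, ω z ∈ t z := Fintype.mem_piFinset.1 hω.1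
          have hm1 : ∀ a, ω (Sum.inl a) ∈ X1 := fun a => hmem (Sum.inl a)
          have hm2 : ∀ a, ω (Sum.inr a) ∈ X2 := fun a => hmem (Sum.inr a)
          have hx1 : ∀ a, (fun a => ω (Sum.inl a)) a ∉ B :=
            fun a => (hoff _ (mem_union_left _ (hm1 a))).1
          have hx2 : ∀ a, (fun a => ω (Sum.inr a)) a ∉ B :=
            fun a => (hoff _ (mem_union_right _ (hm2 a))).1
          have hrc := rich_count Pl P0 B c (fun a => ω (Sum.inl a)) (fun b => ω (Sum.inr b))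
            hx1 hx2 hω.2 (hR _ _ hω.2)
          refine hrc.trans (le_of_eq ?_)
          congr 1
      _ ≤ _ := sum_le_sum_of_subset_of_nonneg (filter_subset _ _) (fun _ _ _ => by positivity)
  have hfin : c / 2 ≤ (eL Pl P0 B X1 X2 : ℝ) / (X1.card * X2.card) := by
    have h1 : c * (k : ℝ) ^ 2 * (Ω.card / 2) ≤
        k ^ 2 * ((eL Pl P0 B X1 X2 : ℝ) / (X1.card * X2.card)) * Ω.card := by
      calc c * (k : ℝ) ^ 2 * (Ω.card / 2) ≤ c * (k : ℝ) ^ 2 * G.card := by gcongr
        _ ≤ _ := hlow.trans hfirst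
    have h2 : (0 : ℝ) < k ^ 2 * Ω.card := by positivity
    by_contra hcon
    push Not at hcon
    have h3 := mul_lt_mul_of_pos_right hcon h2
    linarith
  rwa [le_div_iff₀ (by positivity)] at hfin

end Crest.Agent.Ryser
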