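import Crest.Agent.Ryser.GDefs
import Crest.Agent.Ryser.RR

/-! Row 34, chunk G2: steps 1 and 2 of the global theorem. -/

set_option autoImplicit false

open Finset

namespace Crest.Agent.Ryser

section
variable {P L : Type} [Fintype P] [Fintype L] [DecidableEq P] [DecidableEq L] {q : ℕ}

/-- in step 1: the pairs concurrent at `Z` number at most `|X2|`. -/
lemma g2_conc (Pl : Plane P L q) (S : Finset P) (l : L) (Z : P) :
    (((S ∩ Pl.pts l) ×ˢ (S \ Pl.pts l)).filter (fun xy => xy.1 ≠ Z ∧ xy.2 ≠ Z ∧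
      Z ∈ Pl.pts (Pl.join xy.1 xy.2))).card ≤ (S \ Pl.pts l).card := by
  apply card_le_card_of_injOn (fun xy => xy.2)
  · intro xy hxy
    simp only [coe_filter, mem_product, Set.mem_ofPred_eq] at hxy
    exact hxy.1.2
  · rintro ⟨x, y⟩ hxy ⟨x', y'⟩ hxy' (hyy : y = y')
    subst hyy
    simp only [coe_filter, mem_product, mem_inter, mem_sdiff, Set.mem_ofPred_eq] at hxy hxy'
    obtain ⟨⟨⟨-, hx⟩, ⟨-, hy⟩⟩, hxZ, hyZ, hZ⟩ := hxy
    obtain ⟨⟨⟨-, hx'⟩, -⟩, hxZ', -, hZ'⟩ := hxy'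
    have hxy : x ≠ y := by rintro rfl; exact hy hx
    have hxy' : x' ≠ y := by rintro rfl; exact hy hx'
    have e1 : Pl.join x y = Pl.join x' y :=
      Pl.line_eq_of_two hyZ (Pl.join_right x y hxy) (Pl.join_right x' y hxy') hZ hZ'
    have hx2 : x ∈ Pl.pts (Pl.join x y) := Pl.join_left x y hxy
    have hx2' : x' ∈ Pl.pts (Pl.join x y) := by rw [e1]; exact Pl.join_left x' y hxy'
    have hne : l ≠ Pl.join x y := by
      intro h; apply hy; rw [h]; exact Pl.join_right x y hxy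
    have : x = x' := Pl.eq_of_mem_two hne hx hx2 hx' hx2'
    rw [this]

lemma g2_eL (Pl : Plane P L q) (P0 : P) (B S : Finset P) (l : L)
    (hcov : ∀ l ∈ Pl.LL P0 B, 1 ≤ Pl.tl S l) :
    (eL Pl P0 B (S ∩ Pl.pts l) (S \ Pl.pts l) : ℝ) ≤
      ∑ l' ∈ Pl.LL P0 B, ((Pl.tl S l' : ℝ) - 1) := by
  have h1 : eL Pl P0 B (S ∩ Pl.pts l) (S \ Pl.pts l) =
      ∑ l' ∈ Pl.LL P0 B, ((((S ∩ Pl.pts l) ×ˢ (S \ Pl.pts l)).filter
        (fun xy => xy.1 ≠ xy.2 ∧ Pl.join xy.1 xy.2 ∈ Pl.LL P0 B)).filter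
          (fun xy => Pl.join xy.1 xy.2 = l')).card := by
    rw [eL]
    apply card_eq_sum_card_fiberwise
    intro xy hxy
    simp only [coe_filter, Set.mem_ofPred_eq] at hxy
    exact hxy.2.2
  rw [h1]
  push_cast
  apply sum_le_sum
  intro l' hl'
  have hnat : ((((S ∩ Pl.pts l) ×ˢ (S \ Pl.pts l)).filter
        (fun xy => xy.1 ≠ xy.2 ∧ Pl.join xy.1 xy.2 ∈ Pl.LL P0 B)).filter
          (fun xy => Pl.join xy.1 xy.2 = l')).card + 1 ≤ Pl.tl S l' := by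
    set F := (((S ∩ Pl.pts l) ×ˢ (S \ Pl.pts l)).filter
        (fun xy => xy.1 ≠ xy.2 ∧ Pl.join xy.1 xy.2 ∈ Pl.LL P0 B)).filter
          (fun xy => Pl.join xy.1 xy.2 = l') with hF
    have hFmem : ∀ xy ∈ F, xy.1 ∈ S ∧ xy.1 ∈ Pl.pts l ∧ xy.2 ∈ S ∧ xy.2 ∉ Pl.pts l ∧
        xy.1 ∈ Pl.pts l' ∧ xy.2 ∈ Pl.pts l' := by
      rintro ⟨x, y⟩ hxy
      simp only [hF, mem_filter, mem_product, mem_inter, mem_sdiff] at hxy
      obtain ⟨⟨⟨⟨h1, h2⟩, ⟨h3, h4⟩⟩, h5, -⟩, h6⟩ := hxy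
      refine ⟨h1, h2, h3, h4, ?_, ?_⟩
      · rw [← h6]; exact Pl.join_left x y h5
      · rw [← h6]; exact Pl.join_right x y h5
    rcases F.eq_empty_or_nonempty with hE | ⟨⟨x0, y0⟩, h0⟩
    · rw [hE, card_empty]
      exact hcov l' hl'
    · obtain ⟨hx0S, hx0l, hy0S, hy0l, hx0l', hy0l'⟩ := hFmem _ h0
      simp only at hx0S hx0l hy0S hy0l hx0l' hy0l'
      have hne : l ≠ l' := by rintro rfl; exact hy0l hy0l'
      have h2 : F.card ≤ ((S ∩ Pl.pts l').erase x0).card := by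
        apply card_le_card_of_injOn (fun xy => xy.2)
        · rintro ⟨x, y⟩ hxy
          obtain ⟨hxS, hxl, hyS, hyl, hxl', hyl'⟩ := hFmem _ hxy
          simp only [coe_erase, coe_inter, Set.mem_sdiff, Set.mem_inter_iff, mem_coe,
            Set.mem_singleton_iff]
          refine ⟨⟨hyS, hyl'⟩, ?_⟩
          rintro rfl
          exact hyl hx0l
        · rintro ⟨x, y⟩ hxy ⟨x', y'⟩ hxy' (hyy : y = y')
          subst hyy
          obtain ⟨hxS, hxl, hyS, hyl, hxl', hyl'⟩ := hFmem _ hxy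
          obtain ⟨hxS', hxl2, -, -, hxl'2, -⟩ := hFmem _ hxy'
          have : x = x' := Pl.eq_of_mem_two hne hxl hxl' hxl2 hxl'2
          rw [this]
      have h3 : x0 ∈ S ∩ Pl.pts l' := mem_inter.2 ⟨hx0S, hx0l'⟩
      rw [card_erase_of_mem h3] at h2
      have h4 : 0 < (S ∩ Pl.pts l').card := card_pos.2 ⟨x0, h3⟩
      rw [Plane.tl]
      omega
  have : ((((((S ∩ Pl.pts l) ×ˢ (S \ Pl.pts l)).filter
        (fun xy => xy.1 ≠ xy.2 ∧ Pl.join xy.1 xy.2 ∈ Pl.LL P0 B)).filter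
          (fun xy => Pl.join xy.1 xy.2 = l')).card : ℕ) : ℝ) + 1 ≤ (Pl.tl S l' : ℝ) := by
    exact_mod_cast hnat
  linarith

end

/-- G2a. If `tl S l > r^505`, apply PDProp to `X1 = S ∩ l`, `X2 = S \ l` (|X2| ≥ κ q; for Z ∉ l each
y ∈ X2 is collinear with Z and at most one x ∈ l; for Z ∈ l there is no pair).  And
`eL X1 X2 ≤ ∑_{l' ∈ LL} (tl S l' - 1) ≤ r^1504` since each l' ≠ l meets l in one point. -/
theorem step1 (c2 κ : ℝ) (hc : 0 < c2) (hκ : 0 < κ) (hκ1 : κ < 1) :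
    ∃ q0 : ℕ, ∀ (q : ℕ), q0 ≤ q → ∀ (P L : Type) [Fintype P] [Fintype L] [DecidableEq P]
      [DecidableEq L] (Pl : Plane P L q) (P0 : P) (B S : Finset P), PDProp Pl P0 B c2 →
      Cov Pl P0 B S → (∀ l, (Pl.tl S l : ℝ) < (1 - κ) * q) →
      ∀ l, (Pl.tl S l : ℝ) ≤ rr q ^ 505 := by
  obtain ⟨q1, hq1⟩ := rr_large (max 1 (max (1 / κ) (1 / (c2 * κ) + 1)))
  refine ⟨q1, ?_⟩
  intro q hq P L _ _ _ _ Pl P0 B S hPD hcov hκl l
  by_contra hcon
  push Not at hcon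
  have hr := hq1 q hq
  have hr1 : 1 ≤ rr q := (le_max_left _ _).trans hr
  have hr0 : 0 < rr q := by linarith
  have hr2 : 1 / κ ≤ rr q := (le_max_left _ _).trans ((le_max_right _ _).trans hr)
  have hr3 : 1 / (c2 * κ) + 1 ≤ rr q := (le_max_right _ _).trans ((le_max_right _ _).trans hr)
  have hqr : (q : ℝ) = rr q ^ 1000 := (rr_pow q).symm
  have hcardX2 : κ * q ≤ ((S \ Pl.pts l).card : ℝ) := by
    have h1 : (S \ Pl.pts l).card + (S ∩ Pl.pts l).card = S.card := card_sdiff_add_card_inter _ _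
    have h2 : ((S \ Pl.pts l).card : ℝ) + ((S ∩ Pl.pts l).card : ℝ) = q := by
      rw [hcov.card] at h1; exact_mod_cast h1
    have h3 := hκl l
    rw [Plane.tl] at h3
    linarith
  have hκr : 1 ≤ κ * rr q := by
    rw [div_le_iff₀ hκ] at hr2
    linarith
  have hX2big : rr q ^ 999 ≤ ((S \ Pl.pts l).card : ℝ) := by
    refine le_trans ?_ hcardX2
    rw [hqr]
    calc rr q ^ 999 = 1 * rr q ^ 999 := by ring
      _ ≤ (κ * rr q) * rr q ^ 999 := mul_le_mul_of_nonneg_right hκr (by positivity)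
      _ = κ * rr q ^ 1000 := by ring
  have hX1big : rr q ^ 505 < ((S ∩ Pl.pts l).card : ℝ) := hcon
  have key := hPD (S ∩ Pl.pts l) (S \ Pl.pts l) ?_ ?_ ?_ ?_ ?_
  · have h2 := key.trans ((g2_eL Pl P0 B S l hcov.cover).trans hcov.exc)
    have h3 : rr q ^ 1504 < c2 * (rr q ^ 505 * (κ * q)) := by
      rw [hqr]
      have h4 : 1 < c2 * κ * rr q := by
        have h5 : 0 < c2 * κ := by positivity
        have h6 : 1 / (c2 * κ) < rr q := by linarith
        rw [div_lt_iff₀ h5] at h6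
        linarith
      calc rr q ^ 1504 = 1 * rr q ^ 1504 := by ring
        _ < (c2 * κ * rr q) * rr q ^ 1504 := mul_lt_mul_of_pos_right h4 (by positivity)
        _ = c2 * (rr q ^ 505 * (κ * rr q ^ 1000)) := by ring
    have h7 : c2 * (rr q ^ 505 * (κ * q)) ≤
        c2 * (((S ∩ Pl.pts l).card : ℝ) * ((S \ Pl.pts l).card : ℝ)) := by
      apply mul_le_mul_of_nonneg_left _ hc.le
      apply mul_le_mul hX1big.le hcardX2 (by positivity) (by positivity)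
    linarith
  · rw [disjoint_left]
    intro x hx hx'
    exact (mem_sdiff.1 hx').2 (mem_inter.1 hx).2
  · intro X hX
    apply hcov.off
    rcases mem_union.1 hX with h | h
    · exact (mem_inter.1 h).1
    · exact (mem_sdiff.1 h).1
  · exact (pow_le_pow_right₀ hr1 (by norm_num)).trans hX1big.le
  · exact (pow_le_pow_right₀ hr1 (by norm_num)).trans hX2big
  · intro Z
    have h1 : (((((S ∩ Pl.pts l) ×ˢ (S \ Pl.pts l)).filter (fun xy => xy.1 ≠ Z ∧ xy.2 ≠ Z ∧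
      Z ∈ Pl.pts (Pl.join xy.1 xy.2))).card : ℕ) : ℝ) ≤ ((S \ Pl.pts l).card : ℝ) := by
      exact_mod_cast g2_conc Pl S l Z
    refine h1.trans ?_
    rw [inv_mul_eq_div, le_div_iff₀ (by positivity)]
    rw [mul_comm ((S ∩ Pl.pts l).card : ℝ)]
    apply mul_le_mul_of_nonneg_left _ (by positivity)
    exact (pow_le_pow_right₀ hr1 (by norm_num)).trans hX1big.le

section
variable {P L : Type} [Fintype P] [Fintype L] [DecidableEq P] [DecidableEq L] {q : ℕ}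

/-- in step 2: concurrency -/
lemma g2_conc2 (Pl : Plane P L q) (S X1 X2 : Finset P) (hX2 : X2 ⊆ S) (T : ℝ)
    (hT : ∀ l, (Pl.tl S l : ℝ) ≤ T) (hdisj : Disjoint X1 X2) (Z : P) :
    (((X1 ×ˢ X2).filter (fun xy => xy.1 ≠ Z ∧ xy.2 ≠ Z ∧
      Z ∈ Pl.pts (Pl.join xy.1 xy.2))).card : ℝ) ≤ X1.card * T := by
  have h1 : ((X1 ×ˢ X2).filter (fun xy => xy.1 ≠ Z ∧ xy.2 ≠ Z ∧
      Z ∈ Pl.pts (Pl.join xy.1 xy.2))).card =
      ∑ x ∈ X1, (((X1 ×ˢ X2).filter (fun xy => xy.1 ≠ Z ∧ xy.2 ≠ Z ∧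
      Z ∈ Pl.pts (Pl.join xy.1 xy.2))).filter (fun xy => xy.1 = x)).card := by
    apply card_eq_sum_card_fiberwise
    intro xy hxy
    simp only [coe_filter, mem_product, Set.mem_ofPred_eq] at hxy
    exact hxy.1.1
  rw [h1]
  push_cast
  rw [← nsmul_eq_mul]
  apply sum_le_card_nsmul
  intro x hx
  refine le_trans ?_ (hT (Pl.join x Z))
  have : (((X1 ×ˢ X2).filter (fun xy => xy.1 ≠ Z ∧ xy.2 ≠ Z ∧
      Z ∈ Pl.pts (Pl.join xy.1 xy.2))).filter (fun xy => xy.1 = x)).card ≤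
      Pl.tl S (Pl.join x Z) := by
    rw [Plane.tl]
    apply card_le_card_of_injOn (fun xy => xy.2)
    · rintro ⟨x', y⟩ hxy
      simp only [coe_filter, mem_filter, mem_product, Set.mem_ofPred_eq] at hxy
      obtain ⟨⟨⟨h1, h2⟩, h3, h4, h5⟩, rfl⟩ := hxy
      simp only [coe_inter, Set.mem_inter_iff, mem_coe]
      have hne : x' ≠ y := by
        rintro rfl
        exact disjoint_left.1 hdisj h1 h2
      have e : Pl.join x' y = Pl.join x' Z :=
        Pl.join_unique x' Z _ h3 (Pl.join_left x' y hne) h5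
      refine ⟨hX2 h2, ?_⟩
      rw [← e]; exact Pl.join_right x' y hne
    · rintro ⟨x', y⟩ hxy ⟨x'', y'⟩ hxy' (hyy : y = y')
      simp only [coe_filter, mem_filter, Set.mem_ofPred_eq] at hxy hxy'
      rw [hyy, hxy.2, hxy'.2]
  exact_mod_cast this

lemma g2_eL2 (Pl : Plane P L q) (P0 : P) (B S X1 X2 : Finset P) (hX2 : X2 ⊆ S) (T : ℝ)
    (hT : ∀ X ∈ X1, (eX Pl P0 B S X : ℝ) ≤ T) :
    (eL Pl P0 B X1 X2 : ℝ) ≤ X1.card * T := by
  have h1 : eL Pl P0 B X1 X2 = ∑ x ∈ X1, (((X1 ×ˢ X2).filter (fun xy => xy.1 ≠ xy.2 ∧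
      Pl.join xy.1 xy.2 ∈ Pl.LL P0 B)).filter (fun xy => xy.1 = x)).card := by
    rw [eL]
    apply card_eq_sum_card_fiberwise
    intro xy hxy
    simp only [coe_filter, mem_product, Set.mem_ofPred_eq] at hxy
    exact hxy.1.1
  rw [h1]
  push_cast
  rw [← nsmul_eq_mul]
  apply sum_le_card_nsmul
  intro x hx
  refine le_trans ?_ (hT x hx)
  have : (((X1 ×ˢ X2).filter (fun xy => xy.1 ≠ xy.2 ∧
      Pl.join xy.1 xy.2 ∈ Pl.LL P0 B)).filter (fun xy => xy.1 = x)).card ≤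
      eX Pl P0 B S x := by
    rw [eX]
    apply card_le_card_of_injOn (fun xy => xy.2)
    · rintro ⟨x', y⟩ hxy
      simp only [coe_filter, mem_filter, mem_product, Set.mem_ofPred_eq] at hxy
      obtain ⟨⟨⟨h1, h2⟩, h3, h4⟩, rfl⟩ := hxy
      simp only [coe_filter, Set.mem_ofPred_eq]
      exact ⟨hX2 h2, h3.symm, h4⟩
    · rintro ⟨x', y⟩ hxy ⟨x'', y'⟩ hxy' (hyy : y = y')
      simp only [coe_filter, mem_filter, Set.mem_ofPred_eq] at hxy hxy'
      rw [hyy, hxy.2, hxy'.2]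
  exact_mod_cast this

end

/-- G2b. Otherwise take `X1` a subset of that set of size ⌈r^100⌉ and `X2 = S \ X1`; concurrency
`≤ |X1| r^505`; `eL X1 X2 ≤ ∑_{X ∈ X1} eX X < |X1| c2/2 q`. -/
theorem step2 (c2 : ℝ) (hc : 0 < c2) :
    ∃ q0 : ℕ, ∀ (q : ℕ), q0 ≤ q → ∀ (P L : Type) [Fintype P] [Fintype L] [DecidableEq P]
      [DecidableEq L] (Pl : Plane P L q) (P0 : P) (B S : Finset P), PDProp Pl P0 B c2 →
      Cov Pl P0 B S → (∀ l, (Pl.tl S l : ℝ) ≤ rr q ^ 505) →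
      ((S.filter (fun X => (eX Pl P0 B S X : ℝ) < c2 / 2 * q)).card : ℝ) ≤ rr q ^ 100 + 1 := by
  obtain ⟨q1, hq1⟩ := rr_large 4
  refine ⟨q1, ?_⟩
  intro q hq P L _ _ _ _ Pl P0 B S hPD hcov hT
  by_contra hcon
  push Not at hcon
  have hr4 := hq1 q hq
  have hr1 : 1 ≤ rr q := by linarith
  have hr0 : 0 < rr q := by linarith
  have hqr : (q : ℝ) = rr q ^ 1000 := (rr_pow q).symm
  set low := S.filter (fun X => (eX Pl P0 B S X : ℝ) < c2 / 2 * q) with hlow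
  have hceil : ⌈rr q ^ 100⌉₊ ≤ low.card := by
    have h1 : ((⌈rr q ^ 100⌉₊ : ℕ) : ℝ) < rr q ^ 100 + 1 := Nat.ceil_lt_add_one (by positivity)
    have h2 : ((⌈rr q ^ 100⌉₊ : ℕ) : ℝ) < (low.card : ℝ) := h1.trans hcon
    exact_mod_cast h2.le
  obtain ⟨X1, hX1sub, hX1card⟩ := exists_subset_card_eq hceil
  have hX1S : X1 ⊆ S := hX1sub.trans (filter_subset _ _)
  have hX1ge : rr q ^ 100 ≤ (X1.card : ℝ) := by rw [hX1card]; exact Nat.le_ceil _
  have hX1le : (X1.card : ℝ) ≤ rr q ^ 100 + 1 := by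
    rw [hX1card]; exact (Nat.ceil_lt_add_one (by positivity)).le
  have hX1pos : (0 : ℝ) < X1.card := lt_of_lt_of_le (by positivity) hX1ge
  have h1 : (S \ X1).card + X1.card = S.card := card_sdiff_add_card_eq_card hX1S
  have h2 : ((S \ X1).card : ℝ) + (X1.card : ℝ) = q := by
    rw [hcov.card] at h1; exact_mod_cast h1
  have hpow : ∀ m n : ℕ, m ≤ n → rr q ^ m ≤ rr q ^ n := fun m n h => pow_le_pow_right₀ hr1 h
  -- `|X2| > q/2`
  have hX2 : (q : ℝ) / 2 < ((S \ X1).card : ℝ) := by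
    have h3 : rr q ^ 100 + 1 ≤ 2 * rr q ^ 100 := by
      have := one_le_pow₀ (n := 100) hr1; linarith
    have h4 : 4 * rr q ^ 100 ≤ rr q ^ 101 := by
      rw [pow_succ, mul_comm]
      exact mul_le_mul_of_nonneg_left hr4 (by positivity)
    have h5 : rr q ^ 101 < rr q ^ 1000 := pow_lt_pow_right₀ (by linarith) (by norm_num)
    rw [hqr] at h2 ⊢
    linarith
  have hX2' : rr q ^ 999 ≤ ((S \ X1).card : ℝ) := by
    refine le_trans ?_ hX2.le
    rw [hqr]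
    have : rr q ^ 1000 = rr q * rr q ^ 999 := by ring
    rw [this]
    have h6 : 0 < rr q ^ 999 := by positivity
    nlinarith
  have hdisj : Disjoint X1 (S \ X1) := disjoint_sdiff
  have key := hPD X1 (S \ X1) hdisj ?_ hX1ge ((hpow 100 999 (by norm_num)).trans hX2') ?_
  · have h3 := g2_eL2 Pl P0 B S X1 (S \ X1) sdiff_subset (c2 / 2 * q)
      (fun X hX => ((mem_filter.1 (hX1sub hX)).2).le)
    have h4 : (X1.card : ℝ) * (c2 / 2 * q) < c2 * ((X1.card : ℝ) * ((S \ X1).card : ℝ)) := by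
      have h5 : 0 < c2 * (X1.card : ℝ) := by positivity
      calc (X1.card : ℝ) * (c2 / 2 * q) = (c2 * (X1.card : ℝ)) * (q / 2) := by ring
        _ < (c2 * (X1.card : ℝ)) * ((S \ X1).card : ℝ) := mul_lt_mul_of_pos_left hX2 h5
        _ = _ := by ring
    linarith
  · intro X hX
    apply hcov.off
    rcases mem_union.1 hX with h | h
    · exact hX1S h
    · exact (mem_sdiff.1 h).1
  · intro Z
    refine (g2_conc2 Pl S X1 (S \ X1) sdiff_subset (rr q ^ 505) hT hdisj Z).trans ?_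
    rw [inv_mul_eq_div, le_div_iff₀ (by positivity), mul_assoc]
    apply mul_le_mul_of_nonneg_left _ (by positivity)
    rw [← pow_add]
    exact (hpow 605 999 (by norm_num)).trans hX2'

end Crest.Agent.Ryser
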