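import Crest.Agent.Ryser.GDefs
import Crest.Agent.Ryser.RR

/-! Row 34, chunk G3: step 3 of the global theorem (small family of lines covering most of S twice). -/

set_option autoImplicit false

open Finset

namespace Crest.Agent.Ryser

/-- greedy covering -/
theorem g3_greedy {α β : Type} [DecidableEq α] [DecidableEq β] (G : Finset α) (hG : G.Nonempty)
    (N : Finset β) (hit : α → β → Prop) [∀ a, DecidablePred (hit a)] (δ : ℝ)
    (h : ∀ b ∈ N, δ * (G.card : ℝ) ≤ ((G.filter (fun a => hit a b)).card : ℝ)) (k : ℕ) :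
    ∃ T : Finset α, T ⊆ G ∧ T.card ≤ k ∧
      ((N.filter (fun b => ∀ a ∈ T, ¬ hit a b)).card : ℝ) ≤
        Real.exp (-(δ * k)) * (N.card : ℝ) := by
  induction k with
  | zero => exact ⟨∅, by simp, by simp, by simp⟩
  | succ k ih =>
    obtain ⟨T, hTG, hTk, hT⟩ := ih
    set U := N.filter (fun b => ∀ a ∈ T, ¬ hit a b) with hU
    have hsum : ∑ a ∈ G, ((U.filter (fun b => hit a b)).card : ℝ) =
        ∑ b ∈ U, ((G.filter (fun a => hit a b)).card : ℝ) := by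
      have : ∑ a ∈ G, (U.filter (fun b => hit a b)).card =
        ∑ b ∈ U, (G.filter (fun a => hit a b)).card := by
        simp_rw [Finset.card_filter]
        exact Finset.sum_comm
      exact_mod_cast this
    have hlow : ∑ _a ∈ G, δ * (U.card : ℝ) ≤ ∑ a ∈ G, ((U.filter (fun b => hit a b)).card : ℝ) := by
      rw [hsum]
      calc ∑ _a ∈ G, δ * (U.card : ℝ) = ∑ _b ∈ U, δ * (G.card : ℝ) := by
            simp only [Finset.sum_const, nsmul_eq_mul]; ring
        _ ≤ _ := Finset.sum_le_sum (fun b hb => h b (Finset.mem_filter.1 hb).1)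
    obtain ⟨a, haG, ha⟩ := Finset.exists_le_of_sum_le hG hlow
    refine ⟨insert a T, Finset.insert_subset haG hTG,
      (Finset.card_insert_le _ _).trans (by omega), ?_⟩
    have hsplit : (U.filter (fun b => hit a b)).card + (U.filter (fun b => ¬ hit a b)).card
        = U.card := Finset.card_filter_add_card_filter_not _
    have heq : N.filter (fun b => ∀ a' ∈ insert a T, ¬ hit a' b) =
        U.filter (fun b => ¬ hit a b) := by
      ext b
      simp only [hU, Finset.mem_filter, Finset.mem_insert, forall_eq_or_imp]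
      tauto
    rw [heq]
    have h1 : ((U.filter (fun b => ¬ hit a b)).card : ℝ) ≤ (1 - δ) * U.card := by
      have : ((U.filter (fun b => hit a b)).card : ℝ) +
        ((U.filter (fun b => ¬ hit a b)).card : ℝ) = U.card := by exact_mod_cast hsplit
      linarith
    have h2 : (1 - δ) * (U.card : ℝ) ≤ Real.exp (-δ) * U.card := by
      apply mul_le_mul_of_nonneg_right _ (Nat.cast_nonneg _)
      have := Real.add_one_le_exp (-δ)
      linarith
    have h3 : Real.exp (-δ) * (U.card : ℝ) ≤ Real.exp (-δ) * (Real.exp (-(δ * k)) * N.card) :=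
      mul_le_mul_of_nonneg_left hT (Real.exp_pos _).le
    have h4 : Real.exp (-δ) * (Real.exp (-(δ * k)) * (N.card : ℝ)) =
        Real.exp (-(δ * ((k + 1 : ℕ) : ℝ))) * N.card := by
      rw [← mul_assoc, ← Real.exp_add]
      congr 2
      push_cast; ring
    linarith


section

variable {P L : Type} [Fintype P] [Fintype L] [DecidableEq P] [DecidableEq L] {q : ℕ}

/-- lines of `LL` through `X` with at least two points of `S` -/
def g3LX (Pl : Plane P L q) (P0 : P) (B S : Finset P) (X : P) : Finset L :=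
  (Pl.LL P0 B).filter (fun l => X ∈ Pl.pts l ∧ 2 ≤ Pl.tl S l)

theorem g3_sum (Pl : Plane P L q) (P0 : P) (B S : Finset P) (hC : Cov Pl P0 B S) :
    ∑ X ∈ S, ((g3LX Pl P0 B S X).card : ℝ) ≤ 2 * rr q ^ 1504 := by
  have h1 : ∑ X ∈ S, (g3LX Pl P0 B S X).card =
      ∑ l ∈ Pl.LL P0 B, (if 2 ≤ Pl.tl S l then Pl.tl S l else 0) := by
    simp_rw [g3LX, Finset.card_filter]
    rw [Finset.sum_comm]
    refine Finset.sum_congr rfl (fun l _ => ?_)
    split_ifs with h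
    · simp only [h, and_true]
      rw [← Finset.card_filter]
      rfl
    · simp [h]
  have h2 : ∑ X ∈ S, ((g3LX Pl P0 B S X).card : ℝ) =
      ∑ l ∈ Pl.LL P0 B, (((if 2 ≤ Pl.tl S l then Pl.tl S l else 0 : ℕ)) : ℝ) := by
    exact_mod_cast h1
  rw [h2]
  calc ∑ l ∈ Pl.LL P0 B, (((if 2 ≤ Pl.tl S l then Pl.tl S l else 0 : ℕ)) : ℝ)
      ≤ ∑ l ∈ Pl.LL P0 B, 2 * ((Pl.tl S l : ℝ) - 1) := by
        refine Finset.sum_le_sum (fun l hl => ?_)
        have h1l : (1 : ℝ) ≤ (Pl.tl S l : ℝ) := by exact_mod_cast hC.cover l hl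
        split_ifs with h
        · have : (2 : ℝ) ≤ (Pl.tl S l : ℝ) := by exact_mod_cast h
          linarith
        · simp only [Nat.cast_zero]
          linarith
    _ = 2 * ∑ l ∈ Pl.LL P0 B, ((Pl.tl S l : ℝ) - 1) := by rw [Finset.mul_sum]
    _ ≤ 2 * rr q ^ 1504 := by
        have := hC.exc
        linarith

end

/-- G3. `L_X := {l ∈ LL : X ∈ l, tl S l ≥ 2}`, `∑_{X ∈ S} |L_X| = ∑_{l ∈ LL, tl ≥ 2} tl ≤ 2 r^1504`, so
`Gd := {X ∈ S : eX X ≥ c2/2 q, |L_X| ≤ r^520}` has `|S \ Gd| ≤ r^985`.  Sample `k3 = ⌊r^5⌋` points `X_j`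
of `Gd` (independent uniform): each `Y ∈ Gd` is LL-joined to ≥ c2/4 q points of Gd, with at most r^505 of them
on each line, so P(Y not on two distinct lines of 𝓛 := ⋃ L_{X_j}) ≤ 2 (1 - c2/8)^(k3/2 - 1); union over
Y ∈ Gd.  |𝓛| ≤ r^5 r^520. -/
theorem step3 (c2 : ℝ) (hc : 0 < c2) :
    ∃ q0 : ℕ, ∀ (q : ℕ), q0 ≤ q → ∀ (P L : Type) [Fintype P] [Fintype L] [DecidableEq P]
      [DecidableEq L] (Pl : Plane P L q) (P0 : P) (B S : Finset P),
      Cov Pl P0 B S → (∀ l, (Pl.tl S l : ℝ) ≤ rr q ^ 505) →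
      ((S.filter (fun X => (eX Pl P0 B S X : ℝ) < c2 / 2 * q)).card : ℝ) ≤ rr q ^ 100 + 1 →
      ∃ (Gd : Finset P) (𝓛 : Finset L), Str3 Pl S Gd 𝓛 := by
  obtain ⟨q0, h0⟩ := rr_large (4 + c2)
  obtain ⟨q1, h1⟩ := rr_pow_le 4 984 985 (by norm_num)
  obtain ⟨q2, h2⟩ := rr_pow_le (8 / c2) 985 1000 (by norm_num)
  obtain ⟨q3, h3⟩ := rr_pow_le (8 / c2) 505 1000 (by norm_num)
  obtain ⟨q4, h4⟩ := rr_pow_le (64 / c2) 1 5 (by norm_num)
  obtain ⟨q5, h5⟩ := log_le_rr 1 one_pos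
  refine ⟨q0 + q1 + q2 + q3 + q4 + q5 + 1, ?_⟩
  intro q hq P L _ _ _ _ Pl P0 B S hC hT1 hT2
  classical
  set r := rr q with hr
  have hr4 : 4 + c2 ≤ r := h0 q (by omega)
  have hr0 : 0 < r := by linarith
  have hr1 : 1 ≤ r := by linarith
  have hqr : r ^ 1000 = (q : ℝ) := rr_pow q
  have hq0 : (0 : ℝ) < q := by rw [← hqr]; positivity
  have e1 : 4 * r ^ 984 ≤ r ^ 985 := h1 q (by omega)
  have e2 : r ^ 985 ≤ c2 / 8 * q := by
    have := h2 q (by omega)
    rw [← hr, hqr] at this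
    have h8 : c2 / 8 * (8 / c2 * r ^ 985) = r ^ 985 := by field_simp
    calc r ^ 985 = c2 / 8 * (8 / c2 * r ^ 985) := h8.symm
      _ ≤ _ := mul_le_mul_of_nonneg_left this (by positivity)
  have e3 : r ^ 505 ≤ c2 / 8 * q := by
    have := h3 q (by omega)
    rw [← hr, hqr] at this
    have h8 : c2 / 8 * (8 / c2 * r ^ 505) = r ^ 505 := by field_simp
    calc r ^ 505 = c2 / 8 * (8 / c2 * r ^ 505) := h8.symm
      _ ≤ _ := mul_le_mul_of_nonneg_left this (by positivity)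
  have e4 : 8 * r ≤ c2 / 8 * r ^ 5 := by
    have := h4 q (by omega)
    rw [← hr, pow_one] at this
    have h8 : c2 / 8 * (64 / c2 * r) = 8 * r := by field_simp; norm_num
    calc 8 * r = c2 / 8 * (64 / c2 * r) := h8.symm
      _ ≤ _ := mul_le_mul_of_nonneg_left this (by positivity)
  have e5 : Real.log q ≤ r := by simpa using h5 q (by omega)
  set Gd : Finset P := S.filter (fun X => c2 / 2 * q ≤ (eX Pl P0 B S X : ℝ) ∧
    ((g3LX Pl P0 B S X).card : ℝ) ≤ r ^ 520) with hGd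
  have hGS : Gd ⊆ S := Finset.filter_subset _ _
  have hdiff : ((S \ Gd).card : ℝ) ≤ r ^ 985 := by
    have hsub : S \ Gd ⊆ (S.filter (fun X => (eX Pl P0 B S X : ℝ) < c2 / 2 * q)) ∪
        (S.filter (fun X => r ^ 520 < ((g3LX Pl P0 B S X).card : ℝ))) := by
      intro X hX
      simp only [hGd, Finset.mem_sdiff, Finset.mem_filter, not_and, not_le] at hX
      simp only [Finset.mem_union, Finset.mem_filter]
      by_cases h : (eX Pl P0 B S X : ℝ) < c2 / 2 * q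
      · exact Or.inl ⟨hX.1, h⟩
      · exact Or.inr ⟨hX.1, hX.2 hX.1 (not_lt.1 h)⟩
    have hb2 : ((S.filter (fun X => r ^ 520 < ((g3LX Pl P0 B S X).card : ℝ))).card : ℝ) ≤
        2 * r ^ 984 := by
      have hs := g3_sum Pl P0 B S hC
      have h7 : ∑ X ∈ S.filter (fun X => r ^ 520 < ((g3LX Pl P0 B S X).card : ℝ)), r ^ 520 ≤
          ∑ X ∈ S, ((g3LX Pl P0 B S X).card : ℝ) := by
        calc _ ≤ ∑ X ∈ S.filter (fun X => r ^ 520 < ((g3LX Pl P0 B S X).card : ℝ)),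
              ((g3LX Pl P0 B S X).card : ℝ) :=
              Finset.sum_le_sum (fun X hX => (Finset.mem_filter.1 hX).2.le)
          _ ≤ _ := Finset.sum_le_sum_of_subset_of_nonneg (Finset.filter_subset _ _)
              (fun _ _ _ => Nat.cast_nonneg _)
      rw [Finset.sum_const, nsmul_eq_mul] at h7
      have h8 : ((S.filter (fun X => r ^ 520 < ((g3LX Pl P0 B S X).card : ℝ))).card : ℝ) *
          r ^ 520 ≤ (2 * r ^ 984) * r ^ 520 := by
        calc _ ≤ _ := h7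
          _ ≤ 2 * rr q ^ 1504 := hs
          _ = (2 * r ^ 984) * r ^ 520 := by rw [← hr]; ring
      exact le_of_mul_le_mul_right h8 (by positivity)
    have h9 : ((S \ Gd).card : ℝ) ≤
        ((S.filter (fun X => (eX Pl P0 B S X : ℝ) < c2 / 2 * q)).card : ℝ) +
        ((S.filter (fun X => r ^ 520 < ((g3LX Pl P0 B S X).card : ℝ))).card : ℝ) := by
      exact_mod_cast (Finset.card_le_card hsub).trans (Finset.card_union_le _ _)
    have h10 : r ^ 100 ≤ r ^ 984 := pow_le_pow_right₀ hr1 (by norm_num)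
    have h11 : 1 ≤ r ^ 984 := one_le_pow₀ hr1
    linarith
  rcases Finset.eq_empty_or_nonempty Gd with hE | hNE
  · refine ⟨Gd, ∅, ⟨hGS, hdiff, by simp; positivity, by simp [hE]⟩⟩
  -- the pairs (point of Gd, line through it)
  set N : Finset (P × L) := (Gd ×ˢ (univ : Finset L)).filter (fun Ym => Ym.1 ∈ Pl.pts Ym.2) with hN
  set hit : P → P × L → Prop := fun X Ym => X ≠ Ym.1 ∧ Pl.join X Ym.1 ∈ Pl.LL P0 B ∧
    X ∉ Pl.pts Ym.2 with hhit
  have hGq : (Gd.card : ℝ) ≤ q := by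
    have := Finset.card_le_card hGS
    rw [hC.card] at this
    exact_mod_cast this
  have hcovN : ∀ b ∈ N, c2 / 8 * (Gd.card : ℝ) ≤ ((Gd.filter (fun a => hit a b)).card : ℝ) := by
    rintro ⟨Y, m⟩ hb
    simp only [hN, Finset.mem_filter, Finset.mem_product, Finset.mem_univ, and_true] at hb
    obtain ⟨hY, hYm⟩ := hb
    have hYe : c2 / 2 * q ≤ (eX Pl P0 B S Y : ℝ) := (Finset.mem_filter.1 hY).2.1
    have hsub : S.filter (fun X => X ≠ Y ∧ Pl.join Y X ∈ Pl.LL P0 B) ⊆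
        (Gd.filter (fun a => hit a (Y, m))) ∪ ((S \ Gd) ∪ (S ∩ Pl.pts m)) := by
      intro X hX
      simp only [Finset.mem_filter] at hX
      obtain ⟨hXS, hXY, hXJ⟩ := hX
      simp only [Finset.mem_union, Finset.mem_filter, Finset.mem_sdiff, Finset.mem_inter, hhit]
      by_cases hXG : X ∈ Gd
      · by_cases hXm : X ∈ Pl.pts m
        · exact Or.inr (Or.inr ⟨hXS, hXm⟩)
        · refine Or.inl ⟨hXG, hXY, ?_, hXm⟩
          rw [Pl.join_comm X Y hXY]; exact hXJ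
      · exact Or.inr (Or.inl ⟨hXS, hXG⟩)
    have hcard : (eX Pl P0 B S Y : ℝ) ≤ ((Gd.filter (fun a => hit a (Y, m))).card : ℝ) +
        (((S \ Gd).card : ℝ) + (Pl.tl S m : ℝ)) := by
      have h12 : eX Pl P0 B S Y ≤ (Gd.filter (fun a => hit a (Y, m))).card +
          ((S \ Gd).card + Pl.tl S m) := by
        calc eX Pl P0 B S Y = (S.filter (fun X => X ≠ Y ∧ Pl.join Y X ∈ Pl.LL P0 B)).card := rfl
          _ ≤ _ := Finset.card_le_card hsub
          _ ≤ _ := Finset.card_union_le _ _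
          _ ≤ _ := Nat.add_le_add_left (Finset.card_union_le _ _) _
      exact_mod_cast h12
    have h13 := hT1 m
    have h14 : c2 / 8 * (Gd.card : ℝ) ≤ c2 / 8 * q := mul_le_mul_of_nonneg_left hGq (by positivity)
    linarith
  obtain ⟨T, hTG, hTk, hT⟩ := g3_greedy Gd hNE N hit (c2 / 8) hcovN ⌊r ^ 5⌋₊
  have hNcard : (N.card : ℝ) ≤ 3 * (q : ℝ) ^ 3 := by
    have h15 : N.card ≤ Gd.card * (q ^ 2 + q + 1) := by
      calc N.card ≤ (Gd ×ˢ (univ : Finset L)).card := Finset.card_filter_le _ _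
        _ = Gd.card * (q ^ 2 + q + 1) := by rw [Finset.card_product, Finset.card_univ, Pl.card_L]
    have h16 : (N.card : ℝ) ≤ (Gd.card : ℝ) * ((q : ℝ) ^ 2 + q + 1) := by exact_mod_cast h15
    have hq1 : (1 : ℝ) ≤ q := by
      rw [← hqr]; exact one_le_pow₀ hr1
    have h17 : (Gd.card : ℝ) * ((q : ℝ) ^ 2 + q + 1) ≤ (q : ℝ) * ((q : ℝ) ^ 2 + q + 1) :=
      mul_le_mul_of_nonneg_right hGq (by positivity)
    have h18 : (q : ℝ) ^ 2 + q + 1 ≤ 3 * (q : ℝ) ^ 2 := by nlinarith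
    have h19 : (q : ℝ) * ((q : ℝ) ^ 2 + q + 1) ≤ (q : ℝ) * (3 * (q : ℝ) ^ 2) :=
      mul_le_mul_of_nonneg_left h18 hq0.le
    calc _ ≤ _ := h16
      _ ≤ _ := h17
      _ ≤ _ := h19
      _ = _ := by ring
  have hsmall : Real.exp (-(c2 / 8 * (⌊r ^ 5⌋₊ : ℝ))) * (N.card : ℝ) < 1 := by
    have hfl : r ^ 5 - 1 < (⌊r ^ 5⌋₊ : ℝ) := Nat.sub_one_lt_floor _
    have h20 : 7 * r ≤ c2 / 8 * (⌊r ^ 5⌋₊ : ℝ) := by
      have : c2 / 8 * (r ^ 5 - 1) ≤ c2 / 8 * (⌊r ^ 5⌋₊ : ℝ) :=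
        mul_le_mul_of_nonneg_left hfl.le (by positivity)
      nlinarith
    have h21 : Real.exp (-(c2 / 8 * (⌊r ^ 5⌋₊ : ℝ))) ≤ Real.exp (-(7 * r)) :=
      Real.exp_le_exp.2 (by linarith)
    have h22 : (q : ℝ) ^ 3 ≤ Real.exp (3 * r) := by
      have : (q : ℝ) ≤ Real.exp r := by
        rw [← Real.exp_log hq0]; exact Real.exp_le_exp.2 e5
      calc (q : ℝ) ^ 3 ≤ (Real.exp r) ^ 3 := pow_le_pow_left₀ hq0.le this 3
        _ = Real.exp (3 * r) := by rw [← Real.exp_nat_mul]; norm_num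
    have h23 : (3 : ℝ) < Real.exp (4 * r) := by
      have := Real.add_one_le_exp (4 * r)
      linarith
    calc Real.exp (-(c2 / 8 * (⌊r ^ 5⌋₊ : ℝ))) * (N.card : ℝ)
        ≤ Real.exp (-(7 * r)) * (3 * (q : ℝ) ^ 3) :=
          mul_le_mul h21 hNcard (Nat.cast_nonneg _) (Real.exp_pos _).le
      _ ≤ Real.exp (-(7 * r)) * (3 * Real.exp (3 * r)) :=
          mul_le_mul_of_nonneg_left (by linarith) (Real.exp_pos _).le
      _ < Real.exp (-(7 * r)) * (Real.exp (4 * r) * Real.exp (3 * r)) :=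
          mul_lt_mul_of_pos_left (mul_lt_mul_of_pos_right h23 (Real.exp_pos _)) (Real.exp_pos _)
      _ = 1 := by
          rw [← Real.exp_add, ← Real.exp_add]
          have : -(7 * r) + (4 * r + 3 * r) = 0 := by ring
          rw [this, Real.exp_zero]
  have h24 := lt_of_le_of_lt hT hsmall
  rw [Nat.cast_lt_one] at h24
  have hzero := Finset.eq_empty_iff_forall_notMem.1 (Finset.card_eq_zero.1 h24)
  have hall : ∀ Y ∈ Gd, ∀ m, Y ∈ Pl.pts m → ∃ X ∈ T, hit X (Y, m) := by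
    intro Y hY m hm
    by_contra hcon
    push Not at hcon
    refine hzero (Y, m) ?_
    simp only [Finset.mem_filter, hN, Finset.mem_product, Finset.mem_univ, and_true]
    exact ⟨⟨hY, hm⟩, hcon⟩
  have hline : ∀ Y ∈ Gd, ∀ X ∈ T, X ≠ Y → Pl.join X Y ∈ Pl.LL P0 B →
      Pl.join X Y ∈ T.biUnion (g3LX Pl P0 B S) := by
    intro Y hY X hX hXY hJ
    rw [Finset.mem_biUnion]
    refine ⟨X, hX, ?_⟩
    rw [g3LX, Finset.mem_filter]
    refine ⟨hJ, Pl.join_left X Y hXY, ?_⟩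
    have : 1 < (S ∩ Pl.pts (Pl.join X Y)).card := by
      rw [Finset.one_lt_card]
      exact ⟨X, Finset.mem_inter.2 ⟨hGS (hTG hX), Pl.join_left X Y hXY⟩, Y,
        Finset.mem_inter.2 ⟨hGS hY, Pl.join_right X Y hXY⟩, hXY⟩
    exact this
  refine ⟨Gd, T.biUnion (g3LX Pl P0 B S), ⟨hGS, hdiff, ?_, ?_⟩⟩
  · have h25 : ((T.biUnion (g3LX Pl P0 B S)).card : ℝ) ≤ ∑ X ∈ T, ((g3LX Pl P0 B S X).card : ℝ) := by
      exact_mod_cast Finset.card_biUnion_le
    have h26 : ∑ X ∈ T, ((g3LX Pl P0 B S X).card : ℝ) ≤ ∑ _X ∈ T, r ^ 520 :=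
      Finset.sum_le_sum (fun X hX => (Finset.mem_filter.1 (hTG hX)).2.2)
    rw [Finset.sum_const, nsmul_eq_mul] at h26
    have h27 : (T.card : ℝ) ≤ r ^ 5 := by
      have : (T.card : ℝ) ≤ (⌊r ^ 5⌋₊ : ℝ) := by exact_mod_cast hTk
      exact this.trans (Nat.floor_le (by positivity))
    calc ((T.biUnion (g3LX Pl P0 B S)).card : ℝ) ≤ (T.card : ℝ) * r ^ 520 := h25.trans h26
      _ ≤ r ^ 5 * r ^ 520 := mul_le_mul_of_nonneg_right h27 (by positivity)
      _ = rr q ^ 525 := by rw [← hr]; ring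
  · intro Y hY
    rw [W1, Finset.mem_filter]
    refine ⟨Finset.mem_univ _, ?_⟩
    have hne : (Pl.lns Y).Nonempty := by
      rw [← Finset.card_pos, Pl.card_lns]; omega
    obtain ⟨m0, hm0⟩ := hne
    have hYm0 : Y ∈ Pl.pts m0 := (Pl.mem_lns Y m0).1 hm0
    obtain ⟨X, hX, hXh⟩ := hall Y hY m0 hYm0
    have hYl1 : Y ∈ Pl.pts (Pl.join X Y) := Pl.join_right X Y hXh.1
    obtain ⟨X', hX', hXh'⟩ := hall Y hY (Pl.join X Y) hYl1
    have hlt : 1 < ((T.biUnion (g3LX Pl P0 B S)).filter (fun l => Y ∈ Pl.pts l)).card := by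
      rw [Finset.one_lt_card]
      refine ⟨Pl.join X Y, Finset.mem_filter.2 ⟨hline Y hY X hX hXh.1 hXh.2.1, hYl1⟩,
        Pl.join X' Y, Finset.mem_filter.2 ⟨hline Y hY X' hX' hXh'.1 hXh'.2.1,
          Pl.join_right X' Y hXh'.1⟩, ?_⟩
      intro heq
      exact hXh'.2.2 (heq ▸ Pl.join_left X' Y hXh'.1)
    exact hlt

end Crest.Agent.Ryser
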