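import Mathlib

/-! Row 34: expectations over uniform samples `κ → G` (helper47). -/

set_option autoImplicit false

open Finset

namespace Crest.Agent.Ryser

/-- expectation of `g` over a uniform sample `x : κ → G` -/
noncomputable def EE {κ G : Type} [Fintype κ] [DecidableEq κ] [Fintype G]
    (g : (κ → G) → ℝ) : ℝ :=
  (∑ x, g x) / (Fintype.card G : ℝ) ^ (Fintype.card κ)

section EE

variable {κ ι G : Type} [Fintype κ] [DecidableEq κ] [Fintype ι] [DecidableEq ι] [Fintype G]

theorem EE_const [Nonempty G] (a : ℝ) : EE (fun _ : κ → G => a) = a := by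
  unfold EE
  have h : (Fintype.card G : ℝ) ≠ 0 := by exact_mod_cast Fintype.card_ne_zero
  rw [Finset.sum_const, Finset.card_univ, Fintype.card_fun, nsmul_eq_mul]
  push_cast
  field_simp

theorem EE_add (f g : (κ → G) → ℝ) : EE (fun x => f x + g x) = EE f + EE g := by
  unfold EE
  rw [Finset.sum_add_distrib, add_div]

theorem EE_sub (f g : (κ → G) → ℝ) : EE (fun x => f x - g x) = EE f - EE g := by
  unfold EE
  rw [Finset.sum_sub_distrib, sub_div]

theorem EE_mul_left (a : ℝ) (g : (κ → G) → ℝ) : EE (fun x => a * g x) = a * EE g := by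
  unfold EE
  rw [← Finset.mul_sum, mul_div_assoc]

theorem EE_sum {τ : Type} (s : Finset τ) (g : τ → (κ → G) → ℝ) :
    EE (fun x => ∑ t ∈ s, g t x) = ∑ t ∈ s, EE (g t) := by
  unfold EE
  rw [Finset.sum_comm, Finset.sum_div]

theorem EE_mono {f g : (κ → G) → ℝ} (h : ∀ x, f x ≤ g x) : EE f ≤ EE g := by
  unfold EE
  gcongr with x
  exact h x

theorem EE_nonneg {f : (κ → G) → ℝ} (h : ∀ x, 0 ≤ f x) : 0 ≤ EE f := by
  unfold EE
  exact div_nonneg (Finset.sum_nonneg fun x _ => h x) (by positivity)

/-- first moment method -/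
theorem exists_pos_of_EE_pos {f : (κ → G) → ℝ} (h : 0 < EE f) : ∃ x, 0 < f x := by
  by_contra hcon
  push Not at hcon
  have h1 : EE f ≤ 0 := by
    unfold EE
    apply div_nonpos_of_nonpos_of_nonneg
    · exact Finset.sum_nonpos fun x _ => hcon x
    · positivity
  linarith

/-- a function of the coordinates `e i` only: marginal distribution is uniform -/
theorem EE_comp [Nonempty G] (e : ι → κ) (he : Function.Injective e) (g : (ι → G) → ℝ) :
    EE (fun x : κ → G => g (x ∘ e)) = EE g := by
  classical
  have hN : (Fintype.card G : ℝ) ≠ 0 := by exact_mod_cast Fintype.card_ne_zero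
  unfold EE
  let p : κ → Prop := fun j => j ∈ Set.range e
  let E1 := Equiv.piEquivPiSubtypeProd p (fun _ => G)
  let eι : ι ≃ {j // p j} := Equiv.ofInjective e he
  have hsum : (∑ x : κ → G, g (x ∘ e)) =
      (Fintype.card G : ℝ) ^ (Fintype.card {j // ¬ p j}) * ∑ y : ι → G, g y := by
    rw [← Equiv.sum_comp E1.symm, Fintype.sum_prod_type, Finset.sum_comm]
    have h1 : ∀ (v : (i : {x // ¬ p x}) → G), (∑ u : (i : {x // p x}) → G,
        g ((E1.symm (u, v)) ∘ e)) = ∑ y : ι → G, g y := by
      intro v
      rw [← Equiv.sum_comp (Equiv.arrowCongr eι (Equiv.refl G))]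
      refine Finset.sum_congr rfl fun y _ => ?_
      congr 1
      funext i
      have hi : p (e i) := ⟨i, rfl⟩
      simp only [Function.comp_apply, E1, Equiv.piEquivPiSubtypeProd_symm_apply]
      rw [dif_pos hi]
      simp only [Equiv.arrowCongr_apply, Equiv.coe_refl, Function.comp_apply, id]
      congr 1
      rw [Equiv.symm_apply_eq]
      rfl
    rw [Finset.sum_congr rfl fun v _ => h1 v, Finset.sum_const, Finset.card_univ,
      Fintype.card_fun, nsmul_eq_mul]
    push_cast
    rfl
  rw [hsum]
  have hcard : Fintype.card κ = Fintype.card ι + Fintype.card {j // ¬ p j} := by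
    rw [Fintype.card_congr eι, ← Fintype.card_sum]
    exact Fintype.card_congr (Equiv.sumCompl p).symm
  rw [hcard, pow_add]
  field_simp

/-- sum over `Fin 1`-samples -/
theorem EE_one_coord [Nonempty G] (a : κ) (g : G → ℝ) :
    EE (fun x : κ → G => g (x a)) = (∑ u, g u) / (Fintype.card G : ℝ) := by
  have h := EE_comp (G := G) (fun _ : Unit => a) (fun _ _ _ => rfl) (fun y => g (y ()))
  simp only [Function.comp_apply] at h
  rw [h]
  unfold EE
  rw [Fintype.card_unit, pow_one]
  congr 1
  rw [← Equiv.sum_comp (Equiv.funUnique Unit G).symm]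
  rfl

theorem EE_two_coords [Nonempty G] (a b : κ) (hab : a ≠ b) (g : G → G → ℝ) :
    EE (fun x : κ → G => g (x a) (x b)) = (∑ u, ∑ v, g u v) / (Fintype.card G : ℝ) ^ 2 := by
  have h := EE_comp (G := G) (ι := Fin 2) ![a, b] (by
    intro i j hij
    fin_cases i <;> fin_cases j <;> simp_all) (fun y => g (y 0) (y 1))
  have h2 : (fun x : κ → G => g ((x ∘ ![a, b]) 0) ((x ∘ ![a, b]) 1)) =
      fun x : κ → G => g (x a) (x b) := by
    funext x; simp
  rw [h2] at h
  rw [h]
  unfold EE
  rw [Fintype.card_fin]
  congr 1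
  rw [← Equiv.sum_comp (finTwoArrowEquiv G).symm, Fintype.sum_prod_type]
  simp [finTwoArrowEquiv]

/-- explicit equivalence for triples -/
def finThreeEquiv (G : Type) : (Fin 3 → G) ≃ G × G × G where
  toFun y := (y 0, y 1, y 2)
  invFun t := ![t.1, t.2.1, t.2.2]
  left_inv y := by
    funext i
    fin_cases i <;> rfl
  right_inv t := rfl

theorem EE_three_coords [Nonempty G] (a b c : κ) (hab : a ≠ b) (hac : a ≠ c) (hbc : b ≠ c)
    (g : G → G → G → ℝ) :
    EE (fun x : κ → G => g (x a) (x b) (x c)) =
      (∑ u, ∑ v, ∑ w, g u v w) / (Fintype.card G : ℝ) ^ 3 := by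
  have h := EE_comp (G := G) (ι := Fin 3) ![a, b, c] (by
    intro i j hij
    fin_cases i <;> fin_cases j <;> simp_all) (fun y => g (y 0) (y 1) (y 2))
  have h2 : (fun x : κ → G => g ((x ∘ ![a, b, c]) 0) ((x ∘ ![a, b, c]) 1) ((x ∘ ![a, b, c]) 2)) =
      fun x : κ → G => g (x a) (x b) (x c) := by
    funext x; simp
  rw [h2] at h
  rw [h]
  unfold EE
  rw [Fintype.card_fin]
  congr 1
  rw [← Equiv.sum_comp (finThreeEquiv G).symm, Fintype.sum_prod_type]
  refine Finset.sum_congr rfl fun u _ => ?_
  rw [Fintype.sum_prod_type]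
  rfl

/-- probability that a fixed matching of index pairs is all in `R` -/
theorem EE_matching [Nonempty G] (e : ι × Bool → κ) (he : Function.Injective e)
    (R : G → G → Prop) [DecidableRel R] :
    EE (fun x : κ → G => if ∀ i, R (x (e (i, false))) (x (e (i, true))) then (1 : ℝ) else 0) =
      (((univ.filter (fun z : G × G => R z.1 z.2)).card : ℝ) / (Fintype.card G : ℝ) ^ 2) ^
        (Fintype.card ι) := by
  classical
  have h := EE_comp (G := G) e he
    (fun y => if ∀ i, R (y (i, false)) (y (i, true)) then (1 : ℝ) else 0)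
  simp only [Function.comp_apply] at h
  rw [h]
  unfold EE
  rw [Fintype.card_prod, Fintype.card_bool, mul_comm (Fintype.card ι) 2, pow_mul]
  -- reindex
  let E2 : (ι × Bool → G) ≃ (ι → G × G) :=
    { toFun := fun y i => (y (i, false), y (i, true))
      invFun := fun z ib => if ib.2 then (z ib.1).2 else (z ib.1).1
      left_inv := by
        intro y
        funext ib
        rcases ib with ⟨i, b⟩
        cases b <;> simp
      right_inv := by
        intro z
        funext i
        simp }
  have h3 : (∑ y : ι × Bool → G, if ∀ i, R (y (i, false)) (y (i, true)) then (1 : ℝ) else 0) =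
      ((univ.filter (fun z : G × G => R z.1 z.2)).card : ℝ) ^ (Fintype.card ι) := by
    rw [← Equiv.sum_comp E2.symm]
    have h4 : ∀ z : ι → G × G, (if ∀ i, R ((E2.symm z) (i, false)) ((E2.symm z) (i, true))
        then (1 : ℝ) else 0) = if z ∈ Fintype.piFinset
          (fun _ : ι => univ.filter (fun z : G × G => R z.1 z.2)) then (1 : ℝ) else 0 := by
      intro z
      simp only [Fintype.mem_piFinset, Finset.mem_filter, Finset.mem_univ, true_and]
      rfl
    rw [Finset.sum_congr rfl fun z _ => h4 z, Finset.sum_ite_mem, Finset.univ_inter,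
      Finset.sum_const, nsmul_eq_mul, mul_one, Fintype.card_piFinset, Finset.prod_const,
      Finset.card_univ]
    push_cast
    rfl
  rw [h3, div_pow]

/-- union bound over all matchings -/
theorem EE_exists_matching [Nonempty G] (R : G → G → Prop) [DecidableRel R]
    [DecidablePred (fun x : κ → G => ∃ e : ι × Bool → κ, Function.Injective e ∧
      ∀ i, R (x (e (i, false))) (x (e (i, true))))] :
    EE (fun x : κ → G => if ∃ e : ι × Bool → κ, Function.Injective e ∧
      ∀ i, R (x (e (i, false))) (x (e (i, true))) then (1 : ℝ) else 0) ≤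
      ((Fintype.card κ : ℝ) ^ 2 * ((univ.filter (fun z : G × G => R z.1 z.2)).card : ℝ) /
        (Fintype.card G : ℝ) ^ 2) ^ (Fintype.card ι) := by
  classical
  have h1 : EE (fun x : κ → G => if ∃ e : ι × Bool → κ, Function.Injective e ∧
      ∀ i, R (x (e (i, false))) (x (e (i, true))) then (1 : ℝ) else 0) ≤
      EE (fun x : κ → G => ∑ e ∈ univ.filter (fun e : ι × Bool → κ => Function.Injective e),
        if ∀ i, R (x (e (i, false))) (x (e (i, true))) then (1 : ℝ) else 0) := by
    apply EE_mono
    intro x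
    split_ifs with hx
    · obtain ⟨e, he, hR⟩ := hx
      calc (1 : ℝ) = if ∀ i, R (x (e (i, false))) (x (e (i, true))) then (1 : ℝ) else 0 := by
            rw [if_pos hR]
        _ ≤ _ := Finset.single_le_sum (f := fun e : ι × Bool → κ =>
              if ∀ i, R (x (e (i, false))) (x (e (i, true))) then (1 : ℝ) else 0)
              (fun e _ => by positivity) (by simpa using he)
    · exact Finset.sum_nonneg fun e _ => by positivity
  refine h1.trans ?_
  rw [EE_sum]
  have h2 : ∀ e ∈ univ.filter (fun e : ι × Bool → κ => Function.Injective e),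
      EE (fun x : κ → G => if ∀ i, R (x (e (i, false))) (x (e (i, true))) then (1 : ℝ) else 0) =
      (((univ.filter (fun z : G × G => R z.1 z.2)).card : ℝ) / (Fintype.card G : ℝ) ^ 2) ^
        (Fintype.card ι) := by
    intro e he
    exact EE_matching e (by simpa using he) R
  rw [Finset.sum_congr rfl h2, Finset.sum_const, nsmul_eq_mul]
  have h3 : ((univ.filter (fun e : ι × Bool → κ => Function.Injective e)).card : ℝ) ≤
      ((Fintype.card κ : ℝ) ^ 2) ^ (Fintype.card ι) := by
    rw [← pow_mul]
    calc ((univ.filter (fun e : ι × Bool → κ => Function.Injective e)).card : ℝ)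
        ≤ ((univ : Finset (ι × Bool → κ)).card : ℝ) := by
          exact_mod_cast Finset.card_filter_le _ _
      _ = (Fintype.card κ : ℝ) ^ (2 * Fintype.card ι) := by
          rw [Finset.card_univ, Fintype.card_fun, Fintype.card_prod, Fintype.card_bool, mul_comm]
          push_cast
          rfl
  calc _ ≤ ((Fintype.card κ : ℝ) ^ 2) ^ (Fintype.card ι) *
        (((univ.filter (fun z : G × G => R z.1 z.2)).card : ℝ) / (Fintype.card G : ℝ) ^ 2) ^
        (Fintype.card ι) := by gcongr
    _ = _ := by rw [← mul_pow, mul_div_assoc]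

end EE

end Crest.Agent.Ryser
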