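import Crest.Agent.Ryser.G4a
import Crest.Agent.Ryser.Sample

/-! Row 34, chunk G4, probabilistic part (helper47). -/

set_option autoImplicit false

open Finset

namespace Crest.Agent.Ryser

namespace G4

variable {P L : Type} [Fintype P] [Fintype L] [DecidableEq P] [DecidableEq L] {q : ℕ}

variable (Pl : Plane P L q) (P0 : P) (Rs : Finset L)

/-- number of index pairs `a < b` -/
def m2 (k : ℕ) : ℕ := (univ.filter (fun ab : Fin k × Fin k => ab.1 < ab.2)).card

theorem m2_eq (k : ℕ) : 2 * m2 k + k = k ^ 2 := by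
  classical
  unfold m2
  have h1 := card_filter_add_card_filter_not (s := (univ : Finset (Fin k × Fin k)))
    (fun ab => ab.1 < ab.2)
  have h2 : (univ.filter (fun ab : Fin k × Fin k => ¬ ab.1 < ab.2)).card =
      (univ.filter (fun ab : Fin k × Fin k => ab.1 < ab.2)).card + k := by
    have h3 := card_filter_add_card_filter_not
      (s := univ.filter (fun ab : Fin k × Fin k => ¬ ab.1 < ab.2)) (fun ab => ab.2 < ab.1)
    have h4 : ((univ.filter (fun ab : Fin k × Fin k => ¬ ab.1 < ab.2)).filter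
        (fun ab => ab.2 < ab.1)).card =
        (univ.filter (fun ab : Fin k × Fin k => ab.1 < ab.2)).card := by
      refine card_bij' (fun ab _ => (ab.2, ab.1)) (fun ab _ => (ab.2, ab.1)) ?_ ?_ ?_ ?_
      · intro ab hab
        simp only [mem_filter, mem_univ, true_and] at hab ⊢
        exact hab.2
      · intro ab hab
        simp only [mem_filter, mem_univ, true_and] at hab ⊢
        exact ⟨not_lt.2 hab.le, hab⟩
      · intro ab _; rfl
      · intro ab _; rfl
    have h5 : ((univ.filter (fun ab : Fin k × Fin k => ¬ ab.1 < ab.2)).filter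
        (fun ab => ¬ ab.2 < ab.1)).card = k := by
      calc _ = (univ.image (fun a : Fin k => (a, a))).card := by
            congr 1
            ext ab
            simp only [mem_filter, mem_univ, true_and, mem_image, not_lt]
            constructor
            · rintro ⟨h1, h2⟩
              exact ⟨ab.1, Prod.ext rfl (le_antisymm h2 h1)⟩
            · rintro ⟨a, rfl⟩
              exact ⟨le_refl _, le_refl _⟩
        _ = k := by
            rw [card_image_of_injective _ (fun a b h => (Prod.ext_iff.1 h).1), card_univ,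
              Fintype.card_fin]
    omega
  rw [h2, card_univ, Fintype.card_prod, Fintype.card_fin] at h1
  nlinarith

theorem card_filter_and_eq {τ : Type} [Fintype τ] (p Q : τ → Prop) [DecidablePred p]
    [DecidablePred Q] : ((univ.filter (fun t => p t ∧ Q t)).card : ℝ) =
      ∑ t ∈ univ.filter p, if Q t then (1 : ℝ) else 0 := by
  rw [← filter_filter, card_filter]
  push_cast
  rfl

/-- sums over the subtype -/
theorem sum_pairs (Gd : Finset P) (R : P → P → Prop) [DecidableRel R] :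
    (∑ u : {X // X ∈ Gd}, ∑ v : {X // X ∈ Gd}, if R u v then (1 : ℝ) else 0) =
      (((Gd ×ˢ Gd).filter (fun xy => R xy.1 xy.2)).card : ℝ) := by
  rw [card_filter, sum_product]
  push_cast
  rw [← sum_coe_sort Gd]
  refine sum_congr rfl fun u _ => ?_
  rw [← sum_coe_sort Gd]

theorem EE_pairs (Gd : Finset P) (hne : Gd.Nonempty) (R : P → P → Prop) [DecidableRel R] (k : ℕ) :
    EE (fun x : Fin k → {X // X ∈ Gd} =>
      ((univ.filter (fun ab : Fin k × Fin k => ab.1 < ab.2 ∧ R (x ab.1) (x ab.2))).card : ℝ)) =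
      (m2 k : ℝ) * (((Gd ×ˢ Gd).filter (fun xy => R xy.1 xy.2)).card : ℝ) /
        (Gd.card : ℝ) ^ 2 := by
  classical
  have : Nonempty {X // X ∈ Gd} := hne.to_subtype
  have h1 : (fun x : Fin k → {X // X ∈ Gd} =>
      ((univ.filter (fun ab : Fin k × Fin k => ab.1 < ab.2 ∧ R (x ab.1) (x ab.2))).card : ℝ)) =
      fun x => ∑ ab ∈ univ.filter (fun ab : Fin k × Fin k => ab.1 < ab.2),
        if R (x ab.1) (x ab.2) then (1 : ℝ) else 0 := by
    funext x
    exact card_filter_and_eq (fun ab : Fin k × Fin k => ab.1 < ab.2)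
      (fun ab => R (x ab.1) (x ab.2))
  rw [h1, EE_sum]
  have h2 : ∀ ab ∈ univ.filter (fun ab : Fin k × Fin k => ab.1 < ab.2),
      EE (fun x : Fin k → {X // X ∈ Gd} => if R (x ab.1) (x ab.2) then (1 : ℝ) else 0) =
      (((Gd ×ˢ Gd).filter (fun xy => R xy.1 xy.2)).card : ℝ) / (Gd.card : ℝ) ^ 2 := by
    intro ab hab
    rw [mem_filter] at hab
    have := EE_two_coords (G := {X // X ∈ Gd}) ab.1 ab.2 (ne_of_lt hab.2)
      (fun u v => if R u v then (1 : ℝ) else 0)
    rw [this, sum_pairs, Fintype.card_coe]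
  rw [sum_congr rfl h2, sum_const, nsmul_eq_mul]
  unfold m2
  rw [mul_div_assoc]

theorem EE_triples (Gd : Finset P) (hne : Gd.Nonempty) (ρ : ℝ) (hρ0 : 0 ≤ ρ)
    (hρ : ∀ l, l ∉ Rs → ((Gd ∩ Pl.pts l).card : ℝ) ≤ ρ) (k : ℕ) :
    EE (fun x : Fin k → {X // X ∈ Gd} =>
      ((TT Pl P0 Rs (fun a => (x a : P))).card : ℝ)) ≤ (k : ℝ) ^ 3 * ρ / (Gd.card : ℝ) := by
  classical
  have : Nonempty {X // X ∈ Gd} := hne.to_subtype
  have hN : (0 : ℝ) < Gd.card := by exact_mod_cast hne.card_pos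
  have h1 : (fun x : Fin k → {X // X ∈ Gd} =>
      ((TT Pl P0 Rs (fun a => (x a : P))).card : ℝ)) =
      fun x => ∑ t ∈ univ.filter (fun t : Fin k × Fin k × Fin k =>
          t.1 < t.2.1 ∧ t.1 ≠ t.2.2 ∧ t.2.1 ≠ t.2.2),
        if (Off Pl P0 Rs (x t.1) (x t.2.1) ∧
          (x t.2.2 : P) ∈ Pl.pts (Pl.join (x t.1) (x t.2.1))) then (1 : ℝ) else 0 := by
    funext x
    exact card_filter_and_eq (fun t : Fin k × Fin k × Fin k =>
      t.1 < t.2.1 ∧ t.1 ≠ t.2.2 ∧ t.2.1 ≠ t.2.2) _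
  rw [h1, EE_sum]
  have h2 : ∀ t ∈ univ.filter (fun t : Fin k × Fin k × Fin k =>
          t.1 < t.2.1 ∧ t.1 ≠ t.2.2 ∧ t.2.1 ≠ t.2.2),
      EE (fun x : Fin k → {X // X ∈ Gd} => if (Off Pl P0 Rs (x t.1) (x t.2.1) ∧
          (x t.2.2 : P) ∈ Pl.pts (Pl.join (x t.1) (x t.2.1))) then (1 : ℝ) else 0) ≤
      ρ / (Gd.card : ℝ) := by
    intro t ht
    rw [mem_filter] at ht
    obtain ⟨-, h3, h4, h5⟩ := ht
    have := EE_three_coords (G := {X // X ∈ Gd}) t.1 t.2.1 t.2.2 (ne_of_lt h3) h4 h5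
      (fun u v w => if (Off Pl P0 Rs u v ∧ (w : P) ∈ Pl.pts (Pl.join u v)) then (1 : ℝ) else 0)
    rw [this, Fintype.card_coe]
    have h6 : ∀ u v : {X // X ∈ Gd}, (∑ w : {X // X ∈ Gd},
        if (Off Pl P0 Rs u v ∧ (w : P) ∈ Pl.pts (Pl.join u v)) then (1 : ℝ) else 0) ≤ ρ := by
      intro u v
      by_cases hoff : Off Pl P0 Rs u v
      · simp only [hoff, true_and]
        rw [sum_coe_sort Gd (fun w : P => if w ∈ Pl.pts (Pl.join (u : P) v) then (1 : ℝ) else 0),
          ← sum_filter, sum_const, nsmul_eq_mul, mul_one]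
        refine le_trans ?_ (hρ (Pl.join (u : P) v) hoff.2.1)
        rw [filter_mem_eq_inter]
      · simp only [hoff, false_and, if_false, sum_const_zero]
        exact hρ0
    have h7 : (∑ u : {X // X ∈ Gd}, ∑ v : {X // X ∈ Gd}, ∑ w : {X // X ∈ Gd},
        if (Off Pl P0 Rs u v ∧ (w : P) ∈ Pl.pts (Pl.join u v)) then (1 : ℝ) else 0) ≤
        (Gd.card : ℝ) ^ 2 * ρ := by
      calc _ ≤ ∑ u : {X // X ∈ Gd}, ∑ v : {X // X ∈ Gd}, ρ :=
            sum_le_sum fun u _ => sum_le_sum fun v _ => h6 u v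
        _ = _ := by
            simp only [sum_const, card_univ, Fintype.card_coe, nsmul_eq_mul]
            ring
    calc _ ≤ ((Gd.card : ℝ) ^ 2 * ρ) / (Gd.card : ℝ) ^ 3 := by gcongr
      _ = ρ / (Gd.card : ℝ) := by field_simp
  calc _ ≤ ∑ t ∈ univ.filter (fun t : Fin k × Fin k × Fin k =>
          t.1 < t.2.1 ∧ t.1 ≠ t.2.2 ∧ t.2.1 ≠ t.2.2), ρ / (Gd.card : ℝ) := sum_le_sum h2
    _ ≤ ∑ t : Fin k × Fin k × Fin k, ρ / (Gd.card : ℝ) := by
        apply sum_le_sum_of_subset_of_nonneg (filter_subset _ _)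
        intro _ _ _
        positivity
    _ = _ := by
        simp only [sum_const, card_univ, Fintype.card_prod, Fintype.card_fin, nsmul_eq_mul]
        push_cast
        ring

/-- few pairs are collinear with a given `Z` -/
theorem card_RZ_le (Gd : Finset P) (ρ : ℝ) (hρ0 : 0 ≤ ρ)
    (hρ : ∀ l, l ∉ Rs → ((Gd ∩ Pl.pts l).card : ℝ) ≤ ρ) (Z : P) :
    ((univ.filter (fun z : {X // X ∈ Gd} × {X // X ∈ Gd} => RZ Pl P0 Rs Z z.1 z.2)).card : ℝ) ≤
      (Gd.card : ℝ) * ρ := by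
  classical
  rw [card_filter]
  push_cast
  rw [Fintype.sum_prod_type]
  have h1 : ∀ u : {X // X ∈ Gd}, (∑ v : {X // X ∈ Gd},
      if RZ Pl P0 Rs Z u v then (1 : ℝ) else 0) ≤ ρ := by
    intro u
    rw [sum_coe_sort Gd (fun v : P => if RZ Pl P0 Rs Z u v then (1 : ℝ) else 0),
      ← sum_filter, sum_const, nsmul_eq_mul, mul_one]
    rcases (Gd.filter (fun v => RZ Pl P0 Rs Z u v)).eq_empty_or_nonempty with h | ⟨v0, hv0⟩
    · rw [h]
      simpa using hρ0
    · rw [mem_filter] at hv0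
      obtain ⟨-, hoff, hu, hv, hZ⟩ := hv0
      have hl : Pl.join (u : P) v0 = Pl.join (u : P) Z :=
        Pl.join_unique _ _ _ hu (Pl.join_left _ _ hoff.1) hZ
      have hR : Pl.join (u : P) Z ∉ Rs := by rw [← hl]; exact hoff.2.1
      refine le_trans ?_ (hρ _ hR)
      have hsub : (Gd.filter (fun v => RZ Pl P0 Rs Z u v)) ⊆ Gd ∩ Pl.pts (Pl.join (u : P) Z) := by
        intro v hv'
        rw [mem_filter] at hv'
        obtain ⟨hvG, hoff', hu', hv', hZ'⟩ := hv'
        rw [mem_inter]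
        refine ⟨hvG, ?_⟩
        have hl' : Pl.join (u : P) v = Pl.join (u : P) Z :=
          Pl.join_unique _ _ _ hu' (Pl.join_left _ _ hoff'.1) hZ'
        rw [← hl']
        exact Pl.join_right _ _ hoff'.1
      exact_mod_cast card_le_card hsub
  calc _ ≤ ∑ u : {X // X ∈ Gd}, ρ := sum_le_sum fun u _ => h1 u
    _ = _ := by
        simp only [sum_const, card_univ, Fintype.card_coe, nsmul_eq_mul]

/-- pairs joined by a line of `LL \ Rs` -/
theorem card_off_LL_le (B S Gd : Finset P) (hGS : Gd ⊆ S) (ρ : ℝ) (hρ0 : 0 ≤ ρ)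
    (hρ : ∀ l, l ∉ Rs → ((Gd ∩ Pl.pts l).card : ℝ) ≤ ρ) (D : ℝ)
    (hcov : ∀ l ∈ Pl.LL P0 B, 1 ≤ Pl.tl S l)
    (hexc : ∑ l ∈ Pl.LL P0 B, ((Pl.tl S l : ℝ) - 1) ≤ D) :
    (((Gd ×ˢ Gd).filter (fun xy => Off Pl P0 Rs xy.1 xy.2 ∧
      Pl.join xy.1 xy.2 ∈ Pl.LL P0 B)).card : ℝ) ≤ ρ * D := by
  classical
  set F := (Gd ×ˢ Gd).filter (fun xy => Off Pl P0 Rs xy.1 xy.2 ∧
      Pl.join xy.1 xy.2 ∈ Pl.LL P0 B) with hF
  have h1 : F.card = ∑ l ∈ Pl.LL P0 B, (F.filter (fun xy => Pl.join xy.1 xy.2 = l)).card := by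
    apply card_eq_sum_card_fiberwise
    intro xy hxy
    have := mem_coe.1 hxy
    rw [hF, mem_filter] at this
    exact mem_coe.2 this.2.2
  rw [h1]
  push_cast
  calc ∑ l ∈ Pl.LL P0 B, ((F.filter (fun xy => Pl.join xy.1 xy.2 = l)).card : ℝ)
      ≤ ∑ l ∈ Pl.LL P0 B, ρ * ((Pl.tl S l : ℝ) - 1) := by
        apply sum_le_sum
        intro l hl
        have ht1 : (1 : ℝ) ≤ Pl.tl S l := by exact_mod_cast hcov l hl
        rcases (F.filter (fun xy => Pl.join xy.1 xy.2 = l)).eq_empty_or_nonempty with h | hne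
        · rw [h]
          simp only [card_empty, Nat.cast_zero]
          exact mul_nonneg hρ0 (by linarith)
        · obtain ⟨xy0, hxy0⟩ := hne
          rw [mem_filter, hF, mem_filter] at hxy0
          have hlR : l ∉ Rs := by
            rw [← hxy0.2]; exact hxy0.1.2.1.2.1
          have hsub : F.filter (fun xy => Pl.join xy.1 xy.2 = l) ⊆
              (Gd ∩ Pl.pts l).offDiag := by
            intro xy hxy
            rw [mem_filter, hF, mem_filter, mem_product] at hxy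
            obtain ⟨⟨⟨hx, hy⟩, hoff, -⟩, hj⟩ := hxy
            rw [mem_offDiag, mem_inter, mem_inter]
            refine ⟨⟨hx, ?_⟩, ⟨hy, ?_⟩, hoff.1⟩
            · rw [← hj]; exact Pl.join_left _ _ hoff.1
            · rw [← hj]; exact Pl.join_right _ _ hoff.1
          have hc := card_le_card hsub
          rw [offDiag_card] at hc
          have hm : (Gd ∩ Pl.pts l).card ≤ Pl.tl S l := by
            unfold Plane.tl
            exact card_le_card (inter_subset_inter_right hGS)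
          have hm1 := hρ l hlR
          set m := (Gd ∩ Pl.pts l).card
          have hmm : m ≤ m * m := by
            rcases Nat.eq_zero_or_pos m with h | h
            · rw [h]
            · exact Nat.le_mul_of_pos_left m h
          have hc' : (((F.filter (fun xy => Pl.join xy.1 xy.2 = l)).card : ℕ) : ℝ) ≤
              (m : ℝ) * m - m := by
            have : (((m * m - m : ℕ)) : ℝ) = (m : ℝ) * m - m := by
              rw [Nat.cast_sub hmm]; push_cast; ring
            rw [← this]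
            exact_mod_cast hc
          have hm' : (m : ℝ) ≤ Pl.tl S l := by exact_mod_cast hm
          have hm0 : (0 : ℝ) ≤ m := by positivity
          calc _ ≤ (m : ℝ) * m - m := hc'
            _ = (m : ℝ) * ((m : ℝ) - 1) := by ring
            _ ≤ (m : ℝ) * ((Pl.tl S l : ℝ) - 1) := by gcongr
            _ ≤ ρ * ((Pl.tl S l : ℝ) - 1) := by
              apply mul_le_mul_of_nonneg_right hm1 (by linarith)
    _ = ρ * ∑ l ∈ Pl.LL P0 B, ((Pl.tl S l : ℝ) - 1) := by rw [mul_sum]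
    _ ≤ ρ * D := by gcongr

/-- probability of bad concurrency -/
theorem EE_bad_le (Gd : Finset P) (hne : Gd.Nonempty) (ρ : ℝ) (hρ0 : 0 ≤ ρ)
    (hρ : ∀ l, l ∉ Rs → ((Gd ∩ Pl.pts l).card : ℝ) ≤ ρ) (k m : ℕ)
    [DecidablePred (fun x : Fin k → {X // X ∈ Gd} =>
      ∃ Z, ∃ e : Fin m × Bool → Fin k, Function.Injective e ∧
      ∀ i, RZ Pl P0 Rs Z (x (e (i, false))) (x (e (i, true))))] :
    EE (fun x : Fin k → {X // X ∈ Gd} =>
      if ∃ Z, ∃ e : Fin m × Bool → Fin k, Function.Injective e ∧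
        ∀ i, RZ Pl P0 Rs Z (x (e (i, false))) (x (e (i, true))) then (1 : ℝ) else 0) ≤
      (Fintype.card P : ℝ) * ((k : ℝ) ^ 2 * ρ / (Gd.card : ℝ)) ^ m := by
  classical
  have : Nonempty {X // X ∈ Gd} := hne.to_subtype
  have hN : (0 : ℝ) < Gd.card := by exact_mod_cast hne.card_pos
  have h1 : EE (fun x : Fin k → {X // X ∈ Gd} =>
      if ∃ Z, ∃ e : Fin m × Bool → Fin k, Function.Injective e ∧
        ∀ i, RZ Pl P0 Rs Z (x (e (i, false))) (x (e (i, true))) then (1 : ℝ) else 0) ≤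
      EE (fun x : Fin k → {X // X ∈ Gd} => ∑ Z : P,
        if ∃ e : Fin m × Bool → Fin k, Function.Injective e ∧
        ∀ i, RZ Pl P0 Rs Z (x (e (i, false))) (x (e (i, true))) then (1 : ℝ) else 0) := by
    apply EE_mono
    intro x
    split_ifs with hx
    · obtain ⟨Z, hZ⟩ := hx
      calc (1 : ℝ) = if ∃ e : Fin m × Bool → Fin k, Function.Injective e ∧
            ∀ i, RZ Pl P0 Rs Z (x (e (i, false))) (x (e (i, true))) then (1 : ℝ) else 0 := by
            rw [if_pos hZ]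
        _ ≤ _ := Finset.single_le_sum (f := fun Z : P =>
            if ∃ e : Fin m × Bool → Fin k, Function.Injective e ∧
            ∀ i, RZ Pl P0 Rs Z (x (e (i, false))) (x (e (i, true))) then (1 : ℝ) else 0)
              (fun e _ => by positivity) (mem_univ Z)
    · exact Finset.sum_nonneg fun e _ => by positivity
  refine h1.trans ?_
  rw [EE_sum]
  calc _ ≤ ∑ Z : P, ((k : ℝ) ^ 2 * ρ / (Gd.card : ℝ)) ^ m := by
        apply sum_le_sum
        intro Z _
        have h2 := EE_exists_matching (κ := Fin k) (ι := Fin m) (G := {X // X ∈ Gd})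
          (fun u v => RZ Pl P0 Rs Z u v)
        refine h2.trans ?_
        rw [Fintype.card_fin, Fintype.card_fin, Fintype.card_coe]
        have h3 := card_RZ_le Pl P0 Rs Gd ρ hρ0 hρ Z
        apply pow_le_pow_left₀ (by positivity)
        calc _ ≤ (k : ℝ) ^ 2 * ((Gd.card : ℝ) * ρ) / (Gd.card : ℝ) ^ 2 := by gcongr
          _ = _ := by field_simp
    _ = _ := by
        rw [sum_const, card_univ, nsmul_eq_mul]

/-- existence of a good sample -/
theorem exists_sample (B S Gd : Finset P) (hne : Gd.Nonempty) (hGS : Gd ⊆ S) (ρ : ℝ)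
    (hρ0 : 0 ≤ ρ) (hρ : ∀ l, l ∉ Rs → ((Gd ∩ Pl.pts l).card : ℝ) ≤ ρ) (D : ℝ)
    (hcov : ∀ l ∈ Pl.LL P0 B, 1 ≤ Pl.tl S l)
    (hexc : ∑ l ∈ Pl.LL P0 B, ((Pl.tl S l : ℝ) - 1) ≤ D) (c v : ℝ) (hc : 0 < c) (hv : 0 ≤ v)
    (k : ℕ)
    (hmain : 0 < c * ((m2 k : ℝ) * (((Gd ×ˢ Gd).filter
        (fun xy => Off Pl P0 Rs xy.1 xy.2)).card : ℝ) / (Gd.card : ℝ) ^ 2)
      - c * ((k : ℝ) ^ 3 * ρ / (Gd.card : ℝ))
      - (k : ℝ) ^ 2 * (ρ * D) / (Gd.card : ℝ) ^ 2 - c * v
      - c * (k : ℝ) ^ 2 * ((Fintype.card P : ℝ) * ((k : ℝ) ^ 2 * ρ / (Gd.card : ℝ)) ^ 102)) :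
    ∃ x : Fin k → {X // X ∈ Gd},
      (∀ Z, ¬ ∃ e : Fin 102 × Bool → Fin k, Function.Injective e ∧
        ∀ i, RZ Pl P0 Rs Z (x (e (i, false))) (x (e (i, true)))) ∧
      v + ((TT Pl P0 Rs (fun a => (x a : P))).card : ℝ) ≤
        ((DD Pl P0 Rs (fun a => (x a : P))).card : ℝ) ∧
      ((AA Pl P0 Rs (Pl.LL P0 B) (fun a => (x a : P))).card : ℝ) <
        c * (((DD Pl P0 Rs (fun a => (x a : P))).card : ℝ) -
          ((TT Pl P0 Rs (fun a => (x a : P))).card : ℝ)) := by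
  classical
  have : Nonempty {X // X ∈ Gd} := hne.to_subtype
  have hN : (0 : ℝ) < Gd.card := by exact_mod_cast hne.card_pos
  let Bad : (Fin k → {X // X ∈ Gd}) → Prop := fun x =>
    ∃ Z, ∃ e : Fin 102 × Bool → Fin k, Function.Injective e ∧
        ∀ i, RZ Pl P0 Rs Z (x (e (i, false))) (x (e (i, true)))
  let fD : (Fin k → {X // X ∈ Gd}) → ℝ := fun x =>
    ((DD Pl P0 Rs (fun a => (x a : P))).card : ℝ)
  let fT : (Fin k → {X // X ∈ Gd}) → ℝ := fun x =>
    ((TT Pl P0 Rs (fun a => (x a : P))).card : ℝ)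
  let fA : (Fin k → {X // X ∈ Gd}) → ℝ := fun x =>
    ((AA Pl P0 Rs (Pl.LL P0 B) (fun a => (x a : P))).card : ℝ)
  let F : (Fin k → {X // X ∈ Gd}) → ℝ := fun x =>
    c * fD x - c * fT x - fA x - c * v - (c * (k : ℝ) ^ 2) * (if Bad x then 1 else 0)
  have hED : EE fD = (m2 k : ℝ) * (((Gd ×ˢ Gd).filter
        (fun xy => Off Pl P0 Rs xy.1 xy.2)).card : ℝ) / (Gd.card : ℝ) ^ 2 :=
    EE_pairs Gd hne (fun X Y => Off Pl P0 Rs X Y) k
  have hET : EE fT ≤ (k : ℝ) ^ 3 * ρ / (Gd.card : ℝ) := EE_triples Pl P0 Rs Gd hne ρ hρ0 hρ k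
  have hEA : EE fA ≤ (k : ℝ) ^ 2 * (ρ * D) / (Gd.card : ℝ) ^ 2 := by
    have h1 : EE fA = (m2 k : ℝ) * (((Gd ×ˢ Gd).filter (fun xy => Off Pl P0 Rs xy.1 xy.2 ∧
        Pl.join xy.1 xy.2 ∈ Pl.LL P0 B)).card : ℝ) / (Gd.card : ℝ) ^ 2 :=
      EE_pairs Gd hne (fun X Y => Off Pl P0 Rs X Y ∧ Pl.join X Y ∈ Pl.LL P0 B) k
    have h2 := card_off_LL_le Pl P0 Rs B S Gd hGS ρ hρ0 hρ D hcov hexc
    have h3 : (m2 k : ℝ) ≤ (k : ℝ) ^ 2 := by
      have := m2_eq k
      have h4 : m2 k ≤ k ^ 2 := by omega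
      exact_mod_cast h4
    rw [h1]
    gcongr
  have hEB : EE (fun x => if Bad x then (1 : ℝ) else 0) ≤
      (Fintype.card P : ℝ) * ((k : ℝ) ^ 2 * ρ / (Gd.card : ℝ)) ^ 102 :=
    EE_bad_le Pl P0 Rs Gd hne ρ hρ0 hρ k 102
  have hEF : 0 < EE F := by
    have h1 : EE F = c * EE fD - c * EE fT - EE fA - c * v -
        (c * (k : ℝ) ^ 2) * EE (fun x => if Bad x then (1 : ℝ) else 0) := by
      show EE (fun x => c * fD x - c * fT x - fA x - c * v -
        (c * (k : ℝ) ^ 2) * (if Bad x then 1 else 0)) = _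
      rw [EE_sub (fun x => c * fD x - c * fT x - fA x - c * v), EE_mul_left,
        EE_sub (fun x => c * fD x - c * fT x - fA x), EE_const,
        EE_sub (fun x => c * fD x - c * fT x), EE_sub (fun x => c * fD x), EE_mul_left,
        EE_mul_left]
    rw [h1, hED]
    have h2 : c * EE fT ≤ c * ((k : ℝ) ^ 3 * ρ / (Gd.card : ℝ)) := by gcongr
    have h3 : (c * (k : ℝ) ^ 2) * EE (fun x => if Bad x then (1 : ℝ) else 0) ≤
        c * (k : ℝ) ^ 2 * ((Fintype.card P : ℝ) * ((k : ℝ) ^ 2 * ρ / (Gd.card : ℝ)) ^ 102) := by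
      gcongr
    linarith
  obtain ⟨x, hx⟩ := exists_pos_of_EE_pos hEF
  have hDk : fD x ≤ (k : ℝ) ^ 2 := by
    have h1 : (DD Pl P0 Rs (fun a => (x a : P))).card ≤ k ^ 2 := by
      calc _ ≤ (univ : Finset (Fin k × Fin k)).card := card_filter_le _ _
        _ = k ^ 2 := by rw [card_univ, Fintype.card_prod, Fintype.card_fin, sq]
    show ((DD Pl P0 Rs (fun a => (x a : P))).card : ℝ) ≤ (k : ℝ) ^ 2
    exact_mod_cast h1
  have hT0 : 0 ≤ fT x := by positivity
  have hA0 : 0 ≤ fA x := by positivity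
  have hFx : F x = c * fD x - c * fT x - fA x - c * v -
    (c * (k : ℝ) ^ 2) * (if Bad x then 1 else 0) := rfl
  have hnb : ¬ Bad x := by
    intro hb
    rw [hFx, if_pos hb] at hx
    have h1 : c * fD x ≤ c * (k : ℝ) ^ 2 := by gcongr
    have h2 : 0 ≤ c * fT x := by positivity
    have h3 : 0 ≤ c * v := by positivity
    linarith
  rw [hFx, if_neg hnb] at hx
  refine ⟨x, ?_, ?_, ?_⟩
  · intro Z hZ
    exact hnb ⟨Z, hZ⟩
  · have h1 : 0 < c * (fD x - fT x - v) := by nlinarith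
    have h2 : 0 < fD x - fT x - v := by
      by_contra hcon
      push Not at hcon
      have := mul_nonpos_of_nonneg_of_nonpos hc.le hcon
      linarith
    show v + fT x ≤ fD x
    linarith
  · show fA x < c * (fD x - fT x)
    have h3 : 0 ≤ c * v := by positivity
    nlinarith

end G4

end Crest.Agent.Ryser
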