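import Crest.Agent.Ryser.GDefs
import Crest.Agent.Ryser.RR
import Crest.Agent.Ryser.G4b

/-! Row 34, chunk G4: step 4 of the global theorem (sampling, test class F4). -/

set_option autoImplicit false

open Finset

namespace Crest.Agent.Ryser

/-- asymptotics for step 4 -/
theorem G4.asymp (c : ℝ) (hc : 0 < c) : ∃ q0 : ℕ, ∀ (q : ℕ), q0 ≤ q →
    1 ≤ rr q ∧ rr q ^ 985 ≤ (q : ℝ) / 2 ∧
    ∀ (N m2k pr cP : ℝ), (q : ℝ) / 2 ≤ N → N ≤ q → 2 * m2k + (k4 q : ℝ) = (k4 q : ℝ) ^ 2 →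
      rr q ^ 1989 < pr → 0 ≤ cP → cP ≤ 3 * (q : ℝ) ^ 2 →
      0 < c * (m2k * pr / N ^ 2) - c * ((k4 q : ℝ) ^ 3 * rr q ^ 440 / N)
        - (k4 q : ℝ) ^ 2 * (rr q ^ 440 * rr q ^ 1504) / N ^ 2 - c * rr q ^ 528
        - c * (k4 q : ℝ) ^ 2 * (cP * ((k4 q : ℝ) ^ 2 * rr q ^ 440 / N) ^ 102) := by
  obtain ⟨q1, h1⟩ := rr_large 2
  obtain ⟨q2, h2⟩ := rr_pow_le (128 * 2) 250 529 (by norm_num)
  obtain ⟨q3, h3⟩ := rr_pow_le (128 * 4 / c) 484 529 (by norm_num)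
  obtain ⟨q4, h4⟩ := rr_pow_le 128 528 529 (by norm_num)
  obtain ⟨q5, h5⟩ := rr_pow_le (128 * 3 * 2 ^ 102) 500 529 (by norm_num)
  obtain ⟨q6, h6⟩ := rr_pow_le 2 985 1000 (by norm_num)
  refine ⟨q1 + q2 + q3 + q4 + q5 + q6, ?_⟩
  intro q hq
  have hr2 := h1 q (by omega)
  have e2 := h2 q (by omega)
  have e3 := h3 q (by omega)
  have e4 := h4 q (by omega)
  have e5 := h5 q (by omega)
  have e6 := h6 q (by omega)
  have hq' : rr q ^ 1000 = (q : ℝ) := rr_pow q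
  set r := rr q with hr
  have hr1 : 1 ≤ r := by linarith
  have hr0 : 0 < r := by linarith
  refine ⟨hr1, by rw [← hq']; linarith, ?_⟩
  intro N m2k pr cP hN1 hN2 hm2 hpr hcP0 hcP
  have hkle : (k4 q : ℝ) ≤ r ^ 270 := by
    unfold k4
    exact Nat.floor_le (by positivity)
  have hkge : r ^ 270 / 2 ≤ (k4 q : ℝ) := by
    have h7 : r ^ 270 < (k4 q : ℝ) + 1 := by
      unfold k4
      exact Nat.lt_floor_add_one _
    have h8 : (2 : ℝ) ≤ r ^ 270 := by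
      calc (2 : ℝ) ≤ r := hr2
        _ = r ^ 1 := by ring
        _ ≤ r ^ 270 := pow_le_pow_right₀ hr1 (by norm_num)
    linarith
  set k : ℝ := (k4 q : ℝ) with hk
  have hk0 : 0 ≤ k := by positivity
  have hk2 : 2 ≤ k := by
    have h8 : (4 : ℝ) ≤ r ^ 270 := by
      calc (4 : ℝ) = 2 ^ 2 := by norm_num
        _ ≤ r ^ 2 := by gcongr
        _ ≤ r ^ 270 := pow_le_pow_right₀ hr1 (by norm_num)
    linarith
  have hm2ge : r ^ 540 / 16 ≤ m2k := by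
    have h9 : k ^ 2 / 4 ≤ m2k := by nlinarith
    have h10 : r ^ 540 / 4 ≤ k ^ 2 := by
      calc r ^ 540 / 4 = (r ^ 270 / 2) ^ 2 := by ring
        _ ≤ k ^ 2 := by gcongr
    linarith
  have hqpos : (0 : ℝ) < q := by rw [← hq']; positivity
  have hN0 : 0 < N := by linarith
  have hpr0 : 0 < pr := lt_trans (by positivity) hpr
  have hm20 : 0 ≤ m2k := le_trans (by positivity) hm2ge
  -- main term
  have t1 : r ^ 529 / 16 ≤ m2k * pr / N ^ 2 := by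
    rw [le_div_iff₀ (by positivity)]
    calc r ^ 529 / 16 * N ^ 2 ≤ r ^ 529 / 16 * (q : ℝ) ^ 2 := by gcongr
      _ = (r ^ 540 / 16) * r ^ 1989 := by rw [← hq']; ring
      _ ≤ m2k * pr := by gcongr
  have t2 : k ^ 3 * r ^ 440 / N ≤ 2 * r ^ 250 := by
    rw [div_le_iff₀ hN0]
    calc k ^ 3 * r ^ 440 ≤ (r ^ 270) ^ 3 * r ^ 440 := by gcongr
      _ = 2 * r ^ 250 * ((q : ℝ) / 2) := by rw [← hq']; ring
      _ ≤ 2 * r ^ 250 * N := by gcongr
  have t3 : k ^ 2 * (r ^ 440 * r ^ 1504) / N ^ 2 ≤ 4 * r ^ 484 := by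
    rw [div_le_iff₀ (by positivity)]
    calc k ^ 2 * (r ^ 440 * r ^ 1504) ≤ (r ^ 270) ^ 2 * (r ^ 440 * r ^ 1504) := by gcongr
      _ = 4 * r ^ 484 * ((q : ℝ) / 2) ^ 2 := by rw [← hq']; ring
      _ ≤ 4 * r ^ 484 * N ^ 2 := by gcongr
  have t4 : k ^ 2 * (cP * (k ^ 2 * r ^ 440 / N) ^ 102) ≤ 3 * 2 ^ 102 * r ^ 500 := by
    have h11 : k ^ 2 * r ^ 440 / N ≤ 2 / r ^ 20 := by
      rw [div_le_div_iff₀ hN0 (by positivity)]
      calc k ^ 2 * r ^ 440 * r ^ 20 ≤ (r ^ 270) ^ 2 * r ^ 440 * r ^ 20 := by gcongr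
        _ = 2 * ((q : ℝ) / 2) := by rw [← hq']; ring
        _ ≤ 2 * N := by gcongr
    calc k ^ 2 * (cP * (k ^ 2 * r ^ 440 / N) ^ 102)
        ≤ (r ^ 270) ^ 2 * ((3 * (q : ℝ) ^ 2) * (2 / r ^ 20) ^ 102) := by gcongr
      _ = 3 * 2 ^ 102 * r ^ 500 := by
          rw [← hq', div_pow]
          field_simp
  have hr529 : 0 < r ^ 529 := by positivity
  have u3 : 4 * r ^ 484 ≤ c * (r ^ 529 / 128) := by
    have h12 : 128 * 4 / c * r ^ 484 * c ≤ r ^ 529 * c := by gcongr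
    have h13 : 128 * 4 / c * r ^ 484 * c = 128 * (4 * r ^ 484) := by field_simp
    rw [h13] at h12
    linarith
  have u1 : c * (r ^ 529 / 16) ≤ c * (m2k * pr / N ^ 2) := by gcongr
  have u2 : c * (k ^ 3 * r ^ 440 / N) ≤ c * (r ^ 529 / 128) := by
    apply mul_le_mul_of_nonneg_left _ hc.le
    linarith
  have u4 : c * r ^ 528 ≤ c * (r ^ 529 / 128) := by
    apply mul_le_mul_of_nonneg_left _ hc.le
    linarith
  have u5 : c * (k ^ 2 * (cP * (k ^ 2 * r ^ 440 / N) ^ 102)) ≤ c * (r ^ 529 / 128) := by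
    apply mul_le_mul_of_nonneg_left _ hc.le
    linarith
  have hpos : 0 < c * (r ^ 529 / 128) := by positivity
  have e : c * k ^ 2 * (cP * (k ^ 2 * r ^ 440 / N) ^ 102) =
      c * (k ^ 2 * (cP * (k ^ 2 * r ^ 440 / N) ^ 102)) := by ring
  rw [e]
  have e' : c * (r ^ 529 / 16) = 8 * (c * (r ^ 529 / 128)) := by ring
  linarith

/-- G4. Suppose more than r^1989 such pairs.  Sample `k = k4 q = ⌊r^270⌋` points of Gd independently uniformly.
A := #{a<b : (x_a,x_b) such a pair}, E A ≥ k²/3 r^(-11); C3 := #{a<b<c distinct points on a common line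
∉ RL}, E C3 ≤ k³ r^440/q; AL := #{a<b : such a pair, line in LL}: a line l ∈ LL \ RL has < r^440 points
of Gd ⊆ W1, so ordered such pairs ≤ r^440 ∑_{LL}(tl-1) ≤ r^1944, E AL ≤ k² r^1944/|Gd|² ; repeated points:
prob ≤ k²/|Gd|; for a point Z not in the sample, 102 disjoint index pairs collinear with Z (on lines ∉ RL):
pairs collinear with Z number ≤ |Gd| r^440, so prob ≤ (q²+q+1)(k² r^440/|Gd|)^102 ≪ 1.  The number of lines
in J is ≥ A - 2 C3.  E[(c (A - 2 C3) - AL - c r^528) 1_good] > 0 gives a sample with ok test but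
|J ∩ LL| ≤ AL < c |J|, contradicting Rich (Y0 = sample is disjoint from B). -/
theorem step4 (c : ℝ) (hc : 0 < c) :
    ∃ q0 : ℕ, ∀ (q : ℕ), q0 ≤ q → ∀ (P L : Type) [Fintype P] [Fintype L] [DecidableEq P]
      [DecidableEq L] (Pl : Plane P L q) (P0 : P) (B S Gd : Finset P) (𝓛 : Finset L),
      (∀ (𝓛 : Finset L) (x : Fin (k4 q) → P), okF4 Pl P0 𝓛 x →
        (testF4 Pl P0 𝓛 x).Rich Pl B c) →
      Cov Pl P0 B S → Str3 Pl S Gd 𝓛 →
      (pairsOff Pl P0 𝓛 Gd : ℝ) ≤ rr q ^ 1989 := by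
  obtain ⟨q0, hq0⟩ := G4.asymp c hc
  refine ⟨q0 + 1, ?_⟩
  intro q hq P L _ _ _ _ Pl P0 B S Gd 𝓛 hrich hcov hstr
  obtain ⟨hr1, hr985, hmain⟩ := hq0 q (by omega)
  by_contra hcon
  push Not at hcon
  have hqpos : (0 : ℝ) < q := by
    have : 0 < q := by omega
    exact_mod_cast this
  have hGc : (Gd.card : ℝ) ≤ q := by
    have := card_le_card hstr.sub
    rw [hcov.card] at this
    exact_mod_cast this
  have hGc2 : (q : ℝ) / 2 ≤ (Gd.card : ℝ) := by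
    have h1 := card_sdiff_add_card_eq_card hstr.sub
    rw [hcov.card] at h1
    have h2 : ((S \ Gd).card : ℝ) + (Gd.card : ℝ) = (q : ℝ) := by exact_mod_cast h1
    have h3 := hstr.card_diff
    linarith
  have hne : Gd.Nonempty := by
    rw [← card_pos]
    have : (0 : ℝ) < Gd.card := by linarith
    exact_mod_cast this
  have hρ : ∀ l, l ∉ RL Pl 𝓛 → ((Gd ∩ Pl.pts l).card : ℝ) ≤ rr q ^ 440 := by
    intro l hl
    unfold RL at hl
    rw [mem_filter] at hl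
    simp only [mem_univ, true_and, not_le] at hl
    refine le_trans ?_ hl.le
    exact_mod_cast card_le_card (inter_subset_inter_right hstr.sub_W)
  have hpairs : (pairsOff Pl P0 𝓛 Gd : ℝ) = (((Gd ×ˢ Gd).filter
      (fun xy => G4.Off Pl P0 (RL Pl 𝓛) xy.1 xy.2)).card : ℝ) := by
    unfold pairsOff G4.Off
    norm_cast
  have hm2 : 2 * (G4.m2 (k4 q) : ℝ) + (k4 q : ℝ) = (k4 q : ℝ) ^ 2 := by
    exact_mod_cast G4.m2_eq (k4 q)
  have hP : (Fintype.card P : ℝ) ≤ 3 * (q : ℝ) ^ 2 := by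
    rw [Pl.card_P]
    push_cast
    have h1 : (1 : ℝ) ≤ q := by
      have : 1 ≤ q := by omega
      exact_mod_cast this
    nlinarith
  rw [hpairs] at hcon
  obtain ⟨x, hx1, hx2, hx3⟩ := G4.exists_sample Pl P0 (RL Pl 𝓛) B S Gd hne hstr.sub
    (rr q ^ 440) (by positivity) hρ (rr q ^ 1504) hcov.cover hcov.exc c (rr q ^ 528) hc
    (by positivity) (k4 q)
    (hmain (Gd.card : ℝ) (G4.m2 (k4 q) : ℝ) _ (Fintype.card P : ℝ) hGc2 hGc hm2 hcon
      (by positivity) hP)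
  have hDD : ((G4.DD Pl P0 (RL Pl 𝓛) (fun a => (x a : P))).card : ℝ) ≤
      ((G4.JJ Pl P0 (RL Pl 𝓛) (fun a => (x a : P))).card : ℝ) +
        ((G4.TT Pl P0 (RL Pl 𝓛) (fun a => (x a : P))).card : ℝ) := by
    exact_mod_cast G4.card_DD_le Pl P0 (RL Pl 𝓛) (fun a => (x a : P))
  have hJge : rr q ^ 528 ≤ ((G4.JJ Pl P0 (RL Pl 𝓛) (fun a => (x a : P))).card : ℝ) := by
    linarith
  have hfin := G4.good_sample Pl P0 𝓛 B c (fun a => (x a : P))
    (fun a => (hcov.off _ (hstr.sub (x a).2)).1) hx1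
    (fun hval => hrich 𝓛 (fun a => (x a : P)) ⟨hstr.card_L, hval, hJge⟩)
  have h5 : c * (((G4.DD Pl P0 (RL Pl 𝓛) (fun a => (x a : P))).card : ℝ) -
      ((G4.TT Pl P0 (RL Pl 𝓛) (fun a => (x a : P))).card : ℝ)) ≤
      c * ((G4.JJ Pl P0 (RL Pl 𝓛) (fun a => (x a : P))).card : ℝ) := by
    apply mul_le_mul_of_nonneg_left _ hc.le
    linarith
  linarith

end Crest.Agent.Ryser
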