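import Crest.Agent.Ryser.GDefs
import Crest.Agent.Ryser.RR

/-! Row 34, chunk G5: step 5 of the global theorem (few missing lines). -/

set_option autoImplicit false

open Finset

namespace Crest.Agent.Ryser

section G5aux

variable {P L : Type} [Fintype P] [Fintype L] [DecidableEq P] [DecidableEq L] {q : ℕ}

theorem G5_pairs_sum (Pl : Plane P L q) (T : Finset P) (M : Finset L) :
    ∑ l ∈ M, (T ∩ Pl.pts l).offDiag.card =
      (T.offDiag.filter (fun xy => Pl.join xy.1 xy.2 ∈ M)).card := by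
  rw [Finset.card_eq_sum_card_fiberwise (f := fun xy : P × P => Pl.join xy.1 xy.2) (t := M)
    (s := T.offDiag.filter (fun xy => Pl.join xy.1 xy.2 ∈ M))
    (fun xy hxy => (Finset.mem_filter.1 hxy).2)]
  refine Finset.sum_congr rfl (fun l hl => ?_)
  congr 1
  ext xy
  simp only [Finset.mem_offDiag, Finset.mem_inter, Finset.mem_filter]
  constructor
  · rintro ⟨⟨h1, h2⟩, ⟨h3, h4⟩, h5⟩
    have hj := Pl.join_unique _ _ l h5 h2 h4
    exact ⟨⟨⟨h1, h3, h5⟩, hj ▸ hl⟩, hj.symm⟩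
  · rintro ⟨⟨⟨h1, h3, h5⟩, _⟩, hj⟩
    refine ⟨⟨h1, ?_⟩, ⟨h3, ?_⟩, h5⟩
    · rw [← hj]; exact Pl.join_left _ _ h5
    · rw [← hj]; exact Pl.join_right _ _ h5

theorem G5_sum_tl (Pl : Plane P L q) (S : Finset P) (M : Finset L) :
    ∑ l ∈ M, Pl.tl S l = ∑ x ∈ S, (M.filter (fun l => x ∈ Pl.pts l)).card := by
  have h1 : ∀ l ∈ M, Pl.tl S l = ∑ x ∈ S, if x ∈ Pl.pts l then 1 else 0 := by
    intro l _
    rw [Plane.tl, ← Finset.filter_mem_eq_inter, Finset.card_filter]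
  rw [Finset.sum_congr rfl h1, Finset.sum_comm]
  refine Finset.sum_congr rfl (fun x _ => ?_)
  rw [Finset.card_filter]

theorem G5_sum_tl_univ (Pl : Plane P L q) (S : Finset P) :
    ∑ l, Pl.tl S l = S.card * (q + 1) := by
  rw [G5_sum_tl]
  have : ∀ x ∈ S, ((univ : Finset L).filter (fun l => x ∈ Pl.pts l)).card = q + 1 := by
    intro x _
    rw [← Pl.card_lns x]
    congr 1
    ext l
    simp [Pl.mem_lns]
  rw [Finset.sum_congr rfl this]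
  simp

theorem G5_mis_eq (Pl : Plane P L q) (S : Finset P) (hS : S.card = q) :
    Pl.mis S = 1 + ∑ l, (Pl.tl S l - 1) := by
  have h1 : ∑ l : L, ((Pl.tl S l - 1) + 1) = ∑ l : L, (Pl.tl S l + if Pl.tl S l = 0 then 1 else 0) := by
    refine Finset.sum_congr rfl (fun l _ => ?_)
    split_ifs with h
    · rw [h]
    · omega
  rw [Finset.sum_add_distrib, Finset.sum_add_distrib, G5_sum_tl_univ, ← Finset.card_filter] at h1
  simp only [Finset.sum_const, Finset.card_univ, smul_eq_mul, mul_one, Pl.card_L, hS] at h1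
  unfold Plane.mis
  have : q * (q + 1) = q ^ 2 + q := by ring
  omega

theorem G5_offDiag_real (T : Finset P) :
    ((T.offDiag.card : ℕ) : ℝ) = (T.card : ℝ) * ((T.card : ℝ) - 1) := by
  rw [Finset.offDiag_card, Nat.cast_sub (Nat.le_mul_self _)]
  push_cast
  ring

theorem G5_pos_le (T : Finset P) : T.card - 1 ≤ T.offDiag.card := by
  rw [Finset.offDiag_card]
  rcases Nat.eq_zero_or_pos T.card with h | h
  · rw [h]
  · have : T.card * T.card - T.card = T.card * (T.card - 1) := by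
      rw [Nat.mul_sub, mul_one]
    rw [this]
    exact Nat.le_mul_of_pos_left _ h

theorem G5_W1_card (Pl : Plane P L q) (𝓛 : Finset L) : (W1 Pl 𝓛).card ≤ 𝓛.card ^ 2 := by
  have hsub : W1 Pl 𝓛 ⊆ (𝓛 ×ˢ 𝓛).image (fun x => Pl.meet x.1 x.2) := by
    intro Y hY
    have h2 := (Finset.mem_filter.1 hY).2
    obtain ⟨l, hl, l', hl', hne⟩ := Finset.one_lt_card.1 (lt_of_lt_of_le one_lt_two h2)
    rw [Finset.mem_filter] at hl hl'
    rw [Finset.mem_image]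
    exact ⟨(l, l'), Finset.mem_product.2 ⟨hl.1, hl'.1⟩, (Pl.meet_unique l l' Y hne hl.2 hl'.2).symm⟩
  refine (Finset.card_le_card hsub).trans (Finset.card_image_le.trans ?_)
  rw [Finset.card_product, sq]

end G5aux

/-- G5a. `mis S - 1 = ∑_l (tl S l - 1)^+` (since ∑ tl = q(q+1), #lines = q²+q+1).  Lines through P0
contribute ≤ q; lines in RL contribute ≤ |RL| r^505 with |RL| ≤ 2 |W1|²/r^880, |W1| ≤ |𝓛|²;
the other lines contribute at most the number of pairs {x,y} of S on them: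
≤ pairsOff + |S \ Gd| q. -/
theorem step5_upper :
    ∃ q0 : ℕ, ∀ (q : ℕ), q0 ≤ q → ∀ (P L : Type) [Fintype P] [Fintype L] [DecidableEq P]
      [DecidableEq L] (Pl : Plane P L q) (P0 : P) (S Gd : Finset P) (𝓛 : Finset L),
      S.card = q → P0 ∉ S → (∀ l, (Pl.tl S l : ℝ) ≤ rr q ^ 505) → Str3 Pl S Gd 𝓛 →
      (pairsOff Pl P0 𝓛 Gd : ℝ) ≤ rr q ^ 1989 →
      (Pl.mis S : ℝ) ≤ rr q ^ 1990 := by
  obtain ⟨q0, hq0⟩ := rr_large 10
  refine ⟨q0, ?_⟩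
  intro q hq P L _ _ _ _ Pl P0 S Gd 𝓛 hS hP0 htl hstr hpairs
  classical
  have hr := hq0 q hq
  set r := rr q with hrdef
  have hr0 : 0 ≤ r := by linarith
  have hr1 : 1 ≤ r := by linarith
  have hqr : r ^ 1000 = (q : ℝ) := rr_pow q
  have hpm : ∀ {m n : ℕ}, m ≤ n → r ^ m ≤ r ^ n := fun h => pow_le_pow_right₀ hr1 h
  -- the three classes of lines
  set A : Finset L := univ.filter (fun l => P0 ∈ Pl.pts l) with hA
  set B : Finset L := RL Pl 𝓛 with hB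
  set Cc : Finset L := univ.filter (fun l => l ∉ RL Pl 𝓛 ∧ P0 ∉ Pl.pts l) with hC
  have hcover : (univ : Finset L) = A ∪ B ∪ Cc := by
    ext l
    simp only [hA, hB, hC, Finset.mem_univ, Finset.mem_union, Finset.mem_filter, true_and, true_iff]
    tauto
  have hsplit : (∑ l, (Pl.tl S l - 1)) ≤ (∑ l ∈ A, (Pl.tl S l - 1)) + (∑ l ∈ B, (Pl.tl S l - 1)) +
      ∑ l ∈ Cc, (Pl.tl S l - 1) := by
    calc (∑ l, (Pl.tl S l - 1)) = ∑ l ∈ A ∪ B ∪ Cc, (Pl.tl S l - 1) := by rw [← hcover]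
      _ ≤ (∑ l ∈ A ∪ B, (Pl.tl S l - 1)) + ∑ l ∈ Cc, (Pl.tl S l - 1) := by
          rw [← Finset.sum_union_inter (s₁ := A ∪ B) (s₂ := Cc)]; exact Nat.le_add_right _ _
      _ ≤ _ := by
          have : (∑ l ∈ A ∪ B, (Pl.tl S l - 1)) ≤
              (∑ l ∈ A, (Pl.tl S l - 1)) + (∑ l ∈ B, (Pl.tl S l - 1)) := by
            rw [← Finset.sum_union_inter (s₁ := A) (s₂ := B)]; exact Nat.le_add_right _ _
          omega
  -- class A
  have hAb : (∑ l ∈ A, (Pl.tl S l - 1)) ≤ q := by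
    calc (∑ l ∈ A, (Pl.tl S l - 1)) ≤ ∑ l ∈ A, Pl.tl S l :=
          Finset.sum_le_sum (fun l _ => Nat.sub_le _ _)
      _ = ∑ x ∈ S, (A.filter (fun l => x ∈ Pl.pts l)).card := G5_sum_tl Pl S A
      _ ≤ ∑ x ∈ S, 1 := by
          refine Finset.sum_le_sum (fun x hx => ?_)
          rw [Finset.card_le_one]
          intro a ha b hb
          rw [Finset.mem_filter, hA, Finset.mem_filter] at ha hb
          have hne : x ≠ P0 := fun h => hP0 (h ▸ hx)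
          exact Pl.line_eq_of_two hne ha.2 hb.2 ha.1.2 hb.1.2
      _ = q := by simp [hS]
  -- class B
  have hW : ((W1 Pl 𝓛).card : ℝ) ≤ r ^ 1050 := by
    calc ((W1 Pl 𝓛).card : ℝ) ≤ ((𝓛.card ^ 2 : ℕ) : ℝ) := by exact_mod_cast G5_W1_card Pl 𝓛
      _ = (𝓛.card : ℝ) ^ 2 := by push_cast; ring
      _ ≤ (r ^ 525) ^ 2 := pow_le_pow_left₀ (Nat.cast_nonneg _) hstr.card_L 2
      _ = r ^ 1050 := by ring
  have hBcard : (B.card : ℝ) * r ^ 879 ≤ r ^ 2100 := by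
    have h1 : ∀ l ∈ B, r ^ 879 ≤ (((W1 Pl 𝓛) ∩ Pl.pts l).offDiag.card : ℝ) := by
      intro l hl
      have h2 : r ^ 440 ≤ ((W1 Pl 𝓛 ∩ Pl.pts l).card : ℝ) := by
        rw [hB, RL, Finset.mem_filter] at hl
        exact hl.2
      rw [G5_offDiag_real]
      have h3 : r ^ 439 ≤ ((W1 Pl 𝓛 ∩ Pl.pts l).card : ℝ) - 1 := by
        have h4 : r ^ 440 = r * r ^ 439 := by ring
        have h5 : 1 ≤ r ^ 439 := one_le_pow₀ hr1
        nlinarith
      calc r ^ 879 = r ^ 440 * r ^ 439 := by ring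
        _ ≤ _ := mul_le_mul h2 h3 (pow_nonneg hr0 _) ((pow_nonneg hr0 _).trans h2)
    have h2 : (B.card : ℝ) * r ^ 879 ≤ ∑ l ∈ B, (((W1 Pl 𝓛) ∩ Pl.pts l).offDiag.card : ℝ) := by
      have := Finset.sum_le_sum h1
      simpa using this
    have h3 : ∑ l ∈ B, (((W1 Pl 𝓛) ∩ Pl.pts l).offDiag.card : ℝ) ≤ ((W1 Pl 𝓛).card : ℝ) ^ 2 := by
      rw [← Nat.cast_sum, G5_pairs_sum, sq]
      have h4 : ((W1 Pl 𝓛).offDiag.filter (fun xy => Pl.join xy.1 xy.2 ∈ B)).card ≤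
          (W1 Pl 𝓛).card * (W1 Pl 𝓛).card := by
        refine (Finset.card_filter_le _ _).trans ?_
        rw [Finset.offDiag_card]
        exact Nat.sub_le _ _
      exact_mod_cast h4
    calc _ ≤ _ := h2
      _ ≤ _ := h3
      _ ≤ (r ^ 1050) ^ 2 := pow_le_pow_left₀ (Nat.cast_nonneg _) hW 2
      _ = _ := by ring
  have hBcard2 : (B.card : ℝ) ≤ r ^ 1221 := by
    have hpos : 0 < r ^ 879 := by positivity
    have : (B.card : ℝ) * r ^ 879 ≤ r ^ 1221 * r ^ 879 := by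
      rw [← pow_add]; exact hBcard
    exact le_of_mul_le_mul_right this hpos
  have hBb : ((∑ l ∈ B, (Pl.tl S l - 1) : ℕ) : ℝ) ≤ r ^ 1726 := by
    rw [Nat.cast_sum]
    calc ∑ l ∈ B, ((Pl.tl S l - 1 : ℕ) : ℝ) ≤ ∑ l ∈ B, r ^ 505 := by
          refine Finset.sum_le_sum (fun l _ => le_trans ?_ (htl l))
          exact_mod_cast Nat.sub_le _ _
      _ = (B.card : ℝ) * r ^ 505 := by simp
      _ ≤ r ^ 1221 * r ^ 505 := mul_le_mul_of_nonneg_right hBcard2 (pow_nonneg hr0 _)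
      _ = r ^ 1726 := by ring
  -- class C
  have hCb1 : (∑ l ∈ Cc, (Pl.tl S l - 1)) ≤ (S.offDiag.filter (fun xy => Pl.join xy.1 xy.2 ∈ Cc)).card := by
    rw [← G5_pairs_sum]
    exact Finset.sum_le_sum (fun l _ => G5_pos_le _)
  have hsub : S.offDiag.filter (fun xy => Pl.join xy.1 xy.2 ∈ Cc) ⊆
      ((Gd ×ˢ Gd).filter (fun xy => xy.1 ≠ xy.2 ∧ Pl.join xy.1 xy.2 ∉ RL Pl 𝓛 ∧
        P0 ∉ Pl.pts (Pl.join xy.1 xy.2))) ∪ (((S \ Gd) ×ˢ S) ∪ (S ×ˢ (S \ Gd))) := by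
    intro xy hxy
    simp only [hC, Finset.mem_filter, Finset.mem_offDiag, Finset.mem_univ, true_and] at hxy
    simp only [Finset.mem_union, Finset.mem_filter, Finset.mem_product, Finset.mem_sdiff]
    tauto
  have hCb : ((∑ l ∈ Cc, (Pl.tl S l - 1) : ℕ) : ℝ) ≤ r ^ 1989 + 2 * r ^ 1985 := by
    have h1 := hCb1.trans ((Finset.card_le_card hsub).trans (Finset.card_union_le _ _))
    have h2 := (Finset.card_union_le ((S \ Gd) ×ˢ S) (S ×ˢ (S \ Gd)))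
    rw [Finset.card_product, Finset.card_product] at h2
    have h3 : ((∑ l ∈ Cc, (Pl.tl S l - 1) : ℕ) : ℝ) ≤
        (((Gd ×ˢ Gd).filter (fun xy => xy.1 ≠ xy.2 ∧ Pl.join xy.1 xy.2 ∉ RL Pl 𝓛 ∧
        P0 ∉ Pl.pts (Pl.join xy.1 xy.2))).card : ℝ) + (((S \ Gd).card : ℝ) * (S.card : ℝ) +
        (S.card : ℝ) * ((S \ Gd).card : ℝ)) := by
      exact_mod_cast h1.trans (Nat.add_le_add_left h2 _)
    have h4 : (((Gd ×ˢ Gd).filter (fun xy => xy.1 ≠ xy.2 ∧ Pl.join xy.1 xy.2 ∉ RL Pl 𝓛 ∧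
        P0 ∉ Pl.pts (Pl.join xy.1 xy.2))).card : ℝ) ≤ r ^ 1989 := by
      refine le_trans (le_of_eq ?_) hpairs
      unfold pairsOff
      congr!
    have h5 : ((S \ Gd).card : ℝ) * (S.card : ℝ) ≤ r ^ 1985 := by
      rw [hS, ← hqr]
      calc ((S \ Gd).card : ℝ) * r ^ 1000 ≤ r ^ 985 * r ^ 1000 :=
            mul_le_mul_of_nonneg_right hstr.card_diff (pow_nonneg hr0 _)
        _ = r ^ 1985 := by ring
    have h6 : (S.card : ℝ) * ((S \ Gd).card : ℝ) ≤ r ^ 1985 := by rw [mul_comm]; exact h5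
    linarith
  -- total
  have hmis := G5_mis_eq Pl S hS
  have htot : (Pl.mis S : ℝ) ≤ 1 + (r ^ 1000 + r ^ 1726 + (r ^ 1989 + 2 * r ^ 1985)) := by
    have h1 : Pl.mis S ≤ 1 + (q + (∑ l ∈ B, (Pl.tl S l - 1)) + ∑ l ∈ Cc, (Pl.tl S l - 1)) := by
      omega
    have h2 : (Pl.mis S : ℝ) ≤ 1 + ((q : ℝ) + ((∑ l ∈ B, (Pl.tl S l - 1) : ℕ) : ℝ) +
        ((∑ l ∈ Cc, (Pl.tl S l - 1) : ℕ) : ℝ)) := by exact_mod_cast h1
    rw [hqr]
    linarith
  have e1 : (1 : ℝ) ≤ r ^ 1989 := one_le_pow₀ hr1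
  have e2 : r ^ 1000 ≤ r ^ 1989 := hpm (by norm_num)
  have e3 : r ^ 1726 ≤ r ^ 1989 := hpm (by norm_num)
  have e4 : r ^ 1985 ≤ r ^ 1989 := hpm (by norm_num)
  have e5 : r ^ 1990 = r * r ^ 1989 := by ring
  have e6 : 10 * r ^ 1989 ≤ r * r ^ 1989 := mul_le_mul_of_nonneg_right hr (pow_nonneg hr0 _)
  linarith

/-- G5b. `q(q-1) = ∑_l tl(tl-1) ≤ r^505 ∑ (tl-1)^+ = r^505 (mis S - 1)`. -/
theorem step5_lower :
    ∃ q0 : ℕ, ∀ (q : ℕ), q0 ≤ q → ∀ (P L : Type) [Fintype P] [Fintype L] [DecidableEq P]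
      [DecidableEq L] (Pl : Plane P L q) (S : Finset P),
      S.card = q → (∀ l, (Pl.tl S l : ℝ) ≤ rr q ^ 505) →
      rr q ^ 1494 ≤ (Pl.mis S : ℝ) := by
  obtain ⟨q0, hq0⟩ := rr_large 2
  refine ⟨q0, ?_⟩
  intro q hq P L _ _ _ _ Pl S hS htl
  have hr := hq0 q hq
  set r := rr q with hrdef
  have hr0 : 0 ≤ r := by linarith
  have hr1 : 1 ≤ r := by linarith
  have hqr : r ^ 1000 = (q : ℝ) := rr_pow q
  have h1 := G5_pairs_sum Pl S univ
  have h2 : (S.offDiag.filter (fun xy => Pl.join xy.1 xy.2 ∈ (univ : Finset L))) = S.offDiag := by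
    simp
  rw [h2] at h1
  have h3 : (q : ℝ) * ((q : ℝ) - 1) = ∑ l, (((S ∩ Pl.pts l).offDiag.card : ℕ) : ℝ) := by
    rw [← Nat.cast_sum, h1, G5_offDiag_real, hS]
  have h4 : ∑ l, (((S ∩ Pl.pts l).offDiag.card : ℕ) : ℝ) ≤
      ∑ l, r ^ 505 * ((Pl.tl S l - 1 : ℕ) : ℝ) := by
    refine Finset.sum_le_sum (fun l _ => ?_)
    rw [G5_offDiag_real]
    have h5 := htl l
    unfold Plane.tl at h5 ⊢
    rcases Nat.eq_zero_or_pos (S ∩ Pl.pts l).card with h | h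
    · rw [h]; simp
    · rw [Nat.cast_sub h]
      push_cast
      apply mul_le_mul_of_nonneg_right h5
      have : (1 : ℝ) ≤ ((S ∩ Pl.pts l).card : ℝ) := by exact_mod_cast h
      linarith
  have h5 : ∑ l, r ^ 505 * ((Pl.tl S l - 1 : ℕ) : ℝ) = r ^ 505 * ((Pl.mis S : ℝ) - 1) := by
    rw [← Finset.mul_sum, ← Nat.cast_sum, G5_mis_eq Pl S hS]
    push_cast
    ring
  have h6 : r ^ 1000 * (r ^ 1000 - 1) ≤ r ^ 505 * ((Pl.mis S : ℝ) - 1) := by
    rw [hqr, h3]; linarith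
  have h7 : r ^ 999 ≤ r ^ 1000 - 1 := by
    have e : r ^ 1000 = r * r ^ 999 := by ring
    have e2 : 1 ≤ r ^ 999 := one_le_pow₀ hr1
    nlinarith
  have h8 : r ^ 505 * r ^ 1494 ≤ r ^ 505 * (Pl.mis S : ℝ) := by
    calc r ^ 505 * r ^ 1494 = r ^ 1000 * r ^ 999 := by ring
      _ ≤ r ^ 1000 * (r ^ 1000 - 1) := mul_le_mul_of_nonneg_left h7 (pow_nonneg hr0 _)
      _ ≤ r ^ 505 * ((Pl.mis S : ℝ) - 1) := h6
      _ ≤ r ^ 505 * (Pl.mis S : ℝ) :=
          mul_le_mul_of_nonneg_left (by linarith) (pow_nonneg hr0 _)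
  exact le_of_mul_le_mul_left h8 (by positivity)

end Crest.Agent.Ryser
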