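import Crest.Agent.Ryser.GDefs

/-! Row 34, chunk G6: consequences of the dichotomy property `Dich` (deterministic, elementary). -/

set_option autoImplicit false

open Finset

namespace Crest.Agent.Ryser

variable {P L : Type} [Fintype P] [Fintype L] [DecidableEq P] [DecidableEq L] {q : ℕ}

/-- G6a. `s (q - s) ≤ μ`, `s > 2μ/q` and `8 μ ≤ q²` give `s ≥ q - 2μ/q`. -/
theorem sY_far (Pl : Plane P L q) (hD : Pl.Dich) (S : Finset P) (hS : S.card = q)
    (hq : 2 ≤ q) (hμ : 8 * Pl.mis S ≤ q ^ 2) (Y : P) (hY : Y ∉ WS Pl S) :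
    (q : ℝ) - 2 * (Pl.mis S : ℝ) / q ≤ (Pl.sY S Y : ℝ) := by
  have h1 : 2 * Pl.mis S < q * Pl.sY S Y := by
    by_contra h
    exact hY (by unfold WS; simpa using not_lt.1 h)
  have h2 := hD S hS Y
  have hq0 : (0 : ℝ) < q := by positivity
  have h1' : 2 * (Pl.mis S : ℝ) < q * (Pl.sY S Y : ℝ) := by exact_mod_cast h1
  have h2' : (Pl.sY S Y : ℝ) * ((q : ℝ) - Pl.sY S Y) ≤ Pl.mis S := by exact_mod_cast h2
  have hμ' : 8 * (Pl.mis S : ℝ) ≤ (q : ℝ) ^ 2 := by exact_mod_cast hμ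
  by_contra hcon
  push Not at hcon
  set μ : ℝ := (Pl.mis S : ℝ) with hμd
  set s : ℝ := (Pl.sY S Y : ℝ) with hsd
  have hμ0 : 0 ≤ μ := Nat.cast_nonneg _
  set a : ℝ := 2 * μ / q with ha
  have haq : a * q = 2 * μ := by rw [ha]; field_simp
  have hsa : a < s := by
    rw [ha, div_lt_iff₀ hq0]; linarith
  have h3 : 0 < (s - a) * (q - a - s) := mul_pos (by linarith) (by linarith)
  have h4 : a * (q - a) < μ := by nlinarith
  have ha4 : a ≤ q / 4 := by
    rw [ha, div_le_iff₀ hq0]; nlinarith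
  have ha0 : 0 ≤ a := by positivity
  nlinarith

lemma g6_sum_tl (Pl : Plane P L q) (S : Finset P) : ∑ l, Pl.tl S l = S.card * (q + 1) := by
  unfold Plane.tl
  have h : ∀ l, (S ∩ Pl.pts l).card = ∑ X ∈ S, if X ∈ Pl.pts l then 1 else 0 := by
    intro l
    rw [← Finset.filter_mem_eq_inter, Finset.card_filter]
  simp_rw [h]
  rw [Finset.sum_comm]
  have h2 : ∀ X ∈ S, ∑ l : L, (if X ∈ Pl.pts l then 1 else 0) = q + 1 := by
    intro X _
    rw [← Finset.card_filter, ← Pl.card_lns X]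
    congr 1
    ext l
    simp [Pl.mem_lns]
  rw [Finset.sum_congr rfl h2, Finset.sum_const, smul_eq_mul]

/-- `∑_{Y ∈ S} s_Y ≤ 2 (μ - 1)` -/
lemma g6_sum_sY (Pl : Plane P L q) (S : Finset P) (hS : S.card = q) :
    ((∑ Y ∈ S, Pl.sY S Y : ℕ) : ℤ) ≤ 2 * ((Pl.mis S : ℤ) - 1) := by
  have h1 : ∑ Y ∈ S, Pl.sY S Y =
      ∑ l : L, (S.filter (fun Y => Y ∈ Pl.pts l ∧ ∃ X ∈ S, X ≠ Y ∧ X ∈ Pl.pts l)).card := by
    have e1 : ∀ Y, Pl.sY S Y = ∑ l : L, if (Y ∈ Pl.pts l ∧ ∃ X ∈ S, X ≠ Y ∧ X ∈ Pl.pts l) then 1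
        else 0 := by
      intro Y
      unfold Plane.sY
      rw [← Finset.card_filter]
      congr 1
      ext l
      simp [Pl.mem_lns]
    simp_rw [e1]
    rw [Finset.sum_comm]
    refine Finset.sum_congr rfl fun l _ => ?_
    rw [← Finset.card_filter]
  have h2 : ∀ l : L, (((S.filter (fun Y => Y ∈ Pl.pts l ∧ ∃ X ∈ S, X ≠ Y ∧ X ∈ Pl.pts l)).card : ℕ) : ℤ)
      ≤ 2 * ((Pl.tl S l : ℤ) - 1) + 2 * (if Pl.tl S l = 0 then 1 else 0) := by
    intro l
    have hsub : S.filter (fun Y => Y ∈ Pl.pts l ∧ ∃ X ∈ S, X ≠ Y ∧ X ∈ Pl.pts l) ⊆ S ∩ Pl.pts l := by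
      intro Y hY
      simp only [Finset.mem_filter, Finset.mem_inter] at hY ⊢
      exact ⟨hY.1, hY.2.1⟩
    have hle := Finset.card_le_card hsub
    by_cases h0 : Pl.tl S l = 0
    · rw [if_pos h0]
      have : (S ∩ Pl.pts l).card = 0 := h0
      rw [h0]
      omega
    · rw [if_neg h0]
      by_cases h1 : Pl.tl S l = 1
      · have hz : S.filter (fun Y => Y ∈ Pl.pts l ∧ ∃ X ∈ S, X ≠ Y ∧ X ∈ Pl.pts l) = ∅ := by
          rw [Finset.filter_eq_empty_iff]
          rintro Y hY ⟨hYl, X, hX, hne, hXl⟩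
          obtain ⟨Z, hZ⟩ := Finset.card_eq_one.1 (show (S ∩ Pl.pts l).card = 1 from h1)
          have a1 : Y ∈ S ∩ Pl.pts l := Finset.mem_inter.2 ⟨hY, hYl⟩
          have a2 : X ∈ S ∩ Pl.pts l := Finset.mem_inter.2 ⟨hX, hXl⟩
          rw [hZ, Finset.mem_singleton] at a1 a2
          exact hne (a2.trans a1.symm)
        rw [hz, h1]
        simp
      · have : (S ∩ Pl.pts l).card = Pl.tl S l := rfl
        omega
  have h3 : ((∑ Y ∈ S, Pl.sY S Y : ℕ) : ℤ) ≤
      ∑ l : L, (2 * ((Pl.tl S l : ℤ) - 1) + 2 * (if Pl.tl S l = 0 then 1 else 0)) := by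
    rw [h1]
    push_cast
    exact Finset.sum_le_sum fun l _ => h2 l
  have h4 : ∑ l : L, (2 * ((Pl.tl S l : ℤ) - 1) + 2 * (if Pl.tl S l = 0 then 1 else 0)) =
      2 * ((Pl.mis S : ℤ) - 1) := by
    rw [Finset.sum_add_distrib, ← Finset.mul_sum, ← Finset.mul_sum, Finset.sum_sub_distrib]
    have h5 : ∑ l : L, (Pl.tl S l : ℤ) = (q : ℤ) * (q + 1) := by
      rw [← Nat.cast_sum, g6_sum_tl, hS]
      push_cast
      ring
    have h6 : ∑ l : L, (if Pl.tl S l = 0 then (1 : ℤ) else 0) = Pl.mis S := by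
      unfold Plane.mis
      rw [Finset.card_filter]
      push_cast
      rfl
    rw [h5, h6, Finset.sum_const, Finset.card_univ, Pl.card_L]
    push_cast
    ring
  rw [← h4]
  exact h3

/-- G6b. `∑_{Y ∈ S} s_Y = ∑_{l : tl ≥ 2} tl ≤ 2 ∑ (tl-1)^+ = 2 (μ - 1)` and `s_Y ≥ q/2` off `WS`. -/
theorem card_S_diff (Pl : Plane P L q) (hD : Pl.Dich) (S : Finset P) (hS : S.card = q)
    (hq : 2 ≤ q) (hμ : 8 * Pl.mis S ≤ q ^ 2) : (S \ WS Pl S).card * q ≤ 4 * Pl.mis S := by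
  have h1 := g6_sum_sY Pl S hS
  have hq0 : (0 : ℝ) < q := by positivity
  have hμ' : 8 * (Pl.mis S : ℝ) ≤ (q : ℝ) ^ 2 := by exact_mod_cast hμ
  have h2 : ∀ Y ∈ S \ WS Pl S, (q : ℝ) / 2 ≤ (Pl.sY S Y : ℝ) := by
    intro Y hY
    have := sY_far Pl hD S hS hq hμ Y (Finset.mem_sdiff.1 hY).2
    have h3 : 2 * (Pl.mis S : ℝ) / q ≤ q / 4 := by
      rw [div_le_iff₀ hq0]; nlinarith
    linarith
  have h3 : ((S \ WS Pl S).card : ℝ) * (q / 2) ≤ ∑ Y ∈ S, (Pl.sY S Y : ℝ) := by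
    calc ((S \ WS Pl S).card : ℝ) * (q / 2) = ∑ Y ∈ S \ WS Pl S, (q : ℝ) / 2 := by
          rw [Finset.sum_const, nsmul_eq_mul]
      _ ≤ ∑ Y ∈ S \ WS Pl S, (Pl.sY S Y : ℝ) := Finset.sum_le_sum h2
      _ ≤ ∑ Y ∈ S, (Pl.sY S Y : ℝ) :=
          Finset.sum_le_sum_of_subset_of_nonneg Finset.sdiff_subset fun _ _ _ => Nat.cast_nonneg _
  have h4 : ∑ Y ∈ S, (Pl.sY S Y : ℝ) ≤ 2 * ((Pl.mis S : ℝ) - 1) := by
    have : (((∑ Y ∈ S, Pl.sY S Y : ℕ) : ℤ) : ℝ) ≤ ((2 * ((Pl.mis S : ℤ) - 1) : ℤ) : ℝ) := by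
      exact_mod_cast h1
    push_cast at this
    exact this
  have h5 : (((S \ WS Pl S).card * q : ℕ) : ℝ) ≤ ((4 * Pl.mis S : ℕ) : ℝ) := by
    push_cast
    linarith
  exact_mod_cast h5

/-- missing lines through a point off `S` -/
lemma g6_missing (Pl : Plane P L q) (S : Finset P) (Y : P) :
    ((univ.filter (fun l => Y ∈ Pl.pts l ∧ Pl.tl S l = 0)).card : ℤ) + Pl.sY S Y ≤ q + 1 ∧
    (Y ∉ S → ((univ.filter (fun l => Y ∈ Pl.pts l ∧ Pl.tl S l = 0)).card : ℤ) + Pl.sY S Y = q + 1) := by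
  have hdis : Disjoint (univ.filter (fun l => Y ∈ Pl.pts l ∧ Pl.tl S l = 0))
      ((Pl.lns Y).filter (fun l => ∃ X ∈ S, X ≠ Y ∧ X ∈ Pl.pts l)) := by
    rw [Finset.disjoint_left]
    intro l hl hl'
    simp only [Finset.mem_filter, Finset.mem_univ, true_and] at hl hl'
    obtain ⟨_, X, hX, _, hXl⟩ := hl'
    have : (S ∩ Pl.pts l).card = 0 := hl.2
    rw [Finset.card_eq_zero] at this
    have h2 : X ∈ S ∩ Pl.pts l := Finset.mem_inter.2 ⟨hX, hXl⟩
    rw [this] at h2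
    exact Finset.notMem_empty _ h2
  have hsub : (univ.filter (fun l => Y ∈ Pl.pts l ∧ Pl.tl S l = 0)) ∪
      ((Pl.lns Y).filter (fun l => ∃ X ∈ S, X ≠ Y ∧ X ∈ Pl.pts l)) ⊆ Pl.lns Y := by
    intro l hl
    rw [Finset.mem_union] at hl
    rcases hl with hl | hl
    · rw [Pl.mem_lns]
      exact (Finset.mem_filter.1 hl).2.1
    · exact (Finset.mem_filter.1 hl).1
  have hcard := Finset.card_union_of_disjoint hdis
  constructor
  · have := Finset.card_le_card hsub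
    rw [hcard, Pl.card_lns] at this
    unfold Plane.sY
    exact_mod_cast this
  · intro hY
    have hEq : (univ.filter (fun l => Y ∈ Pl.pts l ∧ Pl.tl S l = 0)) ∪
      ((Pl.lns Y).filter (fun l => ∃ X ∈ S, X ≠ Y ∧ X ∈ Pl.pts l)) = Pl.lns Y := by
      refine Finset.Subset.antisymm hsub ?_
      intro l hl
      rw [Finset.mem_union]
      by_cases h0 : Pl.tl S l = 0
      · left
        exact Finset.mem_filter.2 ⟨Finset.mem_univ _, (Pl.mem_lns _ _).1 hl, h0⟩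
      · right
        have h1 : (S ∩ Pl.pts l).Nonempty := Finset.card_ne_zero.1 h0
        obtain ⟨X, hX⟩ := h1
        rw [Finset.mem_inter] at hX
        refine Finset.mem_filter.2 ⟨hl, X, hX.1, ?_, hX.2⟩
        rintro rfl
        exact hY hX.1
    have := congrArg Finset.card hEq
    rw [hcard, Pl.card_lns] at this
    unfold Plane.sY
    exact_mod_cast this

/-- G6c. Points of `WS \ S` lie on `≥ q + 1 - 2μ/q` missing lines each, two of them share at most one line: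
a subset of size `w' = ⌊4μ/q⌋ + 1` would give more than `μ` missing lines. -/
theorem card_WS_diff (Pl : Plane P L q) (S : Finset P) (hS : S.card = q)
    (hq : 2 ≤ q) (hμ : 8 * Pl.mis S ≤ q ^ 2) : (WS Pl S \ S).card * q ≤ 4 * Pl.mis S := by
  classical
  have hq0 : (0 : ℝ) < q := by positivity
  have hμ' : 8 * (Pl.mis S : ℝ) ≤ (q : ℝ) ^ 2 := by exact_mod_cast hμ
  obtain ⟨μ, hμd⟩ : ∃ μ : ℝ, μ = (Pl.mis S : ℝ) := ⟨_, rfl⟩
  have hμ0 : 0 ≤ μ := by rw [hμd]; exact Nat.cast_nonneg _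
  obtain ⟨A, hA⟩ : ∃ A : P → Finset L, A = fun Y =>
    univ.filter (fun l => Y ∈ Pl.pts l ∧ Pl.tl S l = 0) := ⟨_, rfl⟩
  have hAcard : ∀ Y ∈ WS Pl S \ S, (q : ℝ) + 1 - 2 * μ / q ≤ ((A Y).card : ℝ) := by
    intro Y hY
    rw [Finset.mem_sdiff] at hY
    have h1 := (g6_missing Pl S Y).2 hY.2
    have h2 : q * Pl.sY S Y ≤ 2 * Pl.mis S := by
      have := hY.1
      unfold WS at this
      exact (Finset.mem_filter.1 this).2
    have h2' : (q : ℝ) * (Pl.sY S Y : ℝ) ≤ 2 * μ := by rw [hμd]; exact_mod_cast h2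
    have h3 : (Pl.sY S Y : ℝ) ≤ 2 * μ / q := by
      rw [le_div_iff₀ hq0]; linarith
    have h1' : ((A Y).card : ℝ) + Pl.sY S Y = q + 1 := by rw [hA]; exact_mod_cast h1
    linarith
  have hAint : ∀ Y Z, Y ≠ Z → (A Y ∩ A Z).card ≤ 1 := by
    intro Y Z hYZ
    rw [Finset.card_le_one]
    intro l hl l' hl'
    rw [hA] at hl hl'
    simp only [Finset.mem_inter, Finset.mem_filter, Finset.mem_univ, true_and] at hl hl'
    exact Pl.line_eq_of_two hYZ hl.1.1 hl'.1.1 hl.2.1 hl'.2.1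
  have hunion : ∀ W' : Finset P, W' ⊆ WS Pl S \ S →
      (W'.card : ℝ) * ((q : ℝ) + 1 - 2 * μ / q) - (W'.card : ℝ) * ((W'.card : ℝ) - 1) / 2 ≤
        ((W'.biUnion A).card : ℝ) := by
    intro W'
    induction W' using Finset.induction_on with
    | empty => intro _; simp
    | insert Y W hY ih =>
      intro hsub
      have h1 := ih ((Finset.subset_insert _ _).trans hsub)
      have h2 := hAcard Y (hsub (Finset.mem_insert_self _ _))
      rw [Finset.biUnion_insert, Finset.card_insert_of_notMem hY]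
      have h3 : (A Y ∩ W.biUnion A).card ≤ W.card := by
        rw [Finset.inter_biUnion]
        calc (W.biUnion fun Z => A Y ∩ A Z).card ≤ ∑ Z ∈ W, (A Y ∩ A Z).card :=
              Finset.card_biUnion_le
          _ ≤ ∑ Z ∈ W, 1 := Finset.sum_le_sum fun Z hZ =>
              hAint Y Z (fun h => hY (h ▸ hZ))
          _ = W.card := by simp
      have h4 := Finset.card_union_add_card_inter (A Y) (W.biUnion A)
      have h4' : ((A Y ∪ W.biUnion A).card : ℝ) + ((A Y ∩ W.biUnion A).card : ℝ) =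
          ((A Y).card : ℝ) + ((W.biUnion A).card : ℝ) := by exact_mod_cast h4
      have h3' : ((A Y ∩ W.biUnion A).card : ℝ) ≤ (W.card : ℝ) := by exact_mod_cast h3
      push_cast
      nlinarith
  by_contra hcon
  push Not at hcon
  have hcon' : 4 * μ < ((WS Pl S \ S).card : ℝ) * q := by rw [hμd]; exact_mod_cast hcon
  have hfl : ⌊4 * μ / q⌋₊ + 1 ≤ (WS Pl S \ S).card := by
    have h1 : 4 * μ / q < ((WS Pl S \ S).card : ℝ) := by rw [div_lt_iff₀ hq0]; exact hcon'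
    exact (Nat.floor_lt (by positivity)).2 h1
  obtain ⟨W', hW'sub, hW'card⟩ := Finset.exists_subset_card_eq hfl
  have h1 := hunion W' hW'sub
  have h2 : ((W'.biUnion A).card : ℝ) ≤ μ := by
    rw [hμd]
    have : (W'.biUnion A).card ≤ Pl.mis S := by
      unfold Plane.mis
      refine Finset.card_le_card ?_
      intro l hl
      rw [Finset.mem_biUnion] at hl
      obtain ⟨Y, _, hl⟩ := hl
      rw [hA] at hl
      simp only [Finset.mem_filter, Finset.mem_univ, true_and] at hl ⊢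
      exact hl.2
    exact_mod_cast this
  obtain ⟨w, hw⟩ : ∃ w : ℝ, w = (W'.card : ℝ) := ⟨_, rfl⟩
  have hw1 : 4 * μ / q < w := by
    rw [hw, hW'card]
    push_cast
    exact Nat.lt_floor_add_one _
  have hw2 : w ≤ 4 * μ / q + 1 := by
    rw [hw, hW'card]
    push_cast
    have := Nat.floor_le (show 0 ≤ 4 * μ / q by positivity)
    linarith
  have hw0 : 1 ≤ w := by
    rw [hw, hW'card]
    push_cast
    have : (0 : ℝ) ≤ (⌊4 * μ / q⌋₊ : ℝ) := Nat.cast_nonneg _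
    linarith
  rw [← hw] at h1
  obtain ⟨z, hz⟩ : ∃ z : ℝ, z = μ / q := ⟨_, rfl⟩
  have hzq : z * q = μ := by rw [hz]; field_simp
  have hz0 : 0 ≤ z := by rw [hz]; positivity
  have hz8 : 8 * z ≤ q := by
    rw [hz]
    rw [← hμd] at hμ'
    have : 8 * (μ / q) = 8 * μ / q := by ring
    rw [this, div_le_iff₀ hq0]
    nlinarith
  rw [show 4 * μ / (q : ℝ) = 4 * z by rw [hz]; ring] at hw1 hw2
  rw [show 2 * μ / (q : ℝ) = 2 * z by rw [hz]; ring] at h1
  have h3 : w * ((q : ℝ) + 1 - 4 * z) ≤ μ := by nlinarith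
  have h4 : w * ((q : ℝ) / 2) < μ := by
    have h5 : 0 < (q : ℝ) + 1 - 4 * z - q / 2 := by linarith
    nlinarith
  nlinarith

/-- G6d. validity of the test `testS7`. -/
theorem testS7_valid (Pl : Plane P L q) (hD : Pl.Dich) (P0 : P) (S : Finset P) (hS : S.card = q)
    (hq : 2 ≤ q) (hμ : 8 * Pl.mis S ≤ q ^ 2) : (testS7 Pl P0 S).Valid Pl P0 1 := by
  have hq0 : (0 : ℝ) < q := by positivity
  refine ⟨?_, ?_, ?_, ?_, ?_⟩
  · simp [testS7]
  · intro j _
    simp [testS7]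
  · intro j hj l hl
    simp only [testS7, Finset.mem_filter, Finset.mem_univ, true_and, Finset.mem_singleton] at hj hl
    rw [hl]
    exact hj.1
  · intro Z hZ
    have hZ' : Z ∉ WS Pl S := hZ
    have h1 := sY_far Pl hD S hS hq hμ Z hZ'
    have h2 := (g6_missing Pl S Z).1
    have h2' : ((univ.filter (fun l => Z ∈ Pl.pts l ∧ Pl.tl S l = 0)).card : ℝ) + Pl.sY S Z ≤
        q + 1 := by exact_mod_cast h2
    have hsub : (testS7 Pl P0 S).J.filter
        (fun j => ∃ l ∈ (testS7 Pl P0 S).Λ j, Z ∈ Pl.pts l) ⊆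
        univ.filter (fun l => Z ∈ Pl.pts l ∧ Pl.tl S l = 0) := by
      intro j hj
      simp only [testS7, Finset.mem_filter, Finset.mem_univ, true_and, Finset.mem_singleton,
        exists_eq_left] at hj ⊢
      exact ⟨hj.2, hj.1.2⟩
    refine (Finset.card_le_card hsub).trans ?_
    have h3 : ((univ.filter (fun l => Z ∈ Pl.pts l ∧ Pl.tl S l = 0)).card : ℝ) ≤
        2 * (Pl.mis S : ℝ) / q + 1 := by linarith
    have h4 : (univ.filter (fun l => Z ∈ Pl.pts l ∧ Pl.tl S l = 0)).card ≤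
        2 * Pl.mis S / q + 1 := by
      by_contra hcon
      push Not at hcon
      have h5 : 2 * Pl.mis S / q + 2 ≤
        (univ.filter (fun l => Z ∈ Pl.pts l ∧ Pl.tl S l = 0)).card := hcon
      have h6 : ((2 * Pl.mis S / q : ℕ) : ℝ) + 2 ≤
        ((univ.filter (fun l => Z ∈ Pl.pts l ∧ Pl.tl S l = 0)).card : ℝ) := by exact_mod_cast h5
      have h7 : 2 * (Pl.mis S : ℝ) / q < ((2 * Pl.mis S / q : ℕ) : ℝ) + 1 := by
        rw [div_lt_iff₀ hq0]
        have := Nat.lt_div_mul_add (a := 2 * Pl.mis S) (b := q) (by omega)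
        have h8 : 2 * Pl.mis S < (2 * Pl.mis S / q + 1) * q := by nlinarith
        exact_mod_cast h8
      linarith
    refine h4.trans ?_
    show 2 * Pl.mis S / q + 1 ≤ 3 * Pl.mis S / q + 1
    have : 2 * Pl.mis S / q ≤ 3 * Pl.mis S / q := Nat.div_le_div_right (by omega)
    omega
  · intro l
    have h1 : (testS7 Pl P0 S).J.filter (fun j => l ∈ (testS7 Pl P0 S).Λ j) ⊆ {l} := by
      intro j hj
      simp only [testS7, Finset.mem_filter, Finset.mem_singleton] at hj ⊢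
      exact hj.2.symm
    refine (Finset.card_le_card h1).trans ?_
    rw [Finset.card_singleton]
    show 1 ≤ 3 * Pl.mis S / q + 1
    exact Nat.le_add_left 1 _

/-- points with a collision under `φ` -/
lemma g6_coll {α β : Type} [DecidableEq α] [DecidableEq β] (A : Finset α) (φ : α → β) :
    ((A.filter (fun X => ∃ X' ∈ A, X' ≠ X ∧ φ X' = φ X)).card : ℤ) ≤
      2 * ((A.card : ℤ) - (A.image φ).card) := by
  have h1 : A.card = ∑ l ∈ A.image φ, (A.filter (fun X => φ X = l)).card :=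
    Finset.card_eq_sum_card_image φ A
  have h2 : (A.filter (fun X => ∃ X' ∈ A, X' ≠ X ∧ φ X' = φ X)).card =
      ∑ l ∈ A.image φ, ((A.filter (fun X => ∃ X' ∈ A, X' ≠ X ∧ φ X' = φ X)).filter
        (fun X => φ X = l)).card := by
    refine Finset.card_eq_sum_card_fiberwise ?_
    intro X hX
    exact Finset.mem_image_of_mem φ (Finset.mem_filter.1 hX).1
  have h3 : ∀ l ∈ A.image φ, (((A.filter (fun X => ∃ X' ∈ A, X' ≠ X ∧ φ X' = φ X)).filter
        (fun X => φ X = l)).card : ℤ) ≤ 2 * (((A.filter (fun X => φ X = l)).card : ℤ) - 1) := by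
    intro l hl
    have hsub : (A.filter (fun X => ∃ X' ∈ A, X' ≠ X ∧ φ X' = φ X)).filter (fun X => φ X = l) ⊆
        A.filter (fun X => φ X = l) := by
      intro X hX
      simp only [Finset.mem_filter] at hX ⊢
      exact ⟨hX.1.1, hX.2⟩
    have hle := Finset.card_le_card hsub
    have hpos : 0 < (A.filter (fun X => φ X = l)).card := by
      rw [Finset.mem_image] at hl
      obtain ⟨X, hX, rfl⟩ := hl
      exact Finset.card_pos.2 ⟨X, Finset.mem_filter.2 ⟨hX, rfl⟩⟩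
    by_cases h1 : (A.filter (fun X => φ X = l)).card = 1
    · have hz : (A.filter (fun X => ∃ X' ∈ A, X' ≠ X ∧ φ X' = φ X)).filter (fun X => φ X = l) = ∅ := by
        rw [Finset.filter_eq_empty_iff]
        intro X hX hXl
        rw [Finset.mem_filter] at hX
        obtain ⟨hXA, X', hX', hne, hφ⟩ := hX
        obtain ⟨Z, hZ⟩ := Finset.card_eq_one.1 h1
        have a1 : X ∈ A.filter (fun X => φ X = l) := Finset.mem_filter.2 ⟨hXA, hXl⟩
        have a2 : X' ∈ A.filter (fun X => φ X = l) := Finset.mem_filter.2 ⟨hX', hφ.trans hXl⟩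
        rw [hZ, Finset.mem_singleton] at a1 a2
        exact hne (a2.trans a1.symm)
      rw [hz, h1]
      simp
    · omega
  rw [h2]
  push_cast
  refine (Finset.sum_le_sum h3).trans ?_
  rw [← Finset.mul_sum, Finset.sum_sub_distrib]
  apply le_of_eq
  congr 1
  rw [Finset.sum_const, nsmul_eq_mul, mul_one]
  conv_rhs => rw [h1]
  push_cast
  rfl

lemma g6_sY_eq (Pl : Plane P L q) (S : Finset P) (Y : P) :
    Pl.sY S Y = ((S.erase Y).image (Pl.join Y)).card := by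
  unfold Plane.sY
  congr 1
  ext l
  simp only [Finset.mem_filter, Finset.mem_image, Finset.mem_erase]
  constructor
  · rintro ⟨hl, X, hX, hne, hXl⟩
    refine ⟨X, ⟨hne, hX⟩, ?_⟩
    exact (Pl.join_unique Y X l hne.symm ((Pl.mem_lns _ _).1 hl) hXl).symm
  · rintro ⟨X, ⟨hne, hX⟩, rfl⟩
    exact ⟨(Pl.mem_lns _ _).2 (Pl.join_left Y X hne.symm), X, hX, hne, Pl.join_right Y X hne.symm⟩

/-- G6e. number of S-points (other than Y) which are not alone on their line through Y -/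
theorem multi_le (Pl : Plane P L q) (S : Finset P) (hS : S.card = q) (Y : P) :
    ((S.filter (fun X => X ≠ Y ∧ ∃ X' ∈ S, X' ≠ Y ∧ X' ≠ X ∧ X' ∈ Pl.pts (Pl.join Y X))).card : ℤ)
      ≤ 2 * ((q : ℤ) - Pl.sY S Y) := by
  have h1 := g6_coll (S.erase Y) (Pl.join Y)
  have hsub : S.filter (fun X => X ≠ Y ∧ ∃ X' ∈ S, X' ≠ Y ∧ X' ≠ X ∧ X' ∈ Pl.pts (Pl.join Y X)) ⊆
      (S.erase Y).filter (fun X => ∃ X' ∈ S.erase Y, X' ≠ X ∧ Pl.join Y X' = Pl.join Y X) := by
    intro X hX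
    simp only [Finset.mem_filter, Finset.mem_erase] at hX ⊢
    obtain ⟨hXS, hXY, X', hX', hX'Y, hne, hmem⟩ := hX
    refine ⟨⟨hXY, hXS⟩, X', ⟨hX'Y, hX'⟩, hne, ?_⟩
    exact (Pl.join_unique Y X' _ hX'Y.symm (Pl.join_left Y X hXY.symm) hmem).symm
  have h2 := Finset.card_le_card hsub
  have h3 : (S.erase Y).card ≤ q := by
    rw [← hS]; exact Finset.card_le_card (Finset.erase_subset _ _)
  rw [g6_sY_eq]
  omega

end Crest.Agent.Ryser
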