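import Crest.Agent.Ryser.Prob
import Crest.Agent.Ryser.RR
import Crest.Agent.Ryser.G6

/-! Row 34, chunk G7: Lemma W (the heavy set is determined by a small sample). -/

set_option autoImplicit false

open Finset

namespace Crest.Agent.Ryser

variable {P L : Type} [Fintype P] [Fintype L] [DecidableEq P] [DecidableEq L] {q : ℕ}

/-- the colliding indices -/
def G7_C (Pl : Plane P L q) {k : ℕ} (x : Fin k → P) (Y : P) : Finset (Fin k) :=
  univ.filter (fun b : Fin k => x b ≠ Y ∧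
    ∃ a, a ≠ b ∧ x a ≠ Y ∧ x a ∈ Pl.pts (Pl.join Y (x b)))

theorem G7_coll_eq (Pl : Plane P L q) {k : ℕ} (x : Fin k → P) (Y : P) :
    coll Pl x Y = (G7_C Pl x Y).card := rfl

theorem G7_join_eq (Pl : Plane P L q) {Y X Z : P} (hX : X ≠ Y) (hZ : Z ≠ Y)
    (h : Z ∈ Pl.pts (Pl.join Y X)) : Pl.join Y X = Pl.join Y Z :=
  Pl.join_unique Y Z _ hZ.symm (Pl.join_left Y X hX.symm) h

theorem G7_lip_aux (Pl : Plane P L q) {k : ℕ} (x x' : Fin k → P) (Y : P) (i : Fin k)
    (h : ∀ b, b ≠ i → x b = x' b) : (G7_C Pl x Y).card ≤ (G7_C Pl x' Y).card + 2 := by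
  set D := ((G7_C Pl x Y) \ (G7_C Pl x' Y)).erase i with hD
  have hD1 : D.card ≤ 1 := by
    rw [card_le_one]
    intro b hb b' hb'
    by_contra hne
    have key : ∀ b ∈ D, b ≠ i ∧ x b ≠ Y ∧ x i ≠ Y ∧ x i ∈ Pl.pts (Pl.join Y (x b)) := by
      intro b hb
      rw [hD, mem_erase, mem_sdiff] at hb
      obtain ⟨hbi, hb1, hb2⟩ := hb
      simp only [G7_C, mem_filter, mem_univ, true_and] at hb1 hb2
      obtain ⟨h1, a, h2, h3, h4⟩ := hb1
      have hai : a = i := by
        by_contra hai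
        apply hb2
        refine ⟨by rw [← h b hbi]; exact h1, a, h2, by rw [← h a hai]; exact h3, ?_⟩
        rw [← h a hai, ← h b hbi]; exact h4
      subst hai
      exact ⟨hbi, h1, h3, h4⟩
    obtain ⟨k1, k2, k3, k4⟩ := key b hb
    obtain ⟨l1, l2, l3, l4⟩ := key b' hb'
    rw [hD, mem_erase, mem_sdiff] at hb
    apply hb.2.2
    simp only [G7_C, mem_filter, mem_univ, true_and]
    refine ⟨by rw [← h b k1]; exact k2, b', fun e => hne e.symm, by rw [← h b' l1]; exact l2, ?_⟩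
    rw [← h b k1, ← h b' l1, G7_join_eq Pl k2 k3 k4, ← G7_join_eq Pl l2 l3 l4]
    exact Pl.join_right Y (x b') l2.symm
  have hsub : G7_C Pl x Y ⊆ G7_C Pl x' Y ∪ insert i D := by
    intro b hb
    rw [mem_union, mem_insert, hD, mem_erase, mem_sdiff]
    by_cases h1 : b ∈ G7_C Pl x' Y
    · exact Or.inl h1
    · by_cases h2 : b = i
      · exact Or.inr (Or.inl h2)
      · exact Or.inr (Or.inr ⟨h2, hb, h1⟩)
  calc (G7_C Pl x Y).card ≤ (G7_C Pl x' Y ∪ insert i D).card := card_le_card hsub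
    _ ≤ (G7_C Pl x' Y).card + (insert i D).card := card_union_le _ _
    _ ≤ (G7_C Pl x' Y).card + (D.card + 1) := Nat.add_le_add_left (card_insert_le _ _) _
    _ ≤ _ := by omega

theorem G7_lip (Pl : Plane P L q) {k : ℕ} (x : Fin k → P) (Y : P) (i : Fin k) (a : P) :
    |(coll Pl (Function.update x i a) Y : ℝ) - (coll Pl x Y : ℝ)| ≤ 3 := by
  have h : ∀ b, b ≠ i → (Function.update x i a) b = x b := fun b hb => by
    rw [Function.update_of_ne hb]
  have h1 := G7_lip_aux Pl (Function.update x i a) x Y i h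
  have h2 := G7_lip_aux Pl x (Function.update x i a) Y i (fun b hb => (h b hb).symm)
  rw [← G7_coll_eq, ← G7_coll_eq] at h1 h2
  have h1' : (coll Pl (Function.update x i a) Y : ℝ) ≤ (coll Pl x Y : ℝ) + 2 := by exact_mod_cast h1
  have h2' : (coll Pl x Y : ℝ) ≤ (coll Pl (Function.update x i a) Y : ℝ) + 2 := by exact_mod_cast h2
  rw [abs_le]; constructor <;> linarith

/-- points of `S` seen from `Y` in the direction of `X` -/
def G7_A (Pl : Plane P L q) (S : Finset P) (Y X : P) : Finset P :=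
  S.filter (fun X' => X' ≠ Y ∧ X' ∈ Pl.pts (Pl.join Y X))

theorem G7_prod_card {k : ℕ} (b : Fin k) (n m : ℕ) :
    ∏ i : Fin k, (if i = b then n else m) = n * m ^ (k - 1) := by
  rw [← Finset.mul_prod_erase univ _ (mem_univ b), if_pos rfl]
  congr 1
  rw [prod_congr rfl (g := fun _ => m)]
  · rw [prod_const, card_erase_of_mem (mem_univ b), card_univ, Fintype.card_fin]
  · intro i hi
    rw [if_neg (ne_of_mem_erase hi)]

theorem G7_count (Pl : Plane P L q) (S : Finset P) (Y : P) {k : ℕ} (b : Fin k) :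
    ((Fintype.piFinset (fun _ : Fin k => S)).filter (fun x => b ∈ G7_C Pl x Y)).card =
      ∑ X ∈ S.erase Y, (S.card ^ (k - 1) - (S.card - (G7_A Pl S Y X).card) ^ (k - 1)) := by
  classical
  have h1 : (Fintype.piFinset (fun _ : Fin k => S)).filter (fun x => b ∈ G7_C Pl x Y) =
      (S.erase Y).biUnion (fun X =>
        Fintype.piFinset (fun i : Fin k => if i = b then {X} else S) \
        Fintype.piFinset (fun i : Fin k => if i = b then {X} else S \ G7_A Pl S Y X)) := by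
    ext x
    simp only [mem_filter, Fintype.mem_piFinset, mem_biUnion, mem_erase, mem_sdiff, G7_C,
      mem_univ, true_and]
    constructor
    · rintro ⟨hS, hY, a, hab, haY, hal⟩
      refine ⟨x b, ⟨hY, hS b⟩, ?_, ?_⟩
      · intro i
        by_cases hi : i = b
        · rw [if_pos hi, hi]; exact mem_singleton_self _
        · rw [if_neg hi]; exact hS i
      · intro hc
        have := hc a
        rw [if_neg hab, mem_sdiff] at this
        apply this.2
        simp only [G7_A, mem_filter]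
        exact ⟨hS a, haY, hal⟩
    · rintro ⟨X, ⟨hXY, hXS⟩, h2, h3⟩
      have hb : x b = X := by
        have := h2 b
        rw [if_pos rfl, mem_singleton] at this; exact this
      have hS : ∀ i, x i ∈ S := by
        intro i
        by_cases hi : i = b
        · rw [hi, hb]; exact hXS
        · have := h2 i
          rwa [if_neg hi] at this
      refine ⟨hS, by rw [hb]; exact hXY, ?_⟩
      by_contra hc
      apply h3
      intro i
      by_cases hi : i = b
      · rw [if_pos hi, hi, hb]; exact mem_singleton_self _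
      · rw [if_neg hi, mem_sdiff]
        refine ⟨hS i, ?_⟩
        simp only [G7_A, mem_filter]
        rintro ⟨-, g1, g2⟩
        exact hc ⟨i, hi, g1, by rw [hb]; exact g2⟩
  rw [h1, card_biUnion]
  · apply sum_congr rfl
    intro X hX
    rw [card_sdiff_of_subset]
    · rw [Fintype.card_piFinset, Fintype.card_piFinset]
      have e1 : ∀ i : Fin k, (if i = b then ({X} : Finset P) else S).card =
          if i = b then 1 else S.card := by
        intro i; split_ifs <;> simp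
      have hsub : G7_A Pl S Y X ⊆ S := filter_subset _ _
      have e2 : ∀ i : Fin k, (if i = b then ({X} : Finset P) else S \ G7_A Pl S Y X).card =
          if i = b then 1 else (S.card - (G7_A Pl S Y X).card) := by
        intro i
        split_ifs
        · simp
        · rw [card_sdiff_of_subset hsub]
      simp only [e1, e2]
      rw [G7_prod_card, G7_prod_card, one_mul, one_mul]
    · apply Fintype.piFinset_subset
      intro i
      split_ifs
      · exact Finset.Subset.refl _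
      · exact sdiff_subset
  · intro X hX X' hX' hne
    rw [Function.onFun, disjoint_left]
    intro x hx hx'
    rw [mem_sdiff, Fintype.mem_piFinset] at hx hx'
    have h2 := hx.1 b
    have h3 := hx'.1 b
    rw [if_pos rfl, mem_singleton] at h2 h3
    exact hne (h2.symm.trans h3)

theorem G7_avg (Pl : Plane P L q) (S : Finset P) (Y : P) {k : ℕ} :
    avg (fun _ : Fin k => S) (fun x => (coll Pl x Y : ℝ)) =
      (k : ℝ) * (∑ X ∈ S.erase Y, (S.card ^ (k - 1) - (S.card - (G7_A Pl S Y X).card) ^ (k - 1)) : ℕ) /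
        (S.card : ℝ) ^ k := by
  unfold avg
  have h1 : (((Fintype.piFinset (fun _ : Fin k => S)).card : ℕ) : ℝ) = (S.card : ℝ) ^ k := by
    rw [Fintype.card_piFinset]
    simp
  rw [h1]
  congr 1
  have h2 : ∑ x ∈ Fintype.piFinset (fun _ : Fin k => S), (coll Pl x Y : ℝ) =
      ((∑ x ∈ Fintype.piFinset (fun _ : Fin k => S), ∑ b : Fin k,
        (if b ∈ G7_C Pl x Y then 1 else 0) : ℕ) : ℝ) := by
    push_cast
    apply sum_congr rfl
    intro x _
    rw [G7_coll_eq]
    have : G7_C Pl x Y = univ.filter (fun b => b ∈ G7_C Pl x Y) := by ext; simp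
    conv_lhs => rw [this]
    rw [card_filter]
    push_cast
    rfl
  rw [h2, sum_comm]
  have h3 : ∀ b : Fin k, ∑ x ∈ Fintype.piFinset (fun _ : Fin k => S),
      (if b ∈ G7_C Pl x Y then 1 else 0) =
      ∑ X ∈ S.erase Y, (S.card ^ (k - 1) - (S.card - (G7_A Pl S Y X).card) ^ (k - 1)) := by
    intro b
    rw [← G7_count Pl S Y b, card_filter]
  simp only [h3]
  rw [sum_const, card_univ, Fintype.card_fin, smul_eq_mul]
  push_cast
  ring


theorem G7_term_cast {n a m : ℕ} (h : a ≤ n) :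
    ((n ^ m - (n - a) ^ m : ℕ) : ℝ) = (n : ℝ) ^ m - ((n : ℝ) - a) ^ m := by
  rw [Nat.cast_sub (Nat.pow_le_pow_left (Nat.sub_le _ _) _)]
  push_cast [Nat.cast_sub h]
  rfl

theorem G7_term_le {n m : ℕ} (hn : 1 ≤ n) :
    (n : ℝ) ^ m - ((n : ℝ) - 1) ^ m ≤ (n : ℝ) ^ m * (m / n) := by
  have hn0 : (0 : ℝ) < n := by exact_mod_cast hn
  have hn1 : (1 : ℝ) ≤ n := by exact_mod_cast hn
  have h1 : (n : ℝ) - 1 = n * (1 + (-(1 / n))) := by field_simp; ring
  have h2 : 1 + (m : ℝ) * (-(1 / n)) ≤ (1 + (-(1 / (n : ℝ)))) ^ m := by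
    apply one_add_mul_le_pow
    have : 1 / (n : ℝ) ≤ 1 := by rw [div_le_one hn0]; exact hn1
    linarith
  rw [h1, mul_pow]
  have h3 := mul_le_mul_of_nonneg_left h2 (by positivity : 0 ≤ (n : ℝ) ^ m)
  have h4 : (n : ℝ) ^ m * (1 + (m : ℝ) * (-(1 / n))) = (n : ℝ) ^ m - (n : ℝ) ^ m * (m / n) := by
    ring
  linarith

theorem G7_term_ge {n a m : ℕ} {z : ℝ} (hn : 1 ≤ n) (ha : a ≤ n) (hz : 0 < z)
    (haz : (n : ℝ) / (8 * z) ≤ a) (hm : (m : ℝ) ≤ 8 * z) :
    (n : ℝ) ^ m * (m / (16 * z)) ≤ (n : ℝ) ^ m - ((n : ℝ) - a) ^ m := by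
  have hn0 : (0 : ℝ) < n := by exact_mod_cast hn
  have han : (a : ℝ) ≤ n := by exact_mod_cast ha
  set p : ℝ := a / n with hp
  have hp0 : 0 ≤ p := by positivity
  have hp1 : p ≤ 1 := by rw [hp, div_le_one hn0]; exact han
  have hpz : 1 / (8 * z) ≤ p := by
    rw [hp, le_div_iff₀ hn0]
    calc 1 / (8 * z) * n = n / (8 * z) := by ring
      _ ≤ a := haz
  have h1 : (n : ℝ) - a = n * (1 - p) := by rw [hp]; field_simp
  have h2 : (1 - p) ^ m ≤ Real.exp (-(m * p)) := by
    have e1 : 1 - p ≤ Real.exp (-p) := by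
      have := Real.add_one_le_exp (-p); linarith
    calc (1 - p) ^ m ≤ Real.exp (-p) ^ m := pow_le_pow_left₀ (by linarith) e1 m
      _ = Real.exp (-(m * p)) := by rw [← Real.exp_nat_mul]; congr 1; ring
  set y : ℝ := m * (1 / (8 * z)) with hy
  have hy0 : 0 ≤ y := by positivity
  have hy1 : y ≤ 1 := by
    rw [hy, mul_one_div, div_le_one (by positivity)]; exact hm
  have h3 : Real.exp (-(m * p)) ≤ Real.exp (-y) := by
    apply Real.exp_le_exp.2
    have : y ≤ m * p := mul_le_mul_of_nonneg_left hpz (Nat.cast_nonneg m)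
    linarith
  have h4 : Real.exp (-y) ≤ 1 - y / 2 := by
    have e1 : Real.exp (-y) ≤ 1 / (1 + y) := by
      rw [Real.exp_neg, ← one_div]
      apply one_div_le_one_div_of_le (by linarith)
      have := Real.add_one_le_exp y; linarith
    have e2 : 1 / (1 + y) ≤ 1 - y / 2 := by
      rw [div_le_iff₀ (by linarith)]
      nlinarith
    linarith
  have h5 : (1 - p) ^ m ≤ 1 - y / 2 := h2.trans (h3.trans h4)
  rw [h1, mul_pow]
  have h6 := mul_le_mul_of_nonneg_left h5 (by positivity : 0 ≤ (n : ℝ) ^ m)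
  have h7 : (n : ℝ) ^ m * (m / (16 * z)) = (n : ℝ) ^ m * (y / 2) := by
    rw [hy]; congr 1; field_simp; ring
  rw [h7]
  linarith

theorem G7_upper (Pl : Plane P L q) (S : Finset P) (hS : S.card = q) (hq : 1 ≤ q) (Y : P) {k : ℕ}
    (hk : 1 ≤ k) {M : ℝ} (hM : ((S.filter (fun X => X ≠ Y ∧ ∃ X' ∈ S, X' ≠ Y ∧ X' ≠ X ∧
      X' ∈ Pl.pts (Pl.join Y X))).card : ℝ) ≤ M) :
    avg (fun _ : Fin k => S) (fun x => (coll Pl x Y : ℝ)) ≤ k * (M + k) / q := by
  classical
  have hq0 : (0 : ℝ) < q := by exact_mod_cast hq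
  rw [G7_avg, hS]
  set Mu := S.filter (fun X => X ≠ Y ∧ ∃ X' ∈ S, X' ≠ Y ∧ X' ≠ X ∧
      X' ∈ Pl.pts (Pl.join Y X)) with hMu
  have hAle : ∀ X, (G7_A Pl S Y X).card ≤ q := by
    intro X; exact (card_le_card (filter_subset _ _)).trans hS.le
  have h1 : ((∑ X ∈ S.erase Y, (q ^ (k - 1) - (q - (G7_A Pl S Y X).card) ^ (k - 1)) : ℕ) : ℝ) ≤
      (q : ℝ) ^ (k - 1) * (M + k) := by
    push_cast
    have hb : ∀ X ∈ S.erase Y, ((q ^ (k - 1) - (q - (G7_A Pl S Y X).card) ^ (k - 1) : ℕ) : ℝ) ≤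
        (if X ∈ Mu then (q : ℝ) ^ (k - 1) else 0) + (q : ℝ) ^ (k - 1) * (((k - 1 : ℕ) : ℝ) / q) := by
      intro X hX
      rw [mem_erase] at hX
      have hnn : 0 ≤ (q : ℝ) ^ (k - 1) * (((k - 1 : ℕ) : ℝ) / q) := by positivity
      by_cases hXM : X ∈ Mu
      · rw [if_pos hXM]
        have : ((q ^ (k - 1) - (q - (G7_A Pl S Y X).card) ^ (k - 1) : ℕ) : ℝ) ≤
            ((q ^ (k - 1) : ℕ) : ℝ) := by exact_mod_cast Nat.sub_le _ _
        push_cast at this
        linarith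
      · rw [if_neg hXM, zero_add]
        have hA1 : (G7_A Pl S Y X).card = 1 := by
          rw [card_eq_one]
          refine ⟨X, ?_⟩
          ext Z
          simp only [G7_A, mem_filter, mem_singleton]
          constructor
          · rintro ⟨z1, z2, z3⟩
            by_contra hne
            apply hXM
            rw [hMu, mem_filter]
            exact ⟨hX.2, hX.1, Z, z1, z2, hne, z3⟩
          · rintro rfl
            exact ⟨hX.2, hX.1, Pl.join_right Y Z hX.1.symm⟩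
        rw [hA1, G7_term_cast (by omega)]
        push_cast
        exact G7_term_le hq
    have h2 : (∑ X ∈ S.erase Y, ((q ^ (k - 1) - (q - (G7_A Pl S Y X).card) ^ (k - 1) : ℕ) : ℝ)) ≤
        ∑ X ∈ S.erase Y, ((if X ∈ Mu then (q : ℝ) ^ (k - 1) else 0) +
          (q : ℝ) ^ (k - 1) * (((k - 1 : ℕ) : ℝ) / q)) := sum_le_sum hb
    refine h2.trans ?_
    rw [sum_add_distrib, sum_const, ← sum_filter, sum_const, nsmul_eq_mul, nsmul_eq_mul]
    have h3 : (((S.erase Y).filter (fun X => X ∈ Mu)).card : ℝ) ≤ M := by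
      refine le_trans ?_ hM
      exact_mod_cast card_le_card (fun X hX => (mem_filter.1 hX).2)
    have h4 : ((S.erase Y).card : ℝ) ≤ q := by
      rw [← hS]; exact_mod_cast card_le_card (erase_subset _ _)
    have h5 : (((k - 1 : ℕ) : ℝ)) ≤ k := by exact_mod_cast Nat.sub_le _ _
    have e1 := mul_le_mul_of_nonneg_right h3 (by positivity : 0 ≤ (q : ℝ) ^ (k - 1))
    have e2 : ((S.erase Y).card : ℝ) * ((q : ℝ) ^ (k - 1) * (((k - 1 : ℕ) : ℝ) / q)) ≤
        q * ((q : ℝ) ^ (k - 1) * ((k : ℝ) / q)) := by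
      apply mul_le_mul h4 _ (by positivity) hq0.le
      apply mul_le_mul_of_nonneg_left _ (by positivity)
      exact div_le_div_of_nonneg_right h5 hq0.le
    have e3 : (q : ℝ) * ((q : ℝ) ^ (k - 1) * ((k : ℝ) / q)) = (q : ℝ) ^ (k - 1) * k := by
      field_simp
    linarith
  have hqk : (q : ℝ) ^ k = (q : ℝ) ^ (k - 1) * q := by
    rw [← pow_succ]; congr 1; omega
  rw [hqk, div_le_div_iff₀ (by positivity) hq0]
  have h6 := mul_le_mul_of_nonneg_left h1 (by positivity : (0 : ℝ) ≤ k)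
  have h7 := mul_le_mul_of_nonneg_right h6 hq0.le
  calc _ ≤ _ := h7
    _ = _ := by ring

theorem G7_lower (Pl : Plane P L q) (S : Finset P) (hS : S.card = q) (hq : 4 ≤ q) (Y : P) {k : ℕ}
    (hk : 1 ≤ k) {z : ℝ} (hz : 0 < z) (hkz : (k : ℝ) ≤ 8 * z) (hY : (Pl.sY S Y : ℝ) ≤ 2 * z) :
    (k : ℝ) * ((k - 1 : ℕ) : ℝ) / (32 * z) ≤
      avg (fun _ : Fin k => S) (fun x => (coll Pl x Y : ℝ)) := by
  classical
  have hq0 : (0 : ℝ) < q := by exact_mod_cast (by omega : 0 < q)
  rw [G7_avg, hS]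
  have hAle : ∀ X, (G7_A Pl S Y X).card ≤ q := by
    intro X; exact (card_le_card (filter_subset _ _)).trans hS.le
  set Lo := (S.erase Y).filter (fun X => ((G7_A Pl S Y X).card : ℝ) < q / (8 * z)) with hLo
  set Hi := (S.erase Y).filter (fun X => ¬ ((G7_A Pl S Y X).card : ℝ) < q / (8 * z)) with hHi
  -- few points on poor lines
  have hLo1 : (Lo.card : ℝ) ≤ q / 4 := by
    have h1 : Lo.card ≤ ⌊(q : ℝ) / (8 * z)⌋₊ * (Lo.image (fun X => Pl.join Y X)).card := by
      apply card_le_mul_card_image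
      intro l hl
      rw [mem_image] at hl
      obtain ⟨X0, hX0, rfl⟩ := hl
      have h2 : Lo.filter (fun X => Pl.join Y X = Pl.join Y X0) ⊆ G7_A Pl S Y X0 := by
        intro X hX
        rw [mem_filter, hLo, mem_filter, mem_erase] at hX
        simp only [G7_A, mem_filter]
        refine ⟨hX.1.1.2, hX.1.1.1, ?_⟩
        rw [← hX.2]
        exact Pl.join_right Y X hX.1.1.1.symm
      refine (card_le_card h2).trans ?_
      apply Nat.le_floor
      rw [hLo, mem_filter] at hX0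
      exact hX0.2.le
    have h2 : (Lo.image (fun X => Pl.join Y X)).card ≤ Pl.sY S Y := by
      unfold Plane.sY
      apply card_le_card
      intro l hl
      rw [mem_image] at hl
      obtain ⟨X0, hX0, rfl⟩ := hl
      rw [hLo, mem_filter, mem_erase] at hX0
      rw [mem_filter, Pl.mem_lns]
      exact ⟨Pl.join_left Y X0 hX0.1.1.symm, X0, hX0.1.2, hX0.1.1, Pl.join_right Y X0 hX0.1.1.symm⟩
    have h3 : (Lo.card : ℝ) ≤ (⌊(q : ℝ) / (8 * z)⌋₊ : ℝ) * (Pl.sY S Y : ℝ) := by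
      exact_mod_cast h1.trans (Nat.mul_le_mul_left _ h2)
    have h4 : (⌊(q : ℝ) / (8 * z)⌋₊ : ℝ) ≤ q / (8 * z) := Nat.floor_le (by positivity)
    calc (Lo.card : ℝ) ≤ (⌊(q : ℝ) / (8 * z)⌋₊ : ℝ) * (Pl.sY S Y : ℝ) := h3
      _ ≤ (q / (8 * z)) * (2 * z) := mul_le_mul h4 hY (Nat.cast_nonneg _) (by positivity)
      _ = q / 4 := by field_simp; norm_num
  have hcard : (Lo.card : ℝ) + Hi.card = (S.erase Y).card := by
    rw [hLo, hHi]; exact_mod_cast card_filter_add_card_filter_not _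
  have herase : (q : ℝ) - 1 ≤ (S.erase Y).card := by
    have : S.card - 1 ≤ (S.erase Y).card := pred_card_le_card_erase
    have h2 : S.card ≤ (S.erase Y).card + 1 := by omega
    rw [hS] at h2
    have h3 : (q : ℝ) ≤ (S.erase Y).card + 1 := by exact_mod_cast h2
    linarith
  have hHi1 : (q : ℝ) / 2 ≤ Hi.card := by
    have h4 : (4 : ℝ) ≤ q := by exact_mod_cast hq
    linarith
  have hk1 : (((k - 1 : ℕ)) : ℝ) ≤ 8 * z := by
    refine le_trans ?_ hkz
    exact_mod_cast Nat.sub_le _ _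
  have h1 : (q : ℝ) ^ (k - 1) * (((k - 1 : ℕ) : ℝ) / (16 * z)) * (q / 2) ≤
      ((∑ X ∈ S.erase Y, (q ^ (k - 1) - (q - (G7_A Pl S Y X).card) ^ (k - 1)) : ℕ) : ℝ) := by
    push_cast
    calc (q : ℝ) ^ (k - 1) * (((k - 1 : ℕ) : ℝ) / (16 * z)) * (q / 2)
        ≤ (q : ℝ) ^ (k - 1) * (((k - 1 : ℕ) : ℝ) / (16 * z)) * Hi.card :=
          mul_le_mul_of_nonneg_left hHi1 (by positivity)
      _ = ∑ X ∈ Hi, (q : ℝ) ^ (k - 1) * (((k - 1 : ℕ) : ℝ) / (16 * z)) := by
          rw [sum_const, nsmul_eq_mul]; ring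
      _ ≤ ∑ X ∈ Hi, ((q ^ (k - 1) - (q - (G7_A Pl S Y X).card) ^ (k - 1) : ℕ) : ℝ) := by
          apply sum_le_sum
          intro X hX
          rw [hHi, mem_filter, not_lt] at hX
          rw [G7_term_cast (hAle X)]
          exact G7_term_ge (by omega) (hAle X) hz hX.2 hk1
      _ ≤ ∑ X ∈ S.erase Y, ((q ^ (k - 1) - (q - (G7_A Pl S Y X).card) ^ (k - 1) : ℕ) : ℝ) := by
          apply sum_le_sum_of_subset_of_nonneg (filter_subset _ _)
          intro i _ _
          exact Nat.cast_nonneg _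
  have hqk : (q : ℝ) ^ k = (q : ℝ) ^ (k - 1) * q := by
    rw [← pow_succ]; congr 1; omega
  rw [hqk, div_le_div_iff₀ (by positivity) (by positivity)]
  have h6 := mul_le_mul_of_nonneg_left h1 (by positivity : (0 : ℝ) ≤ k)
  have h7 := mul_le_mul_of_nonneg_right h6 (by positivity : (0 : ℝ) ≤ 32 * z)
  calc _ = (k : ℝ) * ((q : ℝ) ^ (k - 1) * (((k - 1 : ℕ) : ℝ) / (16 * z)) * (q / 2)) * (32 * z) := by
        field_simp; ring
    _ ≤ _ := h7


/-- numerical facts used in Lemma W -/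
theorem G7_num {r q z k : ℝ} (hr : 10000000 ≤ r) (hq : q = r ^ 1000) (hz1 : r ^ 494 ≤ z)
    (hz2 : z ≤ r ^ 990) (hk1 : k ≤ z / r ^ 5) (hk2 : z / r ^ 5 < k + 1) :
    2 ≤ k ∧ k ≤ z ∧ k * (4 * z + k) / q ≤ k ^ 2 / (256 * z) ∧
      r ^ 2 ≤ (k ^ 2 / (256 * z)) ^ 2 / (2 * (9 * k)) := by
  have hr0 : 0 < r := by linarith
  have hr1 : 1 ≤ r := by linarith
  have hz0 : 0 < z := lt_of_lt_of_le (by positivity) hz1
  have hq0 : 0 < q := by rw [hq]; positivity
  have hr5 : 0 < r ^ 5 := by positivity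
  have hpow : ∀ m n : ℕ, m ≤ n → r ^ m ≤ r ^ n := fun m n h => pow_le_pow_right₀ hr1 h
  have hbig : 10000000 * r ^ 488 ≤ r ^ 489 := by
    have : r ^ 489 = r * r ^ 488 := by ring
    rw [this]
    exact mul_le_mul_of_nonneg_right hr (by positivity)
  have h488 : 1 ≤ r ^ 488 := one_le_pow₀ hr1
  have hzr : r ^ 489 ≤ z / r ^ 5 := by
    rw [le_div_iff₀ hr5]
    calc r ^ 489 * r ^ 5 = r ^ 494 := by ring
      _ ≤ z := hz1
  have hk3 : z / r ^ 5 / 2 ≤ k := by linarith
  have hk4 : 2 ≤ k := by linarith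
  have hk0 : 0 < k := by linarith
  have hkz : k ≤ z := by
    refine hk1.trans ?_
    rw [div_le_iff₀ hr5]
    have : 1 ≤ r ^ 5 := one_le_pow₀ hr1
    nlinarith
  refine ⟨hk4, hkz, ?_, ?_⟩
  · -- upper
    rw [div_le_div_iff₀ hq0 (by positivity)]
    have e1 : 4096 * z ≤ r ^ 995 := by
      have : 4096 * r ^ 990 ≤ r ^ 995 := by
        have e : r ^ 995 = r ^ 5 * r ^ 990 := by ring
        rw [e]
        apply mul_le_mul_of_nonneg_right _ (by positivity)
        have : r ≤ r ^ 5 := by simpa using hpow 1 5 (by norm_num)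
        linarith
      linarith
    have e2 : z * r ^ 995 / 2 ≤ k * q := by
      have h := mul_le_mul_of_nonneg_right hk3 hq0.le
      have h' : z / r ^ 5 / 2 * q = z * r ^ 995 / 2 := by
        rw [hq]; field_simp
      linarith
    have e3 : 2048 * z ^ 2 ≤ k * q := by
      have h := mul_le_mul_of_nonneg_left e1 hz0.le
      nlinarith
    have e4 : 512 * z ≤ q := by
      have : r ^ 995 ≤ q := by rw [hq]; exact hpow _ _ (by norm_num)
      linarith
    have e5 : k * (4 * z + k) * (256 * z) = k * ((2048 * z ^ 2) / 2 + (512 * z) * k / 2) := by ring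
    rw [e5]
    have e6 : k ^ 2 * q = k * (k * q / 2 + q * k / 2) := by ring
    rw [e6]
    apply mul_le_mul_of_nonneg_left _ hk0.le
    have e7 := mul_le_mul_of_nonneg_right e4 hk0.le
    linarith
  · have e1 : (k ^ 2 / (256 * z)) ^ 2 / (2 * (9 * k)) = k ^ 3 / (1179648 * z ^ 2) := by
      field_simp; ring
    rw [e1, le_div_iff₀ (by positivity)]
    have e2 : (z / r ^ 5 / 2) ^ 3 ≤ k ^ 3 := pow_le_pow_left₀ (by positivity) hk3 3
    have e3 : (z / r ^ 5 / 2) ^ 3 = z ^ 2 * (z / (8 * r ^ 15)) := by field_simp; ring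
    have e4 : r ^ 2 * 1179648 ≤ z / (8 * r ^ 15) := by
      rw [le_div_iff₀ (by positivity)]
      have h1 : 10000000 * r ^ 17 ≤ r ^ 18 := by
        have : r ^ 18 = r * r ^ 17 := by ring
        rw [this]; exact mul_le_mul_of_nonneg_right hr (by positivity)
      have h2 : r ^ 18 ≤ r ^ 494 := hpow _ _ (by norm_num)
      have h3 : r ^ 2 * 1179648 * (8 * r ^ 15) = 9437184 * r ^ 17 := by ring
      have h4 : 0 ≤ r ^ 17 := by positivity
      rw [h3]; linarith
    have e5 := mul_le_mul_of_nonneg_left e4 (by positivity : 0 ≤ z ^ 2)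
    calc r ^ 2 * (1179648 * z ^ 2) = z ^ 2 * (r ^ 2 * 1179648) := by ring
      _ ≤ z ^ 2 * (z / (8 * r ^ 15)) := e5
      _ = (z / r ^ 5 / 2) ^ 3 := e3.symm
      _ ≤ k ^ 3 := e2

theorem G7_union {r : ℝ} {q : ℕ} (hr : 10 ≤ r) (hq : 1 ≤ q) (hlog : Real.log q ≤ r) {E : ℝ}
    (hE : r ^ 2 ≤ E) : ((q ^ 2 + q + 1 : ℕ) : ℝ) * (2 * Real.exp (-E)) < 1 := by
  have hq0 : (0 : ℝ) < q := by exact_mod_cast hq
  have hq1 : (1 : ℝ) ≤ q := by exact_mod_cast hq
  have h1 : (q : ℝ) ≤ Real.exp r := by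
    calc (q : ℝ) = Real.exp (Real.log q) := (Real.exp_log hq0).symm
      _ ≤ Real.exp r := Real.exp_le_exp.2 hlog
  have h2 : ((q ^ 2 + q + 1 : ℕ) : ℝ) ≤ 3 * Real.exp (2 * r) := by
    push_cast
    have e1 : (q : ℝ) ^ 2 ≤ Real.exp (2 * r) := by
      have : Real.exp (2 * r) = Real.exp r ^ 2 := by
        rw [← Real.exp_nat_mul]; norm_num
      rw [this]; exact pow_le_pow_left₀ hq0.le h1 2
    nlinarith
  have h3 : (6 : ℝ) ≤ Real.exp 5 := by
    have := Real.add_one_le_exp (5 : ℝ); linarith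
  have h4 : ((q ^ 2 + q + 1 : ℕ) : ℝ) * (2 * Real.exp (-E)) ≤
      Real.exp 5 * (Real.exp (2 * r) * Real.exp (-E)) := by
    have e1 : 0 ≤ 2 * Real.exp (-E) := by positivity
    have e2 := mul_le_mul_of_nonneg_right h2 e1
    have e3 : 0 ≤ Real.exp (2 * r) * Real.exp (-E) := by positivity
    have e4 := mul_le_mul_of_nonneg_right h3 e3
    calc _ ≤ 3 * Real.exp (2 * r) * (2 * Real.exp (-E)) := e2
      _ = 6 * (Real.exp (2 * r) * Real.exp (-E)) := by ring
      _ ≤ _ := e4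
  refine lt_of_le_of_lt h4 ?_
  rw [← Real.exp_add, ← Real.exp_add, ← Real.exp_zero]
  apply Real.exp_lt_exp.2
  nlinarith

/-- G7. Let μ = mis S, z = μ/q ∈ [r^494, r^990], k = k7 q μ = ⌊z r^-5⌋, sample x_1..x_k ∈ S independent uniform.
`coll x Y` changes by at most 3 when one x_b changes, so by McDiarmid |coll - E coll| ≤ k²/(256 z) for all Y
with positive probability (k³/z² ≥ r^478).
Y ∉ WS: s_Y ≥ q - 2z, so the number of X ∈ S not alone on their line is ≤ 4 z (multi_le), and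
E coll ≤ k (4z/q) + k²/q ≤ k²/(1000 z).
Y ∈ WS: S \ Y lies on s_Y ≤ 2z lines through Y, with masses p_i = |l_i ∩ S|/q; lines with p_i ≥ 1/(8z)
carry total mass ≥ 1/2 and for those 1 - (1-p_i)^(k-1) ≥ (k-1)/(16 z)·(something ≥ 1/2), so
E coll ≥ k(k-1)/(40 z) ≥ k²/(50 z) > 1.5 k²/(128 z). -/
theorem lemmaW : ∃ q0 : ℕ, ∀ (q : ℕ), q0 ≤ q → ∀ (P L : Type) [Fintype P] [Fintype L] [DecidableEq P]
      [DecidableEq L] (Pl : Plane P L q), Pl.Dich →
      ∀ S : Finset P, okS7 Pl S → ∃ x : Fin (k7 q (Pl.mis S)) → P, WS Pl S = Wx Pl (Pl.mis S) x := by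
  obtain ⟨q1, hq1⟩ := rr_large 10000000
  obtain ⟨q2, hq2⟩ := log_le_rr 1 one_pos
  refine ⟨max (max q1 q2) 4, ?_⟩
  intro q hq P L _ _ _ _ Pl hD S hS
  obtain ⟨hScard, hμ1, hμ2⟩ := hS
  have hr := hq1 q (le_trans (le_trans (le_max_left _ _) (le_max_left _ _)) hq)
  have hlog := hq2 q (le_trans (le_trans (le_max_right _ _) (le_max_left _ _)) hq)
  have hq4 : 4 ≤ q := le_trans (le_max_right _ _) hq
  rw [one_mul] at hlog
  have hqr : (q : ℝ) = rr q ^ 1000 := (rr_pow q).symm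
  set r : ℝ := rr q with hrdef
  set μ : ℕ := Pl.mis S with hμ
  have hr0 : 0 < r := by linarith
  have hr1 : 1 ≤ r := by linarith
  have hq0 : (0 : ℝ) < q := by exact_mod_cast (by omega : 0 < q)
  set z : ℝ := (μ : ℝ) / q with hz
  have hz1 : r ^ 494 ≤ z := by
    rw [hz, le_div_iff₀ hq0, hqr]
    calc r ^ 494 * r ^ 1000 = r ^ 1494 := by ring
      _ ≤ (μ : ℝ) := hμ1
  have hz2 : z ≤ r ^ 990 := by
    rw [hz, div_le_iff₀ hq0, hqr]
    calc (μ : ℝ) ≤ r ^ 1990 := hμ2
      _ = r ^ 990 * r ^ 1000 := by ring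
  have hz0 : 0 < z := lt_of_lt_of_le (by positivity) hz1
  have hk7 : k7 q μ = ⌊z / r ^ 5⌋₊ := rfl
  set k : ℕ := k7 q μ with hk
  have hk1 : (k : ℝ) ≤ z / r ^ 5 := by rw [hk7]; exact Nat.floor_le (by positivity)
  have hk2 : z / r ^ 5 < (k : ℝ) + 1 := by rw [hk7]; exact Nat.lt_floor_add_one _
  obtain ⟨n1, n2, n3, n4⟩ := G7_num hr hqr hz1 hz2 hk1 hk2
  have hk0 : (0 : ℝ) < k := by linarith
  have hkn : 2 ≤ k := by exact_mod_cast n1
  have hμ8 : 8 * μ ≤ q ^ 2 := by
    have : (8 : ℝ) * μ ≤ (q : ℝ) ^ 2 := by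
      have e1 : (q : ℝ) ^ 2 = r ^ 10 * r ^ 1990 := by rw [hqr]; ring
      rw [e1]
      have e2 : (8 : ℝ) ≤ r ^ 10 := by
        have : r ^ 1 ≤ r ^ 10 := pow_le_pow_right₀ hr1 (by norm_num)
        linarith
      exact mul_le_mul e2 hμ2 (Nat.cast_nonneg _) (by positivity)
    exact_mod_cast this
  -- McDiarmid
  have hSne : S.Nonempty := by
    rw [← card_pos, hScard]; omega
  set Ω := Fintype.piFinset (fun _ : Fin k => S) with hΩ
  set f : P → (Fin k → P) → ℝ := fun Y x => (coll Pl x Y : ℝ) with hf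
  set s : ℝ := (k : ℝ) ^ 2 / (256 * z) with hs
  have hs0 : 0 ≤ s := by positivity
  set bad : P → Finset (Fin k → P) := fun Y =>
    Ω.filter (fun x => s ≤ |f Y x - avg (fun _ : Fin k => S) (f Y)|) with hbad
  have hbadc : ∀ Y, ((bad Y).card : ℝ) ≤
      2 * Real.exp (-(s ^ 2 / (2 * (9 * (k : ℝ))))) * (Ω.card : ℝ) := by
    intro Y
    apply mcdiarmid (fun _ : Fin k => S) (fun _ => hSne) (f Y) (fun _ => 3) (fun _ => by norm_num)
      _ s (9 * k) hs0 _ (by positivity)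
    · intro ω _ i a _
      exact G7_lip Pl ω Y i a
    · simp
      linarith
  have hΩ0 : (0 : ℝ) < Ω.card := by
    have : Ω.Nonempty := Fintype.piFinset_nonempty.2 (fun _ => hSne)
    exact_mod_cast card_pos.2 this
  obtain ⟨x, hx, hxb⟩ : ∃ x ∈ Ω, ∀ Y : P, x ∉ bad Y := by
    by_contra hcon
    push Not at hcon
    have hsub : Ω ⊆ univ.biUnion bad := by
      intro x hx
      obtain ⟨Y, hY⟩ := hcon x hx
      exact mem_biUnion.2 ⟨Y, mem_univ _, hY⟩
    have h1 : (Ω.card : ℝ) ≤ ∑ Y : P, ((bad Y).card : ℝ) := by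
      have := (card_le_card hsub).trans card_biUnion_le
      exact_mod_cast this
    have h2 : ∑ Y : P, ((bad Y).card : ℝ) ≤ ∑ _Y : P,
        2 * Real.exp (-(s ^ 2 / (2 * (9 * (k : ℝ))))) * (Ω.card : ℝ) :=
      sum_le_sum (fun Y _ => hbadc Y)
    rw [sum_const, card_univ, Pl.card_P, nsmul_eq_mul] at h2
    have h3 := G7_union (by linarith) (by omega) hlog n4
    have h4 := mul_lt_mul_of_pos_right h3 hΩ0
    linarith
  refine ⟨x, ?_⟩
  have hdev : ∀ Y, |f Y x - avg (fun _ : Fin k => S) (f Y)| < s := by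
    intro Y
    by_contra hc
    rw [not_lt] at hc
    exact hxb Y (by rw [hbad]; exact mem_filter.2 ⟨hx, hc⟩)
  have hthr : (k : ℝ) ^ 2 / (128 * z) = 2 * s := by rw [hs]; field_simp; norm_num
  ext Y
  simp only [WS, Wx, mem_filter, mem_univ, true_and]
  rw [← hz, hthr]
  have hdY := abs_lt.1 (hdev Y)
  constructor
  · intro hY
    have hY' : (Pl.sY S Y : ℝ) ≤ 2 * z := by
      rw [hz, ← mul_div_assoc, le_div_iff₀ hq0]
      have : (q : ℝ) * Pl.sY S Y ≤ 2 * μ := by exact_mod_cast hY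
      linarith
    have h1 := G7_lower Pl S hScard hq4 Y (k := k) (by omega) hz0 (by linarith) hY'
    have h2 : 3 * s ≤ (k : ℝ) * ((k - 1 : ℕ) : ℝ) / (32 * z) := by
      rw [Nat.cast_sub (by omega), hs, ← mul_div_assoc, div_le_div_iff₀ (by positivity) (by positivity)]
      push_cast
      have : (k : ℝ) ^ 2 ≤ 2 * (k * (k - 1)) := by nlinarith
      nlinarith
    have h3 : 2 * s < f Y x := by
      have := hdY.1
      linarith
    exact h3.le
  · intro hY
    by_contra hYn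
    have hYn' : Y ∉ WS Pl S := by
      simp only [WS, mem_filter, mem_univ, true_and]
      exact hYn
    have h1 := sY_far Pl hD S hScard (by omega) hμ8 Y hYn'
    have h2 := multi_le Pl S hScard Y
    have h3 : ((S.filter (fun X => X ≠ Y ∧ ∃ X' ∈ S, X' ≠ Y ∧ X' ≠ X ∧
        X' ∈ Pl.pts (Pl.join Y X))).card : ℝ) ≤ 4 * z := by
      have h4 : ((S.filter (fun X => X ≠ Y ∧ ∃ X' ∈ S, X' ≠ Y ∧ X' ≠ X ∧
        X' ∈ Pl.pts (Pl.join Y X))).card : ℝ) ≤ 2 * ((q : ℝ) - Pl.sY S Y) := by exact_mod_cast h2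
      have h5 : 2 * (μ : ℝ) / q = 2 * z := by rw [hz]; ring
      rw [← hμ, h5] at h1
      linarith
    have h6 := G7_upper Pl S hScard (by omega) Y (k := k) (by omega) h3
    have h7 : avg (fun _ : Fin k => S) (f Y) ≤ s := h6.trans n3
    have h8 := hdY.2
    have h9 : f Y x < 2 * s := by linarith
    exact absurd hY (not_le.2 h9)

end Crest.Agent.Ryser
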