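import Crest.Agent.Ryser.G6
import Crest.Agent.Ryser.RR

/-! Row 34, chunk G9: step 7, the final contradiction (given lemmaW as hypothesis). -/

set_option autoImplicit false

open Finset

namespace Crest.Agent.Ryser

/-- G9. μ = mis S.  testS7 is valid (G6d) so Rich: `c |J| ≤ #surv`, |J| ≥ μ - (q+1).  A surviving line misses S, so
(cover) it is not in LL, so it contains a point of B, which is in WS.  So `#surv ≤ |B ∩ WS| (q+1)`.
With x from hW, `WS = Wx`, card ≤ 3q (by card_WS_diff), so prW7 gives `|B ∩ WS| ≤ c μ/(4q)`.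
Contradiction for q large since μ ≥ r^1494 ≫ q. -/
theorem step7 (c b : ℝ) (hc : 0 < c) : ∃ q0 : ℕ, ∀ (q : ℕ), q0 ≤ q → ∀ (P L : Type) [Fintype P] [Fintype L] [DecidableEq P]
      [DecidableEq L] (Pl : Plane P L q) (P0 : P) (B S : Finset P), Pl.Dich → Good Pl P0 c b B →
      Cov Pl P0 B S → rr q ^ 1494 ≤ (Pl.mis S : ℝ) → (Pl.mis S : ℝ) ≤ rr q ^ 1990 →
      (∃ x : Fin (k7 q (Pl.mis S)) → P, WS Pl S = Wx Pl (Pl.mis S) x) → False := by
  obtain ⟨q2, hr⟩ := rr_large 100
  refine ⟨max q2 2, ?_⟩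
  intro q hq P L _ _ _ _ Pl P0 B S hD hG hC hμ1 hμ2 hx
  have hq2 : q2 ≤ q := by omega
  have hq4 : 2 ≤ q := by omega
  have hR := hr q hq2
  set r := rr q with hrdef
  have hr1 : (1 : ℝ) ≤ r := by linarith
  have hr0 : (0 : ℝ) < r := by linarith
  have hrq : r ^ 1000 = (q : ℝ) := rr_pow q
  have hq0 : (0 : ℝ) < q := by positivity
  have hq1 : (2 : ℝ) ≤ q := by exact_mod_cast hq4
  set μ := Pl.mis S with hμdef
  obtain ⟨x, hx⟩ := hx
  have hμ8 : 8 * μ ≤ q ^ 2 := by
    have h2 : (8 : ℝ) * μ ≤ (q : ℝ) ^ 2 := by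
      rw [← hrq]
      calc (8 : ℝ) * μ ≤ 8 * r ^ 1990 := by linarith
        _ ≤ r ^ 10 * r ^ 1990 := by
          apply mul_le_mul_of_nonneg_right _ (by positivity)
          calc (8 : ℝ) ≤ r := by linarith
            _ = r ^ 1 := (pow_one r).symm
            _ ≤ r ^ 10 := pow_le_pow_right₀ hr1 (by norm_num)
        _ = (r ^ 1000) ^ 2 := by ring
    exact_mod_cast h2
  have hval := testS7_valid Pl hD P0 S hC.card hq4 hμ8
  have hrich := hG.prS7 S ⟨hC.card, hμ1, hμ2⟩ hval
  unfold Test.Rich at hrich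
  -- lower bound for J
  have hJ : μ ≤ (testS7 Pl P0 S).J.card + (q + 1) := by
    have h1 : (univ.filter (fun l => Pl.tl S l = 0)) ⊆ (testS7 Pl P0 S).J ∪ Pl.lns P0 := by
      intro l hl
      rw [mem_filter] at hl
      rw [mem_union]
      by_cases h : P0 ∈ Pl.pts l
      · right; exact (Pl.mem_lns P0 l).mpr h
      · left
        simp only [testS7, mem_filter, mem_univ, true_and]
        exact ⟨h, hl.2⟩
    have h2 := (card_le_card h1).trans (card_union_le _ _)
    rw [Pl.card_lns] at h2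
    exact h2
  -- upper bound for surv
  have hsurv : ((testS7 Pl P0 S).surv Pl B).card ≤ (B ∩ WS Pl S).card * (q + 1) := by
    have h1 : (testS7 Pl P0 S).surv Pl B ⊆ (B ∩ WS Pl S).biUnion (fun X => Pl.lns X) := by
      intro l hl
      unfold Test.surv at hl
      simp only [testS7, mem_filter, mem_univ, true_and, mem_singleton, forall_eq] at hl
      obtain ⟨⟨hl1, hl2⟩, hl3⟩ := hl
      have h2 : l ∉ Pl.LL P0 B := by
        intro h
        have := hC.cover l h
        omega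
      unfold Plane.LL at h2
      rw [mem_filter] at h2
      push Not at h2
      obtain ⟨X, hXB, hXl⟩ := h2 (mem_univ _) hl1
      rw [mem_biUnion]
      exact ⟨X, mem_inter.mpr ⟨hXB, hl3 X hXB hXl⟩, (Pl.mem_lns X l).mpr hXl⟩
    refine (card_le_card h1).trans (card_biUnion_le.trans ?_)
    simp only [Pl.card_lns, sum_const, smul_eq_mul]
    exact le_rfl
  -- W7
  have hμlt : μ < q ^ 2 + q + 2 := by
    have : μ ≤ Fintype.card L := by
      rw [hμdef]
      exact (card_le_univ _)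
    rw [Pl.card_L] at this
    omega
  have hWcard : (WS Pl S).card ≤ 3 * q := by
    have h1 := card_WS_diff Pl S hC.card hq4 hμ8
    have h2 : (WS Pl S).card ≤ (WS Pl S \ S).card + S.card := by
      have : WS Pl S ⊆ (WS Pl S \ S) ∪ S := by
        intro X hX
        by_cases h : X ∈ S <;> simp [h, hX]
      exact (card_le_card this).trans (card_union_le _ _)
    rw [hC.card] at h2
    have h3 : (WS Pl S \ S).card * q ≤ q * q := by
      calc (WS Pl S \ S).card * q ≤ 4 * μ := h1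
        _ ≤ q ^ 2 := by omega
        _ = q * q := by ring
    have h4 := Nat.le_of_mul_le_mul_right h3 (by omega)
    omega
  have hB := hG.prW7 (⟨⟨μ, hμlt⟩, x⟩ : IdxW P q) ⟨hμ1, hμ2, by
    change (Wx Pl μ x).card ≤ 3 * q
    rw [← hx]; exact hWcard⟩
  change ((B ∩ Wx Pl μ x).card : ℝ) ≤ hW7 q c μ at hB
  rw [← hx] at hB
  unfold hW7 at hB
  have hJ' : (μ : ℝ) ≤ ((testS7 Pl P0 S).J.card : ℝ) + (q + 1) := by exact_mod_cast hJ
  have hs' : (((testS7 Pl P0 S).surv Pl B).card : ℝ) ≤ ((B ∩ WS Pl S).card : ℝ) * (q + 1) := by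
    exact_mod_cast hsurv
  have h1 : c * ((μ : ℝ) - (q + 1)) ≤ c * (μ : ℝ) / (4 * q) * (q + 1) := by
    calc c * ((μ : ℝ) - (q + 1)) ≤ c * ((testS7 Pl P0 S).J.card : ℝ) := by
          apply mul_le_mul_of_nonneg_left _ hc.le
          linarith
      _ ≤ _ := hrich
      _ ≤ _ := hs'
      _ ≤ _ := by
          apply mul_le_mul_of_nonneg_right hB
          positivity
  have h2 : c * (μ : ℝ) / (4 * q) * (q + 1) ≤ c * μ / 2 := by
    rw [div_mul_eq_mul_div, div_le_div_iff₀ (by positivity) (by norm_num)]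
    have : 0 ≤ c * (μ : ℝ) := by positivity
    nlinarith
  have h3 : (μ : ℝ) ≤ 4 * q := by
    have h4 : c * ((μ : ℝ) - (q + 1)) ≤ c * (μ / 2) := by
      calc _ ≤ _ := h1
        _ ≤ _ := h2
        _ = _ := by ring
    have h5 := le_of_mul_le_mul_left h4 hc
    linarith
  have h4 : r ^ 1494 ≤ 4 * r ^ 1000 := by
    rw [hrq]; exact hμ1.trans h3
  have h5 : 4 * r ^ 1000 < r ^ 1494 := by
    calc 4 * r ^ 1000 < r * r ^ 1000 := by
          apply mul_lt_mul_of_pos_right _ (by positivity)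
          linarith
      _ = r ^ 1001 := by ring
      _ ≤ r ^ 1494 := pow_le_pow_right₀ hr1 (by norm_num)
  linarith

end Crest.Agent.Ryser
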