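import Crest.Agent.Ryser.G0

import Crest.Agent.Ryser.G1
import Crest.Agent.Ryser.G2
import Crest.Agent.Ryser.G3
import Crest.Agent.Ryser.G4
import Crest.Agent.Ryser.G5
import Crest.Agent.Ryser.G7
import Crest.Agent.Ryser.G9

/-! Row 34: the global theorem (glue, helper10). -/

set_option autoImplicit false

open Finset

namespace Crest.Agent.Ryser

theorem global_thm (c b κ : ℝ) (hc : 0 < c) (hb : 0 ≤ b) (hκ : 0 < κ) (hκ1 : κ < 1) :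
    ∃ q0 : ℕ, ∀ (q : ℕ), q0 ≤ q → ∀ (P L : Type) [Fintype P] [Fintype L] [DecidableEq P]
      [DecidableEq L] (Pl : Plane P L q) (P0 : P) (B : Finset P), Pl.Dich → Good Pl P0 c b B →
      ∀ S : Finset P, S.card = q → (∀ X ∈ S, X ∉ B ∧ X ≠ P0) →
        (∀ l ∈ Pl.LL P0 B, ∃ X ∈ S, X ∈ Pl.pts l) → ∃ l, (1 - κ) * q ≤ (Pl.tl S l : ℝ) := by
  obtain ⟨q0, h0⟩ := step0 c b hc hb
  obtain ⟨q1, h1⟩ := pd_lemma c hc
  obtain ⟨q2, h2⟩ := step1 (c / 2) κ (by positivity) hκ hκ1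
  obtain ⟨q3, h3⟩ := step2 (c / 2) (by positivity)
  obtain ⟨q4, h4⟩ := step3 (c / 2) (by positivity)
  obtain ⟨q5, h5⟩ := step4 c hc
  obtain ⟨q6, h6⟩ := step5_upper
  obtain ⟨q7, h7⟩ := step5_lower
  obtain ⟨q8, h8⟩ := lemmaW
  obtain ⟨q9, h9⟩ := step7 c b hc
  refine ⟨q0 + q1 + q2 + q3 + q4 + q5 + q6 + q7 + q8 + q9, ?_⟩
  intro q hq P L _ _ _ _ Pl P0 B hD hG S hS hoff hcov
  by_contra hcon
  push Not at hcon
  have C0 := h0 q (by omega) P L Pl P0 B hG S hS hoff hcov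
  have hPD := h1 q (by omega) P L Pl P0 B hG.prPD
  have T1 := h2 q (by omega) P L Pl P0 B S hPD C0 hcon
  have T2 := h3 q (by omega) P L Pl P0 B S hPD C0 T1
  obtain ⟨Gd, 𝓛, T3⟩ := h4 q (by omega) P L Pl P0 B S C0 T1 T2
  have T4 := h5 q (by omega) P L Pl P0 B S Gd 𝓛 hG.prF4 C0 T3
  have hP0 : P0 ∉ S := fun h => (hoff P0 h).2 rfl
  have T5 := h6 q (by omega) P L Pl P0 S Gd 𝓛 hS hP0 T1 T3 T4
  have T6 := h7 q (by omega) P L Pl S hS T1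
  exact h9 q (by omega) P L Pl P0 B S hD hG C0 T6 T5
    (h8 q (by omega) P L Pl hD S ⟨hS, T6, T5⟩)

end Crest.Agent.Ryser
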