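import Crest.Agent.Ryser.Basic

/-! Row 34, chunk NL: the near-line theorem (covers containing almost all points of a line). -/

set_option autoImplicit false

open Finset

namespace Crest.Agent.Ryser

namespace NLaux

variable {P L : Type} [Fintype P] [Fintype L] [DecidableEq P] [DecidableEq L] {q : ℕ}
variable {Pl : Plane P L q} {P0 : P} {n : ℕ} (C : Config Pl P0 n)

/-- the extra genericity: `R i b t'` is not on `sigma i b s t`. -/
def SigR (C : Config Pl P0 n) : Prop :=
  ∀ i b s t t', s ≠ t → t' ≠ t → C.R i b t' ∉ Pl.pts (C.sigma i b s t)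

theorem P0_mem_part (i : Pl.Prt P0) : P0 ∈ Pl.pts i.1 := (Pl.mem_lns _ _).mp i.2

theorem base_mem_ban (i : Pl.Prt P0) : C.base i ∈ C.ban :=
  mem_union_left _ (mem_image_of_mem _ (mem_univ i))

theorem Q_mem_ban (i : Pl.Prt P0) (b : Bool) (t : Fin n) : C.Q i b t ∈ C.ban :=
  mem_union_right _ (mem_image_of_mem (fun x : Pl.Prt P0 × Bool × Fin n => C.Q x.1 x.2.1 x.2.2)
    (mem_univ (i, b, t)))

theorem ban_cases {X : P} (hX : X ∈ C.ban) :
    (∃ i, X = C.base i) ∨ ∃ i b t, X = C.Q i b t := by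
  rcases mem_union.mp hX with h | h
  · obtain ⟨i, _, hi⟩ := mem_image.mp h
    exact Or.inl ⟨i, hi.symm⟩
  · obtain ⟨x, _, hx⟩ := mem_image.mp h
    exact Or.inr ⟨x.1, x.2.1, x.2.2, hx.symm⟩

theorem Q_ne_P0 (i : Pl.Prt P0) (b : Bool) (t : Fin n) : C.Q i b t ≠ P0 := fun h => by
  have h1 := C.Q_mem i b t
  rw [h] at h1
  exact C.g_P0 i b h1

theorem Q_ne_base' (i j : Pl.Prt P0) (b : Bool) (t : Fin n) : C.Q i b t ≠ C.base j := by
  intro h
  by_cases hj : j = i
  · subst hj; exact C.Q_ne_base _ _ _ h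
  · exact C.base_not_g i j b hj (h ▸ C.Q_mem i b t)

theorem Q_inj' {i j : Pl.Prt P0} {b b' : Bool} {t t' : Fin n} (h : C.Q i b t = C.Q j b' t') :
    i = j ∧ b = b' ∧ t = t' := by
  by_cases hij : (i, b) = (j, b')
  · obtain ⟨rfl, rfl⟩ := Prod.mk.inj hij
    exact ⟨rfl, rfl, C.Q_inj _ _ h⟩
  · exact absurd (h ▸ C.Q_mem j b' t') (C.Q_not_g j b' i b t hij)

theorem base_inj {i j : Pl.Prt P0} (h : C.base i = C.base j) : i = j := by
  by_contra hij
  have h1 : i.1 ≠ j.1 := fun e => hij (Subtype.ext e)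
  have := Pl.eq_of_mem_two h1 (C.base_mem i) (by rw [h]; exact C.base_mem j)
    (P0_mem_part i) (P0_mem_part j)
  exact C.base_ne i this

theorem part_ne_g (i j : Pl.Prt P0) (b : Bool) : j.1 ≠ C.g i b := fun h =>
  C.g_P0 i b (h ▸ P0_mem_part j)

/-- a banned point on `g i b` lies in `K i b`. -/
theorem ban_g {i : Pl.Prt P0} {b : Bool} {X : P} (hX : X ∈ C.ban) (hg : X ∈ Pl.pts (C.g i b)) :
    X = C.base i ∨ ∃ t, X = C.Q i b t := by
  rcases ban_cases C hX with ⟨j, rfl⟩ | ⟨j, b', t, rfl⟩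
  · by_cases hj : j = i
    · subst hj; exact Or.inl rfl
    · exact absurd hg (C.base_not_g i j b hj)
  · by_cases hij : (j, b') = (i, b)
    · obtain ⟨rfl, rfl⟩ := Prod.mk.inj hij
      exact Or.inr ⟨t, rfl⟩
    · exact absurd hg (C.Q_not_g i b j b' t hij)

theorem g_inj {i j : Pl.Prt P0} {b b' : Bool} (h : C.g i b = C.g j b') : i = j ∧ b = b' := by
  have hij : i = j := by
    by_contra hij
    exact C.base_not_g j i b' hij (h ▸ C.g_mem i b)
  subst hij
  refine ⟨rfl, ?_⟩
  by_contra hb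
  cases b <;> cases b' <;> simp_all
  · exact C.g_ne i h.symm
  · exact C.g_ne i h

theorem mu_ne_part (i : Pl.Prt P0) (t : Fin n) (X : P) (hX : P0 ≠ X) :
    C.mu i t ≠ Pl.join P0 X := fun h => C.mu_P0 i t (by rw [h]; exact Pl.join_left _ _ hX)

theorem R_mem_mu (i : Pl.Prt P0) (b : Bool) (t : Fin n) : C.R i b t ∈ Pl.pts (C.mu i t) :=
  Pl.meet_left _ _ (mu_ne_part C i t _ (Q_ne_P0 C i b t).symm)

theorem R_mem_part (i : Pl.Prt P0) (b : Bool) (t : Fin n) :
    C.R i b t ∈ Pl.pts (Pl.join P0 (C.Q i b t)) :=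
  Pl.meet_right _ _ (mu_ne_part C i t _ (Q_ne_P0 C i b t).symm)

theorem R_ne_base (i : Pl.Prt P0) (b : Bool) (t : Fin n) : C.R i b t ≠ C.base i := by
  intro h
  have h1 := R_mem_part C i b t
  rw [h] at h1
  have h2 : i.1 = Pl.join P0 (C.Q i b t) :=
    Pl.line_eq_of_two (C.base_ne i) (C.base_mem i) h1 (P0_mem_part i)
      (Pl.join_left _ _ (Q_ne_P0 C i b t).symm)
  have h3 : C.Q i b t ∈ Pl.pts i.1 := by
    rw [h2]; exact Pl.join_right _ _ (Q_ne_P0 C i b t).symm
  exact C.Q_ne_base i b t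
    (Pl.eq_of_mem_two (part_ne_g C i i b) h3 (C.Q_mem i b t) (C.base_mem i) (C.g_mem i b))

theorem R_not_ban (i : Pl.Prt P0) (b : Bool) (t : Fin n) : C.R i b t ∉ C.ban := fun h =>
  R_ne_base C i b t (C.mu_ban i t _ h (R_mem_mu C i b t))

theorem R_not_g (i : Pl.Prt P0) (b b' : Bool) (t : Fin n) : C.R i b t ∉ Pl.pts (C.g i b') :=
  fun h => R_ne_base C i b t
    (Pl.eq_of_mem_two (C.mu_ne_g i t b') (R_mem_mu C i b t) h (C.mu_mem i t) (C.g_mem i b'))

theorem mu_ne_i (i j : Pl.Prt P0) (t : Fin n) : C.mu i t ≠ j.1 := fun h =>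
  C.mu_P0 i t (by rw [h]; exact P0_mem_part j)

theorem R_not_part (i : Pl.Prt P0) (b : Bool) (t : Fin n) : C.R i b t ∉ Pl.pts i.1 :=
  fun h => R_ne_base C i b t
    (Pl.eq_of_mem_two (mu_ne_i C i i t) (R_mem_mu C i b t) h (C.mu_mem i t) (C.base_mem i))

theorem Q_ne_R (i : Pl.Prt P0) (b : Bool) (s t : Fin n) : C.Q i b s ≠ C.R i b t := fun h =>
  R_not_ban C i b t (h ▸ Q_mem_ban C i b s)

theorem Q_mem_sigma (i : Pl.Prt P0) (b : Bool) (s t : Fin n) :
    C.Q i b s ∈ Pl.pts (C.sigma i b s t) := Pl.join_left _ _ (Q_ne_R C i b s t)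

theorem R_mem_sigma (i : Pl.Prt P0) (b : Bool) (s t : Fin n) :
    C.R i b t ∈ Pl.pts (C.sigma i b s t) := Pl.join_right _ _ (Q_ne_R C i b s t)

theorem sigma_P0 (i : Pl.Prt P0) (b : Bool) {s t : Fin n} (hst : s ≠ t) :
    P0 ∉ Pl.pts (C.sigma i b s t) := by
  intro h
  have h1 : (C.sigma i b s t) ∈ Pl.lns P0 := (Pl.mem_lns _ _).mpr h
  set j : Pl.Prt P0 := ⟨C.sigma i b s t, h1⟩ with hj
  have h2 : C.base j ∈ Pl.pts (C.sigma i b s t) := C.base_mem j
  exact Q_ne_base' C i j b s (C.sigma_ban i b s t _ hst (base_mem_ban C j) h2).symm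

theorem spec_cases {x : P × L} (hx : x ∈ C.spec) :
    (∃ i t, x = (C.base i, C.mu i t)) ∨ ∃ i b s t, s ≠ t ∧ x = (C.Q i b s, C.sigma i b s t) := by
  rcases mem_union.mp hx with h | h
  · obtain ⟨y, _, hy⟩ := mem_image.mp h
    exact Or.inl ⟨y.1, y.2, hy.symm⟩
  · obtain ⟨y, hy, hy'⟩ := mem_image.mp h
    exact Or.inr ⟨y.1, y.2.1, y.2.2.1, y.2.2.2, (mem_filter.mp hy).2, hy'.symm⟩

theorem mu_spec (i : Pl.Prt P0) (t : Fin n) : (C.base i, C.mu i t) ∈ C.spec :=
  mem_union_left _ (mem_image_of_mem (fun x : Pl.Prt P0 × Fin n => (C.base x.1, C.mu x.1 x.2))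
    (mem_univ (i, t)))

theorem sigma_spec (i : Pl.Prt P0) (b : Bool) {s t : Fin n} (h : s ≠ t) :
    (C.Q i b s, C.sigma i b s t) ∈ C.spec := by
  refine mem_union_right _ (mem_image.mpr ⟨(i, b, s, t), ?_, rfl⟩)
  exact mem_filter.mpr ⟨mem_univ _, h⟩

theorem spec_mem {x : P × L} (hx : x ∈ C.spec) : x.1 ∈ Pl.pts x.2 := by
  rcases spec_cases C hx with ⟨i, t, rfl⟩ | ⟨i, b, s, t, _, rfl⟩
  · exact C.mu_mem i t
  · exact Q_mem_sigma C i b s t

theorem spec_P0 {x : P × L} (hx : x ∈ C.spec) : P0 ∉ Pl.pts x.2 := by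
  rcases spec_cases C hx with ⟨i, t, rfl⟩ | ⟨i, b, s, t, h, rfl⟩
  · exact C.mu_P0 i t
  · exact sigma_P0 C i b h

theorem spec_only {x : P × L} (hx : x ∈ C.spec) {X : P} (hX : X ∈ C.ban)
    (hXm : X ∈ Pl.pts x.2) : X = x.1 := by
  rcases spec_cases C hx with ⟨i, t, rfl⟩ | ⟨i, b, s, t, h, rfl⟩
  · exact C.mu_ban i t X hX hXm
  · exact C.sigma_ban i b s t X h hX hXm

/-- special pairs through a base point -/
theorem deg_base (i : Pl.Prt P0) :
    n ≤ (C.spec.filter (fun x => x.1 = C.base i)).card := by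
  have h : ((univ : Finset (Fin n)).image (fun t => (C.base i, C.mu i t))) ⊆
      C.spec.filter (fun x => x.1 = C.base i) := by
    intro x hx
    obtain ⟨t, _, rfl⟩ := mem_image.mp hx
    exact mem_filter.mpr ⟨mu_spec C i t, rfl⟩
  have h2 := card_le_card h
  rw [card_image_of_injective _ (fun t t' ht => C.mu_inj i (Prod.mk.inj ht).2), card_univ,
    Fintype.card_fin] at h2
  exact h2

theorem sigma_inj (hR : SigR C) (i : Pl.Prt P0) (b : Bool) {s t t' : Fin n} (hs : s ≠ t)
    (h : C.sigma i b s t = C.sigma i b s t') : t = t' := by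
  by_contra hne
  refine hR i b s t t' hs (Ne.symm hne) ?_
  rw [h]
  exact R_mem_sigma C i b s t'

/-- special pairs through a point `Q` -/
theorem deg_Q (hR : SigR C) (i : Pl.Prt P0) (b : Bool) (s : Fin n) :
    n - 1 ≤ (C.spec.filter (fun x => x.1 = C.Q i b s)).card := by
  have h : ((univ.erase s : Finset (Fin n)).image (fun t => (C.Q i b s, C.sigma i b s t))) ⊆
      C.spec.filter (fun x => x.1 = C.Q i b s) := by
    intro x hx
    obtain ⟨t, ht, rfl⟩ := mem_image.mp hx
    exact mem_filter.mpr ⟨sigma_spec C i b (Finset.ne_of_mem_erase ht).symm, rfl⟩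
  have h2 := card_le_card h
  rw [card_image_of_injOn, card_erase_of_mem (mem_univ s), card_univ, Fintype.card_fin] at h2
  · exact h2
  · intro t ht t' _ htt
    exact sigma_inj C hR i b (Finset.ne_of_mem_erase (mem_coe.mp ht)).symm (Prod.mk.inj htt).2

theorem deg_ban (hR : SigR C) {X : P} (hX : X ∈ C.ban) :
    n - 1 ≤ (C.spec.filter (fun x => x.1 = X)).card := by
  rcases ban_cases C hX with ⟨i, rfl⟩ | ⟨i, b, t, rfl⟩
  · exact (Nat.sub_le n 1).trans (deg_base C i)
  · exact deg_Q C hR i b t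

/-- special pairs with banned point in `D` -/
theorem deg_D (hR : SigR C) {D : Finset P} (hD : D ⊆ C.ban) :
    (n - 1) * D.card ≤ (C.spec.filter (fun x => x.1 ∈ D)).card := by
  have h1 : C.spec.filter (fun x => x.1 ∈ D) =
      D.biUnion (fun X => C.spec.filter (fun x => x.1 = X)) := by
    ext x
    simp only [mem_filter, mem_biUnion]
    constructor
    · rintro ⟨h, h'⟩
      exact ⟨x.1, h', h, rfl⟩
    · rintro ⟨X, hX, h, rfl⟩
      exact ⟨h, hX⟩
  rw [h1, card_biUnion]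
  · rw [mul_comm, ← smul_eq_mul]
    exact card_nsmul_le_sum _ _ _ fun X hX => deg_ban C hR (hD hX)
  · intro X _ Y _ hne
    rw [Function.onFun, disjoint_left]
    intro x hx hy
    exact hne ((mem_filter.mp hx).2.symm.trans (mem_filter.mp hy).2)

/-- special pairs with banned point in `D`, not on `l` -/
def TT (D : Finset P) (l : L) : Finset (P × L) :=
  C.spec.filter (fun x => x.1 ∈ D ∧ x.2 ≠ l)

/-- at most one special pair is lost -/
theorem card_TT (hR : SigR C) {D : Finset P} (hD : D ⊆ C.ban) {l : L} (hDl : D ⊆ Pl.pts l) :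
    (n - 1) * D.card ≤ (TT C D l).card + 1 := by
  refine (deg_D C hR hD).trans ?_
  have h1 : C.spec.filter (fun x => x.1 ∈ D) ⊆
      TT C D l ∪ C.spec.filter (fun x => x.1 ∈ D ∧ x.2 = l) := by
    intro x hx
    rw [mem_filter] at hx
    rw [mem_union, TT, mem_filter, mem_filter]
    by_cases h : x.2 = l
    · exact Or.inr ⟨hx.1, hx.2, h⟩
    · exact Or.inl ⟨hx.1, hx.2, h⟩
  refine (card_le_card h1).trans ((card_union_le _ _).trans (Nat.add_le_add_left ?_ _))
  rw [card_le_one]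
  intro x hx y hy
  rw [mem_filter] at hx hy
  refine Prod.ext ?_ (hx.2.2.trans hy.2.2.symm)
  exact (spec_only C hx.1 (hD hy.2.1) (by rw [hx.2.2]; exact hDl hy.2.1)).symm

theorem card_TT' (hR : SigR C) {D : Finset P} (hD : D ⊆ C.ban) {l : L}
    (hl : ∀ x ∈ C.spec, x.2 ≠ l) : (n - 1) * D.card ≤ (TT C D l).card := by
  refine (deg_D C hR hD).trans (card_le_card fun x hx => ?_)
  rw [mem_filter] at hx
  rw [TT, mem_filter]
  exact ⟨hx.1, hx.2, hl x hx.1⟩

/-- the points of `S` off `l` hit all pairs of `TT` -/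
theorem TT_le {S : Finset P} {St : Finset (Pl.Prt P0)} (hS : C.IsCover S St) {D : Finset P}
    {l : L} (hDl : D ⊆ Pl.pts l) (hDS : Disjoint D S) :
    (TT C D l).card ≤ ∑ Y ∈ S \ Pl.pts l, ((TT C D l).filter (fun x => Y ∈ Pl.pts x.2)).card := by
  have h1 : TT C D l ⊆
      (S \ Pl.pts l).biUnion (fun Y => (TT C D l).filter (fun x => Y ∈ Pl.pts x.2)) := by
    intro x hx
    have hx' := hx
    rw [TT, mem_filter] at hx'
    obtain ⟨hsp, hxD, hxl⟩ := hx'
    obtain ⟨Y, hYS, hY⟩ := hS.cspec x hsp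
    rw [mem_biUnion]
    refine ⟨Y, mem_sdiff.mpr ⟨hYS, fun hYl => ?_⟩, mem_filter.mpr ⟨hx, hY⟩⟩
    have : Y = x.1 := Pl.eq_of_mem_two hxl hY hYl (spec_mem C hsp) (hDl hxD)
    exact disjoint_left.mp hDS hxD (this ▸ hYS)
  exact (card_le_card h1).trans card_biUnion_le

theorem hit_GP (hGP : C.GP) {D : Finset P} {l : L} (hDl : D ⊆ Pl.pts l) {Y : P}
    (hY : Y ∉ Pl.pts l) (hn : ∀ i b t, ¬ (l = C.g i b ∧ Y = C.R i b t)) :
    ((TT C D l).filter (fun x => Y ∈ Pl.pts x.2)).card ≤ 10 := by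
  refine (card_le_card ?_).trans (hGP.1 l Y hY hn)
  intro x hx
  rw [mem_filter, TT, mem_filter] at hx
  exact mem_filter.mpr ⟨hx.1.1, hDl hx.1.2.1, hx.2⟩

/-- the common counting when `l` is not a G-line -/
theorem count_generic (hR : SigR C) (hGP : C.GP) (hn : 12 ≤ n) {S : Finset P}
    {St : Finset (Pl.Prt P0)}
    (hS : C.IsCover S St) {D : Finset P} {l : L} (hD : D ⊆ C.ban) (hDl : D ⊆ Pl.pts l)
    (hDS : Disjoint D S) (hl : ∀ i b, l ≠ C.g i b) :
    11 * D.card ≤ 10 * (S \ Pl.pts l).card + 1 := by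
  have h1 := card_TT C hR hD hDl
  have h2 := TT_le C hS hDl hDS
  have h3 : ∑ Y ∈ S \ Pl.pts l, ((TT C D l).filter (fun x => Y ∈ Pl.pts x.2)).card ≤
      ∑ _Y ∈ S \ Pl.pts l, 10 :=
    sum_le_sum fun Y hY => hit_GP C hGP hDl (mem_sdiff.mp hY).2
      (fun i b t h => hl i b h.1)
  rw [sum_const, smul_eq_mul] at h3
  have h4 : 11 * D.card ≤ (n - 1) * D.card := Nat.mul_le_mul_right _ (by omega)
  omega

/-- the common counting when `l` is not a G-line and not special -/
theorem count_generic' (hR : SigR C) (hGP : C.GP) (hn : 12 ≤ n) {S : Finset P}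
    {St : Finset (Pl.Prt P0)}
    (hS : C.IsCover S St) {D : Finset P} {l : L} (hD : D ⊆ C.ban) (hDl : D ⊆ Pl.pts l)
    (hDS : Disjoint D S) (hl : ∀ i b, l ≠ C.g i b) (hl' : ∀ x ∈ C.spec, x.2 ≠ l) :
    11 * D.card ≤ 10 * (S \ Pl.pts l).card := by
  have h1 := card_TT' C hR hD hl'
  have h2 := TT_le C hS hDl hDS
  have h3 : ∑ Y ∈ S \ Pl.pts l, ((TT C D l).filter (fun x => Y ∈ Pl.pts x.2)).card ≤
      ∑ _Y ∈ S \ Pl.pts l, 10 :=
    sum_le_sum fun Y hY => hit_GP C hGP hDl (mem_sdiff.mp hY).2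
      (fun i b t h => hl i b h.1)
  rw [sum_const, smul_eq_mul] at h3
  have h4 : 11 * D.card ≤ (n - 1) * D.card := Nat.mul_le_mul_right _ (by omega)
  omega

/-- step 0: the missing points are banned -/
theorem missing_ban {c κ : ℝ} (hdeg : ∀ X, X ∉ C.ban → X ≠ P0 →
      c * q ≤ ((Pl.LX P0 C.ban X).card : ℝ)) {S : Finset P} {St : Finset (Pl.Prt P0)}
    (hS : C.IsCover S St) (hcard : S.card + St.card ≤ q) {l : L}
    (hl : (1 - κ) * q ≤ (Pl.tl S l : ℝ)) (hq : κ * q + 1 < c * q) {X : P}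
    (hX : X ∈ Pl.pts l) : X ∈ S ∨ X ∈ C.ban ∨ X = P0 := by
  by_contra hcon
  push Not at hcon
  obtain ⟨hXS, hXb, hX0⟩ := hcon
  have h1 := hdeg X hXb hX0
  -- choose a point of `S` on every line
  have h2 : ∀ m ∈ (Pl.LX P0 C.ban X).erase l, ∃ Y ∈ S \ Pl.pts l, Y ∈ Pl.pts m := by
    intro m hm
    rw [mem_erase, Plane.LX, mem_filter] at hm
    obtain ⟨Y, hYS, hY⟩ := hS.cLL m hm.2.1
    refine ⟨Y, mem_sdiff.mpr ⟨hYS, fun hYl => ?_⟩, hY⟩
    have : Y = X := Pl.eq_of_mem_two hm.1 hY hYl hm.2.2 hX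
    exact hXS (this ▸ hYS)
  have : Nonempty P := ⟨P0⟩
  choose! f hf hf' using h2
  have h3 : ((Pl.LX P0 C.ban X).erase l).card ≤ (S \ Pl.pts l).card := by
    refine card_le_card_of_injOn f (fun m hm => hf m (mem_coe.mp hm)) ?_
    intro m hm m' hm' hff
    have hm1 := hf' m (mem_coe.mp hm)
    have hm1' := hf' m' (mem_coe.mp hm')
    rw [mem_coe, mem_erase, Plane.LX, mem_filter] at hm hm'
    have hne : X ≠ f m := fun h => by
      have := (mem_sdiff.mp (hf m (mem_erase.mpr ⟨hm.1, mem_filter.mpr hm.2⟩))).1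
      exact hXS (h ▸ this)
    exact Pl.line_eq_of_two hne hm.2.2 hm'.2.2 hm1 (by rw [hff]; exact hm1')
  have h4 : (S \ Pl.pts l).card + Pl.tl S l = S.card := by
    unfold Plane.tl
    rw [add_comm]
    exact card_inter_add_card_sdiff S (Pl.pts l)
  have h5 : (Pl.LX P0 C.ban X).card ≤ ((Pl.LX P0 C.ban X).erase l).card + 1 := by
    have := pred_card_le_card_erase (s := Pl.LX P0 C.ban X) (a := l)
    omega
  have h6 : ((Pl.LX P0 C.ban X).card : ℝ) ≤ (S \ Pl.pts l).card + 1 := by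
    exact_mod_cast h5.trans (Nat.add_le_add_right h3 1)
  have h7 : ((S \ Pl.pts l).card : ℝ) + Pl.tl S l ≤ q := by
    have : (S \ Pl.pts l).card + Pl.tl S l ≤ q := by omega
    exact_mod_cast this
  linarith

/-- the case of a line through `P0` -/
theorem case_V (hR : SigR C) (hGP : C.GP) (hn : 12 ≤ n) {S : Finset P}
    {St : Finset (Pl.Prt P0)} (hS : C.IsCover S St) (hcard : S.card + St.card ≤ q) {l : L}
    (hmiss : ∀ X ∈ Pl.pts l, X ∈ S ∨ X ∈ C.ban ∨ X = P0) (hl : P0 ∈ Pl.pts l) : False := by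
  set i0 : Pl.Prt P0 := ⟨l, (Pl.mem_lns _ _).mpr hl⟩ with hi0
  set D : Finset P := ((Pl.pts l) \ S).erase P0 with hDdef
  have hDl : D ⊆ Pl.pts l := fun X hX => (mem_sdiff.mp (mem_of_mem_erase hX)).1
  have hDS : Disjoint D S := by
    rw [disjoint_left]
    intro X hX
    exact (mem_sdiff.mp (mem_of_mem_erase hX)).2
  have hD : D ⊆ C.ban := by
    intro X hX
    have h1 := ne_of_mem_erase hX
    have h2 := mem_sdiff.mp (mem_of_mem_erase hX)
    rcases hmiss X h2.1 with h | h | h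
    · exact absurd h h2.2
    · exact h
    · exact absurd h h1
  have hg : ∀ i b, l ≠ C.g i b := fun i b => part_ne_g C i i0 b
  have h1 := count_generic' C hR hGP hn hS hD hDl hDS hg (fun x hx e => by
    have := spec_P0 C hx
    rw [e] at this
    exact this hl)
  have h0 : P0 ∈ Pl.pts l \ S := mem_sdiff.mpr ⟨hl, hS.notP0⟩
  have h2 : D.card + 1 = (Pl.pts l \ S).card := card_erase_add_one h0
  have h3 : (Pl.pts l \ S).card + (S ∩ Pl.pts l).card = q + 1 := by
    rw [← Pl.card_pts l, inter_comm, add_comm]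
    exact card_inter_add_card_sdiff (Pl.pts l) S
  have h4 : (S ∩ Pl.pts l).card + (S \ Pl.pts l).card = S.card :=
    card_inter_add_card_sdiff S (Pl.pts l)
  have hx : D.card = 0 := by omega
  have hE : S \ Pl.pts l = ∅ := by
    rw [← card_eq_zero]; omega
  have hSt : St = ∅ := by
    rw [← card_eq_zero]; omega
  rcases hS.cg i0 true with h | ⟨X, hXS, hX⟩
  · rw [hSt] at h; exact absurd h (notMem_empty _)
  · have hXl : X ∈ Pl.pts l := by
      rw [sdiff_eq_empty_iff_subset] at hE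
      exact hE hXS
    rcases mem_union.mp hX with h | h
    · rw [mem_sdiff] at h
      have : X = C.base i0 :=
        Pl.eq_of_mem_two (part_ne_g C i0 i0 true) hXl h.1 (C.base_mem i0) (C.g_mem i0 true)
      exact h.2 (this ▸ mem_insert_self _ _)
    · obtain ⟨t, _, rfl⟩ := mem_image.mp h
      exact R_not_part C i0 true t hXl

/-- distinct gadget lines of one gadget are disjoint -/
theorem gset_disjoint (i : Pl.Prt P0) (b : Bool) {X : P} (h : X ∈ C.gset i b)
    (h' : X ∈ C.gset i (!b)) : False := by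
  have hgne : C.g i b ≠ C.g i (!b) := fun e => by
    have := (g_inj C e).2
    cases b <;> simp at this
  rcases mem_union.mp h with h | h <;> rcases mem_union.mp h' with h' | h'
  · rw [mem_sdiff] at h h'
    have : X = C.base i := Pl.eq_of_mem_two hgne h.1 h'.1 (C.g_mem i b) (C.g_mem i (!b))
    exact h.2 (this ▸ mem_insert_self _ _)
  · obtain ⟨t, _, rfl⟩ := mem_image.mp h'
    exact R_not_g C i _ _ t (mem_sdiff.mp h).1
  · obtain ⟨t, _, rfl⟩ := mem_image.mp h
    exact R_not_g C i _ _ t (mem_sdiff.mp h').1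
  · obtain ⟨t, _, rfl⟩ := mem_image.mp h
    obtain ⟨t', _, ht'⟩ := mem_image.mp h'
    by_cases htt : t' = t
    · subst htt
      have hne : Pl.join P0 (C.Q i b t') ≠ Pl.join P0 (C.Q i (!b) t') := by
        cases b
        · exact (C.Q_part i t').symm
        · exact C.Q_part i t'
      have h1 := R_mem_part C i b t'
      have h2 := R_mem_part C i (!b) t'
      rw [ht'] at h2
      have h3 := Pl.eq_of_mem_two hne h1 h2 (Pl.join_left _ _ (Q_ne_P0 C i b t').symm)
        (Pl.join_left _ _ (Q_ne_P0 C i (!b) t').symm)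
      have h4 := R_mem_mu C i b t'
      rw [h3] at h4
      exact C.mu_P0 i t' h4
    · have h1 := R_mem_mu C i b t
      have h2 := R_mem_mu C i (!b) t'
      rw [ht'] at h2
      have hmu : C.mu i t ≠ C.mu i t' := fun e => htt (C.mu_inj i e).symm
      exact R_ne_base C i b t (Pl.eq_of_mem_two hmu h1 h2 (C.mu_mem i t) (C.mu_mem i t'))

/-- own special pairs hit by `R i b t` -/
theorem hit_R (hR : SigR C) {D : Finset P} {i : Pl.Prt P0} {b : Bool} (hD : D ⊆ C.ban)
    (hDl : D ⊆ Pl.pts (C.g i b)) (t : Fin n) {x : P × L} (hx : x ∈ TT C D (C.g i b))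
    (hRt : C.R i b t ∈ Pl.pts x.2) :
    x = (C.base i, C.mu i t) ∨ ∃ s, s ≠ t ∧ x = (C.Q i b s, C.sigma i b s t) := by
  rw [TT, mem_filter] at hx
  obtain ⟨hsp, hxD, hxl⟩ := hx
  have hK := ban_g C (hD hxD) (hDl hxD)
  rcases spec_cases C hsp with ⟨j, t', rfl⟩ | ⟨j, b', s, t', hst, rfl⟩
  · left
    have hj : j = i := by
      rcases hK with h | ⟨u, h⟩
      · exact base_inj C h
      · exact absurd h.symm (Q_ne_base' C i j b u)
    subst hj
    by_cases htt : t' = t
    · rw [htt]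
    · exfalso
      have hmu : C.mu j t ≠ C.mu j t' := fun e => htt (C.mu_inj j e).symm
      exact R_ne_base C j b t (Pl.eq_of_mem_two hmu (R_mem_mu C j b t) hRt (C.mu_mem j t)
        (C.mu_mem j t'))
  · right
    have hj : j = i ∧ b' = b := by
      rcases hK with h | ⟨u, h⟩
      · exact absurd h (Q_ne_base' C j i b' s)
      · obtain ⟨h1, h2, _⟩ := Q_inj' C h
        exact ⟨h1, h2⟩
    obtain ⟨rfl, rfl⟩ := hj
    have htt : t' = t := by
      by_contra htt
      exact hR j b' s t' t hst (Ne.symm htt) hRt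
    subst htt
    exact ⟨s, hst, rfl⟩

/-- general position when the line is the G-line `(i,b)` -/
theorem hit_GP' (hGP : C.GP) {D : Finset P} {i : Pl.Prt P0} {b : Bool}
    (hDl : D ⊆ Pl.pts (C.g i b)) {Y : P}
    (hY : Y ∉ Pl.pts (C.g i b)) (hn : ∀ t, Y ≠ C.R i b t) :
    ((TT C D (C.g i b)).filter (fun x => Y ∈ Pl.pts x.2)).card ≤ 10 :=
  hit_GP C hGP hDl hY (fun i' b' t h => by
    obtain ⟨rfl, rfl⟩ := g_inj C h.1
    exact hn t h.2)

theorem hit_R_card (hR : SigR C) {D : Finset P} {i : Pl.Prt P0} {b : Bool} (hD : D ⊆ C.ban)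
    (hDl : D ⊆ Pl.pts (C.g i b)) (t : Fin n) :
    ((TT C D (C.g i b)).filter (fun x => C.R i b t ∈ Pl.pts x.2)).card ≤ n := by
  have h1 : (TT C D (C.g i b)).filter (fun x => C.R i b t ∈ Pl.pts x.2) ⊆
      insert (C.base i, C.mu i t)
        ((univ.erase t : Finset (Fin n)).image (fun s => (C.Q i b s, C.sigma i b s t))) := by
    intro x hx
    rw [mem_filter] at hx
    rw [mem_insert, mem_image]
    rcases hit_R C hR hD hDl t hx.1 hx.2 with h | ⟨s, hs, h⟩
    · exact Or.inl h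
    · exact Or.inr ⟨s, mem_erase.mpr ⟨hs, mem_univ s⟩, h.symm⟩
  refine (card_le_card h1).trans ((card_insert_le _ _).trans ?_)
  have h2 := card_image_le (s := (univ.erase t : Finset (Fin n)))
    (f := fun s => (C.Q i b s, C.sigma i b s t))
  rw [card_erase_of_mem (mem_univ t), card_univ, Fintype.card_fin] at h2
  have := t.2
  omega

theorem hit_R_card' (hR : SigR C) {D : Finset P} {i : Pl.Prt P0} {b : Bool} (hD : D ⊆ C.ban)
    (hDl : D ⊆ Pl.pts (C.g i b)) (hb : C.base i ∉ D) (t : Fin n) :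
    ((TT C D (C.g i b)).filter (fun x => C.R i b t ∈ Pl.pts x.2)).card ≤ n - 1 := by
  have h1 : (TT C D (C.g i b)).filter (fun x => C.R i b t ∈ Pl.pts x.2) ⊆
        ((univ.erase t : Finset (Fin n)).image (fun s => (C.Q i b s, C.sigma i b s t))) := by
    intro x hx
    rw [mem_filter] at hx
    rw [mem_image]
    rcases hit_R C hR hD hDl t hx.1 hx.2 with h | ⟨s, hs, h⟩
    · exfalso
      have h3 := (mem_filter.mp hx.1).2.1
      rw [h] at h3
      exact hb h3
    · exact ⟨s, mem_erase.mpr ⟨hs, mem_univ s⟩, h.symm⟩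
  refine (card_le_card h1).trans ?_
  have h2 := card_image_le (s := (univ.erase t : Finset (Fin n)))
    (f := fun s => (C.Q i b s, C.sigma i b s t))
  rw [card_erase_of_mem (mem_univ t), card_univ, Fintype.card_fin] at h2
  exact h2

/-- lower bound when the base point is missing -/
theorem card_TT_base (hR : SigR C) {D : Finset P} (hD : D ⊆ C.ban) {l : L} {i : Pl.Prt P0}
    (hb : C.base i ∈ D) (hl : ∀ x ∈ C.spec, x.2 ≠ l) :
    n + (n - 1) * (D.card - 1) ≤ (TT C D l).card := by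
  have h1 := deg_D C hR (D := D.erase (C.base i)) ((erase_subset _ _).trans hD)
  rw [card_erase_of_mem hb] at h1
  have h2 := deg_base C i
  have h3 : Disjoint (C.spec.filter (fun x => x.1 = C.base i))
      (C.spec.filter (fun x => x.1 ∈ D.erase (C.base i))) := by
    rw [disjoint_left]
    intro x hx hx'
    exact (mem_erase.mp (mem_filter.mp hx').2).1 (mem_filter.mp hx).2
  have h4 : C.spec.filter (fun x => x.1 = C.base i) ∪
      C.spec.filter (fun x => x.1 ∈ D.erase (C.base i)) ⊆ TT C D l := by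
    intro x hx
    rw [TT, mem_filter]
    rcases mem_union.mp hx with h | h
    · rw [mem_filter] at h
      exact ⟨h.1, by rw [h.2]; exact hb, hl x h.1⟩
    · rw [mem_filter] at h
      exact ⟨h.1, mem_of_mem_erase h.2, hl x h.1⟩
  have h5 := card_le_card h4
  rw [card_union_of_disjoint h3] at h5
  omega

theorem g_not_spec (hn : 0 < n) (i : Pl.Prt P0) (b : Bool) :
    ∀ x ∈ C.spec, x.2 ≠ C.g i b := by
  intro x hx e
  have h1 := spec_only C hx (base_mem_ban C i) (by rw [e]; exact C.g_mem i b)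
  have h2 := spec_only C hx (Q_mem_ban C i b ⟨0, hn⟩) (by rw [e]; exact C.Q_mem i b _)
  exact C.Q_ne_base i b _ (h2.trans h1.symm)

/-- the case of a G-line -/
theorem case_G (hR : SigR C) (hGP : C.GP) (hn : 12 ≤ n) {S : Finset P}
    {St : Finset (Pl.Prt P0)} (hS : C.IsCover S St) {i : Pl.Prt P0} {b : Bool}
    (hD : Pl.pts (C.g i b) \ S ⊆ C.ban)
    (hcard : (S \ Pl.pts (C.g i b)).card + St.card + 1 ≤ (Pl.pts (C.g i b) \ S).card) :
    False := by
  set l := C.g i b with hldef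
  set D : Finset P := Pl.pts l \ S with hDdef
  set E : Finset P := S \ Pl.pts l with hEdef
  have hDl : D ⊆ Pl.pts l := sdiff_subset
  have hDS : Disjoint D S := sdiff_disjoint
  have hsp : ∀ x ∈ C.spec, x.2 ≠ l := g_not_spec C (by omega) i b
  have h2 := TT_le C hS hDl hDS
  rw [← hEdef] at h2
  by_cases hb : C.base i ∈ D
  · have h1 := card_TT_base C hR hD hb hsp
    have hhit : ∀ Y ∈ E, ((TT C D l).filter (fun x => Y ∈ Pl.pts x.2)).card ≤ n := by
      intro Y hY
      by_cases hYR : ∃ t, Y = C.R i b t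
      · obtain ⟨t, rfl⟩ := hYR
        exact hit_R_card C hR hD hDl t
      · push Not at hYR
        exact (hit_GP' C hGP hDl (mem_sdiff.mp hY).2 hYR).trans (by omega)
    have h3 : (TT C D l).card ≤ E.card * n := by
      refine h2.trans ?_
      rw [← smul_eq_mul]
      exact sum_le_card_nsmul _ _ _ hhit
    -- `D ⊆ K`
    have hDK : D ⊆ C.K i b := by
      intro X hX
      rcases ban_g C (hD hX) (hDl hX) with h | ⟨t, h⟩
      · rw [h]; exact mem_insert_self _ _
      · rw [h]; exact mem_insert_of_mem (mem_image_of_mem _ (mem_univ t))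
    have hKcard : (C.K i b).card ≤ n + 1 := by
      refine (card_insert_le _ _).trans (Nat.add_le_add_right (card_image_le.trans ?_) 1)
      rw [card_univ, Fintype.card_fin]
    have hDK' := card_le_card hDK
    rcases Nat.lt_or_ge (D.card - 1) n with ha | ha
    · have h4 : E.card * n ≤ (D.card - 1) * n := Nat.mul_le_mul_right _ (by omega)
      have h5 : (n - 1) * (D.card - 1) + (D.card - 1) = (D.card - 1) * n := by
        have : n = (n - 1) + 1 := by omega
        conv_rhs => rw [this]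
        ring
      omega
    · have hDn : D.card = n + 1 := by omega
      have hDeq : D = C.K i b := eq_of_subset_of_card_le hDK (by omega)
      -- split `E`
      set RS : Finset P := univ.image (C.R i b) with hRS
      have h6 : ∑ Y ∈ E, ((TT C D l).filter (fun x => Y ∈ Pl.pts x.2)).card ≤
          (E ∩ RS).card * n + (E \ RS).card * 10 := by
        rw [← sum_inter_add_sum_sdiff E RS]
        refine Nat.add_le_add ?_ ?_
        · rw [← smul_eq_mul]
          exact sum_le_card_nsmul _ _ _ fun Y hY => hhit Y (mem_inter.mp hY).1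
        · rw [← smul_eq_mul]
          refine sum_le_card_nsmul _ _ _ fun Y hY => ?_
          rw [mem_sdiff] at hY
          refine hit_GP' C hGP hDl (mem_sdiff.mp hY.1).2 fun t ht => hY.2 ?_
          rw [ht]
          exact mem_image_of_mem _ (mem_univ t)
      have h7 : (E ∩ RS).card + (E \ RS).card = E.card := card_inter_add_card_sdiff E RS
      have h8 : n * n ≤ (E ∩ RS).card * n + (E \ RS).card * 10 := by
        have h9 : n * n = n + (n - 1) * (D.card - 1) := by
          rw [hDn]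
          have : n = (n - 1) + 1 := by omega
          simp only [Nat.add_sub_cancel]
          nlinarith
        omega
      have hr : (E ∩ RS).card = n := by
        by_contra hne
        have hlt : (E ∩ RS).card + 1 ≤ n := by omega
        obtain ⟨k, hk⟩ := Nat.exists_eq_add_of_le hlt
        have h10 : (E \ RS).card ≤ k + 1 := by omega
        have h11 : n * n = (E ∩ RS).card * n + (k + 1) * n := by
          rw [← Nat.add_mul]
          congr 1
          omega
        have h12 : (k + 1) * n ≤ (k + 1) * 10 := by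
          have : (E \ RS).card * 10 ≤ (k + 1) * 10 := Nat.mul_le_mul_right _ h10
          omega
        have h13 : n ≤ 10 := Nat.le_of_mul_le_mul_left h12 (Nat.succ_pos k)
        omega
      have hE0 : (E \ RS).card = 0 := by omega
      rw [card_eq_zero, sdiff_eq_empty_iff_subset] at hE0
      have hSt : St = ∅ := by
        rw [← card_eq_zero]
        omega
      rcases hS.cg i (!b) with h | ⟨X, hXS, hX⟩
      · rw [hSt] at h; exact absurd h (notMem_empty _)
      · refine gset_disjoint C i b ?_ hX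
        by_cases hXl : X ∈ Pl.pts l
        · refine mem_union_left _ (mem_sdiff.mpr ⟨hXl, fun hK => ?_⟩)
          rw [← hDeq] at hK
          exact disjoint_left.mp hDS hK hXS
        · exact mem_union_right _ (hE0 (mem_sdiff.mpr ⟨hXS, hXl⟩))
  · have h1 := card_TT' C hR hD hsp
    have hhit : ∀ Y ∈ E, ((TT C D l).filter (fun x => Y ∈ Pl.pts x.2)).card ≤ n - 1 := by
      intro Y hY
      by_cases hYR : ∃ t, Y = C.R i b t
      · obtain ⟨t, rfl⟩ := hYR
        exact hit_R_card' C hR hD hDl hb t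
      · push Not at hYR
        exact (hit_GP' C hGP hDl (mem_sdiff.mp hY).2 hYR).trans (by omega)
    have h3 : (TT C D l).card ≤ E.card * (n - 1) := by
      refine h2.trans ?_
      rw [← smul_eq_mul]
      exact sum_le_card_nsmul _ _ _ hhit
    have h4 : (n - 1) * D.card ≤ (n - 1) * E.card := by
      rw [mul_comm (n - 1) E.card]
      exact h1.trans h3
    have h5 := Nat.le_of_mul_le_mul_left h4 (by omega : 0 < n - 1)
    omega

end NLaux

open NLaux in
/-- NL with the extra genericity `SigR` as a hypothesis. -/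
theorem near_line_aux (n : ℕ) (hn : 12 ≤ n) (c κ : ℝ) (hκc : κ < c) :
    ∃ q0 : ℕ, ∀ (q : ℕ), q0 ≤ q → ∀ (P L : Type) [Fintype P] [Fintype L] [DecidableEq P]
      [DecidableEq L] (Pl : Plane P L q) (P0 : P) (C : Config Pl P0 n), C.GP → SigR C →
      (∀ X, X ∉ C.ban → X ≠ P0 → c * q ≤ ((Pl.LX P0 C.ban X).card : ℝ)) →
      ∀ (S : Finset P) (St : Finset (Pl.Prt P0)), C.IsCover S St → S.card + St.card ≤ q →
        ∀ l, (1 - κ) * q ≤ (Pl.tl S l : ℝ) → False := by
  obtain ⟨q0, hq0⟩ := exists_nat_gt (1 / (c - κ))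
  refine ⟨q0, ?_⟩
  intro q hq P L _ _ _ _ Pl P0 C hGP hR hdeg S St hS hcard l hl
  have hpos : 0 < c - κ := by linarith
  have hqq : κ * q + 1 < c * q := by
    have h1 : (q0 : ℝ) ≤ q := by exact_mod_cast hq
    have h2 : 1 / (c - κ) < q := lt_of_lt_of_le hq0 h1
    rw [div_lt_iff₀ hpos] at h2
    linarith
  have hmiss : ∀ X ∈ Pl.pts l, X ∈ S ∨ X ∈ C.ban ∨ X = P0 := fun X hX =>
    missing_ban C hdeg hS hcard hl hqq hX
  by_cases hP0 : P0 ∈ Pl.pts l
  · exact case_V C hR hGP hn hS hcard hmiss hP0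
  have hD : Pl.pts l \ S ⊆ C.ban := by
    intro X hX
    rw [mem_sdiff] at hX
    rcases hmiss X hX.1 with h | h | h
    · exact absurd h hX.2
    · exact h
    · exact absurd (h ▸ hX.1) hP0
  have h3 : (Pl.pts l \ S).card + (S ∩ Pl.pts l).card = q + 1 := by
    rw [← Pl.card_pts l, inter_comm, add_comm]
    exact card_inter_add_card_sdiff (Pl.pts l) S
  have h4 : (S ∩ Pl.pts l).card + (S \ Pl.pts l).card = S.card :=
    card_inter_add_card_sdiff S (Pl.pts l)
  by_cases hg : ∃ i b, l = C.g i b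
  · obtain ⟨i, b, rfl⟩ := hg
    exact case_G C hR hGP hn hS hD (by omega)
  · push Not at hg
    have h1 := count_generic C hR hGP hn hS hD sdiff_subset sdiff_disjoint hg
    omega

open NLaux in
/-- NL.  See ideas row 34, part 1, NEAR-LINE THEOREM. -/
theorem near_line (n : ℕ) (hn : 12 ≤ n) (c κ : ℝ) (hκ : 0 < κ) (hκc : κ < c) (hc1 : c ≤ 1) :
    ∃ q0 : ℕ, ∀ (q : ℕ), q0 ≤ q → ∀ (P L : Type) [Fintype P] [Fintype L] [DecidableEq P]
      [DecidableEq L] (Pl : Plane P L q) (P0 : P) (C : Config Pl P0 n), C.GP →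
      (∀ X, X ∉ C.ban → X ≠ P0 → c * q ≤ ((Pl.LX P0 C.ban X).card : ℝ)) →
      ∀ (S : Finset P) (St : Finset (Pl.Prt P0)), C.IsCover S St → S.card + St.card ≤ q →
        ∀ l, (1 - κ) * q ≤ (Pl.tl S l : ℝ) → False := by
  obtain ⟨q0, h⟩ := near_line_aux n hn c κ hκc
  refine ⟨q0, ?_⟩
  intro q hq P L _ _ _ _ Pl P0 C hGP
  exact h q hq P L Pl P0 C hGP (fun i b s t t' hs ht => hGP.2 i b t' s t ht.symm hs)

end Crest.Agent.Ryser
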