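import Crest.Agent.Ryser.Hyper
import Crest.Agent.Ryser.Desarg
import Crest.Agent.Ryser.GlobalGlue
import Crest.Agent.Ryser.NL

/-!
Row 34: final assembly (helper45).
-/

set_option autoImplicit false
set_option linter.unusedSectionVars false

open Finset

namespace Crest.Agent.Ryser

theorem rich_lines {P L : Type} [Fintype P] [Fintype L] [DecidableEq P] [DecidableEq L] {q : ℕ}
    (Pl : Plane P L q) (F : Finset P) (R : Finset L) :
    ∑ l ∈ R, (F ∩ Pl.pts l).offDiag.card ≤ F.offDiag.card := by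
  classical
  rw [← Finset.card_biUnion]
  · refine Finset.card_le_card ?_
    intro x hx
    rw [Finset.mem_biUnion] at hx
    obtain ⟨l, _, hx⟩ := hx
    rw [Finset.mem_offDiag] at hx ⊢
    exact ⟨(Finset.mem_inter.1 hx.1).1, (Finset.mem_inter.1 hx.2.1).1, hx.2.2⟩
  · intro l _ l' _ hll'
    rw [Function.onFun, Finset.disjoint_left]
    intro x hx hx'
    rw [Finset.mem_offDiag] at hx hx'
    apply hll'
    exact Pl.line_eq_of_two hx.2.2 (Finset.mem_inter.1 hx.1).2 (Finset.mem_inter.1 hx'.1).2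
      (Finset.mem_inter.1 hx.2.1).2 (Finset.mem_inter.1 hx'.2.1).2

/-- greedy filler -/
theorem filler (b κ : ℝ) (hb : 0 ≤ b) (hκ : 0 < κ) :
    ∃ q0 : ℕ, ∀ (q : ℕ), q0 ≤ q → ∀ (P L : Type) [Fintype P] [Fintype L] [DecidableEq P]
      [DecidableEq L] (Pl : Plane P L q) (D : Finset P), (D.card : ℝ) ≤ b * (q + 1) →
      ∀ m : ℕ, m ≤ q → ∃ F : Finset P, F.card = m ∧ (∀ X ∈ F, X ∉ D) ∧
        ∀ l, ((F ∩ Pl.pts l).card : ℝ) ≤ κ * q := by
  obtain ⟨q0, hq0⟩ := exists_nat_ge (max (4 / κ) (b + 4 / κ ^ 2 + 2))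
  refine ⟨q0, ?_⟩
  intro q hq P L _ _ _ _ Pl D hD m
  have hq1 : 4 / κ ≤ q := (le_max_left _ _).trans (hq0.trans (by exact_mod_cast hq))
  have hq2 : b + 4 / κ ^ 2 + 2 ≤ q := (le_max_right _ _).trans (hq0.trans (by exact_mod_cast hq))
  have hκq : 4 ≤ κ * q := by
    rw [div_le_iff₀ hκ] at hq1
    linarith
  induction m with
  | zero =>
    intro _
    refine ⟨∅, rfl, by simp, ?_⟩
    intro l
    simp only [Finset.empty_inter, Finset.card_empty, Nat.cast_zero]
    linarith
  | succ m ih =>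
    intro hm
    obtain ⟨F, hF1, hF2, hF3⟩ := ih (by omega)
    classical
    obtain ⟨R, hR⟩ : ∃ R : Finset L, R = univ.filter (fun l => κ * q < ((F ∩ Pl.pts l).card : ℝ) + 1) :=
      ⟨_, rfl⟩
    have hRcard : (R.card : ℝ) ≤ 4 / κ ^ 2 := by
      have h1 := rich_lines Pl F R
      have h2 : ∀ l ∈ R, κ ^ 2 * q ^ 2 / 4 ≤ (((F ∩ Pl.pts l).offDiag.card : ℕ) : ℝ) := by
        intro l hl
        rw [hR, Finset.mem_filter] at hl
        have hl2 := hl.2
        rw [Finset.offDiag_card, Nat.cast_sub (Nat.le_mul_self _), Nat.cast_mul]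
        set t : ℝ := ((F ∩ Pl.pts l).card : ℝ)
        have h3 : κ * q / 2 ≤ t := by linarith
        have h4 : κ * q / 2 ≤ t - 1 := by linarith
        have h5 : (κ * q / 2) * (κ * q / 2) ≤ t * (t - 1) :=
          mul_le_mul h3 h4 (by linarith) (by linarith)
        nlinarith
      have h3 : (R.card : ℝ) * (κ ^ 2 * q ^ 2 / 4) ≤ (q : ℝ) ^ 2 := by
        have h4 : ∑ l ∈ R, (κ ^ 2 * (q : ℝ) ^ 2 / 4) ≤ ∑ l ∈ R, (((F ∩ Pl.pts l).offDiag.card : ℕ) : ℝ) :=
          Finset.sum_le_sum h2
        rw [Finset.sum_const, nsmul_eq_mul] at h4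
        have h5 : ((∑ l ∈ R, (F ∩ Pl.pts l).offDiag.card : ℕ) : ℝ) ≤ (F.offDiag.card : ℝ) := by
          exact_mod_cast h1
        push_cast at h5
        have h6 : (F.offDiag.card : ℝ) ≤ (q : ℝ) ^ 2 := by
          have h7 : F.offDiag.card ≤ q ^ 2 := by
            rw [Finset.offDiag_card, hF1]
            have : m * m ≤ q ^ 2 := by nlinarith
            omega
          exact_mod_cast h7
        linarith
      have hqpos : (0 : ℝ) < q := by
        have : 0 < 4 / κ := by positivity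
        linarith
      rw [le_div_iff₀ (by positivity)]
      have h8 : 0 < (q : ℝ) ^ 2 := by positivity
      have h9 : (R.card : ℝ) * κ ^ 2 * (q : ℝ) ^ 2 ≤ 4 * (q : ℝ) ^ 2 := by nlinarith
      exact le_of_mul_le_mul_right h9 h8
    obtain ⟨bad, hbad⟩ : ∃ bad : Finset P, bad = D ∪ F ∪ R.biUnion Pl.pts := ⟨_, rfl⟩
    have hbadcard : (bad.card : ℝ) < (Fintype.card P : ℝ) := by
      have h1 : bad.card ≤ D.card + F.card + R.card * (q + 1) := by
        rw [hbad]
        refine (Finset.card_union_le _ _).trans ?_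
        refine Nat.add_le_add (Finset.card_union_le _ _) ?_
        refine (Finset.card_biUnion_le).trans ?_
        rw [Finset.sum_congr rfl (fun l _ => Pl.card_pts l), Finset.sum_const, smul_eq_mul]
      have h2 : (bad.card : ℝ) ≤ D.card + F.card + R.card * (q + 1) := by exact_mod_cast h1
      have h3 : (R.card : ℝ) * (q + 1) ≤ 4 / κ ^ 2 * (q + 1) :=
        mul_le_mul_of_nonneg_right hRcard (by positivity)
      have h4 : (F.card : ℝ) ≤ q := by rw [hF1]; exact_mod_cast (by omega : m ≤ q)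
      rw [Pl.card_P]
      push_cast
      have h5 : (b + 4 / κ ^ 2) * (q + 1) ≤ ((q : ℝ) - 2) * (q + 1) :=
        mul_le_mul_of_nonneg_right (by linarith) (by positivity)
      nlinarith
    obtain ⟨X, hX⟩ : ∃ X, X ∉ bad := by
      by_contra hcon
      push Not at hcon
      have : bad = univ := Finset.eq_univ_iff_forall.2 hcon
      rw [this, Finset.card_univ] at hbadcard
      exact lt_irrefl _ hbadcard
    rw [hbad, Finset.mem_union, Finset.mem_union, not_or, not_or, Finset.mem_biUnion] at hX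
    obtain ⟨⟨hXD, hXF⟩, hXR⟩ := hX
    refine ⟨insert X F, ?_, ?_, ?_⟩
    · rw [Finset.card_insert_of_notMem hXF, hF1]
    · intro Y hY
      rcases Finset.mem_insert.1 hY with rfl | hY
      · exact hXD
      · exact hF2 Y hY
    · intro l
      by_cases hXl : X ∈ Pl.pts l
      · have hlR : l ∉ R := fun h => hXR ⟨l, h, hXl⟩
        rw [hR, Finset.mem_filter] at hlR
        push Not at hlR
        have h1 := hlR (Finset.mem_univ _)
        rw [Finset.insert_inter_of_mem hXl, Finset.card_insert_of_notMem]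
        · push_cast
          exact h1
        · intro h
          exact hXF (Finset.mem_inter.1 h).1
      · rw [Finset.insert_inter_of_notMem hXl]
        exact hF3 l

/-- existence of a good configuration in every plane of large order -/
def ExistsConfig : Prop :=
  ∃ c b : ℝ, 0 < c ∧ c ≤ 1 ∧ 0 ≤ b ∧ ∃ q0 : ℕ, ∀ (q : ℕ), q0 ≤ q → ∀ (P L : Type) [Fintype P]
    [Fintype L] [DecidableEq P] [DecidableEq L] (Pl : Plane P L q) (P0 : P), Pl.Dich →
    ∃ C : Config Pl P0 12, C.GP ∧ Good Pl P0 c b C.ban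

/-- the conclusion of S0045 for `q` -/
def RyserHyper (q : ℕ) : Prop :=
  ∃ (N : ℕ) (part : Fin N → Fin (q + 1)) (E : Finset (Finset (Fin N))),
        E.Nonempty ∧
        (∀ e ∈ E, ∀ i : Fin (q + 1), (e.filter (fun v => part v = i)).card = 1) ∧
        (∀ e ∈ E, ∀ f ∈ E, (e ∩ f).Nonempty) ∧
        (∀ i : Fin (q + 1), (Finset.univ.filter (fun v => part v = i)).card = q + 1) ∧
        (∀ v : Fin N, ∃ e ∈ E, v ∈ e) ∧
        (∀ S : Finset (Fin N), (∀ e ∈ E, (e ∩ S).Nonempty) → q + 1 ≤ S.card)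

theorem ryser_of_plane (hEC : ExistsConfig) : ∃ q0 : ℕ, ∀ (q : ℕ), q0 ≤ q →
    ∀ (P L : Type) [Fintype P] [Fintype L] [DecidableEq P] [DecidableEq L] (Pl : Plane P L q),
      Pl.Dich → RyserHyper q := by
  classical
  obtain ⟨c, b, hc, hc1, hb, q1, h1⟩ := hEC
  obtain ⟨q2, h2⟩ := global_thm c b (c / 4) hc hb (by positivity) (by linarith)
  obtain ⟨q3, h3⟩ := near_line 12 le_rfl c (c / 2) (by positivity) (by linarith) hc1
  obtain ⟨q4, h4⟩ := filler (b + 1) (c / 4) (by positivity) (by positivity)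
  refine ⟨q1 + q2 + q3 + q4 + 1, ?_⟩
  intro q hq P L _ _ _ _ Pl hD
  have hPpos : 0 < Fintype.card P := by rw [Pl.card_P]; positivity
  obtain ⟨P0⟩ := Fintype.card_pos_iff.1 hPpos
  obtain ⟨C, hGP, hG⟩ := h1 q (by omega) P L Pl P0 hD
  have hqpos : (0 : ℝ) < q := by exact_mod_cast (by omega : 0 < q)
  refine C.hyper (by norm_num) ?_ ?_
  · intro X hX hX0
    have h5 := hG.lower X hX hX0
    have h6 : 0 < c * q := by positivity
    have h7 : (0 : ℝ) < ((Pl.LX P0 C.ban X).card : ℝ) := lt_of_lt_of_le h6 h5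
    exact_mod_cast h7
  · intro S St hS
    by_contra hcon
    push Not at hcon
    have hle : S.card + St.card ≤ q := by omega
    have hSq : S.card ≤ q := by omega
    -- the filled set
    have hDcard : (((C.ban ∪ {P0} ∪ S : Finset P)).card : ℝ) ≤ (b + 1) * (q + 1) := by
      have h5 : (C.ban ∪ {P0} ∪ S : Finset P).card ≤ C.ban.card + 1 + S.card := by
        refine (Finset.card_union_le _ _).trans ?_
        refine Nat.add_le_add_right ?_ _
        refine (Finset.card_union_le _ _).trans ?_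
        rw [Finset.card_singleton]
      have h6 : ((C.ban ∪ {P0} ∪ S : Finset P).card : ℝ) ≤ C.ban.card + 1 + S.card := by
        exact_mod_cast h5
      have h7 := hG.card_B
      have h8 : (S.card : ℝ) ≤ q := by exact_mod_cast hSq
      linarith
    have hS1 : (S \ C.ban).card ≤ q := (Finset.card_le_card Finset.sdiff_subset).trans hSq
    obtain ⟨F, hF1, hF2, hF3⟩ := h4 q (by omega) P L Pl (C.ban ∪ {P0} ∪ S) hDcard
      (q - (S \ C.ban).card) (by omega)
    have hdisj : Disjoint (S \ C.ban) F := by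
      rw [Finset.disjoint_left]
      intro X hX hXF
      apply hF2 X hXF
      rw [Finset.mem_union]
      right
      exact (Finset.mem_sdiff.1 hX).1
    have hex : ∃ l, (1 - c / 4) * q ≤ (Pl.tl ((S \ C.ban) ∪ F) l : ℝ) := by
      refine h2 q (by omega) P L Pl P0 C.ban hD hG ((S \ C.ban) ∪ F) ?_ ?_ ?_
      · rw [Finset.card_union_of_disjoint hdisj, hF1]
        omega
      · intro X hX
        rcases Finset.mem_union.1 hX with hX | hX
        · rw [Finset.mem_sdiff] at hX
          refine ⟨hX.2, ?_⟩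
          rintro rfl
          exact hS.notP0 hX.1
        · have h5 := hF2 X hX
          rw [Finset.mem_union, Finset.mem_union, Finset.mem_singleton] at h5
          push Not at h5
          exact ⟨h5.1.1, h5.1.2⟩
      · intro l hl
        obtain ⟨X, hX, hXl⟩ := hS.cLL l hl
        refine ⟨X, ?_, hXl⟩
        rw [Finset.mem_union, Finset.mem_sdiff]
        left
        refine ⟨hX, ?_⟩
        intro hXB
        unfold Plane.LL at hl
        exact (Finset.mem_filter.1 hl).2.2 X hXB hXl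
    obtain ⟨l, hl⟩ := hex
    · refine h3 q (by omega) P L Pl P0 C hGP hG.lower S St hS hle l ?_
      have h5 : (Pl.tl ((S \ C.ban) ∪ F) l : ℝ) ≤ Pl.tl S l + ((F ∩ Pl.pts l).card : ℝ) := by
        have h6 : Pl.tl ((S \ C.ban) ∪ F) l ≤ Pl.tl S l + (F ∩ Pl.pts l).card := by
          unfold Plane.tl
          rw [Finset.union_inter_distrib_right]
          refine (Finset.card_union_le _ _).trans ?_
          refine Nat.add_le_add_right ?_ _
          exact Finset.card_le_card (Finset.inter_subset_inter_right Finset.sdiff_subset)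
        exact_mod_cast h6
      have h7 := hF3 l
      linarith

theorem ryser_of_field (hEC : ExistsConfig) : ∃ q0 : ℕ, ∀ (q : ℕ), q0 ≤ q →
    ∀ (F : Type) [Field F] [Fintype F], Fintype.card F = q → RyserHyper q := by
  classical
  obtain ⟨q0, h0⟩ := ryser_of_plane hEC
  refine ⟨q0, ?_⟩
  intro q hq F _ _ hF
  obtain ⟨P, L, _, _, _, _, Pl, hD⟩ := desarg_plane F q hF
  exact h0 q hq P L Pl hD

theorem s0045 (hEC : ExistsConfig) :
    ∃ q₀ : ℕ, ∀ q : ℕ, q₀ ≤ q → q.Prime → RyserHyper q := by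
  obtain ⟨q0, h0⟩ := ryser_of_field hEC
  refine ⟨q0, ?_⟩
  intro q hq hp
  have : Fact q.Prime := ⟨hp⟩
  exact h0 q hq (ZMod q) (ZMod.card q)

theorem s0046 (hEC : ExistsConfig) :
    ∃ s₀ : ℕ, ∀ s : ℕ, s₀ ≤ s → s.Prime → s % 3 = 2 →
      ∃ n₀ : ℕ, 3 ≤ n₀ ∧ ∀ n : ℕ, n₀ ≤ n → Odd n → RyserHyper (s ^ n) := by
  obtain ⟨q0, h0⟩ := ryser_of_field hEC
  refine ⟨2, ?_⟩
  intro s hs hp _
  refine ⟨q0 + 3, by omega, ?_⟩
  intro n hn _
  have : Fact s.Prime := ⟨hp⟩
  have hcard : Nat.card (GaloisField s n) = s ^ n := GaloisField.card s n (by omega)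
  have : Finite (GaloisField s n) := by
    apply Nat.finite_of_card_ne_zero
    rw [hcard]
    exact (pow_pos hp.pos n).ne'
  have : Fintype (GaloisField s n) := Fintype.ofFinite _
  refine h0 (s ^ n) ?_ (GaloisField s n) ?_
  · have := Nat.lt_pow_self (n := n) hp.one_lt
    omega
  · rw [← hcard, Nat.card_eq_fintype_card]

end Crest.Agent.Ryser
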