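import Crest.Agent.Ryser.GDefs
import Crest.Agent.Ryser.RR

/-! Row 34, chunk G0: step 0 of the global theorem (excess bound). -/

set_option autoImplicit false

open Finset

namespace Crest.Agent.Ryser

section

variable {P L : Type} [Fintype P] [Fintype L] [DecidableEq P] [DecidableEq L] {q : ℕ}

theorem g0_sumS (Pl : Plane P L q) (P0 : P) (B S : Finset P) :
    ∑ X ∈ S, (Pl.LX P0 B X).card = ∑ l ∈ Pl.LL P0 B, Pl.tl S l := by
  simp_rw [Plane.LX, Finset.card_filter]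
  rw [Finset.sum_comm]
  refine Finset.sum_congr rfl (fun l _ => ?_)
  rw [← Finset.card_filter]
  rfl

/-- points off `B` and different from `P0` -/
def g0U (P0 : P) (B : Finset P) : Finset P := univ \ (insert P0 B)

theorem g0_mem (P0 : P) (B : Finset P) (X : P) : X ∈ g0U P0 B ↔ X ∉ B ∧ X ≠ P0 := by
  simp only [g0U, Finset.mem_sdiff, Finset.mem_univ, true_and, Finset.mem_insert, not_or]
  tauto

theorem g0_count (Pl : Plane P L q) (P0 : P) (B : Finset P) :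
    ∑ X ∈ g0U P0 B, (Pl.LX P0 B X).card = (q + 1) * (Pl.LL P0 B).card := by
  rw [g0_sumS]
  rw [Finset.sum_congr rfl (g := fun _ => q + 1)]
  · rw [Finset.sum_const, smul_eq_mul, mul_comm]
  · intro l hl
    rw [Plane.LL, Finset.mem_filter] at hl
    rw [Plane.tl, Finset.inter_eq_right.2, Pl.card_pts]
    intro X hX
    rw [g0_mem]
    refine ⟨fun hB => hl.2.2 X hB hX, fun h => hl.2.1 (h ▸ hX)⟩

theorem g0_Ucard (Pl : Plane P L q) (P0 : P) (B : Finset P) (b : ℝ)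
    (hB : (B.card : ℝ) ≤ b * (q + 1)) :
    ((q : ℝ) + 1) * ((q : ℝ) - b) ≤ ((g0U P0 B).card : ℝ) := by
  have h1 : Fintype.card P ≤ (g0U P0 B).card + (B.card + 1) := by
    have h2 : (univ : Finset P).card ≤ (univ \ (insert P0 B)).card + (insert P0 B).card :=
      Finset.card_le_card_sdiff_add_card
    have h3 := Finset.card_insert_le P0 B
    rw [Finset.card_univ] at h2
    have h4 : (g0U P0 B).card = (univ \ (insert P0 B)).card := rfl
    omega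
  rw [Pl.card_P] at h1
  have h5 : (q : ℝ) ^ 2 + q + 1 ≤ ((g0U P0 B).card : ℝ) + ((B.card : ℝ) + 1) := by
    exact_mod_cast h1
  nlinarith

theorem g0_LL (Pl : Plane P L q) (P0 : P) (B : Finset P) (c b : ℝ) (hG : Good Pl P0 c b B)
    (hbq : b ≤ q) (X1 : P) (hX1 : X1 ∉ B ∧ X1 ≠ P0)
    (hM : rr q ^ 503 ≤ ((Pl.LX P0 B X1).card : ℝ)) :
    ((q : ℝ) - b) * (((Pl.LX P0 B X1).card : ℝ) - rr q ^ 503) ≤ ((Pl.LL P0 B).card : ℝ) := by
  have h1 := g0_count Pl P0 B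
  have h2 : ∑ X ∈ g0U P0 B, ((Pl.LX P0 B X).card : ℝ) = ((q : ℝ) + 1) * ((Pl.LL P0 B).card : ℝ) := by
    exact_mod_cast h1
  have h3 : ∑ _X ∈ g0U P0 B, (((Pl.LX P0 B X1).card : ℝ) - rr q ^ 503) ≤
      ∑ X ∈ g0U P0 B, ((Pl.LX P0 B X).card : ℝ) := by
    refine Finset.sum_le_sum (fun X hX => ?_)
    rw [g0_mem] at hX
    have := hG.pr1 X1 X hX1.1 hX1.2 hX.1 hX.2
    linarith
  rw [Finset.sum_const, nsmul_eq_mul, h2] at h3
  have h4 := g0_Ucard Pl P0 B b hG.card_B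
  have h5 : (((q : ℝ) + 1) * ((q : ℝ) - b)) * (((Pl.LX P0 B X1).card : ℝ) - rr q ^ 503) ≤
      ((g0U P0 B).card : ℝ) * (((Pl.LX P0 B X1).card : ℝ) - rr q ^ 503) :=
    mul_le_mul_of_nonneg_right h4 (by linarith)
  have h6 : ((q : ℝ) + 1) * (((q : ℝ) - b) * (((Pl.LX P0 B X1).card : ℝ) - rr q ^ 503)) ≤
      ((q : ℝ) + 1) * ((Pl.LL P0 B).card : ℝ) := by linarith
  exact le_of_mul_le_mul_left h6 (by positivity)

theorem g0_LX_le (Pl : Plane P L q) (P0 : P) (B : Finset P) (X : P) :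
    (Pl.LX P0 B X).card ≤ q + 1 := by
  rw [← Pl.card_lns X]
  refine Finset.card_le_card (fun l hl => ?_)
  rw [Pl.mem_lns]
  exact (Finset.mem_filter.1 hl).2

end

/-- G0a. Double counting: `(q+1)|LL| = ∑_{X ∉ B, X ≠ P0} |LX X|` (each line of `LL` has `q+1` points, all
off `B ∪ {P0}`), so with `m` = value of `|LX X1|` for some/max `X1 ∈ S`,
`|LL| ≥ (q - b)(m - r^503)`, and `∑_{l ∈ LL} tl S l = ∑_{X ∈ S} |LX X| ≤ q m'`, hence
`∑ (tl - 1) ≤ b (q+1) + 2 q r^503 ≤ r^1504`. -/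
theorem step0 (c b : ℝ) (hc : 0 < c) (hb : 0 ≤ b) : ∃ q0 : ℕ, ∀ (q : ℕ), q0 ≤ q → ∀ (P L : Type) [Fintype P] [Fintype L] [DecidableEq P]
      [DecidableEq L] (Pl : Plane P L q) (P0 : P) (B : Finset P), Good Pl P0 c b B →
      ∀ S : Finset P, S.card = q → (∀ X ∈ S, X ∉ B ∧ X ≠ P0) →
        (∀ l ∈ Pl.LL P0 B, ∃ X ∈ S, X ∈ Pl.pts l) → Cov Pl P0 B S := by
  obtain ⟨q0, h0⟩ := rr_large (2 * b + 1 + 1)
  obtain ⟨q1, h1⟩ := rr_pow_le (1 / c) 503 1000 (by norm_num)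
  refine ⟨q0 + q1 + 1, ?_⟩
  intro q hq P L _ _ _ _ Pl P0 B hG S hScard hoff hcov
  have hr2 : 2 * b + 1 + 1 ≤ rr q := h0 q (by omega)
  have hr1 : 1 ≤ rr q := by linarith
  have hqr : rr q ^ 1000 = (q : ℝ) := rr_pow q
  have e1 : rr q ^ 503 ≤ c * q := by
    have := h1 q (by omega)
    rw [hqr] at this
    have h8 : c * (1 / c * rr q ^ 503) = rr q ^ 503 := by field_simp
    calc rr q ^ 503 = c * (1 / c * rr q ^ 503) := h8.symm
      _ ≤ _ := mul_le_mul_of_nonneg_left this hc.le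
  have hrq : rr q ≤ (q : ℝ) := by
    rw [← hqr]; exact le_self_pow₀ hr1 (by norm_num)
  have hbq : b ≤ (q : ℝ) := by linarith
  have hq1 : (1 : ℝ) ≤ q := by linarith
  have hcover : ∀ l ∈ Pl.LL P0 B, 1 ≤ Pl.tl S l := by
    intro l hl
    obtain ⟨X, hX, hXl⟩ := hcov l hl
    exact Finset.card_pos.2 ⟨X, Finset.mem_inter.2 ⟨hX, hXl⟩⟩
  refine ⟨hScard, hoff, hcover, ?_⟩
  have hSne : S.Nonempty := by rw [← Finset.card_pos, hScard]; omega
  obtain ⟨X1, hX1S, hX1⟩ := Finset.exists_max_image S (fun X => (Pl.LX P0 B X).card) hSne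
  have hM : rr q ^ 503 ≤ ((Pl.LX P0 B X1).card : ℝ) :=
    e1.trans (hG.lower X1 (hoff X1 hX1S).1 (hoff X1 hX1S).2)
  have hLL := g0_LL Pl P0 B c b hG hbq X1 (hoff X1 hX1S) hM
  have hM2 : ((Pl.LX P0 B X1).card : ℝ) ≤ q + 1 := by exact_mod_cast g0_LX_le Pl P0 B X1
  have hsum : (∑ l ∈ Pl.LL P0 B, (Pl.tl S l : ℝ)) ≤ (q : ℝ) * ((Pl.LX P0 B X1).card : ℝ) := by
    have h2 : ∑ X ∈ S, (Pl.LX P0 B X).card ≤ ∑ _X ∈ S, (Pl.LX P0 B X1).card :=
      Finset.sum_le_sum (fun X hX => hX1 X hX)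
    rw [g0_sumS, Finset.sum_const, hScard, smul_eq_mul] at h2
    exact_mod_cast h2
  rw [Finset.sum_sub_distrib, Finset.sum_const, nsmul_eq_mul, mul_one]
  have hpos : 0 ≤ rr q ^ 503 := by positivity
  have hbM : b * ((Pl.LX P0 B X1).card : ℝ) ≤ b * (q + 1) := mul_le_mul_of_nonneg_left hM2 hb
  have hb503 : 0 ≤ b * rr q ^ 503 := mul_nonneg hb hpos
  have hmain : (∑ l ∈ Pl.LL P0 B, (Pl.tl S l : ℝ)) - ((Pl.LL P0 B).card : ℝ) ≤
      b * (q + 1) + q * rr q ^ 503 := by nlinarith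
  have h9 : (q : ℝ) * rr q ^ 503 = rr q ^ 1503 := by rw [← hqr]; ring
  have h10 : b * ((q : ℝ) + 1) ≤ 2 * b * rr q ^ 1503 := by
    have : (q : ℝ) + 1 ≤ 2 * rr q ^ 1503 := by
      have h11 : (q : ℝ) ≤ rr q ^ 1503 := by
        rw [← hqr]; exact pow_le_pow_right₀ hr1 (by norm_num)
      linarith
    nlinarith
  have h12 : (2 * b + 1) * rr q ^ 1503 ≤ rr q * rr q ^ 1503 :=
    mul_le_mul_of_nonneg_right (by linarith) (by positivity)
  have h13 : rr q * rr q ^ 1503 = rr q ^ 1504 := by ring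
  linarith

/-- G0b. A set off B covering LL has at least `q - r^504` points: `|LL| ≥ (q-b)(m - r^503)` and
`|LL| ≤ ∑_{X ∈ S} |LX X| ≤ |S| (m + r^503)` with `m = |LX X1| ≥ c q`. -/
theorem card_lower (c b : ℝ) (hc : 0 < c) (hb : 0 ≤ b) : ∃ q0 : ℕ, ∀ (q : ℕ), q0 ≤ q → ∀ (P L : Type) [Fintype P] [Fintype L] [DecidableEq P]
      [DecidableEq L] (Pl : Plane P L q) (P0 : P) (B : Finset P),
      Good Pl P0 c b B → ∀ S : Finset P, (∀ X ∈ S, X ∉ B ∧ X ≠ P0) →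
        (∀ l ∈ Pl.LL P0 B, ∃ X ∈ S, X ∈ Pl.pts l) → (q : ℝ) - rr q ^ 504 ≤ (S.card : ℝ) := by
  obtain ⟨q0, h0⟩ := rr_large (2 * b + 1 + 4 / c)
  obtain ⟨q1, h1⟩ := rr_pow_le (1 / c) 503 1000 (by norm_num)
  refine ⟨q0 + q1 + 1, ?_⟩
  intro q hq P L _ _ _ _ Pl P0 B hG S hoff hcov
  have hr2 : 2 * b + 1 + 4 / c ≤ rr q := h0 q (by omega)
  have h4c : 0 < 4 / c := by positivity
  have hr1 : 1 ≤ rr q := by linarith
  have hqr : rr q ^ 1000 = (q : ℝ) := rr_pow q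
  have e1 : rr q ^ 503 ≤ c * q := by
    have := h1 q (by omega)
    rw [hqr] at this
    have h8 : c * (1 / c * rr q ^ 503) = rr q ^ 503 := by field_simp
    calc rr q ^ 503 = c * (1 / c * rr q ^ 503) := h8.symm
      _ ≤ _ := mul_le_mul_of_nonneg_left this hc.le
  have hrq : rr q ≤ (q : ℝ) := by
    rw [← hqr]; exact le_self_pow₀ hr1 (by norm_num)
  have hbq : b < (q : ℝ) := by linarith
  have hq1 : (1 : ℝ) ≤ q := by linarith
  have hUne : (g0U P0 B).Nonempty := by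
    have hU := g0_Ucard Pl P0 B b hG.card_B
    rw [← Finset.card_pos]
    have : (0 : ℝ) < ((g0U P0 B).card : ℝ) :=
      lt_of_lt_of_le (mul_pos (by positivity) (by linarith)) hU
    exact_mod_cast this
  obtain ⟨X1, hX1U⟩ := hUne
  rw [g0_mem] at hX1U
  have hlow := hG.lower X1 hX1U.1 hX1U.2
  have hM : rr q ^ 503 ≤ ((Pl.LX P0 B X1).card : ℝ) := e1.trans hlow
  have hLL := g0_LL Pl P0 B c b hG hbq.le X1 hX1U hM
  set m : ℝ := ((Pl.LX P0 B X1).card : ℝ) with hm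
  set ρ : ℝ := rr q ^ 503 with hρ
  have hρ1 : 1 ≤ ρ := one_le_pow₀ hr1
  have hup : ((Pl.LL P0 B).card : ℝ) ≤ (S.card : ℝ) * (m + ρ) := by
    have h2 : ∑ X ∈ S, ((Pl.LX P0 B X).card : ℝ) = ∑ l ∈ Pl.LL P0 B, (Pl.tl S l : ℝ) := by
      exact_mod_cast g0_sumS Pl P0 B S
    have h3 : ∑ X ∈ S, ((Pl.LX P0 B X).card : ℝ) ≤ ∑ _X ∈ S, (m + ρ) :=
      Finset.sum_le_sum (fun X hX => hG.pr1 X X1 (hoff X hX).1 (hoff X hX).2 hX1U.1 hX1U.2)
    have h4 : ∑ _l ∈ Pl.LL P0 B, (1 : ℝ) ≤ ∑ l ∈ Pl.LL P0 B, (Pl.tl S l : ℝ) := by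
      refine Finset.sum_le_sum (fun l hl => ?_)
      obtain ⟨X, hX, hXl⟩ := hcov l hl
      have : 1 ≤ Pl.tl S l := Finset.card_pos.2 ⟨X, Finset.mem_inter.2 ⟨hX, hXl⟩⟩
      exact_mod_cast this
    rw [Finset.sum_const, nsmul_eq_mul, mul_one] at h4
    rw [Finset.sum_const, nsmul_eq_mul] at h3
    linarith
  by_contra hcon
  push Not at hcon
  have hmρ : 0 < m + ρ := by linarith
  have h5 : (S.card : ℝ) * (m + ρ) < ((q : ℝ) - rr q ^ 504) * (m + ρ) :=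
    mul_lt_mul_of_pos_right hcon hmρ
  have h504 : rr q ^ 504 = rr q * ρ := by rw [hρ]; ring
  rw [h504] at h5
  have h6 : ((q : ℝ) - b) * (m - ρ) < ((q : ℝ) - rr q * ρ) * (m + ρ) := by linarith
  have hm0 : 0 ≤ m := by rw [hm]; exact Nat.cast_nonneg _
  have h7 : 2 * b * m ≤ rr q * ρ * m := by
    apply mul_le_mul_of_nonneg_right _ hm0
    nlinarith
  have h8 : 4 * (q * ρ) ≤ rr q * ρ * m := by
    have h9 : 4 / c * (c * q) ≤ rr q * m :=
      mul_le_mul (by linarith) hlow (by positivity) (by linarith)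
    have h10 : 4 / c * (c * q) = 4 * q := by field_simp
    rw [h10] at h9
    nlinarith
  have h11 : 0 ≤ b * ρ := by positivity
  have h12 : 0 ≤ rr q * ρ * ρ := by positivity
  nlinarith

end Crest.Agent.Ryser
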