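import Crest.Agent.Ryser.GDefs

/-! Row 34, chunk G4, deterministic part (helper47). -/

set_option autoImplicit false

open Finset

namespace Crest.Agent.Ryser

namespace G4

variable {P L : Type} [Fintype P] [Fintype L] [DecidableEq P] [DecidableEq L] {q : ℕ}

/-- `X, Y` distinct, joined by a line outside `Rs` not through `P0` -/
def Off (Pl : Plane P L q) (P0 : P) (Rs : Finset L) (X Y : P) : Prop :=
  X ≠ Y ∧ Pl.join X Y ∉ Rs ∧ P0 ∉ Pl.pts (Pl.join X Y)

instance (Pl : Plane P L q) (P0 : P) (Rs : Finset L) : DecidableRel (Off Pl P0 Rs) := by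
  intro X Y
  unfold Off
  infer_instance

/-- relation used in the concurrency estimate -/
def RZ (Pl : Plane P L q) (P0 : P) (Rs : Finset L) (Z X Y : P) : Prop :=
  Off Pl P0 Rs X Y ∧ X ≠ Z ∧ Y ≠ Z ∧ Z ∈ Pl.pts (Pl.join X Y)

instance (Pl : Plane P L q) (P0 : P) (Rs : Finset L) (Z : P) :
    DecidableRel (RZ Pl P0 Rs Z) := by
  intro X Y
  unfold RZ
  infer_instance

/-- off index pairs -/
def DD (Pl : Plane P L q) (P0 : P) (Rs : Finset L) {k : ℕ} (x : Fin k → P) :
    Finset (Fin k × Fin k) :=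
  univ.filter (fun ab => ab.1 < ab.2 ∧ Off Pl P0 Rs (x ab.1) (x ab.2))

/-- collinear index triples -/
def TT (Pl : Plane P L q) (P0 : P) (Rs : Finset L) {k : ℕ} (x : Fin k → P) :
    Finset (Fin k × Fin k × Fin k) :=
  univ.filter (fun t => (t.1 < t.2.1 ∧ t.1 ≠ t.2.2 ∧ t.2.1 ≠ t.2.2) ∧
    (Off Pl P0 Rs (x t.1) (x t.2.1) ∧ x t.2.2 ∈ Pl.pts (Pl.join (x t.1) (x t.2.1))))

/-- index pairs joined by a line of `LLs` -/
def AA (Pl : Plane P L q) (P0 : P) (Rs LLs : Finset L) {k : ℕ} (x : Fin k → P) :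
    Finset (Fin k × Fin k) :=
  univ.filter (fun ab => ab.1 < ab.2 ∧ (Off Pl P0 Rs (x ab.1) (x ab.2) ∧
    Pl.join (x ab.1) (x ab.2) ∈ LLs))

/-- the set of lines -/
def JJ (Pl : Plane P L q) (P0 : P) (Rs : Finset L) {k : ℕ} (x : Fin k → P) : Finset L :=
  univ.filter (fun l => l ∉ Rs ∧ P0 ∉ Pl.pts l ∧ 2 ≤ (univ.image x ∩ Pl.pts l).card)

variable (Pl : Plane P L q) (P0 : P) (Rs : Finset L)

theorem mem_JJ_of_off {k : ℕ} (x : Fin k → P) (a b : Fin k) (h : Off Pl P0 Rs (x a) (x b)) :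
    Pl.join (x a) (x b) ∈ JJ Pl P0 Rs x := by
  obtain ⟨h1, h2, h3⟩ := h
  unfold JJ
  rw [mem_filter]
  refine ⟨mem_univ _, h2, h3, ?_⟩
  have hsub : ({x a, x b} : Finset P) ⊆ univ.image x ∩ Pl.pts (Pl.join (x a) (x b)) := by
    intro Z hZ
    rw [mem_insert, mem_singleton] at hZ
    rw [mem_inter]
    rcases hZ with rfl | rfl
    · exact ⟨mem_image_of_mem _ (mem_univ _), Pl.join_left _ _ h1⟩
    · exact ⟨mem_image_of_mem _ (mem_univ _), Pl.join_right _ _ h1⟩
  calc 2 = ({x a, x b} : Finset P).card := by rw [card_pair h1]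
    _ ≤ _ := card_le_card hsub

theorem card_DD_le {k : ℕ} (x : Fin k → P) :
    (DD Pl P0 Rs x).card ≤ (JJ Pl P0 Rs x).card + (TT Pl P0 Rs x).card := by
  classical
  have h1 := card_filter_add_card_filter_not (s := DD Pl P0 Rs x)
    (fun ab : Fin k × Fin k => ∃ c, ab.1 ≠ c ∧ ab.2 ≠ c ∧
      x c ∈ Pl.pts (Pl.join (x ab.1) (x ab.2)))
  have h2 : ((DD Pl P0 Rs x).filter (fun ab : Fin k × Fin k => ∃ c, ab.1 ≠ c ∧ ab.2 ≠ c ∧
      x c ∈ Pl.pts (Pl.join (x ab.1) (x ab.2)))).card ≤ (TT Pl P0 Rs x).card := by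
    have hsub : ((DD Pl P0 Rs x).filter (fun ab : Fin k × Fin k => ∃ c, ab.1 ≠ c ∧ ab.2 ≠ c ∧
      x c ∈ Pl.pts (Pl.join (x ab.1) (x ab.2)))) ⊆
        (TT Pl P0 Rs x).image (fun t => (t.1, t.2.1)) := by
      intro ab hab
      rw [mem_filter] at hab
      obtain ⟨hD, c, hc1, hc2, hc3⟩ := hab
      unfold DD at hD
      rw [mem_filter] at hD
      rw [mem_image]
      refine ⟨(ab.1, ab.2, c), ?_, rfl⟩
      unfold TT
      rw [mem_filter]
      exact ⟨mem_univ _, ⟨hD.2.1, hc1, hc2⟩, hD.2.2, hc3⟩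
    exact (card_le_card hsub).trans card_image_le
  have h3 : ((DD Pl P0 Rs x).filter (fun ab : Fin k × Fin k => ¬ ∃ c, ab.1 ≠ c ∧ ab.2 ≠ c ∧
      x c ∈ Pl.pts (Pl.join (x ab.1) (x ab.2)))).card ≤ (JJ Pl P0 Rs x).card := by
    apply card_le_card_of_injOn (fun ab => Pl.join (x ab.1) (x ab.2))
    · intro ab hab
      have hab' := mem_coe.1 hab
      rw [mem_filter] at hab'
      have hD := hab'.1
      unfold DD at hD
      rw [mem_filter] at hD
      exact mem_coe.2 (mem_JJ_of_off Pl P0 Rs x ab.1 ab.2 hD.2.2)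
    · intro ab hab ab' hab' heq
      have hab := mem_coe.1 hab
      have hab' := mem_coe.1 hab'
      rw [mem_filter] at hab hab'
      obtain ⟨hD, hn⟩ := hab
      obtain ⟨hD', hn'⟩ := hab'
      unfold DD at hD hD'
      rw [mem_filter] at hD hD'
      push Not at hn hn'
      obtain ⟨-, hlt, hoff⟩ := hD
      obtain ⟨-, hlt', hoff'⟩ := hD'
      simp only at heq
      have m1 : x ab'.1 ∈ Pl.pts (Pl.join (x ab.1) (x ab.2)) := by
        rw [heq]; exact Pl.join_left _ _ hoff'.1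
      have m2 : x ab'.2 ∈ Pl.pts (Pl.join (x ab.1) (x ab.2)) := by
        rw [heq]; exact Pl.join_right _ _ hoff'.1
      have c1 : ab'.1 = ab.1 ∨ ab'.1 = ab.2 := by
        by_contra hcon
        push Not at hcon
        exact hn ab'.1 hcon.1.symm hcon.2.symm m1
      have c2 : ab'.2 = ab.1 ∨ ab'.2 = ab.2 := by
        by_contra hcon
        push Not at hcon
        exact hn ab'.2 hcon.1.symm hcon.2.symm m2
      rcases c1 with c1 | c1 <;> rcases c2 with c2 | c2
      · rw [c1, c2] at hlt'; exact absurd hlt' (lt_irrefl _)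
      · exact Prod.ext c1.symm c2.symm
      · rw [c1, c2] at hlt'; exact absurd hlt' (not_lt.2 hlt.le)
      · rw [c1, c2] at hlt'; exact absurd hlt' (lt_irrefl _)
  omega

/-- two indices on a line of `JJ` -/
theorem exists_pair_of_mem_JJ {k : ℕ} (x : Fin k → P) {l : L} (hl : l ∈ JJ Pl P0 Rs x) :
    ∃ a b, x a ≠ x b ∧ x a ∈ Pl.pts l ∧ x b ∈ Pl.pts l ∧ Pl.join (x a) (x b) = l ∧
      Off Pl P0 Rs (x a) (x b) := by
  unfold JJ at hl
  rw [mem_filter] at hl
  obtain ⟨-, h1, h2, h3⟩ := hl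
  obtain ⟨X, hX, Y, hY, hXY⟩ := one_lt_card.1 (show 1 < (univ.image x ∩ Pl.pts l).card by omega)
  rw [mem_inter, mem_image] at hX hY
  obtain ⟨⟨a, -, ha⟩, hXl⟩ := hX
  obtain ⟨⟨b, -, hb⟩, hYl⟩ := hY
  have hj : Pl.join (x a) (x b) = l := by
    rw [ha, hb]
    exact (Pl.join_unique X Y l hXY hXl hYl).symm
  refine ⟨a, b, ?_, ?_, ?_, hj, ?_⟩
  · rw [ha, hb]; exact hXY
  · rw [ha]; exact hXl
  · rw [hb]; exact hYl
  · refine ⟨?_, ?_, ?_⟩
    · rw [ha, hb]; exact hXY
    · rw [hj]; exact h1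
    · rw [hj]; exact h2

theorem card_JJ_inter_le (LLs : Finset L) {k : ℕ} (x : Fin k → P) :
    ((JJ Pl P0 Rs x).filter (fun l => l ∈ LLs)).card ≤ (AA Pl P0 Rs LLs x).card := by
  classical
  have hsub : (JJ Pl P0 Rs x).filter (fun l => l ∈ LLs) ⊆
      (AA Pl P0 Rs LLs x).image (fun ab => Pl.join (x ab.1) (x ab.2)) := by
    intro l hl
    rw [mem_filter] at hl
    obtain ⟨hJ, hL⟩ := hl
    obtain ⟨a, b, hab, ha, hb, hj, hoff⟩ := exists_pair_of_mem_JJ Pl P0 Rs x hJ
    have hne : a ≠ b := fun h => hab (by rw [h])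
    rw [mem_image]
    rcases lt_or_gt_of_ne hne with h | h
    · refine ⟨(a, b), ?_, hj⟩
      unfold AA
      rw [mem_filter]
      exact ⟨mem_univ _, h, hoff, by rw [hj]; exact hL⟩
    · have hj' : Pl.join (x b) (x a) = l := by
        rw [← hj]; exact (Pl.join_comm _ _ hab).symm
      refine ⟨(b, a), ?_, hj'⟩
      unfold AA
      rw [mem_filter]
      refine ⟨mem_univ _, h, ⟨hab.symm, ?_, ?_⟩, ?_⟩
      · show Pl.join (x b) (x a) ∉ Rs
        rw [hj', ← hj]; exact hoff.2.1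
      · show P0 ∉ Pl.pts (Pl.join (x b) (x a))
        rw [hj', ← hj]; exact hoff.2.2
      · show Pl.join (x b) (x a) ∈ LLs
        rw [hj']; exact hL
  exact (card_le_card hsub).trans card_image_le

theorem exists_matching (m : ℕ) {k : ℕ} (x : Fin k → P) (Z : P) (hZ : Z ∉ univ.image x)
    (hm : m ≤ ((JJ Pl P0 Rs x).filter (fun l => Z ∈ Pl.pts l)).card) :
    ∃ e : Fin m × Bool → Fin k, Function.Injective e ∧
      ∀ i, RZ Pl P0 Rs Z (x (e (i, false))) (x (e (i, true))) := by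
  classical
  obtain ⟨s, hs, hcard⟩ := exists_subset_card_eq hm
  let φ := (s.equivFinOfCardEq hcard).symm
  have hφ : ∀ i, ((φ i : s) : L) ∈ JJ Pl P0 Rs x ∧ Z ∈ Pl.pts (φ i : L) := by
    intro i
    have := hs (φ i).2
    rwa [mem_filter] at this
  choose a b hab ha hb hj hoff using fun i => exists_pair_of_mem_JJ Pl P0 Rs x (hφ i).1
  have hneZ : ∀ c, x c ≠ Z := by
    intro c hc
    exact hZ (mem_image.2 ⟨c, mem_univ _, hc⟩)
  have key : ∀ i j c, x c ∈ Pl.pts (φ i : L) → x c ∈ Pl.pts (φ j : L) → i = j := by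
    intro i j c h1 h2
    by_contra hij
    have hne : (φ i : L) ≠ (φ j : L) := by
      intro h
      exact hij (φ.injective (Subtype.ext h))
    exact hneZ c (Pl.eq_of_mem_two hne h1 h2 (hφ i).2 (hφ j).2)
  refine ⟨fun ib => if ib.2 then b ib.1 else a ib.1, ?_, ?_⟩
  · rintro ⟨i, s1⟩ ⟨j, s2⟩ h
    simp only at h
    cases s1 <;> cases s2 <;> simp only [Bool.false_eq_true, if_true, if_false] at h
    · have := key i j (a i) (ha i) (by rw [h]; exact ha j)
      rw [this]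
    · have := key i j (a i) (ha i) (by rw [h]; exact hb j)
      subst this
      exact absurd (by rw [h]) (hab i)
    · have := key i j (b i) (hb i) (by rw [h]; exact ha j)
      subst this
      exact absurd (by rw [h]) (hab i)
    · have := key i j (b i) (hb i) (by rw [h]; exact hb j)
      rw [this]
  · intro i
    simp only [Bool.false_eq_true, if_true, if_false]
    refine ⟨hoff i, hneZ _, hneZ _, ?_⟩
    rw [hj i]
    exact (hφ i).2

/-- conclusion for a good sample -/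
theorem good_sample (𝓛 : Finset L) (B : Finset P) (c : ℝ) {k : ℕ} (x : Fin k → P)
    (hx : ∀ a, x a ∉ B)
    (hbad : ∀ Z, ¬ ∃ e : Fin 102 × Bool → Fin k, Function.Injective e ∧
      ∀ i, RZ Pl P0 (RL Pl 𝓛) Z (x (e (i, false))) (x (e (i, true))))
    (hrich : (testF4 Pl P0 𝓛 x).Valid Pl P0 1 → (testF4 Pl P0 𝓛 x).Rich Pl B c) :
    c * ((JJ Pl P0 (RL Pl 𝓛) x).card : ℝ) ≤
      ((AA Pl P0 (RL Pl 𝓛) (Pl.LL P0 B) x).card : ℝ) := by
  classical
  have hJ : (testF4 Pl P0 𝓛 x).J = JJ Pl P0 (RL Pl 𝓛) x := rfl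
  have hval : (testF4 Pl P0 𝓛 x).Valid Pl P0 1 := by
    refine ⟨by norm_num [testF4], ?_, ?_, ?_, ?_⟩
    · intro j _
      simp [testF4]
    · intro j hj l hl
      rw [hJ] at hj
      have hl' : l = j := by simpa [testF4] using hl
      subst hl'
      unfold JJ at hj
      rw [mem_filter] at hj
      exact hj.2.2.1
    · intro Z hZ
      by_contra hcon
      push Not at hcon
      apply hbad Z
      apply exists_matching Pl P0 (RL Pl 𝓛) 102 x Z hZ
      have hM : (testF4 Pl P0 𝓛 x).M = 101 := rfl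
      rw [hM, hJ] at hcon
      refine le_trans (Nat.succ_le_of_lt hcon) (card_le_card ?_)
      intro j hj
      rw [mem_filter] at hj ⊢
      refine ⟨hj.1, ?_⟩
      obtain ⟨l, hl, hZl⟩ := hj.2
      have hl' : l = j := by simpa [testF4] using hl
      subst hl'
      exact hZl
    · intro l
      have hM : (testF4 Pl P0 𝓛 x).M = 101 := rfl
      rw [hM]
      have hsub : (testF4 Pl P0 𝓛 x).J.filter (fun j => l ∈ (testF4 Pl P0 𝓛 x).Λ j) ⊆ {l} := by
        intro j hj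
        rw [mem_filter] at hj
        have hl' : l = j := by simpa [testF4] using hj.2
        rw [mem_singleton, hl']
      calc _ ≤ ({l} : Finset L).card := card_le_card hsub
        _ ≤ 101 := by simp
  have h1 := hrich hval
  unfold Test.Rich at h1
  rw [hJ] at h1
  refine h1.trans ?_
  have h2 : ((testF4 Pl P0 𝓛 x).surv Pl B) ⊆
      (JJ Pl P0 (RL Pl 𝓛) x).filter (fun l => l ∈ Pl.LL P0 B) := by
    intro l hl
    unfold Test.surv at hl
    rw [mem_filter, hJ] at hl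
    rw [mem_filter]
    refine ⟨hl.1, ?_⟩
    unfold Plane.LL
    rw [mem_filter]
    refine ⟨mem_univ _, ?_, ?_⟩
    · have := hl.1
      unfold JJ at this
      rw [mem_filter] at this
      exact this.2.2.1
    · intro X hX hXl
      have h3 := hl.2 l (by simp [testF4]) X hX hXl
      have h4 : X ∈ univ.image x := h3
      rw [mem_image] at h4
      obtain ⟨a, -, ha⟩ := h4
      exact hx a (by rw [ha]; exact hX)
  exact_mod_cast (card_le_card h2).trans (card_JJ_inter_le Pl P0 (RL Pl 𝓛) (Pl.LL P0 B) x)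

end G4

end Crest.Agent.Ryser
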