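import Crest.Agent.Ryser.G7
import Crest.Agent.Ryser.RR

/-! Row 34, chunk G8: Lemma E (few near-blocking sets). -/

set_option autoImplicit false

open Finset

namespace Crest.Agent.Ryser

/-- few small subsets -/
theorem g8_small (α : Type) [Fintype α] [DecidableEq α] (j : ℕ) (hN : 2 ≤ Fintype.card α) :
    (univ.filter (fun D : Finset α => D.card ≤ j)).card ≤ (Fintype.card α) ^ (j + 1) := by
  have h1 : (univ.filter (fun D : Finset α => D.card ≤ j)) ⊆
      (range (j + 1)).biUnion (fun i => powersetCard i (univ : Finset α)) := by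
    intro D hD
    rw [mem_filter] at hD
    rw [mem_biUnion]
    exact ⟨D.card, by rw [mem_range]; omega, by rw [mem_powersetCard]; exact ⟨subset_univ _, rfl⟩⟩
  refine (card_le_card h1).trans (card_biUnion_le.trans ?_)
  calc ∑ i ∈ range (j + 1), (powersetCard i (univ : Finset α)).card
      = ∑ i ∈ range (j + 1), (Fintype.card α).choose i := by
        apply sum_congr rfl; intro i _; rw [card_powersetCard, card_univ]
    _ ≤ ∑ i ∈ range (j + 1), (Fintype.card α) ^ i :=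
        sum_le_sum fun i _ => Nat.choose_le_pow _ _
    _ ≤ (Fintype.card α) ^ (j + 1) :=
        (Nat.geomSum_lt hN (fun k hk => mem_range.mp hk)).le

variable {P L : Type} [Fintype P] [Fintype L] [DecidableEq P] [DecidableEq L] {q : ℕ}

theorem g8_fiber (Pl : Plane P L q) (hD : Pl.Dich) (hq : 2 ≤ q) (μ : ℕ) (hμ : 8 * μ ≤ q ^ 2)
    (T : Finset (Finset P)) (hT : ∀ S ∈ T, S.card = q ∧ Pl.mis S = μ ∧
      ∃ x : Fin (k7 q μ) → P, WS Pl S = Wx Pl μ x) :
    T.card ≤ (Fintype.card P) ^ (k7 q μ) * (Fintype.card P) ^ (8 * μ / q + 1) := by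
  classical
  have hN : 2 ≤ Fintype.card P := by rw [Pl.card_P]; nlinarith
  have hNe : Nonempty P := Fintype.card_pos_iff.mp (by omega)
  have hNe2 : Nonempty (Fin (k7 q μ) → P) := ⟨fun _ => hNe.some⟩
  choose! x hx using (fun S (hS : S ∈ T) => (hT S hS).2.2)
  let f : Finset P → (Fin (k7 q μ) → P) × Finset P := fun S => (x S, symmDiff S (WS Pl S))
  have hmaps : ∀ S ∈ T, f S ∈ (univ : Finset (Fin (k7 q μ) → P)) ×ˢ
      (univ.filter (fun D : Finset P => D.card ≤ 8 * μ / q)) := by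
    intro S hS
    rw [mem_product]
    refine ⟨mem_univ _, ?_⟩
    rw [mem_filter]
    refine ⟨mem_univ _, ?_⟩
    obtain ⟨h1, h2, -⟩ := hT S hS
    have h3 := card_S_diff Pl hD S h1 hq (by rw [h2]; exact hμ)
    have h4 := card_WS_diff Pl S h1 hq (by rw [h2]; exact hμ)
    rw [h2] at h3 h4
    have h5 : (symmDiff S (WS Pl S)).card ≤ (S \ WS Pl S).card + (WS Pl S \ S).card := by
      rw [symmDiff_def]
      exact card_union_le _ _
    rw [Nat.le_div_iff_mul_le (by omega)]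
    calc (symmDiff S (WS Pl S)).card * q ≤ ((S \ WS Pl S).card + (WS Pl S \ S).card) * q :=
          Nat.mul_le_mul_right _ h5
      _ = (S \ WS Pl S).card * q + (WS Pl S \ S).card * q := by ring
      _ ≤ 8 * μ := by omega
  have hinj : Set.InjOn f T := by
    intro S hS S' hS' he
    have e1 : x S = x S' := congrArg Prod.fst he
    have e2 : symmDiff S (WS Pl S) = symmDiff S' (WS Pl S') := congrArg Prod.snd he
    have e3 : WS Pl S = WS Pl S' := by rw [hx S hS, hx S' hS', e1]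
    rw [e3] at e2
    exact symmDiff_left_injective _ e2
  refine (card_le_card_of_injOn f hmaps hinj).trans ?_
  rw [card_product]
  apply Nat.mul_le_mul
  · rw [card_univ, Fintype.card_fun, Fintype.card_fin]
  · exact g8_small P _ hN

/-- G8. By lemmaW, card_S_diff, card_WS_diff: S ↦ (mis S, x, symmDiff S (WS S)) is injective on the ok sets, with
at most (q²+q+2) (q²+q+1)^(k7) ∑_{j ≤ 8μ/q} (q²+q+1 choose j) values; log ≤ (k7 + 8μ/q + 2) · 3 log q ≤ r^995. -/
theorem lemmaE : ∃ q0 : ℕ, ∀ (q : ℕ), q0 ≤ q → ∀ (P L : Type) [Fintype P] [Fintype L] [DecidableEq P]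
      [DecidableEq L] (Pl : Plane P L q), Pl.Dich →
      ∀ T : Finset (Finset P), (∀ S ∈ T, okS7 Pl S) → (T.card : ℝ) ≤ Real.exp (rr q ^ 995) := by
  obtain ⟨q1, hW⟩ := lemmaW
  obtain ⟨q2, hr⟩ := rr_large 100
  obtain ⟨q3, hlog⟩ := log_le_rr 1 one_pos
  refine ⟨max (max q1 q2) (max q3 2), ?_⟩
  intro q hq P L _ _ _ _ Pl hD T hT
  have hq1 : q1 ≤ q := by omega
  have hq2 : q2 ≤ q := by omega
  have hq3 : q3 ≤ q := by omega
  have hq4 : 2 ≤ q := by omega
  have hR := hr q hq2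
  have hL := hlog q hq3
  rw [one_mul] at hL
  set r := rr q with hrdef
  have hr1 : (1 : ℝ) ≤ r := by linarith
  have hr0 : (0 : ℝ) < r := by linarith
  have hrq : r ^ 1000 = (q : ℝ) := rr_pow q
  have hq0 : (0 : ℝ) < q := by positivity
  have hT' : ∀ S ∈ T, Pl.mis S ∈ range (⌊r ^ 1990⌋₊ + 1) := by
    intro S hS
    rw [mem_range, Nat.lt_succ_iff]
    exact Nat.le_floor (hT S hS).2.2
  have hsum : T.card = ∑ μ ∈ range (⌊r ^ 1990⌋₊ + 1), (T.filter (fun S => Pl.mis S = μ)).card :=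
    card_eq_sum_card_fiberwise hT'
  have hμb : ∀ μ ∈ range (⌊r ^ 1990⌋₊ + 1), (μ : ℝ) ≤ r ^ 1990 := by
    intro μ hμ
    rw [mem_range, Nat.lt_succ_iff] at hμ
    exact (Nat.cast_le.mpr hμ).trans (Nat.floor_le (by positivity))
  set N := Fintype.card P with hN
  have hNle : (N : ℝ) ≤ (q : ℝ) ^ 3 := by
    rw [hN, Pl.card_P]
    push_cast
    have : (2 : ℝ) ≤ q := by exact_mod_cast hq4
    nlinarith [sq_nonneg ((q : ℝ) - 2)]
  have hN1 : (1 : ℝ) ≤ (N : ℝ) := by
    rw [hN, Pl.card_P]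
    push_cast
    nlinarith
  have hk7 : ∀ μ ∈ range (⌊r ^ 1990⌋₊ + 1), (k7 q μ : ℝ) ≤ r ^ 985 := by
    intro μ hμ
    unfold k7
    refine (Nat.floor_le (by positivity)).trans ?_
    rw [← hrdef, div_div, div_le_iff₀ (by positivity), ← hrq]
    refine (hμb μ hμ).trans (le_of_eq ?_)
    ring
  have h8 : ∀ μ ∈ range (⌊r ^ 1990⌋₊ + 1), ((8 * μ / q : ℕ) : ℝ) ≤ 8 * r ^ 990 := by
    intro μ hμ
    refine (Nat.cast_div_le).trans ?_
    rw [div_le_iff₀ hq0, ← hrq]
    push_cast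
    have := hμb μ hμ
    calc 8 * (μ : ℝ) ≤ 8 * r ^ 1990 := by linarith
      _ = 8 * r ^ 990 * r ^ 1000 := by ring
  have hterm : ∀ μ ∈ range (⌊r ^ 1990⌋₊ + 1),
      ((T.filter (fun S => Pl.mis S = μ)).card : ℝ) ≤
        Real.exp (Real.log q * (3 * (r ^ 985 + (8 * r ^ 990 + 1)))) := by
    intro μ hμ
    have hμ8 : 8 * μ ≤ q ^ 2 := by
      have h1 := hμb μ hμ
      have h2 : (8 : ℝ) * μ ≤ (q : ℝ) ^ 2 := by
        rw [← hrq]
        calc (8 : ℝ) * μ ≤ 8 * r ^ 1990 := by linarith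
          _ ≤ r ^ 10 * r ^ 1990 := by
            apply mul_le_mul_of_nonneg_right _ (by positivity)
            calc (8 : ℝ) ≤ r := by linarith
              _ = r ^ 1 := (pow_one r).symm
              _ ≤ r ^ 10 := pow_le_pow_right₀ hr1 (by norm_num)
          _ = (r ^ 1000) ^ 2 := by ring
      exact_mod_cast h2
    have h1 := g8_fiber Pl hD hq4 μ hμ8 (T.filter (fun S => Pl.mis S = μ)) (by
      intro S hS
      rw [mem_filter] at hS
      obtain ⟨hS1, hS2⟩ := hS
      have hok := hT S hS1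
      refine ⟨hok.1, hS2, ?_⟩
      have := hW q hq1 P L Pl hD S hok
      rw [hS2] at this
      exact this)
    have h2 : ((T.filter (fun S => Pl.mis S = μ)).card : ℝ) ≤
        (N : ℝ) ^ (k7 q μ) * (N : ℝ) ^ (8 * μ / q + 1) := by exact_mod_cast h1
    refine h2.trans ?_
    rw [← pow_add]
    have h3 : (N : ℝ) ^ (k7 q μ + (8 * μ / q + 1)) ≤
        ((q : ℝ) ^ 3) ^ (k7 q μ + (8 * μ / q + 1)) := pow_le_pow_left₀ (by positivity) hNle _
    refine h3.trans ?_
    rw [← pow_mul, ← Real.exp_log (pow_pos hq0 _), Real.log_pow]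
    apply Real.exp_le_exp.mpr
    rw [mul_comm]
    apply mul_le_mul_of_nonneg_left _ (Real.log_natCast_nonneg q)
    push_cast
    have e1 := hk7 μ hμ
    have e2 := h8 μ hμ
    linarith
  have htot : (T.card : ℝ) ≤ (⌊r ^ 1990⌋₊ + 1 : ℕ) *
      Real.exp (Real.log q * (3 * (r ^ 985 + (8 * r ^ 990 + 1)))) := by
    rw [hsum]
    push_cast
    refine (sum_le_sum hterm).trans ?_
    rw [sum_const, card_range, nsmul_eq_mul]
    push_cast
    exact le_rfl
  refine htot.trans ?_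
  have hM : ((⌊r ^ 1990⌋₊ + 1 : ℕ) : ℝ) ≤ Real.exp (Real.log q * 2) := by
    rw [show Real.log q * 2 = Real.log ((q : ℝ) ^ 2) by rw [Real.log_pow]; push_cast; ring,
      Real.exp_log (by positivity)]
    push_cast
    have h1 := Nat.floor_le (show (0 : ℝ) ≤ r ^ 1990 by positivity)
    rw [← hrq]
    have h2 : (1 : ℝ) ≤ r ^ 1990 := one_le_pow₀ hr1
    calc (⌊r ^ 1990⌋₊ : ℝ) + 1 ≤ 2 * r ^ 1990 := by linarith
      _ ≤ r ^ 10 * r ^ 1990 := by
        apply mul_le_mul_of_nonneg_right _ (by positivity)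
        calc (2 : ℝ) ≤ r := by linarith
          _ = r ^ 1 := (pow_one r).symm
          _ ≤ r ^ 10 := pow_le_pow_right₀ hr1 (by norm_num)
      _ = (r ^ 1000) ^ 2 := by ring
  refine (mul_le_mul_of_nonneg_right hM (by positivity)).trans ?_
  rw [← Real.exp_add]
  apply Real.exp_le_exp.mpr
  have e1 : r ^ 985 ≤ r ^ 990 := pow_le_pow_right₀ hr1 (by norm_num)
  have e2 : (1 : ℝ) ≤ r ^ 990 := one_le_pow₀ hr1
  have e3 : Real.log q * 2 + Real.log q * (3 * (r ^ 985 + (8 * r ^ 990 + 1))) ≤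
      r * (32 * r ^ 990) := by
    rw [← mul_add]
    apply mul_le_mul hL _ (by positivity) hr0.le
    linarith
  refine e3.trans ?_
  calc r * (32 * r ^ 990) = 32 * r ^ 991 := by ring
    _ ≤ r ^ 4 * r ^ 991 := by
      apply mul_le_mul_of_nonneg_right _ (by positivity)
      calc (32 : ℝ) ≤ r := by linarith
        _ = r ^ 1 := (pow_one r).symm
        _ ≤ r ^ 4 := pow_le_pow_right₀ hr1 (by norm_num)
    _ = r ^ 995 := by ring

end Crest.Agent.Ryser
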