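import Crest.Agent.Ryser.Basic

/-!
Row 34: definitions of the test classes used in the global theorem (ideas row 34, part 2).
-/

set_option autoImplicit false

open Finset

namespace Crest.Agent.Ryser

variable {P L : Type} [Fintype P] [Fintype L] [DecidableEq P] [DecidableEq L] {q : ℕ}

/-! ### class PD: lines joining two samples of `kPD` points -/

/-- sample size for the pair density lemma, `⌊r^20⌋` -/
noncomputable def kPD (q : ℕ) : ℕ := ⌊rr q ^ 20⌋₊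

def testPD (Pl : Plane P L q) {k : ℕ} (x y : Fin k → P) : Test P L where
  J := univ.image (fun ab : Fin k × Fin k => Pl.join (x ab.1) (y ab.2))
  Λ := fun l => {l}
  Y0 := univ.image x ∪ univ.image y
  M := 33

/-- valid PD tests: all `k^2` lines distinct, not through `P0`, low concurrency -/
def okPD (Pl : Plane P L q) (P0 : P) {k : ℕ} (x y : Fin k → P) : Prop :=
  (testPD Pl x y).Valid Pl P0 1 ∧ (testPD Pl x y).J.card = k ^ 2

/-! ### class F4: lines spanned by a sample, outside the rich lines of `W1 𝓛` -/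

/-- points on at least two lines of `𝓛` -/
def W1 (Pl : Plane P L q) (𝓛 : Finset L) : Finset P :=
  univ.filter (fun Y => 2 ≤ (𝓛.filter (fun l => Y ∈ Pl.pts l)).card)

/-- lines with at least `r^440` points of `W1 𝓛` -/
noncomputable def RL (Pl : Plane P L q) (𝓛 : Finset L) : Finset L := by
  classical
  exact univ.filter (fun l => rr q ^ 440 ≤ ((W1 Pl 𝓛 ∩ Pl.pts l).card : ℝ))

/-- sample size in step 4, `⌊r^270⌋` -/
noncomputable def k4 (q : ℕ) : ℕ := ⌊rr q ^ 270⌋₊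

noncomputable def testF4 (Pl : Plane P L q) (P0 : P) (𝓛 : Finset L) {k : ℕ} (x : Fin k → P) :
    Test P L where
  J := univ.filter (fun l => l ∉ RL Pl 𝓛 ∧ P0 ∉ Pl.pts l ∧ 2 ≤ (univ.image x ∩ Pl.pts l).card)
  Λ := fun l => {l}
  Y0 := univ.image x
  M := 101

def okF4 (Pl : Plane P L q) (P0 : P) (𝓛 : Finset L) {k : ℕ} (x : Fin k → P) : Prop :=
  ((𝓛.card : ℝ) ≤ rr q ^ 525) ∧ (testF4 Pl P0 𝓛 x).Valid Pl P0 1 ∧
    rr q ^ 528 ≤ ((testF4 Pl P0 𝓛 x).J.card : ℝ)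

/-! ### class S7: the lines missing `S`, exempting the heavy set `WS S` -/

/-- heavy set: points seeing `S` in few lines, `q * s_Y ≤ 2 * mis S` -/
def WS (Pl : Plane P L q) (S : Finset P) : Finset P :=
  univ.filter (fun Y => q * Pl.sY S Y ≤ 2 * Pl.mis S)

def testS7 (Pl : Plane P L q) (P0 : P) (S : Finset P) : Test P L where
  J := univ.filter (fun l => P0 ∉ Pl.pts l ∧ Pl.tl S l = 0)
  Λ := fun l => {l}
  Y0 := WS Pl S
  M := 3 * Pl.mis S / q + 1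

/-- the sets `S` occurring in step 7 -/
def okS7 (Pl : Plane P L q) (S : Finset P) : Prop :=
  S.card = q ∧ rr q ^ 1494 ≤ (Pl.mis S : ℝ) ∧ (Pl.mis S : ℝ) ≤ rr q ^ 1990

/-! ### class W7: sets determined by a sample -/

/-- sample size for given number `μ` of missing lines: `⌊(μ/q) r^(-5)⌋` -/
noncomputable def k7 (q μ : ℕ) : ℕ := ⌊(μ : ℝ) / q / rr q ^ 5⌋₊

/-- number of indices `b` whose point collides, seen from `Y`, with another sample point -/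
def coll (Pl : Plane P L q) {k : ℕ} (x : Fin k → P) (Y : P) : ℕ :=
  (univ.filter (fun b : Fin k => x b ≠ Y ∧
    ∃ a, a ≠ b ∧ x a ≠ Y ∧ x a ∈ Pl.pts (Pl.join Y (x b)))).card

/-- the set determined by a sample: at least `k^2/(128 (μ/q))` collisions -/
noncomputable def Wx (Pl : Plane P L q) (μ : ℕ) {k : ℕ} (x : Fin k → P) : Finset P := by
  classical
  exact univ.filter (fun Y => (k : ℝ) ^ 2 / (128 * ((μ : ℝ) / q)) ≤ (coll Pl x Y : ℝ))

/-- index type for class W7: a value of `μ` and a sample of `k7 q μ` points -/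
abbrev IdxW (P : Type) (q : ℕ) : Type := Σ μ : Fin (q ^ 2 + q + 2), (Fin (k7 q μ) → P)

/-- conditions on an index of class W7 -/
def okW7 (Pl : Plane P L q) (x : IdxW P q) : Prop :=
  rr q ^ 1494 ≤ ((x.1 : ℕ) : ℝ) ∧ ((x.1 : ℕ) : ℝ) ≤ rr q ^ 1990 ∧ (Wx Pl x.1 x.2).card ≤ 3 * q

/-- threshold for the class W7 -/
noncomputable def hW7 (q : ℕ) (c : ℝ) (μ : ℕ) : ℝ := c * (μ : ℝ) / (4 * q)

/-! ### the properties of the banned set used in the global theorem -/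

/-- Properties PR1-PR3 of the banned set `B`, relative to the four classes. -/
structure Good (Pl : Plane P L q) (P0 : P) (c b : ℝ) (B : Finset P) : Prop where
  card_B : (B.card : ℝ) ≤ b * (q + 1)
  pr1 : ∀ X X', X ∉ B → X ≠ P0 → X' ∉ B → X' ≠ P0 →
    ((Pl.LX P0 B X).card : ℝ) ≤ ((Pl.LX P0 B X').card : ℝ) + rr q ^ 503
  lower : ∀ X, X ∉ B → X ≠ P0 → c * q ≤ ((Pl.LX P0 B X).card : ℝ)
  prPD : ∀ x y : Fin (kPD q) → P, okPD Pl P0 x y → (testPD Pl x y).Rich Pl B c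
  prF4 : ∀ (𝓛 : Finset L) (x : Fin (k4 q) → P), okF4 Pl P0 𝓛 x → (testF4 Pl P0 𝓛 x).Rich Pl B c
  prS7 : ∀ S : Finset P, okS7 Pl S → (testS7 Pl P0 S).Valid Pl P0 1 →
    (testS7 Pl P0 S).Rich Pl B c
  prW7 : ∀ x : IdxW P q, okW7 Pl x → ((B ∩ Wx Pl x.1 x.2).card : ℝ) ≤ hW7 q c x.1

/-- basic facts about the cover `S` (step 0) -/
structure Cov (Pl : Plane P L q) (P0 : P) (B S : Finset P) : Prop where
  card : S.card = q
  off : ∀ X ∈ S, X ∉ B ∧ X ≠ P0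
  cover : ∀ l ∈ Pl.LL P0 B, 1 ≤ Pl.tl S l
  exc : ∑ l ∈ Pl.LL P0 B, ((Pl.tl S l : ℝ) - 1) ≤ rr q ^ 1504

/-- number of pairs of `X1 × X2` joined by a line of `LL` -/
def eL (Pl : Plane P L q) (P0 : P) (B X1 X2 : Finset P) : ℕ :=
  ((X1 ×ˢ X2).filter (fun xy => xy.1 ≠ xy.2 ∧ Pl.join xy.1 xy.2 ∈ Pl.LL P0 B)).card

/-- number of points of `S` joined to `X` by a line of `LL` -/
def eX (Pl : Plane P L q) (P0 : P) (B S : Finset P) (X : P) : ℕ :=
  (S.filter (fun Y => Y ≠ X ∧ Pl.join X Y ∈ Pl.LL P0 B)).card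

/-- pair density property -/
def PDProp (Pl : Plane P L q) (P0 : P) (B : Finset P) (c2 : ℝ) : Prop :=
  ∀ X1 X2 : Finset P, Disjoint X1 X2 → (∀ X ∈ X1 ∪ X2, X ∉ B ∧ X ≠ P0) →
    rr q ^ 100 ≤ (X1.card : ℝ) → rr q ^ 100 ≤ (X2.card : ℝ) →
    (∀ Z, (((X1 ×ˢ X2).filter (fun xy => xy.1 ≠ Z ∧ xy.2 ≠ Z ∧
      Z ∈ Pl.pts (Pl.join xy.1 xy.2))).card : ℝ) ≤
        (rr q ^ 100)⁻¹ * ((X1.card : ℝ) * (X2.card : ℝ))) →
    c2 * ((X1.card : ℝ) * (X2.card : ℝ)) ≤ (eL Pl P0 B X1 X2 : ℝ)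

/-- ordered pairs of points of `Gd` on lines outside `RL 𝓛` and not through `P0` -/
noncomputable def pairsOff (Pl : Plane P L q) (P0 : P) (𝓛 : Finset L) (Gd : Finset P) : ℕ := by
  classical
  exact ((Gd ×ˢ Gd).filter (fun xy => xy.1 ≠ xy.2 ∧ Pl.join xy.1 xy.2 ∉ RL Pl 𝓛 ∧
    P0 ∉ Pl.pts (Pl.join xy.1 xy.2))).card

/-- the output of step 3 -/
structure Str3 (Pl : Plane P L q) (S Gd : Finset P) (𝓛 : Finset L) : Prop where
  sub : Gd ⊆ S
  card_diff : ((S \ Gd).card : ℝ) ≤ rr q ^ 985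
  card_L : (𝓛.card : ℝ) ≤ rr q ^ 525
  sub_W : Gd ⊆ W1 Pl 𝓛

end Crest.Agent.Ryser
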