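import Crest.Agent.Ryser.Basic

/-!
Row 34: the hypergraph of a configuration (helper45).
-/

set_option autoImplicit false
set_option linter.unusedSectionVars false

open Finset

namespace Crest.Agent.Ryser

/-- transport of a partite hypergraph on finite types to `Fin N`. -/
theorem hyper_transport {V I : Type} [Fintype V] [DecidableEq V] [Fintype I] [DecidableEq I]
    (q : ℕ) (hI : Fintype.card I = q + 1) (part : V → I) (E : Finset (Finset V))
    (h1 : E.Nonempty) (h2 : ∀ e ∈ E, ∀ i, (e.filter (fun v => part v = i)).card = 1)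
    (h3 : ∀ e ∈ E, ∀ f ∈ E, (e ∩ f).Nonempty)
    (h4 : ∀ i, (univ.filter (fun v => part v = i)).card = q + 1)
    (h5 : ∀ v, ∃ e ∈ E, v ∈ e)
    (h6 : ∀ S : Finset V, (∀ e ∈ E, (e ∩ S).Nonempty) → q + 1 ≤ S.card) :
    ∃ (N : ℕ) (part : Fin N → Fin (q + 1)) (E : Finset (Finset (Fin N))),
        E.Nonempty ∧
        (∀ e ∈ E, ∀ i : Fin (q + 1), (e.filter (fun v => part v = i)).card = 1) ∧
        (∀ e ∈ E, ∀ f ∈ E, (e ∩ f).Nonempty) ∧
        (∀ i : Fin (q + 1), (Finset.univ.filter (fun v => part v = i)).card = q + 1) ∧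
        (∀ v : Fin N, ∃ e ∈ E, v ∈ e) ∧
        (∀ S : Finset (Fin N), (∀ e ∈ E, (e ∩ S).Nonempty) → q + 1 ≤ S.card) := by
  classical
  let φ : V ≃ Fin (Fintype.card V) := Fintype.equivFin V
  let ψ : I ≃ Fin (q + 1) := Fintype.equivFinOfCardEq hI
  have hfil : ∀ (e : Finset V) (i : Fin (q + 1)),
      ((e.map φ.toEmbedding).filter (fun v => ψ (part (φ.symm v)) = i)) =
        (e.filter (fun v => part v = ψ.symm i)).map φ.toEmbedding := by
    intro e i
    ext v
    simp only [Finset.mem_filter, Finset.mem_map, Equiv.coe_toEmbedding]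
    constructor
    · rintro ⟨⟨w, hw, rfl⟩, h⟩
      refine ⟨w, ⟨hw, ?_⟩, rfl⟩
      rw [Equiv.symm_apply_apply] at h
      rw [← h, Equiv.symm_apply_apply]
    · rintro ⟨w, ⟨hw, h⟩, rfl⟩
      refine ⟨⟨w, hw, rfl⟩, ?_⟩
      rw [Equiv.symm_apply_apply, h, Equiv.apply_symm_apply]
  refine ⟨Fintype.card V, fun v => ψ (part (φ.symm v)), E.image (fun e => e.map φ.toEmbedding),
    h1.image _, ?_, ?_, ?_, ?_, ?_⟩
  · intro e he i
    obtain ⟨e', he', rfl⟩ := Finset.mem_image.1 he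
    rw [hfil, Finset.card_map]
    exact h2 e' he' _
  · intro e he f hf
    obtain ⟨e', he', rfl⟩ := Finset.mem_image.1 he
    obtain ⟨f', hf', rfl⟩ := Finset.mem_image.1 hf
    rw [← Finset.map_inter]
    exact (h3 e' he' f' hf').map
  · intro i
    have : (Finset.univ : Finset (Fin (Fintype.card V))) = (univ : Finset V).map φ.toEmbedding := by
      rw [Finset.map_univ_equiv]
    rw [this, hfil, Finset.card_map]
    exact h4 _
  · intro v
    obtain ⟨e, he, hv⟩ := h5 (φ.symm v)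
    refine ⟨e.map φ.toEmbedding, Finset.mem_image_of_mem _ he, ?_⟩
    rw [Finset.mem_map]
    exact ⟨φ.symm v, hv, by simp⟩
  · intro S hS
    have := h6 (S.map φ.symm.toEmbedding) ?_
    · rwa [Finset.card_map] at this
    · intro e he
      obtain ⟨x, hx⟩ := hS _ (Finset.mem_image_of_mem _ he)
      rw [Finset.mem_inter, Finset.mem_map] at hx
      obtain ⟨⟨w, hw, hwx⟩, hxS⟩ := hx
      refine ⟨w, ?_⟩
      rw [Finset.mem_inter, Finset.mem_map]
      refine ⟨hw, x, hxS, ?_⟩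
      rw [← hwx]
      simp

variable {P L : Type} [Fintype P] [Fintype L] [DecidableEq P] [DecidableEq L] {q : ℕ}

section hyper

variable {Pl : Plane P L q} {P0 : P} {n : ℕ}

/-- vertices: points other than `P0`, and one star for every part -/
abbrev Vx (Pl : Plane P L q) (P0 : P) : Type := {X : P // X ≠ P0} ⊕ Pl.Prt P0

def partV (Pl : Plane P L q) (P0 : P) : Vx Pl P0 → Pl.Prt P0
  | Sum.inl X => ⟨Pl.join P0 X.1, (Pl.mem_lns _ _).2 (Pl.join_left P0 X.1 (Ne.symm X.2))⟩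
  | Sum.inr i => i

/-- vertex set given by a set of points and a set of stars -/
noncomputable def toV (Pl : Plane P L q) (P0 : P) (A : Finset P) (St : Finset (Pl.Prt P0)) :
    Finset (Vx Pl P0) := by
  classical
  exact univ.filter (fun v => Sum.elim (fun X : {X : P // X ≠ P0} => X.1 ∈ A) (fun i => i ∈ St) v)

theorem mem_toV_inl {A : Finset P} {St : Finset (Pl.Prt P0)} (X : {X : P // X ≠ P0}) :
    (Sum.inl X : Vx Pl P0) ∈ toV Pl P0 A St ↔ X.1 ∈ A := by
  simp [toV]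

theorem mem_toV_inr {A : Finset P} {St : Finset (Pl.Prt P0)} (i : Pl.Prt P0) :
    (Sum.inr i : Vx Pl P0) ∈ toV Pl P0 A St ↔ i ∈ St := by
  simp [toV]

theorem partV_inl (X : {X : P // X ≠ P0}) (i : Pl.Prt P0) :
    partV Pl P0 (Sum.inl X) = i ↔ X.1 ∈ Pl.pts i.1 := by
  constructor
  · rintro rfl
    exact Pl.join_right P0 X.1 (Ne.symm X.2)
  · intro h
    apply Subtype.ext
    exact (Pl.join_unique P0 X.1 i.1 (Ne.symm X.2) ((Pl.mem_lns _ _).1 i.2) h).symm

theorem partV_inr (i j : Pl.Prt P0) : partV Pl P0 (Sum.inr j) = i ↔ j = i := Iff.rfl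

theorem card_Prt : Fintype.card (Pl.Prt P0) = q + 1 := by
  rw [Fintype.card_coe, Pl.card_lns]

theorem P0_mem_prt (i : Pl.Prt P0) : P0 ∈ Pl.pts i.1 := (Pl.mem_lns _ _).1 i.2

/-- every part has `q+1` vertices -/
theorem card_part (i : Pl.Prt P0) :
    (univ.filter (fun v => partV Pl P0 v = i)).card = q + 1 := by
  classical
  have h1 : (univ.filter (fun v => partV Pl P0 v = i)) =
      insert (Sum.inr i) (((Pl.pts i.1).erase P0).attach.image
        (fun X => (Sum.inl ⟨X.1, Finset.ne_of_mem_erase X.2⟩ : Vx Pl P0))) := by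
    ext v
    simp only [Finset.mem_filter, Finset.mem_univ, true_and, Finset.mem_insert, Finset.mem_image,
      Finset.mem_attach]
    rcases v with X | j
    · rw [partV_inl]
      constructor
      · intro h
        right
        exact ⟨⟨X.1, Finset.mem_erase.2 ⟨X.2, h⟩⟩, rfl⟩
      · rintro (h | ⟨Y, hY⟩)
        · simp at h
        · have := Finset.mem_of_mem_erase Y.2
          have h2 : Y.1 = X.1 := by
            have := Sum.inl.inj hY
            exact congrArg Subtype.val this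
          rw [← h2]; exact this
    · rw [partV_inr]
      constructor
      · intro h; left; rw [h]
      · rintro (h | ⟨Y, hY⟩)
        · exact Sum.inr.inj h
        · simp at hY
  rw [h1, Finset.card_insert_of_notMem, Finset.card_image_of_injective, Finset.card_attach,
    Finset.card_erase_of_mem (P0_mem_prt i), Pl.card_pts]
  · rfl
  · intro X Y h
    apply Subtype.ext
    simpa using h
  · simp

theorem meet_ne_P0 {l l' : L} (h : l ≠ l') (h0 : P0 ∉ Pl.pts l) : Pl.meet l l' ≠ P0 := by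
  intro hh
  apply h0
  rw [← hh]
  exact Pl.meet_left l l' h

theorem line_ne_prt {l : L} (h0 : P0 ∉ Pl.pts l) (i : Pl.Prt P0) : l ≠ i.1 := by
  rintro rfl
  exact h0 (P0_mem_prt i)

/-- line edges are transversal -/
theorem lineEdge_part {l : L} (h0 : P0 ∉ Pl.pts l) (i : Pl.Prt P0) :
    ((toV Pl P0 (Pl.pts l) ∅).filter (fun v => partV Pl P0 v = i)).card = 1 := by
  rw [Finset.card_eq_one]
  have hne := line_ne_prt h0 i
  refine ⟨Sum.inl ⟨Pl.meet l i.1, meet_ne_P0 hne h0⟩, ?_⟩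
  ext v
  rw [Finset.mem_filter, Finset.mem_singleton]
  rcases v with X | j
  · rw [mem_toV_inl, partV_inl]
    constructor
    · rintro ⟨h1, h2⟩
      have := Pl.meet_unique l i.1 X.1 hne h1 h2
      congr 1
      exact Subtype.ext this
    · intro h
      have h1 : X.1 = Pl.meet l i.1 := congrArg Subtype.val (Sum.inl.inj h)
      rw [h1]
      exact ⟨Pl.meet_left _ _ hne, Pl.meet_right _ _ hne⟩
  · rw [mem_toV_inr]
    simp

theorem exists_pt_of_line (l : L) (h0 : P0 ∉ Pl.pts l) : ∃ X, X ≠ P0 ∧ X ∈ Pl.pts l := by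
  have h1 : 0 < (Pl.pts l).card := by rw [Pl.card_pts]; omega
  obtain ⟨X, hX⟩ := Finset.card_pos.1 h1
  exact ⟨X, fun h => h0 (h ▸ hX), hX⟩

theorem line_line_inter {l l' : L} (h0 : P0 ∉ Pl.pts l) (h0' : P0 ∉ Pl.pts l') :
    (toV Pl P0 (Pl.pts l) ∅ ∩ toV Pl P0 (Pl.pts l') ∅).Nonempty := by
  by_cases h : l = l'
  · subst h
    obtain ⟨X, hX, hXl⟩ := exists_pt_of_line l h0
    refine ⟨Sum.inl ⟨X, hX⟩, ?_⟩
    rw [Finset.mem_inter, mem_toV_inl]
    exact ⟨hXl, hXl⟩
  · refine ⟨Sum.inl ⟨Pl.meet l l', meet_ne_P0 h h0⟩, ?_⟩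
    rw [Finset.mem_inter, mem_toV_inl, mem_toV_inl]
    exact ⟨Pl.meet_left _ _ h, Pl.meet_right _ _ h⟩

end hyper

namespace Config

variable {Pl : Plane P L q} {P0 : P} {n : ℕ} (C : Config Pl P0 n)

theorem base_ban (i : Pl.Prt P0) : C.base i ∈ C.ban := by
  unfold PreConfig.ban
  exact Finset.mem_union_left _ (Finset.mem_image_of_mem _ (Finset.mem_univ _))

theorem Q_ban (i : Pl.Prt P0) (b : Bool) (t : Fin n) : C.Q i b t ∈ C.ban := by
  unfold PreConfig.ban
  exact Finset.mem_union_right _ (Finset.mem_image.2 ⟨(i, b, t), Finset.mem_univ _, rfl⟩)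

theorem mem_ban (X : P) : X ∈ C.ban ↔ (∃ i, X = C.base i) ∨ ∃ i b t, X = C.Q i b t := by
  unfold PreConfig.ban
  rw [Finset.mem_union, Finset.mem_image, Finset.mem_image]
  constructor
  · rintro (⟨i, _, h⟩ | ⟨x, _, h⟩)
    · exact Or.inl ⟨i, h.symm⟩
    · exact Or.inr ⟨x.1, x.2.1, x.2.2, h.symm⟩
  · rintro (⟨i, h⟩ | ⟨i, b, t, h⟩)
    · exact Or.inl ⟨i, Finset.mem_univ _, h.symm⟩
    · exact Or.inr ⟨(i, b, t), Finset.mem_univ _, h.symm⟩

theorem mem_K (i : Pl.Prt P0) (b : Bool) (X : P) :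
    X ∈ C.K i b ↔ X = C.base i ∨ ∃ t, X = C.Q i b t := by
  unfold PreConfig.K
  rw [Finset.mem_insert, Finset.mem_image]
  constructor
  · rintro (h | ⟨t, _, h⟩)
    · exact Or.inl h
    · exact Or.inr ⟨t, h.symm⟩
  · rintro (h | ⟨t, h⟩)
    · exact Or.inl h
    · exact Or.inr ⟨t, Finset.mem_univ _, h.symm⟩

theorem K_ban {i : Pl.Prt P0} {b : Bool} {X : P} (h : X ∈ C.K i b) : X ∈ C.ban := by
  rw [mem_K] at h
  rcases h with rfl | ⟨t, rfl⟩
  · exact C.base_ban i
  · exact C.Q_ban i b t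

theorem mem_gset (i : Pl.Prt P0) (b : Bool) (X : P) :
    X ∈ C.gset i b ↔ (X ∈ Pl.pts (C.g i b) ∧ X ∉ C.K i b) ∨ ∃ t, X = C.R i b t := by
  unfold gset
  rw [Finset.mem_union, Finset.mem_sdiff, Finset.mem_image]
  constructor
  · rintro (h | ⟨t, _, h⟩)
    · exact Or.inl h
    · exact Or.inr ⟨t, h.symm⟩
  · rintro (h | ⟨t, h⟩)
    · exact Or.inl h
    · exact Or.inr ⟨t, Finset.mem_univ _, h.symm⟩

theorem Q_ne_P0 (i : Pl.Prt P0) (b : Bool) (t : Fin n) : C.Q i b t ≠ P0 := by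
  intro h
  apply C.g_P0 i b
  have h1 := C.Q_mem i b t
  rw [h] at h1
  exact h1

/-- the part line of `Q i b t` -/
theorem VQ_P0 (i : Pl.Prt P0) (b : Bool) (t : Fin n) : P0 ∈ Pl.pts (Pl.join P0 (C.Q i b t)) :=
  Pl.join_left _ _ (C.Q_ne_P0 i b t).symm

theorem VQ_Q (i : Pl.Prt P0) (b : Bool) (t : Fin n) :
    C.Q i b t ∈ Pl.pts (Pl.join P0 (C.Q i b t)) :=
  Pl.join_right _ _ (C.Q_ne_P0 i b t).symm

theorem g_ne_VQ (i : Pl.Prt P0) (b b' : Bool) (t : Fin n) :
    C.g i b ≠ Pl.join P0 (C.Q i b' t) := by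
  intro h
  apply C.g_P0 i b
  rw [h]
  exact C.VQ_P0 i b' t

theorem mu_ne_VQ (i : Pl.Prt P0) (b : Bool) (s t : Fin n) :
    C.mu i s ≠ Pl.join P0 (C.Q i b t) := by
  intro h
  apply C.mu_P0 i s
  rw [h]
  exact C.VQ_P0 i b t

/-- a point of `g i b` on the part line of `Q i b t` is `Q i b t` -/
theorem eq_Q_of_mem {i : Pl.Prt P0} {b : Bool} {t : Fin n} {X : P} (h1 : X ∈ Pl.pts (C.g i b))
    (h2 : X ∈ Pl.pts (Pl.join P0 (C.Q i b t))) : X = C.Q i b t :=
  Pl.eq_of_mem_two (C.g_ne_VQ i b b t) h1 h2 (C.Q_mem i b t) (C.VQ_Q i b t)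

theorem VQ_inj {i : Pl.Prt P0} {b : Bool} {s t : Fin n}
    (h : Pl.join P0 (C.Q i b s) = Pl.join P0 (C.Q i b t)) : s = t := by
  apply C.Q_inj i b
  apply C.eq_Q_of_mem (C.Q_mem i b s)
  rw [← h]
  exact C.VQ_Q i b s

theorem R_mem_mu (i : Pl.Prt P0) (b : Bool) (t : Fin n) : C.R i b t ∈ Pl.pts (C.mu i t) :=
  Pl.meet_left _ _ (C.mu_ne_VQ i b t t)

theorem R_mem_VQ (i : Pl.Prt P0) (b : Bool) (t : Fin n) :
    C.R i b t ∈ Pl.pts (Pl.join P0 (C.Q i b t)) :=
  Pl.meet_right _ _ (C.mu_ne_VQ i b t t)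

theorem R_ne_P0 (i : Pl.Prt P0) (b : Bool) (t : Fin n) : C.R i b t ≠ P0 := by
  intro h
  apply C.mu_P0 i t
  have h1 := C.R_mem_mu i b t
  rw [h] at h1
  exact h1

/-- `Q i b s` is not on the part line of `Q i b t` -/
theorem Q_notMem_VQ {i : Pl.Prt P0} {b : Bool} {s t : Fin n} (h : s ≠ t) :
    C.Q i b s ∉ Pl.pts (Pl.join P0 (C.Q i b t)) := by
  intro hh
  exact h (C.Q_inj i b (C.eq_Q_of_mem (C.Q_mem i b s) hh))

theorem Q_ne_R {i : Pl.Prt P0} {b : Bool} {s t : Fin n} (h : s ≠ t) : C.Q i b s ≠ C.R i b t := by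
  intro hh
  apply C.Q_notMem_VQ h
  rw [hh]
  exact C.R_mem_VQ i b t

theorem Q_mem_sigma {i : Pl.Prt P0} {b : Bool} {s t : Fin n} (h : s ≠ t) :
    C.Q i b s ∈ Pl.pts (C.sigma i b s t) := Pl.join_left _ _ (C.Q_ne_R h)

theorem R_mem_sigma {i : Pl.Prt P0} {b : Bool} {s t : Fin n} (h : s ≠ t) :
    C.R i b t ∈ Pl.pts (C.sigma i b s t) := Pl.join_right _ _ (C.Q_ne_R h)

theorem sigma_P0 {i : Pl.Prt P0} {b : Bool} {s t : Fin n} (h : s ≠ t) :
    P0 ∉ Pl.pts (C.sigma i b s t) := by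
  intro hh
  have h1 : C.sigma i b s t = Pl.join P0 (C.Q i b t) :=
    Pl.line_eq_of_two (C.R_ne_P0 i b t) (C.R_mem_sigma h) (C.R_mem_VQ i b t) hh (C.VQ_P0 i b t)
  apply C.Q_notMem_VQ h
  rw [← h1]
  exact C.Q_mem_sigma h

/-- base point not on part lines of the Q's -/
theorem base_notMem_VQ (i : Pl.Prt P0) (b : Bool) (t : Fin n) :
    C.base i ∉ Pl.pts (Pl.join P0 (C.Q i b t)) := by
  intro h
  have h1 := C.eq_Q_of_mem (C.g_mem i b) h
  exact C.Q_ne_base i b t h1.symm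

theorem mem_spec (x : P × L) : x ∈ C.spec ↔ (∃ i t, x = (C.base i, C.mu i t)) ∨
    ∃ i b s t, s ≠ t ∧ x = (C.Q i b s, C.sigma i b s t) := by
  unfold spec
  rw [Finset.mem_union, Finset.mem_image, Finset.mem_image]
  constructor
  · rintro (⟨y, _, h⟩ | ⟨y, hy, h⟩)
    · exact Or.inl ⟨y.1, y.2, h.symm⟩
    · rw [Finset.mem_filter] at hy
      exact Or.inr ⟨y.1, y.2.1, y.2.2.1, y.2.2.2, hy.2, h.symm⟩
  · rintro (⟨i, t, h⟩ | ⟨i, b, s, t, hst, h⟩)
    · exact Or.inl ⟨(i, t), Finset.mem_univ _, h.symm⟩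
    · exact Or.inr ⟨(i, b, s, t), by simpa using hst, h.symm⟩

theorem spec_P0 {x : P × L} (h : x ∈ C.spec) : P0 ∉ Pl.pts x.2 := by
  rw [mem_spec] at h
  rcases h with ⟨i, t, rfl⟩ | ⟨i, b, s, t, hst, rfl⟩
  · exact C.mu_P0 i t
  · exact C.sigma_P0 hst

theorem spec_ban {x : P × L} (h : x ∈ C.spec) {X : P} (hX : X ∈ C.ban) (hX2 : X ∈ Pl.pts x.2) :
    X = x.1 := by
  rw [mem_spec] at h
  rcases h with ⟨i, t, rfl⟩ | ⟨i, b, s, t, hst, rfl⟩
  · exact C.mu_ban i t X hX hX2
  · exact C.sigma_ban i b s t X hst hX hX2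

theorem spec_mem {x : P × L} (h : x ∈ C.spec) : x.1 ∈ Pl.pts x.2 := by
  rw [mem_spec] at h
  rcases h with ⟨i, t, rfl⟩ | ⟨i, b, s, t, hst, rfl⟩
  · exact C.mu_mem i t
  · exact C.Q_mem_sigma hst

theorem spec_ne_g [NeZero n] {x : P × L} (h : x ∈ C.spec) (i : Pl.Prt P0) (b : Bool) :
    x.2 ≠ C.g i b := by
  intro hh
  have h1 := C.spec_ban h (C.base_ban i) (hh ▸ C.g_mem i b)
  have h2 := C.spec_ban h (C.Q_ban i b 0) (hh ▸ C.Q_mem i b 0)
  exact C.Q_ne_base i b 0 (h2.trans h1.symm)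

theorem base_part_ne {i j : Pl.Prt P0} (h : C.base i ∈ Pl.pts j.1) : i = j := by
  apply Subtype.ext
  exact Pl.line_eq_of_two (C.base_ne i) (C.base_mem i) h (P0_mem_prt i) (P0_mem_prt j)

theorem g_ne_prt (i j : Pl.Prt P0) (b : Bool) : C.g i b ≠ j.1 := line_ne_prt (C.g_P0 i b) j

/-- `R i b t` in part `j` iff `Q i b t` in part `j` -/
theorem R_part {i j : Pl.Prt P0} {b : Bool} {t : Fin n} (h : C.R i b t ∈ Pl.pts j.1) :
    Pl.join P0 (C.Q i b t) = j.1 :=
  Pl.line_eq_of_two (C.R_ne_P0 i b t) (C.R_mem_VQ i b t) h (C.VQ_P0 i b t) (P0_mem_prt j)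

/-- the modified edges are transversal -/
theorem gEdge_part (i : Pl.Prt P0) (b : Bool) (j : Pl.Prt P0) :
    ((toV Pl P0 (C.gset i b) {i}).filter (fun v => partV Pl P0 v = j)).card = 1 := by
  rw [Finset.card_eq_one]
  by_cases hij : i = j
  · subst hij
    refine ⟨Sum.inr i, ?_⟩
    ext v
    rw [Finset.mem_filter, Finset.mem_singleton]
    rcases v with X | k
    · rw [mem_toV_inl, partV_inl, mem_gset]
      constructor
      · rintro ⟨h1, h2⟩
        exfalso
        rcases h1 with ⟨h3, h4⟩ | ⟨t, h3⟩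
        · apply h4
          rw [mem_K]
          left
          exact Pl.eq_of_mem_two (C.g_ne_prt i i b) h3 h2 (C.g_mem i b) (C.base_mem i)
        · rw [h3] at h2
          have h5 := C.R_part h2
          apply C.base_notMem_VQ i b t
          rw [h5]
          exact C.base_mem i
      · intro h
        simp at h
    · rw [mem_toV_inr, partV_inr, Finset.mem_singleton]
      constructor
      · rintro ⟨h, _⟩
        rw [h]
      · intro h
        have := Sum.inr.inj h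
        exact ⟨this, this⟩
  · have hne := C.g_ne_prt i j b
    have hYm : Pl.meet (C.g i b) j.1 ∈ Pl.pts (C.g i b) := Pl.meet_left _ _ hne
    have hYj : Pl.meet (C.g i b) j.1 ∈ Pl.pts j.1 := Pl.meet_right _ _ hne
    have hY0 : Pl.meet (C.g i b) j.1 ≠ P0 := meet_ne_P0 hne (C.g_P0 i b)
    by_cases hK : Pl.meet (C.g i b) j.1 ∈ C.K i b
    · rw [mem_K] at hK
      rcases hK with hK | ⟨t, hK⟩
      · exfalso
        apply hij
        apply C.base_part_ne
        rw [← hK]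
        exact hYj
      · refine ⟨Sum.inl ⟨C.R i b t, C.R_ne_P0 i b t⟩, ?_⟩
        ext v
        rw [Finset.mem_filter, Finset.mem_singleton]
        have hVj : Pl.join P0 (C.Q i b t) = j.1 := by
          rw [hK] at hYj
          exact Pl.line_eq_of_two (C.Q_ne_P0 i b t) (C.VQ_Q i b t) hYj (C.VQ_P0 i b t) (P0_mem_prt j)
        rcases v with X | k
        · rw [mem_toV_inl, partV_inl, mem_gset]
          constructor
          · rintro ⟨h1, h2⟩
            rcases h1 with ⟨h3, h4⟩ | ⟨t', h3⟩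
            · exfalso
              apply h4
              rw [mem_K]
              right
              refine ⟨t, ?_⟩
              rw [← hK]
              exact Pl.eq_of_mem_two hne h3 h2 hYm hYj
            · rw [h3] at h2
              have h5 := C.R_part h2
              rw [← hVj] at h5
              have h6 := C.VQ_inj h5
              subst h6
              congr 1
              exact Subtype.ext h3
          · intro h
            have h1 : X.1 = C.R i b t := congrArg Subtype.val (Sum.inl.inj h)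
            refine ⟨Or.inr ⟨t, h1⟩, ?_⟩
            rw [h1, ← hVj]
            exact C.R_mem_VQ i b t
        · rw [mem_toV_inr, partV_inr, Finset.mem_singleton]
          constructor
          · rintro ⟨h1, h2⟩
            exact absurd (h1.symm.trans h2) hij
          · intro h
            simp at h
    · refine ⟨Sum.inl ⟨Pl.meet (C.g i b) j.1, hY0⟩, ?_⟩
      ext v
      rw [Finset.mem_filter, Finset.mem_singleton]
      rcases v with X | k
      · rw [mem_toV_inl, partV_inl, mem_gset]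
        constructor
        · rintro ⟨h1, h2⟩
          rcases h1 with ⟨h3, h4⟩ | ⟨t, h3⟩
          · congr 1
            apply Subtype.ext
            exact Pl.eq_of_mem_two hne h3 h2 hYm hYj
          · exfalso
            rw [h3] at h2
            have h5 := C.R_part h2
            apply hK
            rw [mem_K]
            right
            refine ⟨t, ?_⟩
            apply C.eq_Q_of_mem hYm
            rw [h5]
            exact hYj
        · intro h
          have h1 : X.1 = Pl.meet (C.g i b) j.1 := congrArg Subtype.val (Sum.inl.inj h)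
          rw [h1]
          exact ⟨Or.inl ⟨hYm, hK⟩, hYj⟩
      · rw [mem_toV_inr, partV_inr, Finset.mem_singleton]
        constructor
        · rintro ⟨h1, h2⟩
          exact absurd (h1.symm.trans h2) hij
        · intro h
          simp at h

theorem line_g_inter {l : L} (hl : l ∈ Pl.LL P0 C.ban) (i : Pl.Prt P0) (b : Bool) :
    (toV Pl P0 (Pl.pts l) ∅ ∩ toV Pl P0 (C.gset i b) {i}).Nonempty := by
  unfold Plane.LL at hl
  rw [Finset.mem_filter] at hl
  obtain ⟨-, h0, h1⟩ := hl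
  have hne : l ≠ C.g i b := by
    rintro rfl
    exact h1 _ (C.base_ban i) (C.g_mem i b)
  refine ⟨Sum.inl ⟨Pl.meet l (C.g i b), meet_ne_P0 hne h0⟩, ?_⟩
  rw [Finset.mem_inter, mem_toV_inl, mem_toV_inl, mem_gset]
  refine ⟨Pl.meet_left _ _ hne, Or.inl ⟨Pl.meet_right _ _ hne, ?_⟩⟩
  intro hK
  exact h1 _ (C.K_ban hK) (Pl.meet_left _ _ hne)

theorem spec_g_inter [NeZero n] {x : P × L} (hx : x ∈ C.spec) (i : Pl.Prt P0) (b : Bool) :
    (toV Pl P0 (Pl.pts x.2) ∅ ∩ toV Pl P0 (C.gset i b) {i}).Nonempty := by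
  have hne := C.spec_ne_g hx i b
  have h0 := C.spec_P0 hx
  by_cases hK : Pl.meet x.2 (C.g i b) ∈ C.K i b
  · have h1 := C.spec_ban hx (C.K_ban hK) (Pl.meet_left _ _ hne)
    have h2 : x.1 ∈ Pl.pts (C.g i b) := by rw [← h1]; exact Pl.meet_right _ _ hne
    rw [mem_spec] at hx
    rcases hx with ⟨j, t, rfl⟩ | ⟨j, b', s, t, hst, rfl⟩
    · have hj : j = i := by
        by_contra h
        exact C.base_not_g i j b h h2
      subst hj
      refine ⟨Sum.inl ⟨C.R j b t, C.R_ne_P0 j b t⟩, ?_⟩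
      rw [Finset.mem_inter, mem_toV_inl, mem_toV_inl, mem_gset]
      exact ⟨C.R_mem_mu j b t, Or.inr ⟨t, rfl⟩⟩
    · have hj : (j, b') = (i, b) := by
        by_contra h
        exact C.Q_not_g i b j b' s h h2
      obtain ⟨rfl, rfl⟩ := Prod.mk.inj hj
      refine ⟨Sum.inl ⟨C.R j b' t, C.R_ne_P0 j b' t⟩, ?_⟩
      rw [Finset.mem_inter, mem_toV_inl, mem_toV_inl, mem_gset]
      exact ⟨C.R_mem_sigma hst, Or.inr ⟨t, rfl⟩⟩
  · refine ⟨Sum.inl ⟨Pl.meet x.2 (C.g i b), meet_ne_P0 hne h0⟩, ?_⟩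
    rw [Finset.mem_inter, mem_toV_inl, mem_toV_inl, mem_gset]
    exact ⟨Pl.meet_left _ _ hne, Or.inl ⟨Pl.meet_right _ _ hne, hK⟩⟩

theorem g_g_inter (i j : Pl.Prt P0) (b b' : Bool) :
    (toV Pl P0 (C.gset i b) {i} ∩ toV Pl P0 (C.gset j b') {j}).Nonempty := by
  by_cases hij : i = j
  · subst hij
    refine ⟨Sum.inr i, ?_⟩
    rw [Finset.mem_inter, mem_toV_inr, mem_toV_inr]
    simp
  · have hne : C.g i b ≠ C.g j b' := by
      intro h
      apply C.base_not_g j i b' hij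
      rw [← h]
      exact C.g_mem i b
    have h1 := Pl.meet_left _ _ hne
    have h2 := Pl.meet_right _ _ hne
    refine ⟨Sum.inl ⟨Pl.meet (C.g i b) (C.g j b'), meet_ne_P0 hne (C.g_P0 i b)⟩, ?_⟩
    rw [Finset.mem_inter, mem_toV_inl, mem_toV_inl, mem_gset, mem_gset]
    refine ⟨Or.inl ⟨h1, ?_⟩, Or.inl ⟨h2, ?_⟩⟩
    · intro hK
      rw [mem_K] at hK
      rcases hK with hK | ⟨t, hK⟩
      · apply C.base_not_g j i b' hij
        rw [← hK]; exact h2
      · apply C.Q_not_g j b' i b t (fun h => hij (congrArg Prod.fst h))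
        rw [← hK]; exact h2
    · intro hK
      rw [mem_K] at hK
      rcases hK with hK | ⟨t, hK⟩
      · apply C.base_not_g i j b (Ne.symm hij)
        rw [← hK]; exact h1
      · apply C.Q_not_g i b j b' t (fun h => hij (congrArg Prod.fst h).symm)
        rw [← hK]; exact h1

/-- the edges -/
noncomputable def edges : Finset (Finset (Vx Pl P0)) := by
  classical
  exact ((Pl.LL P0 C.ban).image (fun l => toV Pl P0 (Pl.pts l) ∅)) ∪
    (C.spec.image (fun x => toV Pl P0 (Pl.pts x.2) ∅)) ∪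
    (univ.image (fun x : Pl.Prt P0 × Bool => toV Pl P0 (C.gset x.1 x.2) {x.1}))

theorem mem_edges (e : Finset (Vx Pl P0)) : e ∈ C.edges ↔
    (∃ l ∈ Pl.LL P0 C.ban, e = toV Pl P0 (Pl.pts l) ∅) ∨
    (∃ x ∈ C.spec, e = toV Pl P0 (Pl.pts x.2) ∅) ∨
    (∃ i b, e = toV Pl P0 (C.gset i b) {i}) := by
  unfold edges
  rw [Finset.mem_union, Finset.mem_union, Finset.mem_image, Finset.mem_image, Finset.mem_image]
  constructor
  · rintro ((⟨l, hl, h⟩ | ⟨x, hx, h⟩) | ⟨x, _, h⟩)
    · exact Or.inl ⟨l, hl, h.symm⟩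
    · exact Or.inr (Or.inl ⟨x, hx, h.symm⟩)
    · exact Or.inr (Or.inr ⟨x.1, x.2, h.symm⟩)
  · rintro (⟨l, hl, h⟩ | ⟨x, hx, h⟩ | ⟨i, b, h⟩)
    · exact Or.inl (Or.inl ⟨l, hl, h.symm⟩)
    · exact Or.inl (Or.inr ⟨x, hx, h.symm⟩)
    · exact Or.inr ⟨(i, b), Finset.mem_univ _, h.symm⟩

/-- The hypergraph of a configuration without small covers. -/
theorem hyper (hn : 2 ≤ n) (hlow : ∀ X, X ∉ C.ban → X ≠ P0 → 0 < (Pl.LX P0 C.ban X).card)
    (hcov : ∀ (S : Finset P) (St : Finset (Pl.Prt P0)), C.IsCover S St → q + 1 ≤ S.card + St.card) :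
    ∃ (N : ℕ) (part : Fin N → Fin (q + 1)) (E : Finset (Finset (Fin N))),
        E.Nonempty ∧
        (∀ e ∈ E, ∀ i : Fin (q + 1), (e.filter (fun v => part v = i)).card = 1) ∧
        (∀ e ∈ E, ∀ f ∈ E, (e ∩ f).Nonempty) ∧
        (∀ i : Fin (q + 1), (Finset.univ.filter (fun v => part v = i)).card = q + 1) ∧
        (∀ v : Fin N, ∃ e ∈ E, v ∈ e) ∧
        (∀ S : Finset (Fin N), (∀ e ∈ E, (e ∩ S).Nonempty) → q + 1 ≤ S.card) := by
  classical
  have : NeZero n := ⟨by omega⟩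
  have hLL0 : ∀ l ∈ Pl.LL P0 C.ban, P0 ∉ Pl.pts l := by
    intro l hl
    unfold Plane.LL at hl
    exact (Finset.mem_filter.1 hl).2.1
  refine hyper_transport q card_Prt (partV Pl P0) C.edges ?_ ?_ ?_ card_part ?_ ?_
  · have h1 : 0 < Fintype.card (Pl.Prt P0) := by rw [card_Prt]; omega
    obtain ⟨i⟩ := Fintype.card_pos_iff.1 h1
    exact ⟨_, (C.mem_edges _).2 (Or.inr (Or.inr ⟨i, true, rfl⟩))⟩
  · intro e he i
    rw [mem_edges] at he
    rcases he with ⟨l, hl, rfl⟩ | ⟨x, hx, rfl⟩ | ⟨j, b, rfl⟩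
    · exact lineEdge_part (hLL0 l hl) i
    · exact lineEdge_part (C.spec_P0 hx) i
    · exact C.gEdge_part j b i
  · intro e he f hf
    rw [mem_edges] at he hf
    rcases he with ⟨l, hl, rfl⟩ | ⟨x, hx, rfl⟩ | ⟨j, b, rfl⟩ <;>
      rcases hf with ⟨l', hl', rfl⟩ | ⟨x', hx', rfl⟩ | ⟨j', b', rfl⟩
    · exact line_line_inter (hLL0 l hl) (hLL0 l' hl')
    · exact line_line_inter (hLL0 l hl) (C.spec_P0 hx')
    · exact C.line_g_inter hl j' b'
    · exact line_line_inter (C.spec_P0 hx) (hLL0 l' hl')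
    · exact line_line_inter (C.spec_P0 hx) (C.spec_P0 hx')
    · exact C.spec_g_inter hx j' b'
    · rw [Finset.inter_comm]; exact C.line_g_inter hl' j b
    · rw [Finset.inter_comm]; exact C.spec_g_inter hx' j b
    · exact C.g_g_inter j j' b b'
  · intro v
    rcases v with X | i
    · by_cases hX : X.1 ∈ C.ban
      · rw [mem_ban] at hX
        rcases hX with ⟨i, hi⟩ | ⟨i, b, s, hi⟩
        · refine ⟨toV Pl P0 (Pl.pts (C.mu i 0)) ∅, ?_, ?_⟩
          · rw [mem_edges]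
            right; left
            exact ⟨(C.base i, C.mu i 0), (C.mem_spec _).2 (Or.inl ⟨i, 0, rfl⟩), rfl⟩
          · rw [mem_toV_inl, hi]
            exact C.mu_mem i 0
        · obtain ⟨t, hst⟩ : ∃ t : Fin n, s ≠ t := by
            by_cases h0 : s = ⟨0, by omega⟩
            · refine ⟨⟨1, by omega⟩, ?_⟩
              rw [h0]
              simp
            · exact ⟨_, h0⟩
          refine ⟨toV Pl P0 (Pl.pts (C.sigma i b s t)) ∅, ?_, ?_⟩
          · rw [mem_edges]
            right; left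
            exact ⟨(C.Q i b s, C.sigma i b s t), (C.mem_spec _).2 (Or.inr ⟨i, b, s, t, hst, rfl⟩), rfl⟩
          · rw [mem_toV_inl, hi]
            exact C.Q_mem_sigma hst
      · obtain ⟨l, hl⟩ := Finset.card_pos.1 (hlow X.1 hX X.2)
        unfold Plane.LX at hl
        rw [Finset.mem_filter] at hl
        refine ⟨toV Pl P0 (Pl.pts l) ∅, (C.mem_edges _).2 (Or.inl ⟨l, hl.1, rfl⟩), ?_⟩
        rw [mem_toV_inl]
        exact hl.2
    · refine ⟨toV Pl P0 (C.gset i true) {i}, (C.mem_edges _).2 (Or.inr (Or.inr ⟨i, true, rfl⟩)), ?_⟩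
      rw [mem_toV_inr]
      simp
  · intro T hT
    obtain ⟨S, hS⟩ : ∃ S : Finset P, S = univ.filter (fun X => ∃ h : X ≠ P0, (Sum.inl ⟨X, h⟩ : Vx Pl P0) ∈ T) :=
      ⟨_, rfl⟩
    obtain ⟨St, hSt⟩ : ∃ St : Finset (Pl.Prt P0), St = univ.filter (fun i => (Sum.inr i : Vx Pl P0) ∈ T) :=
      ⟨_, rfl⟩
    have hSmem : ∀ X : {X : P // X ≠ P0}, (Sum.inl X : Vx Pl P0) ∈ T → X.1 ∈ S := by
      intro X hX
      rw [hS, Finset.mem_filter]
      exact ⟨Finset.mem_univ _, X.2, hX⟩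
    have hStmem : ∀ i, (Sum.inr i : Vx Pl P0) ∈ T → i ∈ St := by
      intro i hi
      rw [hSt, Finset.mem_filter]
      exact ⟨Finset.mem_univ _, hi⟩
    have hSd : ∀ X ∈ S, ∃ h : X ≠ P0, (Sum.inl ⟨X, h⟩ : Vx Pl P0) ∈ T := by
      intro X hX
      rw [hS, Finset.mem_filter] at hX
      exact hX.2
    have hle : S.card + St.card ≤ T.card := by
      have h1 : (S.attach.image (fun X => (Sum.inl ⟨X.1, (hSd X.1 X.2).1⟩ : Vx Pl P0))) ∪
          St.image (fun i => (Sum.inr i : Vx Pl P0)) ⊆ T := by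
        intro v hv
        rw [Finset.mem_union, Finset.mem_image, Finset.mem_image] at hv
        rcases hv with ⟨X, _, rfl⟩ | ⟨i, hi, rfl⟩
        · exact (hSd X.1 X.2).2
        · rw [hSt, Finset.mem_filter] at hi
          exact hi.2
      have h2 := Finset.card_le_card h1
      rw [Finset.card_union_of_disjoint, Finset.card_image_of_injective, Finset.card_attach,
        Finset.card_image_of_injective] at h2
      · exact h2
      · exact Sum.inr_injective
      · intro X Y h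
        apply Subtype.ext
        simpa using h
      · rw [Finset.disjoint_left]
        intro v hv hv'
        rw [Finset.mem_image] at hv hv'
        obtain ⟨X, _, rfl⟩ := hv
        obtain ⟨i, _, h⟩ := hv'
        simp at h
    refine le_trans (hcov S St ?_) hle
    have hline : ∀ l, toV Pl P0 (Pl.pts l) ∅ ∈ C.edges → ∃ X ∈ S, X ∈ Pl.pts l := by
      intro l hl
      obtain ⟨v, hv⟩ := hT _ hl
      rw [Finset.mem_inter] at hv
      rcases v with X | i
      · rw [mem_toV_inl] at hv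
        exact ⟨X.1, hSmem X hv.2, hv.1⟩
      · rw [mem_toV_inr] at hv
        simp at hv
    constructor
    · rw [hS, Finset.mem_filter]
      rintro ⟨_, h, _⟩
      exact h rfl
    · intro l hl
      exact hline l ((C.mem_edges _).2 (Or.inl ⟨l, hl, rfl⟩))
    · intro x hx
      exact hline x.2 ((C.mem_edges _).2 (Or.inr (Or.inl ⟨x, hx, rfl⟩)))
    · intro i b
      obtain ⟨v, hv⟩ := hT _ ((C.mem_edges _).2 (Or.inr (Or.inr ⟨i, b, rfl⟩)))
      rw [Finset.mem_inter] at hv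
      rcases v with X | j
      · rw [mem_toV_inl] at hv
        exact Or.inr ⟨X.1, hSmem X hv.2, hv.1⟩
      · rw [mem_toV_inr, Finset.mem_singleton] at hv
        left
        rw [← hv.1]
        exact hStmem j hv.2

end Config

end Crest.Agent.Ryser
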