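import Crest.Agent.Ryser.PDefs

/-! Row 34, chunk PC: from the output of stages A, B, C to a PreConfig; dTest validity. -/

set_option autoImplicit false

open Finset

namespace Crest.Agent.Ryser

variable {P L : Type} [Fintype P] [Fintype L] [DecidableEq P] [DecidableEq L] {q : ℕ}

/-- two `n`-element families with injective labels can be matched with distinct labels (`n ≥ 2`) -/
lemma pc_match {α : Type} [DecidableEq α] {n : ℕ} (hn : 2 ≤ n) (u v : Fin n → α)
    (hu : Function.Injective u) (hv : Function.Injective v) :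
    ∃ f : Fin n → Fin n, Function.Injective f ∧ ∀ t, u t ≠ v (f t) := by
  classical
  have h := (Finset.all_card_le_biUnion_card_iff_exists_injective
    (fun t : Fin n => (univ : Finset (Fin n)).filter (fun s => u t ≠ v s))).1 ?_
  · obtain ⟨f, hf, hft⟩ := h
    exact ⟨f, hf, fun t => (Finset.mem_filter.1 (hft t)).2⟩
  · intro T
    by_cases hT : 2 ≤ T.card
    · obtain ⟨a, ha, b, hb, hab⟩ := Finset.one_lt_card.1 hT
      have : T.biUnion (fun t => (univ : Finset (Fin n)).filter (fun s => u t ≠ v s)) = univ := by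
        rw [Finset.eq_univ_iff_forall]
        intro s
        rw [Finset.mem_biUnion]
        by_cases h1 : u a = v s
        · refine ⟨b, hb, Finset.mem_filter.2 ⟨Finset.mem_univ _, ?_⟩⟩
          intro h2
          exact hab (hu (h1.trans h2.symm))
        · exact ⟨a, ha, Finset.mem_filter.2 ⟨Finset.mem_univ _, h1⟩⟩
      rw [this]
      exact Finset.card_le_univ T
    · rcases Finset.eq_empty_or_nonempty T with rfl | ⟨a, ha⟩
      · simp
      · have h1 : T.card = 1 := by
          have := Finset.card_pos.2 ⟨a, ha⟩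
          omega
        rw [h1, Nat.succ_le_iff, Finset.card_pos]
        have h2 : 1 < (univ : Finset (Fin n)).card := by rw [Finset.card_univ, Fintype.card_fin]; omega
        obtain ⟨s, _, s', _, hss⟩ := Finset.one_lt_card.1 h2
        by_cases h3 : u a = v s
        · refine ⟨s', Finset.mem_biUnion.2 ⟨a, ha, Finset.mem_filter.2 ⟨Finset.mem_univ _, ?_⟩⟩⟩
          intro h4
          exact hss (hv (h3.symm.trans h4))
        · exact ⟨s, Finset.mem_biUnion.2 ⟨a, ha, Finset.mem_filter.2 ⟨Finset.mem_univ _, h3⟩⟩⟩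

/-- enumeration of an `n`-element finset -/
lemma pc_enum {α : Type} [DecidableEq α] {n : ℕ} (S : Finset α) (hS : S.card = n) :
    ∃ x : Fin n → α, Function.Injective x ∧ univ.image x = S := by
  have e := (Finset.equivFinOfCardEq hS).symm
  refine ⟨fun i => (e i : α), fun i j h => e.injective (Subtype.ext h), ?_⟩
  ext a
  rw [Finset.mem_image]
  constructor
  · rintro ⟨i, _, rfl⟩
    exact (e i).2
  · intro ha
    exact ⟨e.symm ⟨a, ha⟩, Finset.mem_univ _, by simp⟩

/-- PC1. Enumerate the two lines of `G k` and the points of `Qs`.  For Q_part: the two n-sets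
`Qs (g k true)`, `Qs (g k false)` have points in distinct parts each; match a point of the first with the point
of the second in the same part (if any), extend to a bijection and shift it cyclically (n ≥ 2). -/
theorem to_preconfig (Pl : Plane P L q) (P0 : P) (n : ℕ) (hn : 2 ≤ n) (a : Pl.Prt P0 → P)
    (G : Pl.Prt P0 → Finset L) (Qs : L → Finset P) (b0 b1 : ℝ) (hA : StatsA Pl P0 a)
    (hB : StatsB Pl P0 a G b0 b1) (hC : StatsC Pl P0 a G n Qs) :
    ∃ C : PreConfig Pl P0 n, C.ban = univ.image a ∪ (GLs Pl G).biUnion Qs := by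
  classical
  -- the lines
  have h2 : ∀ i, ∃ g : Bool → L, g true ≠ g false ∧ G i = {g true, g false} := by
    intro i
    obtain ⟨x, y, hxy, hG⟩ := Finset.card_eq_two.1 (hB.card i)
    exact ⟨fun b => if b then x else y, by simpa using hxy, by simpa using hG⟩
  choose g hgne hG using h2
  have hgG : ∀ i b, g i b ∈ G i := by
    intro i b
    rw [hG i]
    cases b <;> simp
  have hgGL : ∀ i b, g i b ∈ GLs Pl G := fun i b =>
    Finset.mem_biUnion.2 ⟨i, Finset.mem_univ _, hgG i b⟩
  have hAA : ∀ i b, a i ∈ Pl.pts (g i b) ∧ P0 ∉ Pl.pts (g i b) ∧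
      ∀ k', k' ≠ i → a k' ∉ Pl.pts (g i b) := by
    intro i b
    have := hB.sub i (hgG i b)
    unfold AA at this
    rw [Finset.mem_filter, Pl.mem_lns] at this
    exact this
  have hginj : ∀ i b j b', g i b = g j b' → i = j ∧ b = b' := by
    intro i b j b' h
    have hij : i = j := by
      by_contra hne
      have h1 := (hAA i b).2.2 j (Ne.symm hne)
      rw [h] at h1
      exact h1 (hAA j b').1
    subst hij
    refine ⟨rfl, ?_⟩
    cases b <;> cases b'
    · rfl
    · exact absurd h.symm (hgne i)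
    · exact absurd h (hgne i)
    · rfl
  -- the parts of the points of a G-line
  have hlab : ∀ i b, ∀ X ∈ Qs (g i b), ∀ X' ∈ Qs (g i b), Pl.join P0 X = Pl.join P0 X' → X = X' := by
    intro i b X hX X' hX' hj
    by_contra hne
    have m1 : X ∈ Pl.pts (g i b) := (Finset.mem_filter.1 (hC.sub _ (hgGL i b) hX)).1
    have m2 : X' ∈ Pl.pts (g i b) := (Finset.mem_filter.1 (hC.sub _ (hgGL i b) hX')).1
    have hP0 := (hAA i b).2.1
    have n1 : P0 ≠ X := fun h => hP0 (h ▸ m1)
    have n2 : P0 ≠ X' := fun h => hP0 (h ▸ m2)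
    have h3 : g i b = Pl.join P0 X := Pl.line_eq_of_two hne m1 (Pl.join_right _ _ n1) m2
      (by rw [hj]; exact Pl.join_right _ _ n2)
    exact hP0 (h3 ▸ Pl.join_left _ _ n1)
  -- enumerations
  have hen : ∀ i b, ∃ x : Fin n → P, Function.Injective x ∧ univ.image x = Qs (g i b) :=
    fun i b => pc_enum _ (hC.card _ (hgGL i b))
  choose x hxinj hximg using hen
  have hxmem : ∀ i b t, x i b t ∈ Qs (g i b) := by
    intro i b t
    rw [← hximg i b]
    exact Finset.mem_image_of_mem _ (Finset.mem_univ t)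
  have hm : ∀ i, ∃ f : Fin n → Fin n, Function.Injective f ∧
      ∀ t, Pl.join P0 (x i true t) ≠ Pl.join P0 (x i false (f t)) := by
    intro i
    refine pc_match hn (fun t => Pl.join P0 (x i true t)) (fun t => Pl.join P0 (x i false t)) ?_ ?_
    · intro s t hst
      exact hxinj i true (hlab i true _ (hxmem i true s) _ (hxmem i true t) hst)
    · intro s t hst
      exact hxinj i false (hlab i false _ (hxmem i false s) _ (hxmem i false t) hst)
  choose f hfinj hf using hm
  obtain ⟨Q, hQ⟩ : ∃ Q : Pl.Prt P0 → Bool → Fin n → P, Q = fun i b t =>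
    x i b (if b then t else f i t) := ⟨_, rfl⟩
  have hQt : ∀ i t, Q i true t = x i true t := by intro i t; rw [hQ]; simp
  have hQf : ∀ i t, Q i false t = x i false (f i t) := by intro i t; rw [hQ]; simp
  have hQmem : ∀ i b t, Q i b t ∈ Qs (g i b) := by
    intro i b t; rw [hQ]; exact hxmem i b _
  have hQinj : ∀ i b, Function.Injective (Q i b) := by
    intro i b s t hst
    cases b
    · rw [hQf, hQf] at hst
      exact hfinj i (hxinj i false hst)
    · rw [hQt, hQt] at hst
      exact hxinj i true hst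
  have hQimg : ∀ i b, univ.image (Q i b) = Qs (g i b) := by
    intro i b
    apply Finset.eq_of_subset_of_card_le
    · intro X hX
      obtain ⟨t, _, rfl⟩ := Finset.mem_image.1 hX
      exact hQmem i b t
    · rw [hC.card _ (hgGL i b), Finset.card_image_of_injective _ (hQinj i b), Finset.card_univ,
        Fintype.card_fin]
  have hQpts : ∀ i b t, Q i b t ∈ Pl.pts (g i b) ∧ gam Pl G (Q i b t) = 1 := by
    intro i b t
    exact Finset.mem_filter.1 (hC.sub _ (hgGL i b) (hQmem i b t))
  -- uniqueness of the G-line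
  have huniq : ∀ i b t l, l ∈ GLs Pl G → Q i b t ∈ Pl.pts l → l = g i b := by
    intro i b t l hl hmem
    have h1 := (hQpts i b t).2
    unfold gam at h1
    obtain ⟨l', hl'⟩ := Finset.card_eq_one.1 h1
    have m1 : l ∈ (GLs Pl G).filter (fun l => Q i b t ∈ Pl.pts l) := Finset.mem_filter.2 ⟨hl, hmem⟩
    have m2 : g i b ∈ (GLs Pl G).filter (fun l => Q i b t ∈ Pl.pts l) :=
      Finset.mem_filter.2 ⟨hgGL i b, (hQpts i b t).1⟩
    rw [hl', Finset.mem_singleton] at m1 m2
    exact m1.trans m2.symm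
  refine ⟨⟨a, g, Q, hA.mem, hA.ne, fun i b => (hAA i b).1, hgne, fun i b => (hAA i b).2.1,
    fun i b t => (hQpts i b t).1, hQinj, ?_, ?_, ?_, ?_⟩, ?_⟩
  · intro i b t h
    have h1 : g i (!b) = g i b := huniq i b t (g i (!b)) (hgGL i _) (by rw [h]; exact (hAA i _).1)
    have := (hginj _ _ _ _ h1).2
    cases b <;> simp at this
  · intro i t
    rw [hQt, hQf]
    exact hf i t
  · intro i j b hji
    exact (hAA i b).2.2 j hji
  · intro i b j b' t hne hmem
    have h1 := huniq j b' t (g i b) (hgGL i b) hmem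
    obtain ⟨h2, h3⟩ := hginj _ _ _ _ h1
    exact hne (by rw [h2, h3])
  · unfold PreConfig.ban
    simp only
    congr 1
    ext X
    constructor
    · intro hX
      obtain ⟨⟨i, b, t⟩, _, rfl⟩ := Finset.mem_image.1 hX
      exact Finset.mem_biUnion.2 ⟨g i b, hgGL i b, hQmem i b t⟩
    · intro hX
      obtain ⟨l, hl, hX⟩ := Finset.mem_biUnion.1 hX
      obtain ⟨i, _, hl⟩ := Finset.mem_biUnion.1 hl
      rw [hG i, Finset.mem_insert, Finset.mem_singleton] at hl
      have : ∃ b, l = g i b := by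
        rcases hl with h | h
        · exact ⟨true, h⟩
        · exact ⟨false, h⟩
      obtain ⟨b, rfl⟩ := this
      rw [← hQimg i b] at hX
      obtain ⟨t, _, rfl⟩ := Finset.mem_image.1 hX
      exact Finset.mem_image.2 ⟨(i, b, t), Finset.mem_univ _, rfl⟩

namespace PreConfig

variable {Pl : Plane P L q} {P0 : P} {n : ℕ} (C : PreConfig Pl P0 n)

lemma pc_Q_ne_P0 (i : Pl.Prt P0) (b : Bool) (t : Fin n) : P0 ≠ C.Q i b t := by
  have key : ∀ X : P, X ∈ Pl.pts (C.g i b) → P0 = X → False := fun X hX e =>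
    C.g_P0 i b (e.symm ▸ hX)
  exact fun h => key _ (C.Q_mem i b t) h

lemma pc_base_not_V (i : Pl.Prt P0) (b : Bool) (t : Fin n) :
    C.base i ∉ Pl.pts (Pl.join P0 (C.Q i b t)) := by
  intro h
  have h1 := Pl.line_eq_of_two (C.Q_ne_base i b t) (C.Q_mem i b t)
    (Pl.join_right _ _ (C.pc_Q_ne_P0 i b t)) (C.g_mem i b) h
  exact C.g_P0 i b (by rw [h1]; exact Pl.join_left _ _ (C.pc_Q_ne_P0 i b t))

lemma pc_Q_not_V (i : Pl.Prt P0) (b : Bool) {s t : Fin n} (hst : s ≠ t) :
    C.Q i b s ∉ Pl.pts (Pl.join P0 (C.Q i b t)) := by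
  intro h
  have h1 := Pl.line_eq_of_two (fun h => hst (C.Q_inj i b h)) (C.Q_mem i b s) h (C.Q_mem i b t)
    (Pl.join_right _ _ (C.pc_Q_ne_P0 i b t))
  exact C.g_P0 i b (by rw [h1]; exact Pl.join_left _ _ (C.pc_Q_ne_P0 i b t))

/-- facts about a candidate line `m` -/
lemma pc_R {i : Pl.Prt P0} {t : Fin n} {m : L} (hm : m ∈ (C.dTest i t).J) (b : Bool) :
    C.base i ∈ Pl.pts m ∧ P0 ∉ Pl.pts m ∧ C.Rof i m b t ∈ Pl.pts m ∧
    C.Rof i m b t ∈ Pl.pts (Pl.join P0 (C.Q i b t)) ∧ C.Rof i m b t ≠ P0 ∧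
    C.Rof i m b t ≠ C.base i ∧ ∀ s, C.Q i b s ∉ Pl.pts m := by
  have hm' : C.base i ∈ Pl.pts m ∧ P0 ∉ Pl.pts m ∧ m ≠ C.g i true ∧ m ≠ C.g i false := by
    have : m ∈ (Pl.lns (C.base i)).filter
      (fun m => P0 ∉ Pl.pts m ∧ m ≠ C.g i true ∧ m ≠ C.g i false) := hm
    rw [Finset.mem_filter, Pl.mem_lns] at this
    exact this
  have hne : m ≠ Pl.join P0 (C.Q i b t) := by
    intro h
    exact hm'.2.1 (by rw [h]; exact Pl.join_left _ _ (C.pc_Q_ne_P0 i b t))
  have hR1 : C.Rof i m b t ∈ Pl.pts m := Pl.meet_left _ _ hne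
  have hR2 : C.Rof i m b t ∈ Pl.pts (Pl.join P0 (C.Q i b t)) := Pl.meet_right _ _ hne
  refine ⟨hm'.1, hm'.2.1, hR1, hR2, fun h => hm'.2.1 (h ▸ hR1), ?_, ?_⟩
  · intro h
    exact C.pc_base_not_V i b t (h ▸ hR2)
  · intro s hs
    have h1 : m = C.g i b := Pl.line_eq_of_two (C.Q_ne_base i b s) hs (C.Q_mem i b s) hm'.1
      (C.g_mem i b)
    cases b
    · exact hm'.2.2.2 h1
    · exact hm'.2.2.1 h1

/-- the line `m` is determined by `l`, `b` -/
lemma pc_m_eq {i : Pl.Prt P0} {t : Fin n} {m : L} (hm : m ∈ (C.dTest i t).J) {b : Bool}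
    {s : Fin n} (hs : s ≠ t) {l : L} (hl : l = Pl.join (C.Q i b s) (C.Rof i m b t)) :
    m = Pl.join (C.base i) (Pl.meet l (Pl.join P0 (C.Q i b t))) := by
  obtain ⟨h1, h2, h3, h4, h5, h6, h7⟩ := C.pc_R hm b
  have hQR : C.Q i b s ≠ C.Rof i m b t := fun h => h7 s (h ▸ h3)
  have hlR : C.Rof i m b t ∈ Pl.pts l := by rw [hl]; exact Pl.join_right _ _ hQR
  have hlQ : C.Q i b s ∈ Pl.pts l := by rw [hl]; exact Pl.join_left _ _ hQR
  have hne : l ≠ Pl.join P0 (C.Q i b t) := fun h => C.pc_Q_not_V i b hs (h ▸ hlQ)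
  have hR : C.Rof i m b t = Pl.meet l (Pl.join P0 (C.Q i b t)) :=
    Pl.meet_unique _ _ _ hne hlR h4
  rw [← hR]
  exact Pl.join_unique _ _ _ (Ne.symm h6) h1 h3

lemma pc_mem_Lam {i : Pl.Prt P0} {t : Fin n} {m l : L} (h : l ∈ (C.dTest i t).Λ m) :
    l = m ∨ ∃ b : Bool, ∃ s : Fin n, s ≠ t ∧ l = Pl.join (C.Q i b s) (C.Rof i m b t) := by
  have h' : l ∈ insert m ((univ.filter (fun x : Bool × Fin n => x.2 ≠ t)).image
    (fun x => Pl.join (C.Q i x.1 x.2) (C.Rof i m x.1 t))) := h
  rw [Finset.mem_insert] at h'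
  rcases h' with h' | h'
  · exact Or.inl h'
  · obtain ⟨⟨b, s⟩, hx, rfl⟩ := Finset.mem_image.1 h'
    exact Or.inr ⟨b, s, (Finset.mem_filter.1 hx).2, rfl⟩

end PreConfig

lemma pc_card_pairs {n : ℕ} (hn : 2 ≤ n) (t : Fin n) :
    (univ.filter (fun x : Bool × Fin n => x.2 ≠ t)).card + 1 ≤ 2 * n := by
  have h1 : (univ.filter (fun x : Bool × Fin n => x.2 ≠ t)) =
      (univ : Finset Bool) ×ˢ ((univ : Finset (Fin n)).erase t) := by
    ext ⟨b, s⟩
    simp
  rw [h1, Finset.card_product, Finset.card_erase_of_mem (Finset.mem_univ _)]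
  simp only [Finset.card_univ, Fintype.card_bool, Fintype.card_fin]
  omega

/-- PC2. validity of the tests for the special lines -/
theorem dTest_valid (Pl : Plane P L q) (P0 : P) (n : ℕ) (hn : 2 ≤ n) (C : PreConfig Pl P0 n)
    (i : Pl.Prt P0) (t : Fin n) :
    (C.dTest i t).Valid Pl P0 (2 * n) ∧ q ≤ (C.dTest i t).J.card + 2 := by
  have hpairs := pc_card_pairs hn t
  have hcov : ∀ (S : Finset L) (m0 : L) (φ : Bool × Fin n → L),
      S ⊆ insert m0 ((univ.filter (fun x : Bool × Fin n => x.2 ≠ t)).image φ) → S.card ≤ 2 * n := by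
    intro S m0 φ hS
    have h1 := Finset.card_le_card hS
    have h2 := Finset.card_insert_le m0 ((univ.filter (fun x : Bool × Fin n => x.2 ≠ t)).image φ)
    have h3 := Finset.card_image_le (s := univ.filter (fun x : Bool × Fin n => x.2 ≠ t)) (f := φ)
    omega
  refine ⟨⟨?_, ?_, ?_, ?_, ?_⟩, ?_⟩
  · show 0 < 2 * n
    omega
  · intro m _
    exact hcov _ m _ (Finset.Subset.refl _)
  · intro m hm l hl
    obtain ⟨h1, h2, -⟩ := C.pc_R hm true
    rcases C.pc_mem_Lam hl with rfl | ⟨b, s, hs, rfl⟩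
    · exact h2
    · obtain ⟨h1, h2, h3, h4, h5, h6, h7⟩ := C.pc_R hm b
      have hQR : C.Q i b s ≠ C.Rof i m b t := fun h => h7 s (h ▸ h3)
      intro hP0
      have e1 : Pl.join (C.Q i b s) (C.Rof i m b t) = Pl.join P0 (C.Q i b t) :=
        Pl.line_eq_of_two h5 (Pl.join_right _ _ hQR) h4 hP0
          (Pl.join_left _ _ (C.pc_Q_ne_P0 i b t))
      exact C.pc_Q_not_V i b hs (e1 ▸ Pl.join_left _ _ hQR)
  · intro Z hZ
    have hZ' : Z ∉ C.own i := hZ
    have hZb : Z ≠ C.base i := by
      intro h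
      apply hZ'
      unfold PreConfig.own PreConfig.K
      rw [h]
      simp
    have hZQ : ∀ b s, Z ≠ C.Q i b s := by
      intro b s h
      apply hZ'
      unfold PreConfig.own PreConfig.K
      rw [h]
      cases b
      · exact Finset.mem_union_right _ (Finset.mem_insert_of_mem
          (Finset.mem_image_of_mem _ (Finset.mem_univ s)))
      · exact Finset.mem_union_left _ (Finset.mem_insert_of_mem
          (Finset.mem_image_of_mem _ (Finset.mem_univ s)))
    refine hcov _ (Pl.join (C.base i) Z) (fun x => Pl.join (C.base i)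
      (Pl.meet (Pl.join (C.Q i x.1 x.2) Z) (Pl.join P0 (C.Q i x.1 t)))) ?_
    intro m hm
    obtain ⟨hmJ, l, hl, hZl⟩ := Finset.mem_filter.1 hm
    rw [Finset.mem_insert]
    rcases C.pc_mem_Lam hl with rfl | ⟨b, s, hs, hl'⟩
    · left
      exact Pl.join_unique _ _ _ (Ne.symm hZb) (C.pc_R hmJ true).1 hZl
    · right
      refine Finset.mem_image.2 ⟨(b, s), Finset.mem_filter.2 ⟨Finset.mem_univ _, hs⟩, ?_⟩
      simp only
      obtain ⟨h1, h2, h3, h4, h5, h6, h7⟩ := C.pc_R hmJ b
      have hQR : C.Q i b s ≠ C.Rof i m b t := fun h => h7 s (h ▸ h3)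
      have hlQ : C.Q i b s ∈ Pl.pts l := by rw [hl']; exact Pl.join_left _ _ hQR
      have e1 : l = Pl.join (C.Q i b s) Z := Pl.join_unique _ _ _ (Ne.symm (hZQ b s)) hlQ hZl
      rw [← e1]
      exact (C.pc_m_eq hmJ hs hl').symm
  · intro l
    refine hcov _ l (fun x => Pl.join (C.base i) (Pl.meet l (Pl.join P0 (C.Q i x.1 t)))) ?_
    intro m hm
    obtain ⟨hmJ, hl⟩ := Finset.mem_filter.1 hm
    rw [Finset.mem_insert]
    rcases C.pc_mem_Lam hl with rfl | ⟨b, s, hs, hl'⟩
    · left; rfl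
    · right
      exact Finset.mem_image.2 ⟨(b, s), Finset.mem_filter.2 ⟨Finset.mem_univ _, hs⟩,
        (C.pc_m_eq hmJ hs hl').symm⟩
  · have hsub : Pl.lns (C.base i) ⊆ insert (Pl.join P0 (C.base i)) (insert (C.g i true)
        (insert (C.g i false) (C.dTest i t).J)) := by
      intro m hm
      simp only [Finset.mem_insert]
      by_cases h1 : P0 ∈ Pl.pts m
      · left
        exact Pl.join_unique _ _ _ (Ne.symm (C.base_ne i)) h1 ((Pl.mem_lns _ _).1 hm)
      · by_cases h2 : m = C.g i true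
        · right; left; exact h2
        · by_cases h3 : m = C.g i false
          · right; right; left; exact h3
          · right; right; right
            exact Finset.mem_filter.2 ⟨hm, h1, h2, h3⟩
    have h1 := Finset.card_le_card hsub
    rw [Pl.card_lns] at h1
    have h2 := Finset.card_insert_le (Pl.join P0 (C.base i)) (insert (C.g i true)
        (insert (C.g i false) (C.dTest i t).J))
    have h3 := Finset.card_insert_le (C.g i true) (insert (C.g i false) (C.dTest i t).J)
    have h4 := Finset.card_insert_le (C.g i false) (C.dTest i t).J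
    omega

/-- PC3. size of the banned set -/
theorem card_ban_le (Pl : Plane P L q) (P0 : P) (n : ℕ) (C : PreConfig Pl P0 n) :
    C.ban.card ≤ (2 * n + 1) * (q + 1) := by
  unfold PreConfig.ban
  have h0 : Fintype.card (Pl.Prt P0) = q + 1 := by
    rw [Fintype.card_coe]
    exact Pl.card_lns P0
  have h1 := Finset.card_union_le (univ.image C.base)
    (univ.image (fun x : Pl.Prt P0 × Bool × Fin n => C.Q x.1 x.2.1 x.2.2))
  have h2 : (univ.image C.base).card ≤ q + 1 := by
    refine Finset.card_image_le.trans ?_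
    rw [Finset.card_univ, h0]
  have h3 : (univ.image (fun x : Pl.Prt P0 × Bool × Fin n => C.Q x.1 x.2.1 x.2.2)).card ≤
      (q + 1) * (2 * n) := by
    refine Finset.card_image_le.trans ?_
    rw [Finset.card_univ, Fintype.card_prod, Fintype.card_prod, h0, Fintype.card_bool,
      Fintype.card_fin]
  calc _ ≤ (q + 1) + (q + 1) * (2 * n) := h1.trans (Nat.add_le_add h2 h3)
    _ = (2 * n + 1) * (q + 1) := by ring

end Crest.Agent.Ryser
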