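import Crest.Agent.Ryser.Basic

/-!
Row 34: definitions for the probabilistic construction (ideas row 34, part 3), stages A, B, C.
-/

set_option autoImplicit false

open Finset

namespace Crest.Agent.Ryser

variable {P L : Type} [Fintype P] [Fintype L] [DecidableEq P] [DecidableEq L] {q : ℕ}

/-- number of lines through `X`, not through `P0`, containing exactly `j` of the base points `a k` of the parts
`k` not containing `X` -/
def eJ (Pl : Plane P L q) {P0 : P} (a : Pl.Prt P0 → P) (X : P) (j : ℕ) : ℕ :=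
  ((Pl.lns X).filter (fun l => P0 ∉ Pl.pts l ∧
    (univ.filter (fun k : Pl.Prt P0 => X ∉ Pl.pts k.1 ∧ a k ∈ Pl.pts l)).card = j)).card

/-- output of stage A -/
structure StatsA (Pl : Plane P L q) (P0 : P) (a : Pl.Prt P0 → P) : Prop where
  mem : ∀ k, a k ∈ Pl.pts k.1
  ne : ∀ k, a k ≠ P0
  e0 : ∀ X, X ≠ P0 → |(eJ Pl a X 0 : ℝ) - q * (1 - 1 / (q : ℝ)) ^ q| ≤ rr q ^ 501
  e1 : ∀ X, X ≠ P0 → |(eJ Pl a X 1 : ℝ) - q * (1 - 1 / (q : ℝ)) ^ (q - 1)| ≤ rr q ^ 501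

/-- candidate G-lines of part `k`: lines through `a k`, not through `P0`, with no other base point -/
def AA (Pl : Plane P L q) {P0 : P} (a : Pl.Prt P0 → P) (k : Pl.Prt P0) : Finset L :=
  (Pl.lns (a k)).filter (fun l => P0 ∉ Pl.pts l ∧ ∀ k', k' ≠ k → a k' ∉ Pl.pts l)

/-- all G-lines -/
def GLs (Pl : Plane P L q) {P0 : P} (G : Pl.Prt P0 → Finset L) : Finset L := univ.biUnion G

/-- number of G-lines through `Y` -/
def gam (Pl : Plane P L q) {P0 : P} (G : Pl.Prt P0 → Finset L) (Y : P) : ℕ :=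
  ((GLs Pl G).filter (fun l => Y ∈ Pl.pts l)).card

/-- points of `l` on exactly one G-line -/
def av (Pl : Plane P L q) {P0 : P} (G : Pl.Prt P0 → Finset L) (l : L) : Finset P :=
  (Pl.pts l).filter (fun Y => gam Pl G Y = 1)

/-- output of stage B -/
structure StatsB (Pl : Plane P L q) (P0 : P) (a : Pl.Prt P0 → P) (G : Pl.Prt P0 → Finset L)
    (b0 b1 : ℝ) : Prop where
  sub : ∀ k, G k ⊆ AA Pl a k
  card : ∀ k, (G k).card = 2
  v : ∀ l ∈ GLs Pl G, |((av Pl G l).card : ℝ) - b0 * q| ≤ rr q ^ 502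
  u : ∀ l, l ∉ GLs Pl G → P0 ∉ Pl.pts l → (∀ k, a k ∉ Pl.pts l) →
    |((av Pl G l).card : ℝ) - b1 * q| ≤ rr q ^ 502
  gam_le : ∀ Y, (gam Pl G Y : ℝ) ≤ rr q ^ 10

/-- output of stage C -/
structure StatsC (Pl : Plane P L q) (P0 : P) (a : Pl.Prt P0 → P) (G : Pl.Prt P0 → Finset L)
    (n : ℕ) (Qs : L → Finset P) : Prop where
  sub : ∀ l ∈ GLs Pl G, Qs l ⊆ av Pl G l
  card : ∀ l ∈ GLs Pl G, (Qs l).card = n
  reg : ∃ cbar : ℝ, ∀ X, X ∉ univ.image a ∪ (GLs Pl G).biUnion Qs → X ≠ P0 →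
    |((Pl.LX P0 (univ.image a ∪ (GLs Pl G).biUnion Qs) X).card : ℝ) - cbar| ≤ rr q ^ 503 / 2

/-- a weight class of sets: hypotheses for the upper tail property -/
structure WClass {κ : Type} [Fintype κ] (q : ℕ) (cs : ℝ) (W : κ → Finset P) (h : κ → ℝ) :
    Prop where
  card_le : ∀ k, (W k).card ≤ 3 * q
  h_ge : ∀ k, rr q ^ 250 ≤ h k
  sum_le : ∑ k, Real.exp (-(cs * h k * Real.log q)) ≤ 1 / 4

/-- a class of tests: hypotheses for the lower tail property -/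
structure TClass {ι : Type} [Fintype ι] (Pl : Plane P L q) (P0 : P) (w : ℕ) (cs : ℝ)
    (T : ι → Test P L) : Prop where
  valid : ∀ i, (T i).Valid Pl P0 w
  sum_le : ∑ i, Real.exp (-(cs * ((T i).J.card : ℝ) / ((T i).M : ℝ))) ≤ 1 / 4

/-- the test deciding the choice of `mu i t`, from raw data -/
def rawD (Pl : Plane P L q) (P0 : P) {n : ℕ} (p : P) (g1 g2 : L) (Q : Bool → Fin n → P)
    (t : Fin n) : Test P L where
  J := (Pl.lns p).filter (fun m => P0 ∉ Pl.pts m ∧ m ≠ g1 ∧ m ≠ g2)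
  Λ := fun m => insert m ((univ.filter (fun x : Bool × Fin n => x.2 ≠ t)).image
    (fun x => Pl.join (Q x.1 x.2) (Pl.meet m (Pl.join P0 (Q x.1 t)))))
  Y0 := (insert p (univ.image (Q true))) ∪ (insert p (univ.image (Q false)))
  M := 2 * n

theorem dTest_eq_rawD {Pl : Plane P L q} {P0 : P} {n : ℕ} (C : PreConfig Pl P0 n)
    (i : Pl.Prt P0) (t : Fin n) :
    C.dTest i t = rawD Pl P0 (C.base i) (C.g i true) (C.g i false) (C.Q i) t := rfl

end Crest.Agent.Ryser
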