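import Crest.Agent.Ryser.SB4

/-! Row 34, chunk SB: stage B of the random construction (pairs of G-lines). -/

set_option autoImplicit false

open Finset

namespace Crest.Agent.Ryser

namespace SBx

theorem q_facts {q : ℕ} {r : ℝ} (hr : 10 ^ 7 ≤ r) (hq : r ^ 1000 = q) (hlog : Real.log q ≤ r)
    (hq32 : 32 ≤ q) :
    40 * r ^ 501 ≤ q ∧ 1 ≤ r ^ 501 ∧
    (((q + 1) * (q ^ 2 + q + 1) : ℕ) : ℝ) *
      (2 * Real.exp (-((r ^ 502 / 2) ^ 2 / (2 * (32 * (q : ℝ)))))) ≤ 1 / 8 ∧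
    ((q ^ 2 + q + 1 : ℕ) : ℝ) *
      (2 * Real.exp (-((r ^ 502 / 2) ^ 2 / (2 * (32 * (q : ℝ)))))) ≤ 1 / 8 ∧
    ((q ^ 2 + q + 1 : ℕ) : ℝ) * Real.exp (41 - (r ^ 10 / 2) / 2) ≤ 1 / 8 := by
  have hr0 : 0 < r := by linarith
  have hr1 : 1 ≤ r := by linarith
  have hq1 : (32 : ℝ) ≤ q := by exact_mod_cast hq32
  have hq0 : (0 : ℝ) < q := by linarith
  have hexp : (q : ℝ) ≤ Real.exp r := by
    calc (q : ℝ) = Real.exp (Real.log q) := (Real.exp_log hq0).symm
      _ ≤ Real.exp r := Real.exp_le_exp.2 hlog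
  have hE : r ^ 2 ≤ (r ^ 502 / 2) ^ 2 / (2 * (32 * (q : ℝ))) := by
    rw [← hq, le_div_iff₀ (by positivity)]
    have e1 : (r ^ 502 / 2) ^ 2 = r ^ 2 * r ^ 1002 / 4 := by ring
    rw [e1]
    have e2 : 256 * r ^ 1000 ≤ r ^ 1002 := by
      have : r ^ 1002 = r ^ 2 * r ^ 1000 := by ring
      rw [this]
      apply mul_le_mul_of_nonneg_right _ (by positivity)
      nlinarith
    have e3 := mul_le_mul_of_nonneg_left e2 (by positivity : 0 ≤ r ^ 2)
    linarith
  have hE2 : r ^ 2 ≤ r ^ 10 / 4 := by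
    have : r ^ 10 = r ^ 8 * r ^ 2 := by ring
    rw [this]
    have e : 4 ≤ r ^ 8 := by
      have : r ≤ r ^ 8 := by
        calc r = r ^ 1 := (pow_one r).symm
          _ ≤ r ^ 8 := pow_le_pow_right₀ hr1 (by norm_num)
      linarith
    have := mul_le_mul_of_nonneg_right e (by positivity : 0 ≤ r ^ 2)
    linarith
  -- the basic numerical bound
  have hbas : 4 * Real.exp r ^ 3 * (2 * Real.exp (41 - r ^ 2)) ≤ 1 / 8 := by
    have e1 : Real.exp r ^ 3 = Real.exp (3 * r) := by rw [← Real.exp_nat_mul]; norm_num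
    have e2 : 4 * Real.exp r ^ 3 * (2 * Real.exp (41 - r ^ 2)) =
        8 * (Real.exp (3 * r) * Real.exp (41 - r ^ 2)) := by rw [e1]; ring
    rw [e2, ← Real.exp_add]
    have e3 : Real.exp (3 * r + (41 - r ^ 2)) ≤ Real.exp (-r) := by
      apply Real.exp_le_exp.2
      nlinarith
    have e4 : Real.exp (-r) ≤ 1 / 64 := by
      rw [Real.exp_neg, ← one_div]
      apply one_div_le_one_div_of_le (by norm_num)
      have := Real.add_one_le_exp r
      linarith
    linarith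
  have hcub : ∀ y : ℝ, y ≤ 41 - r ^ 2 →
      4 * (q : ℝ) ^ 3 * (2 * Real.exp y) ≤ 1 / 8 := by
    intro y hy
    refine le_trans ?_ hbas
    have e1 : (q : ℝ) ^ 3 ≤ Real.exp r ^ 3 := pow_le_pow_left₀ hq0.le hexp 3
    have e2 : Real.exp y ≤ Real.exp (41 - r ^ 2) := Real.exp_le_exp.2 hy
    exact mul_le_mul (by linarith) (by linarith) (by positivity) (by positivity)
  have hn1 : (((q + 1) * (q ^ 2 + q + 1) : ℕ) : ℝ) ≤ 4 * (q : ℝ) ^ 3 := by
    push_cast; nlinarith [sq_nonneg (q : ℝ), mul_pos hq0 hq0, mul_pos (mul_pos hq0 hq0) hq0]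
  have hn2 : ((q ^ 2 + q + 1 : ℕ) : ℝ) ≤ 4 * (q : ℝ) ^ 3 := by
    push_cast; nlinarith [sq_nonneg (q : ℝ), mul_pos hq0 hq0, mul_pos (mul_pos hq0 hq0) hq0]
  refine ⟨?_, one_le_pow₀ hr1, ?_, ?_, ?_⟩
  · rw [← hq]
    have : r ^ 1000 = r ^ 499 * r ^ 501 := by ring
    rw [this]
    apply mul_le_mul_of_nonneg_right _ (by positivity)
    have : r ≤ r ^ 499 := by
      calc r = r ^ 1 := (pow_one r).symm
        _ ≤ r ^ 499 := pow_le_pow_right₀ hr1 (by norm_num)
    linarith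
  · exact (mul_le_mul_of_nonneg_right hn1 (by positivity)).trans (hcub _ (by linarith))
  · exact (mul_le_mul_of_nonneg_right hn2 (by positivity)).trans (hcub _ (by linarith))
  · have e1 := hcub (41 - r ^ 10 / 2 / 2) (by linarith)
    refine le_trans ?_ e1
    apply mul_le_mul hn2 _ (Real.exp_pos _).le (by positivity)
    have := Real.exp_pos (41 - r ^ 10 / 2 / 2)
    linarith

end SBx

open SBx in
/-- SB. `G k` uniform in `powersetCard 2 (AA a k)`, independent; |AA a k| = eJ a (a k) 0 = α0 q ± r^501 with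
α0 = (1-1/q)^q ≥ 1/5.  For a point Y not a base point, the number of k such that the line Y a_k is in AA a k
is exactly eJ a Y 1 = α1 q ± r^501, each is a G-line with prob 2/|AA a k|, independently; so
P(gam Y = 0 apart from one given k) = ∏ (1 - 2/|AA|) ≈ b0, P(gam Y = 1) ≈ b1 up to C r^-499
(|∏u - ∏v| ≤ ∑|u-v|).  For l ∈ AA a k: the number of Y ∈ l \ a_k on no G-line of other k' has mean b0 q ± C r^501
and changes by ≤ 4 per coordinate (McDiarmid, all k and l ∈ AA a k); if l ∈ G k this number is |av G l|.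
For l containing no base point: #{Y ∈ l : gam Y = 1} similarly (changes ≤ 8).
gam_le: lemmaU with θ = 2 for each Y.  Tests: lemmaH with hit k g j := (g ∩ Λ j).Nonempty, p = 2 w/|AA| ≤ 10 w/q,
M' = 2 M. -/
theorem stageB (w : ℕ) : ∃ cB > (0 : ℝ), ∃ csB > (0 : ℝ), ∃ β > (0 : ℝ), ∃ q0 : ℕ, ∀ (q : ℕ), q0 ≤ q → ∀ (P L : Type) [Fintype P] [Fintype L] [DecidableEq P]
      [DecidableEq L] (Pl : Plane P L q) (P0 : P)
      (a : Pl.Prt P0 → P), StatsA Pl P0 a → ∀ (ι : Type) [Fintype ι] (T : ι → Test P L),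
      TClass Pl P0 w csB T →
      ∃ (G : Pl.Prt P0 → Finset L) (b0 b1 : ℝ), β ≤ b0 ∧ b0 ≤ 1 ∧ 0 ≤ b1 ∧ b1 ≤ 2 ∧
        StatsB Pl P0 a G b0 b1 ∧
        (∀ i, cB * ((T i).J.card : ℝ) ≤
          (((T i).J.filter (fun j => ∀ l ∈ (T i).Λ j, l ∉ GLs Pl G)).card : ℝ)) := by
  classical
  obtain ⟨q1, hq1⟩ := rr_large (10 ^ 7)
  obtain ⟨q2, hq2⟩ := log_le_rr 1 one_pos
  refine ⟨Real.exp (-(160 * w)) / 2, by positivity, Real.exp (-(160 * w)) / 4, by positivity,
    Real.exp (-32), by positivity, max (max q1 q2) (max 32 (80 * w)), ?_⟩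
  intro q hq P L _ _ _ _ Pl P0 a hA ι _ T hT
  have hq1' : q1 ≤ q := le_trans (le_trans (le_max_left _ _) (le_max_left _ _)) hq
  have hq2' : q2 ≤ q := le_trans (le_trans (le_max_right _ _) (le_max_left _ _)) hq
  have hq32 : 32 ≤ q := le_trans (le_trans (le_max_left _ _) (le_max_right _ _)) hq
  have hqw : 80 * w ≤ q := le_trans (le_trans (le_max_right _ _) (le_max_right _ _)) hq
  have hr := hq1 q hq1'
  have hlog := hq2 q hq2'
  rw [one_mul] at hlog
  obtain ⟨f1, f2, f3, f4, f5⟩ := q_facts hr (rr_pow q) hlog hq32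
  have hr0 : 0 < rr q := by linarith
  set s : ℝ := rr q ^ 502 / 2 with hs
  have hs0 : 0 ≤ s := by positivity
  have hN : Num Pl P0 a (rr q ^ 501) := by
    refine ⟨hq32, f2, f1, ?_, ?_⟩
    · intro k
      rw [card_AA hA.mem hA.ne]
      exact hA.e0 (a k) (hA.ne k)
    · intro Y hY hYa
      rw [card_KY hA.mem hYa]
      exact hA.e1 Y hY
  set Ω := Om Pl a with hΩ
  have hΩpos : (0 : ℝ) < Ω.card := by
    have : Ω.Nonempty := Fintype.piFinset_nonempty.2 (fun k => tt_nonempty (hN.two_le k))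
    exact_mod_cast card_pos.2 this
  -- the bad events
  set badv : Pl.Prt P0 × L → Finset (Pl.Prt P0 → Finset L) := fun x =>
    if x.2 ∈ AA Pl a x.1 then Ω.filter (fun ω => s ≤ |(fv Pl a x.1 x.2 ω : ℝ) -
      avg (tt Pl a) (fun ω => (fv Pl a x.1 x.2 ω : ℝ))|) else ∅ with hbadv
  set badu : L → Finset (Pl.Prt P0 → Finset L) := fun l =>
    if ∀ k, a k ∉ Pl.pts l then Ω.filter (fun ω => s ≤ |(fu Pl l ω : ℝ) -
      avg (tt Pl a) (fun ω => (fu Pl l ω : ℝ))|) else ∅ with hbadu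
  set badg : P → Finset (Pl.Prt P0 → Finset L) := fun Y =>
    Ω.filter (fun ω => rr q ^ 10 / 2 ≤ ((univ.filter (fun k => hit Pl Y (ω k))).card : ℝ)) with hbadg
  set badT : ι → Finset (Pl.Prt P0 → Finset L) := fun i =>
    Ω.filter (fun ω => (((T i).J.filter (fun j => ∀ k, ¬ ∃ l ∈ (T i).Λ j, l ∈ ω k)).card : ℝ) ≤
      Real.exp (-(160 * w)) / 2 * ((T i).J.card : ℝ)) with hbadT
  set bad : ι ⊕ ((Pl.Prt P0 × L) ⊕ (L ⊕ P)) → Finset (Pl.Prt P0 → Finset L) :=
    Sum.elim badT (Sum.elim badv (Sum.elim badu badg)) with hbad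
  set ε : ℝ := 2 * Real.exp (-(s ^ 2 / (2 * (32 * (q : ℝ))))) with hε
  have hε0 : 0 ≤ ε := by positivity
  have hbv : ∀ x, ((badv x).card : ℝ) ≤ ε * Ω.card := by
    intro x
    simp only [hbadv]
    split_ifs with hx
    · exact bad_v hN hx hs0
    · rw [card_empty]; push_cast; positivity
  have hbu : ∀ l, ((badu l).card : ℝ) ≤ ε * Ω.card := by
    intro l
    simp only [hbadu]
    split_ifs with hx
    · exact bad_u hN hx hs0
    · rw [card_empty]; push_cast; positivity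
  have hbg : ∀ Y, ((badg Y).card : ℝ) ≤ Real.exp (41 - (rr q ^ 10 / 2) / 2) * Ω.card :=
    fun Y => bad_g hN hA.mem hA.ne Y _ (by positivity)
  have hbT : ∀ i, ((badT i).card : ℝ) ≤
      Real.exp (-(Real.exp (-(160 * w)) / 4 * ((T i).J.card : ℝ) / ((T i).M : ℝ))) * Ω.card :=
    fun i => bad_T hN hqw (hT.valid i)
  have hsum : ∑ i, ((bad i).card : ℝ) < Ω.card := by
    simp only [hbad, Fintype.sum_sum_type, Sum.elim_inl, Sum.elim_inr]
    have s1 : ∑ i, ((badT i).card : ℝ) ≤ 1 / 4 * Ω.card := by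
      calc ∑ i, ((badT i).card : ℝ) ≤ ∑ i, Real.exp (-(Real.exp (-(160 * w)) / 4 *
            ((T i).J.card : ℝ) / ((T i).M : ℝ))) * Ω.card := sum_le_sum (fun i _ => hbT i)
        _ = (∑ i, Real.exp (-(Real.exp (-(160 * w)) / 4 *
            ((T i).J.card : ℝ) / ((T i).M : ℝ)))) * Ω.card := by rw [sum_mul]
        _ ≤ 1 / 4 * Ω.card := mul_le_mul_of_nonneg_right hT.sum_le hΩpos.le
    have s2 : ∑ x, ((badv x).card : ℝ) ≤ 1 / 8 * Ω.card := by
      refine (sum_le_card_nsmul univ _ _ (fun x _ => hbv x)).trans ?_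
      rw [card_univ, Fintype.card_prod, card_Prt, Pl.card_L, nsmul_eq_mul, ← mul_assoc]
      exact mul_le_mul_of_nonneg_right f3 hΩpos.le
    have s3 : ∑ x, ((badu x).card : ℝ) ≤ 1 / 8 * Ω.card := by
      refine (sum_le_card_nsmul univ _ _ (fun x _ => hbu x)).trans ?_
      rw [card_univ, Pl.card_L, nsmul_eq_mul, ← mul_assoc]
      exact mul_le_mul_of_nonneg_right f4 hΩpos.le
    have s4 : ∑ x, ((badg x).card : ℝ) ≤ 1 / 8 * Ω.card := by
      refine (sum_le_card_nsmul univ _ _ (fun x _ => hbg x)).trans ?_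
      rw [card_univ, Pl.card_P, nsmul_eq_mul, ← mul_assoc]
      exact mul_le_mul_of_nonneg_right f5 hΩpos.le
    linarith
  obtain ⟨G, hG, hgood⟩ := exists_good Ω bad hsum
  have gT : ∀ i, G ∉ badT i := fun i => hgood (Sum.inl i)
  have gv : ∀ x, G ∉ badv x := fun x => hgood (Sum.inr (Sum.inl x))
  have gu : ∀ x, G ∉ badu x := fun x => hgood (Sum.inr (Sum.inr (Sum.inl x)))
  have gg : ∀ x, G ∉ badg x := fun x => hgood (Sum.inr (Sum.inr (Sum.inr x)))
  have hGt : ∀ k, G k ∈ tt Pl a k := by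
    have := hG
    rw [hΩ, Om, Fintype.mem_piFinset] at this
    exact this
  have hGs : ∀ k, G k ⊆ AA Pl a k := fun k => (mem_tt.1 (hGt k)).1
  have hGc : ∀ k, (G k).card = 2 := fun k => (mem_tt.1 (hGt k)).2
  have h502 : 80002 * rr q ^ 501 ≤ rr q ^ 502 := by
    have : rr q ^ 502 = rr q * rr q ^ 501 := by ring
    rw [this]
    exact mul_le_mul_of_nonneg_right (by linarith) (by positivity)
  refine ⟨G, bb0 q, bb1 q, bb0_ge hq32, bb0_le hq32, bb1_nonneg hq32,
    (bb1_le hq32).trans (by norm_num), ⟨hGs, hGc, ?_, ?_, ?_⟩, ?_⟩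
  · -- v
    intro l hl
    rw [GLs, mem_biUnion] at hl
    obtain ⟨k, -, hlk⟩ := hl
    have hlA := hGs k hlk
    have h1 : ((av Pl G l).card : ℝ) = (fv Pl a k l G : ℝ) := by
      rw [av_eq hGs hGc hlk]; rfl
    have h2 := gv (k, l)
    simp only [hbadv] at h2
    rw [if_pos hlA, mem_filter, not_and, not_le] at h2
    have h3 := abs_lt.1 (h2 hG)
    have h4 := abs_le.1 (hN.Efv_close hlA)
    have h5 : 0 ≤ rr q ^ 501 := by positivity
    rw [h1, abs_le]
    constructor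
    · linarith [h3.1, h4.1]
    · linarith [h3.2, h4.2]
  · -- u
    intro l _ hP0 hla
    have h1 : ((av Pl G l).card : ℝ) = (fu Pl l G : ℝ) := by
      unfold av fu
      congr 2
      apply filter_congr
      intro Y hY
      rw [gam_eq_card hGs]
      intro k e
      exact hla k (e ▸ hY)
    have h2 := gu l
    simp only [hbadu] at h2
    rw [if_pos hla, mem_filter, not_and, not_le] at h2
    have h3 := abs_lt.1 (h2 hG)
    have h4 := abs_le.1 (hN.Efu_close hP0 hla)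
    rw [h1, abs_le]
    constructor
    · linarith [h3.1, h4.1]
    · linarith [h3.2, h4.2]
  · -- gam
    intro Y
    have h2 := gg Y
    simp only [hbadg] at h2
    rw [mem_filter, not_and, not_le] at h2
    have h3 := h2 hG
    have h4 : (gam Pl G Y : ℝ) ≤ 2 * ((univ.filter (fun k => hit Pl Y (G k))).card : ℝ) := by
      exact_mod_cast gam_le_two hGs hGc Y
    linarith
  · intro i
    have h2 := gT i
    simp only [hbadT] at h2
    rw [mem_filter, not_and, not_le] at h2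
    have h3 := h2 hG
    refine h3.le.trans ?_
    have h4 : (T i).J.filter (fun j => ∀ k, ¬ ∃ l ∈ (T i).Λ j, l ∈ G k) ⊆
        (T i).J.filter (fun j => ∀ l ∈ (T i).Λ j, l ∉ GLs Pl G) := by
      intro j hj
      rw [mem_filter] at hj ⊢
      refine ⟨hj.1, ?_⟩
      intro l hl hc
      rw [GLs, mem_biUnion] at hc
      obtain ⟨k, -, hk⟩ := hc
      exact hj.2 k ⟨l, hl, hk⟩
    exact_mod_cast card_le_card h4

end Crest.Agent.Ryser
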