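import Mathlib

/-! Row 34, chunk H: finite product probability: lemma H, lemma U, product events. -/

set_option autoImplicit false

open Finset

namespace Crest.Agent.Ryser

variable {ι α β : Type} [Fintype ι] [DecidableEq ι] [DecidableEq α] [DecidableEq β]

/-- resampling one coordinate -/
theorem probH_resample (t : ι → Finset α) (i : ι) (f : (ι → α) → ℝ) :
    ∑ ω ∈ Fintype.piFinset t, ∑ a ∈ t i, f (Function.update ω i a) =
      ((t i).card : ℝ) * ∑ ω ∈ Fintype.piFinset t, f ω := by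
  have h1 : ∑ ω ∈ Fintype.piFinset t, ∑ a ∈ t i, f (Function.update ω i a) =
      ∑ x ∈ Fintype.piFinset t ×ˢ t i, f (Function.update x.1 i x.2) := by
    rw [Finset.sum_product]
  have h2 : ((t i).card : ℝ) * ∑ ω ∈ Fintype.piFinset t, f ω =
      ∑ x ∈ Fintype.piFinset t ×ˢ t i, f x.1 := by
    rw [Finset.sum_product, Finset.mul_sum]
    refine Finset.sum_congr rfl fun ω _ => ?_
    show _ = ∑ _y ∈ t i, f ω
    rw [Finset.sum_const, nsmul_eq_mul]
  rw [h1, h2]
  have hmem : ∀ x ∈ Fintype.piFinset t ×ˢ t i,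
      (Function.update x.1 i x.2, x.1 i) ∈ Fintype.piFinset t ×ˢ t i := by
    intro x hx
    rw [Finset.mem_product, Fintype.mem_piFinset] at hx ⊢
    refine ⟨fun j => ?_, hx.1 i⟩
    by_cases hj : j = i
    · subst hj
      simp only [Function.update_self]
      exact hx.2
    · simp only [Function.update_of_ne hj]
      exact hx.1 j
  have hinv : ∀ x : (ι → α) × α,
      (Function.update (Function.update x.1 i x.2) i (x.1 i), (Function.update x.1 i x.2) i) = x := by
    intro x
    rw [Function.update_idem, Function.update_eq_self, Function.update_self]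
  refine Finset.sum_bij' (fun x _ => (Function.update x.1 i x.2, x.1 i))
    (fun x _ => (Function.update x.1 i x.2, x.1 i)) hmem hmem (fun x _ => hinv x)
    (fun x _ => hinv x) (fun x _ => rfl)

theorem probH_exp_le {x : ℝ} (h0 : 0 ≤ x) (h1 : x ≤ 1) : Real.exp x ≤ 1 + 2 * x := by
  have h2 : Real.exp x ≤ 1 + x + x ^ 2 := by
    have := Real.abs_exp_sub_one_sub_id_le (x := x) (by rw [abs_of_nonneg h0]; exact h1)
    have := (abs_le.1 this).2
    linarith
  nlinarith

theorem probH_exp_moment (t : ι → Finset α) (ht : ∀ i, (t i).Nonempty) (J : Finset β)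
    (hit : ι → α → β → Prop) [∀ i a, DecidablePred (hit i a)] (M : ℝ) (hM : 0 < M)
    (hMb : ∀ i, ∀ a ∈ t i, ((J.filter (hit i a)).card : ℝ) ≤ M) (p : ι → ℝ)
    (hp0 : ∀ i, 0 ≤ p i) (hp2 : ∀ i, p i ≤ 1 / 2)
    (hp : ∀ i, ∀ j ∈ J, (((t i).filter (fun a => hit i a j)).card : ℝ) ≤ p i * ((t i).card : ℝ))
    (s : Finset ι) : ∀ J' ⊆ J,
    ∑ ω ∈ Fintype.piFinset t,
      Real.exp (-(((J'.filter (fun j => ∀ i ∈ s, ¬ hit i (ω i) j)).card : ℝ) / M)) ≤
      Real.exp (-((∏ i ∈ s, (1 - 2 * p i)) * (J'.card : ℝ) / M)) *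
        ((Fintype.piFinset t).card : ℝ) := by
  induction s using Finset.induction_on with
  | empty =>
    intro J' _
    simp only [Finset.notMem_empty, false_imp_iff, implies_true, Finset.filter_true,
      Finset.prod_empty, one_mul, Finset.sum_const, nsmul_eq_mul]
    rw [mul_comm]
  | insert i₀ s hi₀ ih =>
    intro J' hJ'
    have htpos : (0 : ℝ) < (t i₀).card := by exact_mod_cast (ht i₀).card_pos
    obtain ⟨δ, hδ⟩ : ∃ δ, δ = ∏ i ∈ s, (1 - 2 * p i) := ⟨_, rfl⟩
    have hδ0 : 0 ≤ δ := by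
      rw [hδ]; exact Finset.prod_nonneg fun i _ => by have := hp2 i; linarith
    have hδ1 : δ ≤ 1 := by
      rw [hδ]; exact Finset.prod_le_one (fun i _ => by have := hp2 i; linarith)
        (fun i _ => by have := hp0 i; linarith)
    have h1 := probH_resample t i₀ (fun ω => Real.exp (-(((J'.filter (fun j =>
      ∀ i ∈ insert i₀ s, ¬ hit i (ω i) j)).card : ℝ) / M)))
    have h2 : ∑ ω ∈ Fintype.piFinset t, ∑ a ∈ t i₀, Real.exp (-(((J'.filter (fun j =>
        ∀ i ∈ insert i₀ s, ¬ hit i ((Function.update ω i₀ a) i) j)).card : ℝ) / M)) =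
        ∑ a ∈ t i₀, ∑ ω ∈ Fintype.piFinset t, Real.exp (-((((J'.filter (fun j => ¬ hit i₀ a j)).filter
          (fun j => ∀ i ∈ s, ¬ hit i (ω i) j)).card : ℝ) / M)) := by
      rw [Finset.sum_comm]
      refine Finset.sum_congr rfl fun a _ => Finset.sum_congr rfl fun ω _ => ?_
      congr 4
      rw [Finset.filter_filter]
      apply congrArg Finset.card
      apply Finset.filter_congr
      intro j _
      simp only [Finset.mem_insert, forall_eq_or_imp, Function.update_self]
      refine and_congr_right fun _ => ?_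
      refine forall₂_congr fun i hi => ?_
      rw [Function.update_of_ne (show i ≠ i₀ from fun h => hi₀ (h ▸ hi))]
    have h3 : ∀ a ∈ t i₀, ∑ ω ∈ Fintype.piFinset t,
        Real.exp (-((((J'.filter (fun j => ¬ hit i₀ a j)).filter
          (fun j => ∀ i ∈ s, ¬ hit i (ω i) j)).card : ℝ) / M)) ≤
        (Real.exp (-(δ * (J'.card : ℝ) / M)) *
          (1 + 2 * (δ * ((J'.filter (fun j => hit i₀ a j)).card : ℝ) / M))) *
          ((Fintype.piFinset t).card : ℝ) := by
      intro a ha
      refine (ih _ ((Finset.filter_subset _ _).trans hJ')).trans ?_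
      refine mul_le_mul_of_nonneg_right ?_ (by positivity)
      rw [← hδ]
      have hc : ((J'.filter (fun j => ¬ hit i₀ a j)).card : ℝ) =
          J'.card - ((J'.filter (fun j => hit i₀ a j)).card : ℝ) := by
        have := Finset.card_filter_add_card_filter_not (s := J') (fun j => hit i₀ a j)
        have h' : (((J'.filter (fun j => hit i₀ a j)).card : ℝ)) +
            ((J'.filter (fun j => ¬ hit i₀ a j)).card : ℝ) = J'.card := by exact_mod_cast this
        linarith
      have hHM : ((J'.filter (fun j => hit i₀ a j)).card : ℝ) ≤ M := by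
        refine le_trans ?_ (hMb i₀ a ha)
        exact_mod_cast Finset.card_le_card (Finset.filter_subset_filter _ hJ')
      have e1 : -(δ * ((J'.filter (fun j => ¬ hit i₀ a j)).card : ℝ) / M) =
          -(δ * (J'.card : ℝ) / M) + δ * ((J'.filter (fun j => hit i₀ a j)).card : ℝ) / M := by
        rw [hc]; ring
      rw [e1, Real.exp_add]
      refine mul_le_mul_of_nonneg_left ?_ (Real.exp_pos _).le
      apply probH_exp_le (by positivity)
      rw [div_le_one hM]
      calc δ * ((J'.filter (fun j => hit i₀ a j)).card : ℝ) ≤ 1 * M :=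
            mul_le_mul hδ1 hHM (by positivity) zero_le_one
        _ = M := one_mul _
    -- total number of hits
    have h4 : ∑ a ∈ t i₀, ((J'.filter (fun j => hit i₀ a j)).card : ℝ) ≤
        p i₀ * ((t i₀).card : ℝ) * (J'.card : ℝ) := by
      have e1 : ∑ a ∈ t i₀, ((J'.filter (fun j => hit i₀ a j)).card : ℝ) =
          ∑ j ∈ J', (((t i₀).filter (fun a => hit i₀ a j)).card : ℝ) := by
        simp only [Finset.card_filter, Nat.cast_sum]
        rw [Finset.sum_comm]
      rw [e1]
      calc _ ≤ ∑ _j ∈ J', p i₀ * ((t i₀).card : ℝ) :=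
            Finset.sum_le_sum fun j hj => hp i₀ j (hJ' hj)
        _ = _ := by rw [Finset.sum_const, nsmul_eq_mul]; ring
    rw [Finset.prod_insert hi₀, ← hδ]
    have h5 : ((t i₀).card : ℝ) * ∑ ω ∈ Fintype.piFinset t, Real.exp (-(((J'.filter (fun j =>
        ∀ i ∈ insert i₀ s, ¬ hit i (ω i) j)).card : ℝ) / M)) ≤
        ((t i₀).card : ℝ) * (Real.exp (-((1 - 2 * p i₀) * δ * (J'.card : ℝ) / M)) *
        ((Fintype.piFinset t).card : ℝ)) := by
      rw [← h1, h2]
      refine (Finset.sum_le_sum h3).trans ?_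
      rw [← Finset.sum_mul, ← Finset.mul_sum, Finset.sum_add_distrib, Finset.sum_const,
        nsmul_eq_mul, mul_one]
      have e2 : ∑ a ∈ t i₀, 2 * (δ * ((J'.filter (fun j => hit i₀ a j)).card : ℝ) / M) =
          2 * δ / M * ∑ a ∈ t i₀, ((J'.filter (fun j => hit i₀ a j)).card : ℝ) := by
        rw [Finset.mul_sum]
        exact Finset.sum_congr rfl fun a _ => by ring
      rw [e2]
      have e3 : ((t i₀).card : ℝ) + 2 * δ / M *
          ∑ a ∈ t i₀, ((J'.filter (fun j => hit i₀ a j)).card : ℝ) ≤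
          ((t i₀).card : ℝ) * Real.exp (2 * p i₀ * δ * (J'.card : ℝ) / M) := by
        have e4 := Real.add_one_le_exp (2 * p i₀ * δ * (J'.card : ℝ) / M)
        have e5 : 2 * δ / M * ∑ a ∈ t i₀, ((J'.filter (fun j => hit i₀ a j)).card : ℝ) ≤
            2 * δ / M * (p i₀ * ((t i₀).card : ℝ) * (J'.card : ℝ)) :=
          mul_le_mul_of_nonneg_left h4 (by positivity)
        calc _ ≤ ((t i₀).card : ℝ) + 2 * δ / M * (p i₀ * ((t i₀).card : ℝ) * (J'.card : ℝ)) := by
              linarith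
          _ = ((t i₀).card : ℝ) * (2 * p i₀ * δ * (J'.card : ℝ) / M + 1) := by ring
          _ ≤ _ := mul_le_mul_of_nonneg_left e4 htpos.le
      have e6 : Real.exp (-((1 - 2 * p i₀) * δ * (J'.card : ℝ) / M)) =
          Real.exp (-(δ * (J'.card : ℝ) / M)) * Real.exp (2 * p i₀ * δ * (J'.card : ℝ) / M) := by
        rw [← Real.exp_add]
        congr 1
        ring
      rw [e6]
      calc _ ≤ (Real.exp (-(δ * (J'.card : ℝ) / M)) *
            (((t i₀).card : ℝ) * Real.exp (2 * p i₀ * δ * (J'.card : ℝ) / M))) *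
            ((Fintype.piFinset t).card : ℝ) :=
            mul_le_mul_of_nonneg_right (mul_le_mul_of_nonneg_left e3 (Real.exp_pos _).le)
              (by positivity)
        _ = _ := by ring
    exact le_of_mul_le_mul_left h5 htpos

/-- Lemma H. -/
theorem lemmaH_proof (t : ι → Finset α) (ht : ∀ i, (t i).Nonempty) (J : Finset β)
    (hit : ι → α → β → Prop) [∀ i a, DecidablePred (hit i a)] (M : ℝ) (hM : 0 < M)
    (hMb : ∀ i, ∀ a ∈ t i, ((J.filter (hit i a)).card : ℝ) ≤ M) (p : ι → ℝ)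
    (hp0 : ∀ i, 0 ≤ p i) (hp2 : ∀ i, p i ≤ 1 / 2)
    (hp : ∀ i, ∀ j ∈ J, (((t i).filter (fun a => hit i a j)).card : ℝ) ≤ p i * ((t i).card : ℝ)) :
    (((Fintype.piFinset t).filter (fun ω =>
      ((J.filter (fun j => ∀ i, ¬ hit i (ω i) j)).card : ℝ) ≤
        (∏ i, (1 - 2 * p i)) / 2 * (J.card : ℝ))).card : ℝ) ≤
      Real.exp (-((∏ i, (1 - 2 * p i)) / 2 * (J.card : ℝ) / M)) *
        ((Fintype.piFinset t).card : ℝ) := by
  have h1 := probH_exp_moment t ht J hit M hM hMb p hp0 hp2 hp univ J (Finset.Subset.refl J)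
  simp only [Finset.mem_univ, true_imp_iff] at h1
  obtain ⟨δ, hδ⟩ : ∃ δ, δ = ∏ i, (1 - 2 * p i) := ⟨_, rfl⟩
  rw [← hδ] at h1 ⊢
  -- Markov
  have h2 : ∑ ω ∈ (Fintype.piFinset t).filter (fun ω =>
      ((J.filter (fun j => ∀ i, ¬ hit i (ω i) j)).card : ℝ) ≤ δ / 2 * (J.card : ℝ)),
      Real.exp (-(δ / 2 * (J.card : ℝ) / M)) ≤
      ∑ ω ∈ Fintype.piFinset t,
      Real.exp (-(((J.filter (fun j => ∀ i, ¬ hit i (ω i) j)).card : ℝ) / M)) := by
    refine (Finset.sum_le_sum fun ω hω => ?_).trans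
      (Finset.sum_le_sum_of_subset_of_nonneg (Finset.filter_subset _ _)
        fun ω _ _ => (Real.exp_pos _).le)
    rw [Finset.mem_filter] at hω
    apply Real.exp_le_exp.2
    apply neg_le_neg
    exact div_le_div_of_nonneg_right hω.2 hM.le
  rw [Finset.sum_const, nsmul_eq_mul] at h2
  have h3 := h2.trans h1
  have e1 : Real.exp (-(δ * (J.card : ℝ) / M)) =
      Real.exp (-(δ / 2 * (J.card : ℝ) / M)) * Real.exp (-(δ / 2 * (J.card : ℝ) / M)) := by
    rw [← Real.exp_add]
    congr 1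
    ring
  rw [e1] at h3
  have hpos : 0 < Real.exp (-(δ / 2 * (J.card : ℝ) / M)) := Real.exp_pos _
  nlinarith [mul_comm (((Fintype.piFinset t).filter (fun ω =>
      ((J.filter (fun j => ∀ i, ¬ hit i (ω i) j)).card : ℝ) ≤ δ / 2 * (J.card : ℝ))).card : ℝ)
      (Real.exp (-(δ / 2 * (J.card : ℝ) / M))), le_of_mul_le_mul_left (a := Real.exp (-(δ / 2 *
      (J.card : ℝ) / M))) (b := (((Fintype.piFinset t).filter (fun ω =>
      ((J.filter (fun j => ∀ i, ¬ hit i (ω i) j)).card : ℝ) ≤ δ / 2 * (J.card : ℝ))).card : ℝ))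
      (c := Real.exp (-(δ / 2 * (J.card : ℝ) / M)) * ((Fintype.piFinset t).card : ℝ))
      (by linarith) hpos]

/-- Lemma U. -/
theorem lemmaU_proof (t : ι → Finset α) (ht : ∀ i, (t i).Nonempty)
    (hit : ι → α → Prop) [∀ i, DecidablePred (hit i)] (p : ι → ℝ)
    (hp : ∀ i, (((t i).filter (hit i)).card : ℝ) ≤ p i * ((t i).card : ℝ))
    (θ h : ℝ) (hθ : 1 ≤ θ) :
    (((Fintype.piFinset t).filter (fun ω =>
      h ≤ ((univ.filter (fun i => hit i (ω i))).card : ℝ))).card : ℝ) ≤
      Real.exp ((θ - 1) * ∑ i, p i - h * Real.log θ) * ((Fintype.piFinset t).card : ℝ) := by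
  have hθ0 : 0 < θ := by linarith
  have h1 : ∑ ω ∈ Fintype.piFinset t, ∏ i, (if hit i (ω i) then θ else 1) =
      ∏ i, ∑ a ∈ t i, (if hit i a then θ else 1) :=
    (Finset.prod_univ_sum t (fun i a => if hit i a then θ else 1)).symm
  have h2 : ∀ i, ∑ a ∈ t i, (if hit i a then θ else 1) ≤
      Real.exp ((θ - 1) * p i) * ((t i).card : ℝ) := by
    intro i
    have e1 : ∑ a ∈ t i, (if hit i a then θ else 1) =
        ((t i).card : ℝ) + (θ - 1) * ((t i).filter (hit i)).card := by
      have : ∀ a, (if hit i a then θ else 1) = 1 + (θ - 1) * (if hit i a then 1 else 0) := by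
        intro a; split_ifs <;> ring
      simp_rw [this]
      rw [Finset.sum_add_distrib, ← Finset.mul_sum, Finset.sum_boole, Finset.sum_const,
        nsmul_eq_mul, mul_one]
    rw [e1]
    have e2 := Real.add_one_le_exp ((θ - 1) * p i)
    have e3 : (θ - 1) * (((t i).filter (hit i)).card : ℝ) ≤ (θ - 1) * (p i * ((t i).card : ℝ)) :=
      mul_le_mul_of_nonneg_left (hp i) (by linarith)
    calc _ ≤ ((t i).card : ℝ) + (θ - 1) * (p i * ((t i).card : ℝ)) := by linarith
      _ = ((θ - 1) * p i + 1) * ((t i).card : ℝ) := by ring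
      _ ≤ _ := mul_le_mul_of_nonneg_right e2 (by positivity)
  have h3 : ∑ ω ∈ Fintype.piFinset t, ∏ i, (if hit i (ω i) then θ else 1) ≤
      Real.exp ((θ - 1) * ∑ i, p i) * ((Fintype.piFinset t).card : ℝ) := by
    rw [h1, Fintype.card_piFinset]
    push_cast
    rw [Finset.mul_sum, Real.exp_sum, ← Finset.prod_mul_distrib]
    refine Finset.prod_le_prod (fun i _ => Finset.sum_nonneg fun a _ => ?_) fun i _ => h2 i
    split_ifs
    · exact hθ0.le
    · exact zero_le_one
  have h4 : ∑ ω ∈ (Fintype.piFinset t).filter (fun ω =>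
      h ≤ ((univ.filter (fun i => hit i (ω i))).card : ℝ)), Real.exp (h * Real.log θ) ≤
      ∑ ω ∈ Fintype.piFinset t, ∏ i, (if hit i (ω i) then θ else 1) := by
    have hnn : ∀ ω : ι → α, 0 ≤ ∏ i, (if hit i (ω i) then θ else 1) := fun ω =>
      Finset.prod_nonneg fun i _ => by
        split_ifs
        · exact hθ0.le
        · exact zero_le_one
    refine (Finset.sum_le_sum fun ω hω => ?_).trans
      (Finset.sum_le_sum_of_subset_of_nonneg (Finset.filter_subset _ _) fun ω _ _ => hnn ω)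
    rw [Finset.mem_filter] at hω
    rw [Finset.prod_ite, Finset.prod_const, Finset.prod_const_one, mul_one]
    have e1 : θ ^ (univ.filter (fun i => hit i (ω i))).card =
        Real.exp (((univ.filter (fun i => hit i (ω i))).card : ℝ) * Real.log θ) := by
      rw [Real.exp_nat_mul, Real.exp_log hθ0]
    rw [e1]
    apply Real.exp_le_exp.2
    exact mul_le_mul_of_nonneg_right hω.2 (Real.log_nonneg hθ)
  rw [Finset.sum_const, nsmul_eq_mul] at h4
  have h5 := h4.trans h3
  rw [Real.exp_sub]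
  have hpos : 0 < Real.exp (h * Real.log θ) := Real.exp_pos _
  rw [div_mul_eq_mul_div, le_div_iff₀ hpos]
  exact h5

/-- probability of a product event -/
theorem card_pi_filter_proof (t : ι → Finset α) (A : ι → α → Prop) [∀ i, DecidablePred (A i)] :
    ((Fintype.piFinset t).filter (fun ω => ∀ i, A i (ω i))).card =
      ∏ i, ((t i).filter (A i)).card := by
  rw [← Fintype.card_piFinset]
  congr 1
  ext ω
  simp only [Finset.mem_filter, Fintype.mem_piFinset]
  exact ⟨fun h i => ⟨h.1 i, h.2 i⟩, fun h => ⟨fun i => (h i).1, fun i => (h i).2⟩⟩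

/-- comparing products -/
theorem abs_prod_sub_prod_le_proof (s : Finset ι) (u v : ι → ℝ) (hu : ∀ i ∈ s, 0 ≤ u i ∧ u i ≤ 1)
    (hv : ∀ i ∈ s, 0 ≤ v i ∧ v i ≤ 1) : |∏ i ∈ s, u i - ∏ i ∈ s, v i| ≤ ∑ i ∈ s, |u i - v i| := by
  induction s using Finset.induction_on with
  | empty => simp
  | insert i s hi ih =>
    rw [Finset.prod_insert hi, Finset.prod_insert hi, Finset.sum_insert hi]
    have h1 := ih (fun j hj => hu j (Finset.mem_insert_of_mem hj))
      (fun j hj => hv j (Finset.mem_insert_of_mem hj))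
    have hU0 : 0 ≤ ∏ j ∈ s, u j :=
      Finset.prod_nonneg fun j hj => (hu j (Finset.mem_insert_of_mem hj)).1
    have hU1 : ∏ j ∈ s, u j ≤ 1 :=
      Finset.prod_le_one (fun j hj => (hu j (Finset.mem_insert_of_mem hj)).1)
        (fun j hj => (hu j (Finset.mem_insert_of_mem hj)).2)
    have hv' := hv i (Finset.mem_insert_self _ _)
    have e1 : u i * ∏ j ∈ s, u j - v i * ∏ j ∈ s, v j =
        (u i - v i) * ∏ j ∈ s, u j + v i * (∏ j ∈ s, u j - ∏ j ∈ s, v j) := by ring
    rw [e1]
    refine (abs_add_le _ _).trans (add_le_add ?_ ?_)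
    · rw [abs_mul, abs_of_nonneg hU0]
      calc |u i - v i| * ∏ j ∈ s, u j ≤ |u i - v i| * 1 :=
            mul_le_mul_of_nonneg_left hU1 (abs_nonneg _)
        _ = _ := mul_one _
    · rw [abs_mul, abs_of_nonneg hv'.1]
      calc v i * |∏ j ∈ s, u j - ∏ j ∈ s, v j| ≤ 1 * |∏ j ∈ s, u j - ∏ j ∈ s, v j| :=
            mul_le_mul_of_nonneg_right hv'.2 (abs_nonneg _)
        _ ≤ _ := by rw [one_mul]; exact h1

end Crest.Agent.Ryser
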