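import Crest.Agent.Ryser.Basic

/-! Row 34, chunk M: McDiarmid's inequality on a finite product. -/

set_option autoImplicit false

open Finset

namespace Crest.Agent.Ryser

variable {ι α : Type} [Fintype ι] [DecidableEq ι] [DecidableEq α]

theorem McD_sum_update (t : ι → Finset α) (i : ι) (f : (ι → α) → ℝ) :
    ∑ ω ∈ Fintype.piFinset t, ∑ a ∈ t i, f (Function.update ω i a) =
      ((t i).card : ℝ) * ∑ ω ∈ Fintype.piFinset t, f ω := by
  have h1 : ∑ ω ∈ Fintype.piFinset t, ∑ a ∈ t i, f (Function.update ω i a) =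
      ∑ x ∈ Fintype.piFinset t ×ˢ t i, f (Function.update x.1 i x.2) := by
    rw [Finset.sum_product]
  have h2 : ∑ x ∈ Fintype.piFinset t ×ˢ t i, f (Function.update x.1 i x.2) =
      ∑ x ∈ Fintype.piFinset t ×ˢ t i, f x.1 := by
    refine Finset.sum_nbij' (fun x => (Function.update x.1 i x.2, x.1 i))
      (fun x => (Function.update x.1 i x.2, x.1 i)) ?_ ?_ ?_ ?_ ?_
    · intro x hx
      rw [Finset.mem_product, Fintype.mem_piFinset] at hx ⊢
      refine ⟨fun j => ?_, hx.1 i⟩
      by_cases hj : j = i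
      · subst hj; simpa using hx.2
      · simpa [Function.update_of_ne hj] using hx.1 j
    · intro x hx
      rw [Finset.mem_product, Fintype.mem_piFinset] at hx ⊢
      refine ⟨fun j => ?_, hx.1 i⟩
      by_cases hj : j = i
      · subst hj; simpa using hx.2
      · simpa [Function.update_of_ne hj] using hx.1 j
    · intro x _
      simp
    · intro x _
      simp
    · intro x _
      simp
  rw [h1, h2, Finset.sum_product]
  simp only [Finset.sum_const, nsmul_eq_mul]
  rw [Finset.mul_sum]

theorem McD_hoeffding (T : Finset α) (hT : T.Nonempty) (Z : α → ℝ) (c θ : ℝ) (hc : 0 ≤ c)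
    (hZ : ∀ a ∈ T, |Z a| ≤ c) (h0 : ∑ a ∈ T, Z a = 0) :
    ∑ a ∈ T, Real.exp (θ * Z a) ≤ (T.card : ℝ) * Real.exp (θ ^ 2 * c ^ 2 / 2) := by
  rcases hc.eq_or_lt with hc0 | hc0
  · have : ∀ a ∈ T, Real.exp (θ * Z a) = 1 := by
      intro a ha
      have h1 := hZ a ha
      rw [← hc0] at h1
      have : Z a = 0 := abs_eq_zero.1 (le_antisymm h1 (abs_nonneg _))
      simp [this]
    rw [Finset.sum_congr rfl this, ← hc0]
    simp
  · have hpt : ∀ a ∈ T, Real.exp (θ * Z a) ≤
        Real.cosh (θ * c) + Z a * (Real.sinh (θ * c) / c) := by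
      intro a ha
      have h1 := abs_le.1 (hZ a ha)
      have ha0 : 0 ≤ (c + Z a) / (2 * c) := by apply div_nonneg <;> linarith
      have hb0 : 0 ≤ (c - Z a) / (2 * c) := by apply div_nonneg <;> linarith
      have hab : (c + Z a) / (2 * c) + (c - Z a) / (2 * c) = 1 := by field_simp; ring
      have hconv := convexOn_exp.2 (Set.mem_univ (θ * c)) (Set.mem_univ (-(θ * c))) ha0 hb0 hab
      have e1 : ((c + Z a) / (2 * c)) • (θ * c) + ((c - Z a) / (2 * c)) • (-(θ * c)) = θ * Z a := by
        simp only [smul_eq_mul]; field_simp; ring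
      rw [e1] at hconv
      refine hconv.trans (le_of_eq ?_)
      simp only [smul_eq_mul]
      rw [Real.cosh_eq, Real.sinh_eq]
      field_simp
      ring
    calc ∑ a ∈ T, Real.exp (θ * Z a)
        ≤ ∑ a ∈ T, (Real.cosh (θ * c) + Z a * (Real.sinh (θ * c) / c)) :=
          Finset.sum_le_sum hpt
      _ = (T.card : ℝ) * Real.cosh (θ * c) := by
          rw [Finset.sum_add_distrib, ← Finset.sum_mul, h0]; simp
      _ ≤ (T.card : ℝ) * Real.exp (θ ^ 2 * c ^ 2 / 2) := by
          apply mul_le_mul_of_nonneg_left _ (Nat.cast_nonneg _)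
          have := Real.cosh_le_exp_half_sq (θ * c)
          rwa [mul_pow] at this

/-- coordinate average -/
noncomputable def McDav (t : ι → Finset α) (i : ι) (f : (ι → α) → ℝ) (ω : ι → α) : ℝ :=
  (∑ a ∈ t i, f (Function.update ω i a)) / ((t i).card : ℝ)

theorem McD_exp (t : ι → Finset α) (ht : ∀ i, (t i).Nonempty) (θ : ℝ) (S : Finset ι) :
    ∀ (f : (ι → α) → ℝ) (c : ι → ℝ), (∀ i, 0 ≤ c i) → (∀ i, i ∉ S → c i = 0) →
    (∀ ω ∈ Fintype.piFinset t, ∀ i, ∀ a ∈ t i, |f (Function.update ω i a) - f ω| ≤ c i) →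
    ∑ ω ∈ Fintype.piFinset t, Real.exp (θ * (f ω -
      (∑ ω ∈ Fintype.piFinset t, f ω) / ((Fintype.piFinset t).card : ℝ))) ≤
      ((Fintype.piFinset t).card : ℝ) * Real.exp (θ ^ 2 * (∑ i ∈ S, c i ^ 2) / 2) := by
  have hne : (Fintype.piFinset t).Nonempty := Fintype.piFinset_nonempty.2 ht
  have hN : (0 : ℝ) < ((Fintype.piFinset t).card : ℝ) := by exact_mod_cast hne.card_pos
  have htc : ∀ i, (0 : ℝ) < ((t i).card : ℝ) := fun i => by exact_mod_cast (ht i).card_pos
  have hupd : ∀ ω ∈ Fintype.piFinset t, ∀ i, ∀ a ∈ t i,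
      Function.update ω i a ∈ Fintype.piFinset t := by
    intro ω hω i a ha
    rw [Fintype.mem_piFinset] at hω ⊢
    intro j
    by_cases hj : j = i
    · subst hj; simpa using ha
    · simpa [Function.update_of_ne hj] using hω j
  induction S using Finset.induction_on with
  | empty =>
    intro f c hc hcS hf
    have hconst : ∀ ω ∈ Fintype.piFinset t, ∀ ω' ∈ Fintype.piFinset t, f ω' = f ω := by
      intro ω hω ω' hω'
      have key : ∀ T : Finset ι, T.piecewise ω' ω ∈ Fintype.piFinset t ∧
          f (T.piecewise ω' ω) = f ω := by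
        intro T
        induction T using Finset.induction_on with
        | empty => simpa using hω
        | insert j T hj ih =>
          rw [Finset.piecewise_insert]
          have hm : ω' j ∈ t j := (Fintype.mem_piFinset.1 hω') j
          refine ⟨hupd _ ih.1 j _ hm, ?_⟩
          have h1 := hf _ ih.1 j _ hm
          rw [hcS j (by simp)] at h1
          have h2 := abs_eq_zero.1 (le_antisymm h1 (abs_nonneg _))
          rw [← ih.2]; linarith
      have := (key Finset.univ).2
      simpa using this
    obtain ⟨ω0, hω0⟩ := hne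
    have hs : ∑ ω ∈ Fintype.piFinset t, f ω = ((Fintype.piFinset t).card : ℝ) * f ω0 := by
      rw [Finset.sum_congr rfl (fun ω hω => hconst ω0 hω0 ω hω)]
      simp
    rw [hs]
    have hd : ((Fintype.piFinset t).card : ℝ) * f ω0 / ((Fintype.piFinset t).card : ℝ) = f ω0 := by
      field_simp
    rw [hd]
    rw [Finset.sum_congr rfl (fun ω hω => by
      rw [hconst ω0 hω0 ω hω, sub_self, mul_zero, Real.exp_zero])]
    simp
  | insert i S hi ih =>
    intro f c hc hcS hf
    set g : (ι → α) → ℝ := McDav t i f with hg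
    set c' : ι → ℝ := Function.update c i 0 with hc'
    have hginv : ∀ ω, ∀ a, g (Function.update ω i a) = g ω := by
      intro ω a
      simp only [hg, McDav, Function.update_idem]
    have hgavg : ∑ ω ∈ Fintype.piFinset t, g ω = ∑ ω ∈ Fintype.piFinset t, f ω := by
      have h1 := McD_sum_update t i f
      simp only [hg, McDav]
      rw [← Finset.sum_div, h1]
      have := (htc i).ne'
      field_simp
    have hfg : ∀ ω ∈ Fintype.piFinset t, |f ω - g ω| ≤ c i := by
      intro ω hω
      have e : f ω - g ω = (∑ a ∈ t i, (f ω - f (Function.update ω i a))) / ((t i).card : ℝ) := by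
        simp only [hg, McDav, Finset.sum_sub_distrib, Finset.sum_const, nsmul_eq_mul]
        have := (htc i).ne'
        field_simp
      rw [e, abs_div, abs_of_pos (htc i), div_le_iff₀ (htc i)]
      calc |∑ a ∈ t i, (f ω - f (Function.update ω i a))|
          ≤ ∑ a ∈ t i, |f ω - f (Function.update ω i a)| := Finset.abs_sum_le_sum_abs _ _
        _ ≤ ∑ a ∈ t i, c i := Finset.sum_le_sum (fun a ha => by
            rw [abs_sub_comm]; exact hf ω hω i a ha)
        _ = c i * ((t i).card : ℝ) := by simp [mul_comm]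
    have hgd : ∀ ω ∈ Fintype.piFinset t, ∀ j, ∀ b ∈ t j,
        |g (Function.update ω j b) - g ω| ≤ c' j := by
      intro ω hω j b hb
      by_cases hj : j = i
      · subst hj
        rw [hginv]
        simp [hc']
      · have e : g (Function.update ω j b) - g ω =
            (∑ a ∈ t i, (f (Function.update (Function.update ω i a) j b) -
              f (Function.update ω i a))) / ((t i).card : ℝ) := by
          simp only [hg, McDav, Finset.sum_sub_distrib]
          rw [← sub_div]
          congr 2
          refine Finset.sum_congr rfl (fun a _ => ?_)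
          rw [Function.update_comm (Ne.symm hj)]
        rw [e, abs_div, abs_of_pos (htc i), div_le_iff₀ (htc i)]
        have hc'j : c' j = c j := by simp [hc', Function.update_of_ne hj]
        rw [hc'j]
        calc |∑ a ∈ t i, (f (Function.update (Function.update ω i a) j b) -
              f (Function.update ω i a))|
            ≤ ∑ a ∈ t i, |f (Function.update (Function.update ω i a) j b) -
              f (Function.update ω i a)| := Finset.abs_sum_le_sum_abs _ _
          _ ≤ ∑ a ∈ t i, c j := Finset.sum_le_sum (fun a ha =>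
              hf _ (hupd ω hω i a ha) j b hb)
          _ = c j * ((t i).card : ℝ) := by simp [mul_comm]
    have hih := ih g c' (by
        intro j
        by_cases hj : j = i
        · subst hj; simp [hc']
        · simp [hc', Function.update_of_ne hj, hc j])
      (by
        intro j hj
        by_cases hji : j = i
        · subst hji; simp [hc']
        · rw [hc', Function.update_of_ne hji]
          exact hcS j (by simp [hji, hj])) hgd
    rw [hgavg] at hih
    set μ : ℝ := (∑ ω ∈ Fintype.piFinset t, f ω) / ((Fintype.piFinset t).card : ℝ) with hμ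
    have hsumc : ∑ j ∈ S, c' j ^ 2 = ∑ j ∈ S, c j ^ 2 := by
      refine Finset.sum_congr rfl (fun j hj => ?_)
      have : j ≠ i := fun h => hi (h ▸ hj)
      rw [hc', Function.update_of_ne this]
    rw [hsumc] at hih
    -- one coordinate step
    have hstep : ∀ ω ∈ Fintype.piFinset t,
        ∑ a ∈ t i, Real.exp (θ * (f (Function.update ω i a) - μ)) ≤
        ((t i).card : ℝ) * (Real.exp (θ ^ 2 * c i ^ 2 / 2) * Real.exp (θ * (g ω - μ))) := by
      intro ω hω
      have e : ∀ a ∈ t i, Real.exp (θ * (f (Function.update ω i a) - μ)) =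
          Real.exp (θ * (f (Function.update ω i a) - g ω)) * Real.exp (θ * (g ω - μ)) := by
        intro a _
        rw [← Real.exp_add]; congr 1; ring
      rw [Finset.sum_congr rfl e, ← Finset.sum_mul]
      have h1 := McD_hoeffding (t i) (ht i) (fun a => f (Function.update ω i a) - g ω) (c i) θ (hc i)
        (by
          intro a ha
          have := hfg _ (hupd ω hω i a ha)
          rwa [hginv] at this)
        (by
          simp only [Finset.sum_sub_distrib, Finset.sum_const, nsmul_eq_mul]
          simp only [hg, McDav]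
          have := (htc i).ne'
          field_simp
          ring)
      calc _ ≤ ((t i).card : ℝ) * Real.exp (θ ^ 2 * c i ^ 2 / 2) * Real.exp (θ * (g ω - μ)) :=
            mul_le_mul_of_nonneg_right h1 (Real.exp_pos _).le
        _ = _ := by ring
    have hsum := Finset.sum_le_sum hstep
    rw [McD_sum_update t i (fun ω => Real.exp (θ * (f ω - μ))), ← Finset.mul_sum,
      ← Finset.mul_sum] at hsum
    have hsum2 := le_of_mul_le_mul_left hsum (htc i)
    refine hsum2.trans ?_
    rw [Finset.sum_insert hi]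
    calc Real.exp (θ ^ 2 * c i ^ 2 / 2) * ∑ ω ∈ Fintype.piFinset t, Real.exp (θ * (g ω - μ))
        ≤ Real.exp (θ ^ 2 * c i ^ 2 / 2) * (((Fintype.piFinset t).card : ℝ) *
          Real.exp (θ ^ 2 * (∑ i ∈ S, c i ^ 2) / 2)) :=
          mul_le_mul_of_nonneg_left hih (Real.exp_pos _).le
      _ = ((Fintype.piFinset t).card : ℝ) *
          Real.exp (θ ^ 2 * (c i ^ 2 + ∑ i ∈ S, c i ^ 2) / 2) := by
          rw [show θ ^ 2 * (c i ^ 2 + ∑ i ∈ S, c i ^ 2) / 2 =
            θ ^ 2 * c i ^ 2 / 2 + θ ^ 2 * (∑ i ∈ S, c i ^ 2) / 2 by ring, Real.exp_add]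
          ring

theorem McD_main (t : ι → Finset α) (ht : ∀ i, (t i).Nonempty) (f : (ι → α) → ℝ) (c : ι → ℝ)
    (hc : ∀ i, 0 ≤ c i)
    (hf : ∀ ω ∈ Fintype.piFinset t, ∀ i, ∀ a ∈ t i, |f (Function.update ω i a) - f ω| ≤ c i)
    (s V : ℝ) (hs : 0 ≤ s) (hV : ∑ i, c i ^ 2 ≤ V) (hV0 : 0 < V) :
    (((Fintype.piFinset t).filter (fun ω => s ≤ |f ω -
        (∑ ω ∈ Fintype.piFinset t, f ω) / ((Fintype.piFinset t).card : ℝ)|)).card : ℝ) ≤
      2 * Real.exp (-(s ^ 2 / (2 * V))) * ((Fintype.piFinset t).card : ℝ) := by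
  set μ : ℝ := (∑ ω ∈ Fintype.piFinset t, f ω) / ((Fintype.piFinset t).card : ℝ) with hμ
  have key : ∀ θ : ℝ, ∑ ω ∈ Fintype.piFinset t, Real.exp (θ * (f ω - μ)) ≤
      ((Fintype.piFinset t).card : ℝ) * Real.exp (θ ^ 2 * V / 2) := by
    intro θ
    refine (McD_exp t ht θ Finset.univ f c hc (by simp) hf).trans ?_
    apply mul_le_mul_of_nonneg_left _ (Nat.cast_nonneg _)
    apply Real.exp_le_exp.2
    have := mul_le_mul_of_nonneg_left hV (sq_nonneg θ)
    linarith
  have tail : ∀ σ : ℝ, σ ^ 2 = 1 →
      (((Fintype.piFinset t).filter (fun ω => s ≤ σ * (f ω - μ))).card : ℝ) ≤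
      Real.exp (-(s ^ 2 / (2 * V))) * ((Fintype.piFinset t).card : ℝ) := by
    intro σ hσ
    have h1 : (((Fintype.piFinset t).filter (fun ω => s ≤ σ * (f ω - μ))).card : ℝ) *
        Real.exp (s ^ 2 / V) ≤ ∑ ω ∈ Fintype.piFinset t, Real.exp ((s / V * σ) * (f ω - μ)) := by
      calc (((Fintype.piFinset t).filter (fun ω => s ≤ σ * (f ω - μ))).card : ℝ) *
        Real.exp (s ^ 2 / V) = ∑ ω ∈ (Fintype.piFinset t).filter (fun ω => s ≤ σ * (f ω - μ)),
            Real.exp (s ^ 2 / V) := by simp
        _ ≤ ∑ ω ∈ (Fintype.piFinset t).filter (fun ω => s ≤ σ * (f ω - μ)),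
            Real.exp ((s / V * σ) * (f ω - μ)) := by
            refine Finset.sum_le_sum (fun ω hω => ?_)
            apply Real.exp_le_exp.2
            have h2 := (Finset.mem_filter.1 hω).2
            have h3 : 0 ≤ s / V := div_nonneg hs hV0.le
            calc s ^ 2 / V = s / V * s := by ring
              _ ≤ s / V * (σ * (f ω - μ)) := mul_le_mul_of_nonneg_left h2 h3
              _ = _ := by ring
        _ ≤ _ := Finset.sum_le_sum_of_subset_of_nonneg (Finset.filter_subset _ _)
            (fun _ _ _ => (Real.exp_pos _).le)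
    have h2 := h1.trans (key (s / V * σ))
    have e : (s / V * σ) ^ 2 * V / 2 = s ^ 2 / (2 * V) := by
      rw [mul_pow, hσ]; field_simp
    rw [e] at h2
    have h3 : (((Fintype.piFinset t).filter (fun ω => s ≤ σ * (f ω - μ))).card : ℝ) =
        (((Fintype.piFinset t).filter (fun ω => s ≤ σ * (f ω - μ))).card : ℝ) *
        Real.exp (s ^ 2 / V) * Real.exp (-(s ^ 2 / V)) := by
      rw [mul_assoc, ← Real.exp_add]; simp
    rw [h3]
    calc _ ≤ ((Fintype.piFinset t).card : ℝ) * Real.exp (s ^ 2 / (2 * V)) *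
          Real.exp (-(s ^ 2 / V)) := mul_le_mul_of_nonneg_right h2 (Real.exp_pos _).le
      _ = _ := by
        rw [mul_assoc, ← Real.exp_add, mul_comm]
        congr 2
        field_simp
        ring
  have hsub : (Fintype.piFinset t).filter (fun ω => s ≤ |f ω - μ|) ⊆
      (Fintype.piFinset t).filter (fun ω => s ≤ 1 * (f ω - μ)) ∪
      (Fintype.piFinset t).filter (fun ω => s ≤ (-1) * (f ω - μ)) := by
    intro ω hω
    rw [Finset.mem_filter] at hω
    rw [Finset.mem_union, Finset.mem_filter, Finset.mem_filter]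
    rcases le_abs.1 hω.2 with h | h
    · left; exact ⟨hω.1, by linarith⟩
    · right; exact ⟨hω.1, by linarith⟩
  have hcard := (Finset.card_le_card hsub).trans (Finset.card_union_le _ _)
  have hcard' : (((Fintype.piFinset t).filter (fun ω => s ≤ |f ω - μ|)).card : ℝ) ≤
      (((Fintype.piFinset t).filter (fun ω => s ≤ 1 * (f ω - μ))).card : ℝ) +
      (((Fintype.piFinset t).filter (fun ω => s ≤ (-1) * (f ω - μ))).card : ℝ) := by
    exact_mod_cast hcard
  have ha := tail 1 (by norm_num)
  have hb := tail (-1) (by norm_num)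
  linarith

end Crest.Agent.Ryser
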