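import Crest.Agent.Ryser.Basic
import Crest.Agent.Ryser.ProbM
import Crest.Agent.Ryser.ProbH

/-! Row 34, chunk M: finite product probability: McDiarmid, lemma H, lemma U. -/

set_option autoImplicit false

open Finset

namespace Crest.Agent.Ryser

variable {ι α β : Type} [Fintype ι] [DecidableEq ι] [DecidableEq α] [DecidableEq β]

/-- average over the product of the finsets `t i` -/
noncomputable def avg (t : ι → Finset α) (f : (ι → α) → ℝ) : ℝ :=
  (∑ ω ∈ Fintype.piFinset t, f ω) / ((Fintype.piFinset t).card : ℝ)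

/-- McDiarmid's inequality (one sided, with a weak constant).  Proof: `avg exp(θ(f - avg f)) ≤ exp(θ² ∑ c_i²/2)` by
induction on the number of coordinates (martingale of conditional averages; a centred variable bounded by c has
`E e^(θZ) ≤ cosh(θ c) ≤ e^(θ²c²/2)`). -/
theorem mcdiarmid (t : ι → Finset α) (ht : ∀ i, (t i).Nonempty) (f : (ι → α) → ℝ) (c : ι → ℝ)
    (hc : ∀ i, 0 ≤ c i)
    (hf : ∀ ω ∈ Fintype.piFinset t, ∀ i, ∀ a ∈ t i, |f (Function.update ω i a) - f ω| ≤ c i)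
    (s V : ℝ) (hs : 0 ≤ s) (hV : ∑ i, c i ^ 2 ≤ V) (hV0 : 0 < V) :
    (((Fintype.piFinset t).filter (fun ω => s ≤ |f ω - avg t f|)).card : ℝ) ≤
      2 * Real.exp (-(s ^ 2 / (2 * V))) * ((Fintype.piFinset t).card : ℝ) := by
  exact McD_main t ht f c hc hf s V hs hV hV0

/-- Lemma H: lower tail for the number of clauses not hit.  Proof: `avg exp(-X/M) ≤ exp(-δ |J|/M)` by induction on
the coordinates: with X clauses left, E exp(θ H) ≤ 1 + (e^{θ M} - 1)/M · E H ≤ exp(2 θ p X) for θ M ≤ 1. -/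
theorem lemmaH (t : ι → Finset α) (ht : ∀ i, (t i).Nonempty) (J : Finset β)
    (hit : ι → α → β → Prop) [∀ i a, DecidablePred (hit i a)] (M : ℝ) (hM : 0 < M)
    (hMb : ∀ i, ∀ a ∈ t i, ((J.filter (hit i a)).card : ℝ) ≤ M) (p : ι → ℝ)
    (hp0 : ∀ i, 0 ≤ p i) (hp2 : ∀ i, p i ≤ 1 / 2)
    (hp : ∀ i, ∀ j ∈ J, (((t i).filter (fun a => hit i a j)).card : ℝ) ≤ p i * ((t i).card : ℝ)) :
    (((Fintype.piFinset t).filter (fun ω =>
      ((J.filter (fun j => ∀ i, ¬ hit i (ω i) j)).card : ℝ) ≤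
        (∏ i, (1 - 2 * p i)) / 2 * (J.card : ℝ))).card : ℝ) ≤
      Real.exp (-((∏ i, (1 - 2 * p i)) / 2 * (J.card : ℝ) / M)) *
        ((Fintype.piFinset t).card : ℝ) := by
  exact lemmaH_proof t ht J hit M hM hMb p hp0 hp2 hp

/-- Lemma U: upper tail for the number of coordinates in the hitting set. Proof: product formula for
`avg θ^{#}` and `1 + (θ-1) p ≤ exp((θ-1)p)`. -/
theorem lemmaU (t : ι → Finset α) (ht : ∀ i, (t i).Nonempty)
    (hit : ι → α → Prop) [∀ i, DecidablePred (hit i)] (p : ι → ℝ)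
    (hp : ∀ i, (((t i).filter (hit i)).card : ℝ) ≤ p i * ((t i).card : ℝ))
    (θ h : ℝ) (hθ : 1 ≤ θ) :
    (((Fintype.piFinset t).filter (fun ω =>
      h ≤ ((univ.filter (fun i => hit i (ω i))).card : ℝ))).card : ℝ) ≤
      Real.exp ((θ - 1) * ∑ i, p i - h * Real.log θ) * ((Fintype.piFinset t).card : ℝ) := by
  exact lemmaU_proof t ht hit p hp θ h hθ

/-- probability of a product event -/
theorem card_pi_filter (t : ι → Finset α) (A : ι → α → Prop) [∀ i, DecidablePred (A i)] :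
    ((Fintype.piFinset t).filter (fun ω => ∀ i, A i (ω i))).card =
      ∏ i, ((t i).filter (A i)).card := by
  exact card_pi_filter_proof t A

/-- comparing products -/
theorem abs_prod_sub_prod_le (s : Finset ι) (u v : ι → ℝ) (hu : ∀ i ∈ s, 0 ≤ u i ∧ u i ≤ 1)
    (hv : ∀ i ∈ s, 0 ≤ v i ∧ v i ≤ 1) : |∏ i ∈ s, u i - ∏ i ∈ s, v i| ≤ ∑ i ∈ s, |u i - v i| := by
  exact abs_prod_sub_prod_le_proof s u v hu hv

end Crest.Agent.Ryser
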