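import Crest.Agent.Ryser.PDefs
import Crest.Agent.Ryser.Prob
import Crest.Agent.Ryser.RR

/-! Row 34, chunk SC: stage C of the random construction (the points Q). -/

set_option autoImplicit false

open Finset

namespace Crest.Agent.Ryser

section SCgen

variable {ι α γ : Type} [Fintype ι] [DecidableEq ι] [DecidableEq α] [DecidableEq γ]

/-- mean of a counting statistic -/
theorem SC_avg_card (t : ι → Finset α) (A : Finset γ) (E : (ι → α) → γ → Prop)
    [∀ ω, DecidablePred (E ω)] [∀ m, DecidablePred (fun ω => E ω m)] :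
    avg t (fun ω => ((A.filter (E ω)).card : ℝ)) =
      ∑ m ∈ A, (((Fintype.piFinset t).filter (fun ω => E ω m)).card : ℝ) /
        ((Fintype.piFinset t).card : ℝ) := by
  unfold avg
  rw [← Finset.sum_div]
  congr 1
  simp only [Finset.card_filter]
  push_cast
  rw [Finset.sum_comm]

/-- probability of a product event -/
theorem SC_prob_pi (t : ι → Finset α) (A : ι → α → Prop) [∀ i, DecidablePred (A i)] :
    (((Fintype.piFinset t).filter (fun ω => ∀ i, A i (ω i))).card : ℝ) /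
      ((Fintype.piFinset t).card : ℝ) =
      ∏ i, ((((t i).filter (A i)).card : ℝ) / ((t i).card : ℝ)) := by
  rw [card_pi_filter, Fintype.card_piFinset, Finset.prod_div_distrib]
  push_cast
  rfl

/-- comparison of a product with a power -/
theorem SC_prodApprox [Fintype γ] (S : Finset γ) (x : γ → ℝ) (x0 δ : ℝ) (hx : ∀ l ∈ S, 0 ≤ x l ∧ x l ≤ 1)
    (hx0 : 0 ≤ x0) (hx1 : x0 ≤ 1) (hδ : ∀ l ∈ S, |x l - x0| ≤ δ) :
    |∏ l ∈ S, (1 - x l) - (1 - x0) ^ S.card| ≤ (S.card : ℝ) * δ := by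
  rw [← Finset.prod_const]
  refine (abs_prod_sub_prod_le S (fun l => 1 - x l) (fun _ => 1 - x0) ?_ ?_).trans ?_
  · intro i hi
    obtain ⟨h1, h2⟩ := hx i hi
    constructor <;> linarith
  · intro i _
    constructor <;> linarith
  · rw [← nsmul_eq_mul]
    refine Finset.sum_le_card_nsmul _ _ _ ?_
    intro i hi
    have h := hδ i hi
    have h2 : (1 - x i) - (1 - x0) = -(x i - x0) := by ring
    rw [h2, abs_neg]
    exact h

theorem SC_powApprox_aux (x0 : ℝ) (hx0 : 0 ≤ x0) (hx1 : x0 ≤ 1) (N d : ℕ) :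
    |(1 - x0) ^ N - (1 - x0) ^ (N + d)| ≤ d * x0 := by
  have h0 : 0 ≤ 1 - x0 := by linarith
  have h1 : (1 - x0) ^ N ≤ 1 := pow_le_one₀ h0 (by linarith)
  have h2 : 0 ≤ (1 - x0) ^ N := pow_nonneg h0 _
  have h3 : (1 - x0) ^ d ≤ 1 := pow_le_one₀ h0 (by linarith)
  have hb : 1 + (d : ℝ) * (-x0) ≤ (1 + -x0) ^ d :=
    one_add_mul_le_pow (by linarith : (-2 : ℝ) ≤ -x0) d
  have hb' : 1 - (d : ℝ) * x0 ≤ (1 - x0) ^ d := by
    have : (1 + -x0) = 1 - x0 := by ring
    rw [this] at hb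
    linarith
  have h4 : (1 - x0) ^ N - (1 - x0) ^ (N + d) = (1 - x0) ^ N * (1 - (1 - x0) ^ d) := by
    rw [pow_add]; ring
  have h5 : 0 ≤ 1 - (1 - x0) ^ d := by linarith
  rw [h4, abs_of_nonneg (mul_nonneg h2 h5)]
  calc (1 - x0) ^ N * (1 - (1 - x0) ^ d) ≤ 1 * (1 - (1 - x0) ^ d) :=
        mul_le_mul_of_nonneg_right h1 h5
    _ ≤ d * x0 := by linarith

theorem SC_powApprox (x0 : ℝ) (hx0 : 0 ≤ x0) (hx1 : x0 ≤ 1) (N N0 : ℕ) :
    |(1 - x0) ^ N - (1 - x0) ^ N0| ≤ |(N : ℝ) - N0| * x0 := by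
  rcases le_total N N0 with h | h
  · obtain ⟨d, rfl⟩ := Nat.exists_eq_add_of_le h
    have := SC_powApprox_aux x0 hx0 hx1 N d
    push_cast
    have h2 : (N : ℝ) - (N + d) = -d := by ring
    rw [h2, abs_neg, abs_of_nonneg (Nat.cast_nonneg d : (0 : ℝ) ≤ d)]
    exact this
  · obtain ⟨d, rfl⟩ := Nat.exists_eq_add_of_le h
    have := SC_powApprox_aux x0 hx0 hx1 N0 d
    push_cast
    have h2 : (N0 : ℝ) + d - N0 = d := by ring
    rw [h2, abs_of_nonneg (Nat.cast_nonneg d : (0 : ℝ) ≤ d), abs_sub_comm]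
    exact this

/-- number of n-subsets containing a given point -/
theorem SC_card_powerset_mem (S : Finset α) (n : ℕ) (y : α) (hy : y ∈ S) :
    ((S.powersetCard n).filter (fun T => y ∈ T)).card * S.card = n * (S.powersetCard n).card := by
  rcases n with _ | n
  · simp
  · have hS : S = insert y (S.erase y) := (Finset.insert_erase hy).symm
    have hcard : S.card = (S.erase y).card + 1 := by
      rw [Finset.card_erase_of_mem hy]
      have := Finset.card_pos.2 ⟨y, hy⟩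
      omega
    have h1 : ((S.powersetCard (n + 1)).filter (fun T => y ∈ T)).card =
        ((S.erase y).powersetCard n).card := by
      symm
      refine Finset.card_nbij (fun T => insert y T) ?_ ?_ ?_
      · intro T hT
        rw [Finset.mem_coe] at hT
        rw [Finset.mem_powersetCard] at hT
        rw [Finset.mem_coe, Finset.mem_filter, Finset.mem_powersetCard]
        have hyT : y ∉ T := fun h => (Finset.notMem_erase y S) (hT.1 h)
        refine ⟨⟨?_, ?_⟩, Finset.mem_insert_self _ _⟩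
        · intro z hz
          rcases Finset.mem_insert.1 hz with rfl | hz
          · exact hy
          · exact Finset.mem_of_mem_erase (hT.1 hz)
        · rw [Finset.card_insert_of_notMem hyT, hT.2]
      · intro T hT T' hT' h
        rw [Finset.mem_coe, Finset.mem_powersetCard] at hT hT'
        have hyT : y ∉ T := fun h => (Finset.notMem_erase y S) (hT.1 h)
        have hyT' : y ∉ T' := fun h => (Finset.notMem_erase y S) (hT'.1 h)
        have h' : (insert y T) = insert y T' := h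
        rw [← Finset.erase_insert hyT, ← Finset.erase_insert hyT', h']
      · intro T hT
        rw [Finset.mem_coe, Finset.mem_filter, Finset.mem_powersetCard] at hT
        refine ⟨T.erase y, ?_, Finset.insert_erase hT.2⟩
        rw [Finset.mem_coe, Finset.mem_powersetCard]
        refine ⟨Finset.erase_subset_erase y hT.1.1, ?_⟩
        rw [Finset.card_erase_of_mem hT.2, hT.1.2]
        rfl
    rw [h1, Finset.card_powersetCard, Finset.card_powersetCard, hcard]
    have := Nat.add_one_mul_choose_eq (S.erase y).card n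
    nlinarith [this]

/-- probability of hitting a set `Z` -/
theorem SC_card_powerset_hit (A : Finset α) (n : ℕ) (Z : α → Prop) [DecidablePred Z] (c : ℝ)
    (hc : 0 < c) (hA : c ≤ (A.card : ℝ)) :
    (((A.powersetCard n).filter (fun T => ∃ y ∈ T, Z y)).card : ℝ) ≤
      ((A.filter Z).card : ℝ) * ((n : ℝ) / c) * ((A.powersetCard n).card : ℝ) := by
  have h1 : ((A.powersetCard n).filter (fun T => ∃ y ∈ T, Z y)) ⊆
      (A.filter Z).biUnion (fun y => (A.powersetCard n).filter (fun T => y ∈ T)) := by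
    intro T hT
    rw [Finset.mem_filter] at hT
    obtain ⟨hT1, y, hy, hZ⟩ := hT
    rw [Finset.mem_biUnion]
    have hyA : y ∈ A := (Finset.mem_powersetCard.1 hT1).1 hy
    exact ⟨y, Finset.mem_filter.2 ⟨hyA, hZ⟩, Finset.mem_filter.2 ⟨hT1, hy⟩⟩
  have h2 : (((A.powersetCard n).filter (fun T => ∃ y ∈ T, Z y)).card : ℝ) ≤
      ∑ y ∈ A.filter Z, (((A.powersetCard n).filter (fun T => y ∈ T)).card : ℝ) := by
    have := (Finset.card_le_card h1).trans Finset.card_biUnion_le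
    exact_mod_cast this
  refine h2.trans ?_
  rw [mul_assoc, ← nsmul_eq_mul]
  refine Finset.sum_le_card_nsmul _ _ _ ?_
  intro y hy
  have hyA := (Finset.mem_filter.1 hy).1
  have h3 := SC_card_powerset_mem A n y hyA
  have h4 : (((A.powersetCard n).filter (fun T => y ∈ T)).card : ℝ) * (A.card : ℝ) =
      (n : ℝ) * ((A.powersetCard n).card : ℝ) := by exact_mod_cast h3
  have hApos : (0 : ℝ) < (A.card : ℝ) := hc.trans_le hA
  have h5 : (((A.powersetCard n).filter (fun T => y ∈ T)).card : ℝ) * c ≤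
      (n : ℝ) * ((A.powersetCard n).card : ℝ) := by
    rw [← h4]
    exact mul_le_mul_of_nonneg_left hA (Nat.cast_nonneg _)
  rw [div_mul_eq_mul_div, le_div_iff₀ hc]
  exact h5

theorem SC_exp_le (x : ℝ) (hx0 : 0 ≤ x) (hx : x ≤ 1 / 2) : Real.exp (-(2 * x)) ≤ 1 - x := by
  have h1 : 1 + 2 * x ≤ Real.exp (2 * x) := by
    have := Real.add_one_le_exp (2 * x)
    linarith
  have h2 : 0 < 1 + 2 * x := by linarith
  rw [Real.exp_neg]
  refine (inv_anti₀ h2 h1).trans ?_
  rw [inv_le_iff_one_le_mul₀ h2]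
  nlinarith

theorem SC_prod_ge (S : Finset γ) [Fintype γ] (p : ℝ) (hp0 : 0 ≤ p) (hp : 2 * p ≤ 1 / 2) (N : ℝ)
    (hN : (S.card : ℝ) ≤ N) :
    Real.exp (-(4 * p * N)) ≤ ∏ l : γ, (1 - 2 * (if l ∈ S then p else 0)) := by
  have h1 : ∏ l : γ, (1 - 2 * (if l ∈ S then p else 0)) = (1 - 2 * p) ^ S.card := by
    rw [← Finset.prod_const]
    rw [← Finset.prod_subset (Finset.subset_univ S)]
    · refine Finset.prod_congr rfl ?_
      intro l hl
      rw [if_pos hl]
    · intro l _ hl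
      rw [if_neg hl]
      ring
  rw [h1]
  have h2 := SC_exp_le (2 * p) (by linarith) hp
  calc Real.exp (-(4 * p * N)) ≤ Real.exp (-(4 * p * (S.card : ℝ))) := by
        apply Real.exp_le_exp.2
        have : 4 * p * (S.card : ℝ) ≤ 4 * p * N := mul_le_mul_of_nonneg_left hN (by linarith)
        linarith
    _ = (Real.exp (-(2 * (2 * p)))) ^ S.card := by
        rw [← Real.exp_nat_mul]
        congr 1
        ring
    _ ≤ (1 - 2 * p) ^ S.card := pow_le_pow_left₀ (Real.exp_nonneg _) h2 _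

end SCgen

section SCplane

variable {P L : Type} [Fintype P] [Fintype L] [DecidableEq P] [DecidableEq L] {q : ℕ}

/-- the sample space of coordinate `l` -/
def scT (Pl : Plane P L q) {P0 : P} (G : Pl.Prt P0 → Finset L) (n : ℕ) (l : L) :
    Finset (Finset P) :=
  if l ∈ GLs Pl G then (av Pl G l).powersetCard n else {∅}

theorem scT_mem {Pl : Plane P L q} {P0 : P} {G : Pl.Prt P0 → Finset L} {n : ℕ} {l : L}
    {S : Finset P} (h : S ∈ scT Pl G n l) :
    S ⊆ av Pl G l ∧ S.card ≤ n ∧ (l ∈ GLs Pl G → S.card = n) ∧ (l ∉ GLs Pl G → S = ∅) := by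
  unfold scT at h
  split_ifs at h with hl
  · rw [Finset.mem_powersetCard] at h
    exact ⟨h.1, h.2.le, fun _ => h.2, fun h' => absurd hl h'⟩
  · rw [Finset.mem_singleton] at h
    subst h
    exact ⟨Finset.empty_subset _, by simp, fun h' => absurd h' hl, fun _ => rfl⟩

theorem scT_nonempty {Pl : Plane P L q} {P0 : P} {G : Pl.Prt P0 → Finset L} {n : ℕ}
    (h : ∀ l ∈ GLs Pl G, n ≤ (av Pl G l).card) (l : L) : (scT Pl G n l).Nonempty := by
  unfold scT
  split_ifs with hl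
  · exact Finset.powersetCard_nonempty.2 (h l hl)
  · exact Finset.singleton_nonempty _

/-- lines through `X` without base point, not through `P0` -/
def scM (Pl : Plane P L q) {P0 : P} (a : Pl.Prt P0 → P) (X : P) : Finset L :=
  (Pl.lns X).filter (fun m => P0 ∉ Pl.pts m ∧ ∀ k, a k ∉ Pl.pts m)

theorem scM_card {Pl : Plane P L q} {P0 : P} {a : Pl.Prt P0 → P} (ha : ∀ k, a k ∈ Pl.pts k.1)
    (X : P) (hX : X ∉ univ.image a) : (scM Pl a X).card = eJ Pl a X 0 := by
  unfold scM eJ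
  congr 1
  refine Finset.filter_congr ?_
  intro m hm
  rw [Pl.mem_lns] at hm
  refine and_congr_right ?_
  intro hP
  rw [Finset.card_eq_zero, Finset.filter_eq_empty_iff]
  constructor
  · intro h k _ hk
    exact h k hk.2
  · intro h k hk
    have h1 := h (Finset.mem_univ k)
    have h2 : X ∈ Pl.pts k.1 := by
      by_contra h3
      exact h1 ⟨h3, hk⟩
    have h4 : m ≠ k.1 := by
      rintro rfl
      exact hP ((Pl.mem_lns _ _).1 k.2)
    have h5 := Pl.eq_of_mem_two h4 hk (ha k) hm h2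
    apply hX
    rw [Finset.mem_image]
    exact ⟨k, Finset.mem_univ k, h5⟩

theorem sc_mem_scM {Pl : Plane P L q} {P0 : P} {a : Pl.Prt P0 → P} {X : P} {m : L} :
    m ∈ scM Pl a X ↔ X ∈ Pl.pts m ∧ P0 ∉ Pl.pts m ∧ ∀ k, a k ∉ Pl.pts m := by
  unfold scM
  rw [Finset.mem_filter, Pl.mem_lns]

theorem sc_mem_LX {Pl : Plane P L q} {P0 : P} {B : Finset P} {X : P} {m : L} :
    m ∈ Pl.LX P0 B X ↔ (P0 ∉ Pl.pts m ∧ ∀ Z ∈ B, Z ∉ Pl.pts m) ∧ X ∈ Pl.pts m := by
  unfold Plane.LX Plane.LL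
  rw [Finset.mem_filter, Finset.mem_filter]
  simp only [Finset.mem_univ, true_and]

/-- the event that no point of `ω` other than `X` is on `m` -/
def scE (Pl : Plane P L q) (X : P) (m : L) (ω : L → Finset P) : Prop :=
  ∀ l, ∀ Y ∈ ω l, Y ∈ Pl.pts m → Y = X

instance (Pl : Plane P L q) (X : P) (m : L) : DecidablePred (scE Pl X m) := fun ω => by
  unfold scE; infer_instance

instance (Pl : Plane P L q) (X : P) (ω : L → Finset P) :
    DecidablePred (fun m => scE Pl X m ω) := fun m => by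
  unfold scE; infer_instance

/-- the statistic -/
def scF (Pl : Plane P L q) {P0 : P} (a : Pl.Prt P0 → P) (X : P) (ω : L → Finset P) : ℕ :=
  ((scM Pl a X).filter (fun m => scE Pl X m ω)).card

theorem scF_eq_LX {Pl : Plane P L q} {P0 : P} {G : Pl.Prt P0 → Finset L} {n : ℕ}
    (a : Pl.Prt P0 → P) (X : P) (ω : L → Finset P) (hω : ω ∈ Fintype.piFinset (scT Pl G n))
    (hX : X ∉ univ.image a ∪ (GLs Pl G).biUnion ω) :
    (Pl.LX P0 (univ.image a ∪ (GLs Pl G).biUnion ω) X).card = scF Pl a X ω := by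
  unfold scF
  congr 1
  ext m
  rw [Finset.mem_filter, sc_mem_scM, sc_mem_LX]
  unfold scE
  constructor
  · rintro ⟨⟨h1, h2⟩, h3⟩
    refine ⟨⟨h3, h1, ?_⟩, ?_⟩
    · intro k
      exact h2 _ (Finset.mem_union_left _ (Finset.mem_image_of_mem _ (Finset.mem_univ k)))
    · intro l Y hY hYm
      exfalso
      by_cases hl : l ∈ GLs Pl G
      · exact h2 Y (Finset.mem_union_right _ (Finset.mem_biUnion.2 ⟨l, hl, hY⟩)) hYm
      · have := (scT_mem (Fintype.mem_piFinset.1 hω l)).2.2.2 hl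
        rw [this] at hY
        exact Finset.notMem_empty _ hY
  · rintro ⟨⟨h1, h2, h3⟩, h4⟩
    refine ⟨⟨h2, ?_⟩, h1⟩
    intro Z hZ hZm
    rcases Finset.mem_union.1 hZ with hZ | hZ
    · obtain ⟨k, _, rfl⟩ := Finset.mem_image.1 hZ
      exact h3 k hZm
    · obtain ⟨l, hl, hZl⟩ := Finset.mem_biUnion.1 hZ
      have := h4 l Z hZl hZm
      subst this
      exact hX (Finset.mem_union_right _ hZ)

theorem SC_filter_diff {γ : Type} [DecidableEq γ] (A : Finset γ) (p r : γ → Prop)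
    [DecidablePred p] [DecidablePred r] (c : ℝ)
    (h1 : ((A.filter (fun m => p m ∧ ¬ r m)).card : ℝ) ≤ c)
    (h2 : ((A.filter (fun m => r m ∧ ¬ p m)).card : ℝ) ≤ c) :
    |((A.filter p).card : ℝ) - ((A.filter r).card : ℝ)| ≤ c := by
  have e1 : (A.filter p).card ≤ (A.filter (fun m => p m ∧ ¬ r m)).card + (A.filter r).card := by
    rw [← Finset.filter_filter]
    have : ((A.filter p).filter (fun m => r m)).card ≤ (A.filter r).card := by
      apply Finset.card_le_card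
      intro m hm
      simp only [Finset.mem_filter] at hm ⊢
      exact ⟨hm.1.1, hm.2⟩
    have h := Finset.card_filter_add_card_filter_not (s := A.filter p) (p := fun m => r m)
    omega
  have e2 : (A.filter r).card ≤ (A.filter (fun m => r m ∧ ¬ p m)).card + (A.filter p).card := by
    rw [← Finset.filter_filter]
    have : ((A.filter r).filter (fun m => p m)).card ≤ (A.filter p).card := by
      apply Finset.card_le_card
      intro m hm
      simp only [Finset.mem_filter] at hm ⊢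
      exact ⟨hm.1.1, hm.2⟩
    have h := Finset.card_filter_add_card_filter_not (s := A.filter r) (p := fun m => p m)
    omega
  have e1' : ((A.filter p).card : ℝ) ≤
      ((A.filter (fun m => p m ∧ ¬ r m)).card : ℝ) + ((A.filter r).card : ℝ) := by
    exact_mod_cast e1
  have e2' : ((A.filter r).card : ℝ) ≤
      ((A.filter (fun m => r m ∧ ¬ p m)).card : ℝ) + ((A.filter p).card : ℝ) := by
    exact_mod_cast e2
  rw [abs_le]
  constructor <;> linarith

theorem scF_hit (Pl : Plane P L q) (X : P) (A : Finset L) (hA : ∀ m ∈ A, X ∈ Pl.pts m)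
    (S : Finset P) (hS : ∀ m ∈ A, ∃ Y ∈ S, Y ∈ Pl.pts m ∧ Y ≠ X) : A.card ≤ S.card := by
  have h1 : A ⊆ S.image (fun Y => Pl.join X Y) := by
    intro m hm
    obtain ⟨Y, hY, hYm, hYX⟩ := hS m hm
    rw [Finset.mem_image]
    exact ⟨Y, hY, (Pl.join_unique X Y m hYX.symm (hA m hm) hYm).symm⟩
  exact (Finset.card_le_card h1).trans Finset.card_image_le

theorem scF_lip {Pl : Plane P L q} {P0 : P} {G : Pl.Prt P0 → Finset L} {n : ℕ}
    (a : Pl.Prt P0 → P) (X : P) (ω : L → Finset P) (hω : ω ∈ Fintype.piFinset (scT Pl G n))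
    (l : L) (S : Finset P) (hS : S ∈ scT Pl G n l) :
    |(scF Pl a X (Function.update ω l S) : ℝ) - (scF Pl a X ω : ℝ)| ≤
      if l ∈ GLs Pl G then (n : ℝ) else 0 := by
  have hωl := Fintype.mem_piFinset.1 hω l
  split_ifs with hl
  · unfold scF
    refine SC_filter_diff _ _ _ _ ?_ ?_
    · have h1 : ((scM Pl a X).filter (fun m => scE Pl X m (Function.update ω l S) ∧
          ¬ scE Pl X m ω)).card ≤ (ω l).card := by
        refine scF_hit Pl X _ ?_ _ ?_
        · intro m hm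
          have := (Finset.mem_filter.1 hm).1
          exact (Pl.mem_lns _ _).1 (Finset.mem_filter.1 this).1
        · intro m hm
          obtain ⟨hm1, hm2, hm3⟩ := Finset.mem_filter.1 hm
          unfold scE at hm3 hm2
          push Not at hm3
          obtain ⟨l', Y, hY, hYm, hYX⟩ := hm3
          by_cases hll : l' = l
          · subst hll
            exact ⟨Y, hY, hYm, hYX⟩
          · exfalso
            apply hYX
            refine hm2 l' Y ?_ hYm
            rw [Function.update_of_ne hll]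
            exact hY
      exact_mod_cast h1.trans (scT_mem hωl).2.1
    · have h1 : ((scM Pl a X).filter (fun m => scE Pl X m ω ∧
          ¬ scE Pl X m (Function.update ω l S))).card ≤ S.card := by
        refine scF_hit Pl X _ ?_ _ ?_
        · intro m hm
          have := (Finset.mem_filter.1 hm).1
          exact (Pl.mem_lns _ _).1 (Finset.mem_filter.1 this).1
        · intro m hm
          obtain ⟨hm1, hm2, hm3⟩ := Finset.mem_filter.1 hm
          unfold scE at hm3 hm2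
          push Not at hm3
          obtain ⟨l', Y, hY, hYm, hYX⟩ := hm3
          by_cases hll : l' = l
          · subst hll
            rw [Function.update_self] at hY
            exact ⟨Y, hY, hYm, hYX⟩
          · exfalso
            apply hYX
            refine hm2 l' Y ?_ hYm
            rw [Function.update_of_ne hll] at hY
            exact hY
      exact_mod_cast h1.trans (scT_mem hS).2.1
  · have e1 := (scT_mem hωl).2.2.2 hl
    have e2 := (scT_mem hS).2.2.2 hl
    have : Function.update ω l S = ω := by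
      rw [e2, ← e1]
      exact Function.update_eq_self l ω
    rw [this]
    simp

/-- G-lines relevant for `m` -/
def scS (Pl : Plane P L q) {P0 : P} (G : Pl.Prt P0 → Finset L) (X : P) (m : L) : Finset L :=
  (GLs Pl G).filter (fun l => gam Pl G (Pl.meet m l) = 1 ∧ Pl.meet m l ≠ X)

theorem sc_gam_one_unique {Pl : Plane P L q} {P0 : P} {G : Pl.Prt P0 → Finset L} {Y : P}
    (h : gam Pl G Y = 1) {l l' : L} (hl : l ∈ GLs Pl G) (hl' : l' ∈ GLs Pl G)
    (hY : Y ∈ Pl.pts l) (hY' : Y ∈ Pl.pts l') : l = l' := by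
  unfold gam at h
  have h1 := Finset.card_le_one.1 h.le
  exact h1 l (Finset.mem_filter.2 ⟨hl, hY⟩) l' (Finset.mem_filter.2 ⟨hl', hY'⟩)

theorem scS_card {Pl : Plane P L q} {P0 : P} {G : Pl.Prt P0 → Finset L} (X : P) (m : L)
    (hm : m ∉ GLs Pl G) : (scS Pl G X m).card = ((av Pl G m).erase X).card := by
  refine Finset.card_bij (fun l _ => Pl.meet m l) ?_ ?_ ?_
  · intro l hl
    unfold scS at hl
    rw [Finset.mem_filter] at hl
    have hne : m ≠ l := fun h => hm (h ▸ hl.1)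
    rw [Finset.mem_erase]
    refine ⟨hl.2.2, ?_⟩
    unfold av
    rw [Finset.mem_filter]
    exact ⟨Pl.meet_left m l hne, hl.2.1⟩
  · intro l hl l' hl' h
    unfold scS at hl hl'
    rw [Finset.mem_filter] at hl hl'
    have hne : m ≠ l := fun h => hm (h ▸ hl.1)
    have hne' : m ≠ l' := fun h => hm (h ▸ hl'.1)
    have h' : Pl.meet m l = Pl.meet m l' := h
    refine sc_gam_one_unique hl.2.1 hl.1 hl'.1 (Pl.meet_right m l hne) ?_
    rw [h']
    exact Pl.meet_right m l' hne'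
  · intro Y hY
    rw [Finset.mem_erase] at hY
    unfold av at hY
    rw [Finset.mem_filter] at hY
    obtain ⟨hYX, hYm, hg⟩ := hY
    have hg' := hg
    unfold gam at hg'
    obtain ⟨l, hl⟩ := Finset.card_eq_one.1 hg'
    have hl2 : l ∈ (GLs Pl G).filter (fun l => Y ∈ Pl.pts l) := by
      rw [hl]; exact Finset.mem_singleton_self l
    rw [Finset.mem_filter] at hl2
    have hne : m ≠ l := fun h => hm (h ▸ hl2.1)
    have hmeet := Pl.meet_unique m l Y hne hYm hl2.2
    refine ⟨l, ?_, hmeet.symm⟩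
    unfold scS
    rw [Finset.mem_filter, ← hmeet]
    exact ⟨hl2.1, hg, hYX⟩

theorem sc_frac {Pl : Plane P L q} {P0 : P} {G : Pl.Prt P0 → Finset L} {n : ℕ}
    (hn : ∀ l ∈ GLs Pl G, n ≤ (av Pl G l).card) (hpos : ∀ l ∈ GLs Pl G, 0 < (av Pl G l).card)
    (X : P) (m : L) (hm : m ∉ GLs Pl G) (l : L) :
    (((scT Pl G n l).filter (fun S => ∀ Y ∈ S, Y ∈ Pl.pts m → Y = X)).card : ℝ) /
      ((scT Pl G n l).card : ℝ) =
      if l ∈ scS Pl G X m then 1 - (n : ℝ) / ((av Pl G l).card : ℝ) else 1 := by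
  have hcard : (0 : ℝ) < ((scT Pl G n l).card : ℝ) := by
    exact_mod_cast Finset.card_pos.2 (scT_nonempty hn l)
  have hall : (∀ S ∈ scT Pl G n l, ∀ Y ∈ S, Y ∈ Pl.pts m → Y = X) →
      (((scT Pl G n l).filter (fun S => ∀ Y ∈ S, Y ∈ Pl.pts m → Y = X)).card : ℝ) /
      ((scT Pl G n l).card : ℝ) = 1 := by
    intro h
    rw [Finset.filter_true_of_mem h, div_self hcard.ne']
  by_cases hl : l ∈ GLs Pl G
  · have hne : m ≠ l := fun h => hm (h ▸ hl)
    have hmeet : ∀ S ∈ scT Pl G n l, ∀ Y ∈ S, Y ∈ Pl.pts m → Y = Pl.meet m l := by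
      intro S hS Y hY hYm
      have hYl : Y ∈ Pl.pts l := by
        have := (scT_mem hS).1 hY
        unfold av at this
        exact (Finset.mem_filter.1 this).1
      exact Pl.meet_unique m l Y hne hYm hYl
    by_cases hs : l ∈ scS Pl G X m
    · rw [if_pos hs]
      unfold scS at hs
      rw [Finset.mem_filter] at hs
      obtain ⟨_, hg, hX⟩ := hs
      have hyav : Pl.meet m l ∈ av Pl G l := by
        unfold av
        rw [Finset.mem_filter]
        exact ⟨Pl.meet_right m l hne, hg⟩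
      have h1 := SC_card_powerset_mem (av Pl G l) n _ hyav
      have h2 : (scT Pl G n l).filter (fun S => ∀ Y ∈ S, Y ∈ Pl.pts m → Y = X) =
          (scT Pl G n l).filter (fun S => ¬ (Pl.meet m l ∈ S)) := by
        refine Finset.filter_congr ?_
        intro S hS
        constructor
        · intro h hy
          exact hX (h _ hy (Pl.meet_left m l hne))
        · intro h Y hY hYm
          exfalso
          apply h
          rw [← hmeet S hS Y hY hYm]
          exact hY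
      have h3 := Finset.card_filter_add_card_filter_not (s := scT Pl G n l)
        (p := fun S => Pl.meet m l ∈ S)
      have hT : scT Pl G n l = (av Pl G l).powersetCard n := by
        unfold scT; rw [if_pos hl]
      rw [← hT] at h1
      have h1' : ((((scT Pl G n l).filter (fun T => Pl.meet m l ∈ T)).card : ℕ) : ℝ) *
          ((av Pl G l).card : ℝ) = (n : ℝ) * ((scT Pl G n l).card : ℝ) := by exact_mod_cast h1
      have h3' : ((((scT Pl G n l).filter (fun T => Pl.meet m l ∈ T)).card : ℕ) : ℝ) +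
          ((((scT Pl G n l).filter (fun T => ¬ Pl.meet m l ∈ T)).card : ℕ) : ℝ) =
          ((scT Pl G n l).card : ℝ) := by exact_mod_cast h3
      have hav : (0 : ℝ) < ((av Pl G l).card : ℝ) := by exact_mod_cast hpos l hl
      rw [h2, div_eq_iff hcard.ne', sub_mul, one_mul, ← h3', div_mul_eq_mul_div, h3', ← h1',
        mul_div_assoc, div_self hav.ne', mul_one]
      linarith
    · rw [if_neg hs]
      apply hall
      intro S hS Y hY hYm
      have hY2 := hmeet S hS Y hY hYm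
      by_contra hYX
      apply hs
      unfold scS
      rw [Finset.mem_filter]
      refine ⟨hl, ?_, ?_⟩
      · rw [← hY2]
        have := (scT_mem hS).1 hY
        unfold av at this
        exact (Finset.mem_filter.1 this).2
      · rw [← hY2]
        exact hYX
  · have hs : l ∉ scS Pl G X m := by
      unfold scS
      rw [Finset.mem_filter]
      exact fun h => hl h.1
    rw [if_neg hs]
    apply hall
    intro S hS Y hY
    have := (scT_mem hS).2.2.2 hl
    rw [this] at hY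
    exact absurd hY (Finset.notMem_empty _)

theorem sc_prob {Pl : Plane P L q} {P0 : P} {G : Pl.Prt P0 → Finset L} {n : ℕ}
    (hn : ∀ l ∈ GLs Pl G, n ≤ (av Pl G l).card) (hpos : ∀ l ∈ GLs Pl G, 0 < (av Pl G l).card)
    (X : P) (m : L) (hm : m ∉ GLs Pl G) :
    (((Fintype.piFinset (scT Pl G n)).filter (fun ω => scE Pl X m ω)).card : ℝ) /
      ((Fintype.piFinset (scT Pl G n)).card : ℝ) =
      ∏ l ∈ scS Pl G X m, (1 - (n : ℝ) / ((av Pl G l).card : ℝ)) := by
  have h1 := SC_prob_pi (scT Pl G n) (fun _ S => ∀ Y ∈ S, Y ∈ Pl.pts m → Y = X)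
  have h2 : (∏ i, ((((scT Pl G n i).filter (fun S => ∀ Y ∈ S, Y ∈ Pl.pts m → Y = X)).card : ℝ) /
      ((scT Pl G n i).card : ℝ))) = ∏ l ∈ scS Pl G X m, (1 - (n : ℝ) / ((av Pl G l).card : ℝ)) := by
    rw [Finset.prod_congr rfl (fun l _ => sc_frac hn hpos X m hm l)]
    rw [Finset.prod_ite_mem, Finset.univ_inter]
  rw [← h2, ← h1]
  congr 2

theorem sc_av_ge {Pl : Plane P L q} {P0 : P} {a : Pl.Prt P0 → P} {G : Pl.Prt P0 → Finset L}
    {b0 b1 β : ℝ} (hB : StatsB Pl P0 a G b0 b1) (hb0 : β ≤ b0)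
    (hr : rr q ^ 502 ≤ β * q / 2) (l : L) (hl : l ∈ GLs Pl G) :
    β * q / 2 ≤ ((av Pl G l).card : ℝ) := by
  have h1 := hB.v l hl
  rw [abs_le] at h1
  have h2 : β * q ≤ b0 * q := mul_le_mul_of_nonneg_right hb0 (Nat.cast_nonneg q)
  linarith [h1.1]

theorem sc_probApprox {Pl : Plane P L q} {P0 : P} {a : Pl.Prt P0 → P}
    {G : Pl.Prt P0 → Finset L} {n : ℕ} {b0 b1 β : ℝ} (hB : StatsB Pl P0 a G b0 b1)
    (hβ : 0 < β) (hb0 : β ≤ b0) (hb1 : 0 ≤ b1) (hq : 1 ≤ q)
    (hr : rr q ^ 502 ≤ β * q / 2) (hn : (n : ℝ) ≤ β * q / 2) (hr1 : 1 ≤ rr q)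
    (X : P) (m : L) (hm : m ∈ scM Pl a X) :
    |(((Fintype.piFinset (scT Pl G n)).filter (fun ω => scE Pl X m ω)).card : ℝ) /
      ((Fintype.piFinset (scT Pl G n)).card : ℝ) - (1 - n / (b0 * q)) ^ ⌊b1 * q⌋₊| ≤
      (4 * n / β ^ 2 + 3 * n / β) * rr q ^ 502 / q := by
  have hQ : (1 : ℝ) ≤ (q : ℝ) := by exact_mod_cast hq
  have hQ0 : (0 : ℝ) < (q : ℝ) := by linarith
  have hav : ∀ l ∈ GLs Pl G, β * q / 2 ≤ ((av Pl G l).card : ℝ) := sc_av_ge hB hb0 hr
  have hβq : 0 < β * q / 2 := by positivity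
  have hpos : ∀ l ∈ GLs Pl G, 0 < (av Pl G l).card := by
    intro l hl
    have := hβq.trans_le (hav l hl)
    exact_mod_cast this
  have hn' : ∀ l ∈ GLs Pl G, n ≤ (av Pl G l).card := by
    intro l hl
    have := hn.trans (hav l hl)
    exact_mod_cast this
  rw [sc_mem_scM] at hm
  obtain ⟨hXm, hP0m, ham⟩ := hm
  have hmG : m ∉ GLs Pl G := by
    intro h
    unfold GLs at h
    rw [Finset.mem_biUnion] at h
    obtain ⟨k, _, hk⟩ := h
    have := hB.sub k hk
    unfold AA at this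
    rw [Finset.mem_filter, Pl.mem_lns] at this
    exact ham k this.1
  have hb0pos : 0 < b0 := hβ.trans_le hb0
  rw [sc_prob hn' hpos X m hmG]
  set S := scS Pl G X m with hS
  set x0 : ℝ := n / (b0 * q) with hx0def
  have hn0 : (0 : ℝ) ≤ (n : ℝ) := Nat.cast_nonneg n
  have hx0 : 0 ≤ x0 := by positivity
  have hx0' : x0 ≤ n / (β * q) := by
    rw [hx0def]
    apply div_le_div_of_nonneg_left hn0 (by positivity)
    exact mul_le_mul_of_nonneg_right hb0 hQ0.le
  have hx1 : x0 ≤ 1 := by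
    refine hx0'.trans ?_
    rw [div_le_one (by positivity)]
    linarith
  have hSG : ∀ l ∈ S, l ∈ GLs Pl G := by
    intro l hl
    rw [hS] at hl
    unfold scS at hl
    exact (Finset.mem_filter.1 hl).1
  have hcardS := scS_card (G := G) X m hmG
  rw [← hS] at hcardS
  have havm : (av Pl G m).card ≤ q + 1 := by
    rw [← Pl.card_pts m]
    unfold av
    exact Finset.card_filter_le _ _
  have hSle : S.card ≤ (av Pl G m).card := by
    rw [hcardS]
    exact Finset.card_le_card (Finset.erase_subset _ _)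
  have hSge : (av Pl G m).card ≤ S.card + 1 := by
    rw [hcardS]
    have := Finset.pred_card_le_card_erase (s := av Pl G m) (a := X)
    omega
  have hSle2 : (S.card : ℝ) ≤ 2 * q := by
    have h1 : (S.card : ℝ) ≤ (q : ℝ) + 1 := by exact_mod_cast hSle.trans havm
    linarith
  -- first difference
  have hδ : ∀ l ∈ S, |(n : ℝ) / ((av Pl G l).card : ℝ) - x0| ≤
      2 * n * rr q ^ 502 / (β ^ 2 * (q : ℝ) ^ 2) := by
    intro l hl
    have hv := hB.v l (hSG l hl)
    have hvl := hav l (hSG l hl)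
    have hvpos : 0 < ((av Pl G l).card : ℝ) := hβq.trans_le hvl
    rw [hx0def]
    rw [div_sub_div _ _ hvpos.ne' (by positivity), abs_div]
    have e1 : (n : ℝ) * (b0 * q) - ((av Pl G l).card : ℝ) * n =
        -(n * (((av Pl G l).card : ℝ) - b0 * q)) := by ring
    rw [e1, abs_neg, abs_mul, abs_of_nonneg hn0, abs_of_pos (by positivity : 0 <
      ((av Pl G l).card : ℝ) * (b0 * q))]
    rw [div_le_div_iff₀ (by positivity) (by positivity)]
    have e2 : (n : ℝ) * |((av Pl G l).card : ℝ) - b0 * q| ≤ n * rr q ^ 502 :=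
      mul_le_mul_of_nonneg_left hv hn0
    have e3 : (β * q / 2) * (β * q) ≤ ((av Pl G l).card : ℝ) * (b0 * q) := by
      apply mul_le_mul hvl _ (by positivity) (by positivity)
      exact mul_le_mul_of_nonneg_right hb0 hQ0.le
    have e4 : 0 ≤ (n : ℝ) * rr q ^ 502 := by positivity
    calc (n : ℝ) * |((av Pl G l).card : ℝ) - b0 * q| * (β ^ 2 * (q : ℝ) ^ 2)
        ≤ (n * rr q ^ 502) * (β ^ 2 * (q : ℝ) ^ 2) :=
          mul_le_mul_of_nonneg_right e2 (by positivity)
      _ = 2 * n * rr q ^ 502 * ((β * q / 2) * (β * q)) := by ring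
      _ ≤ 2 * n * rr q ^ 502 * (((av Pl G l).card : ℝ) * (b0 * q)) := by
          apply mul_le_mul_of_nonneg_left e3
          positivity
  have hx : ∀ l ∈ S, 0 ≤ (n : ℝ) / ((av Pl G l).card : ℝ) ∧
      (n : ℝ) / ((av Pl G l).card : ℝ) ≤ 1 := by
    intro l hl
    have hvl := hav l (hSG l hl)
    have hvpos : 0 < ((av Pl G l).card : ℝ) := hβq.trans_le hvl
    refine ⟨by positivity, ?_⟩
    rw [div_le_one hvpos]
    linarith
  have d1 := SC_prodApprox S (fun l => (n : ℝ) / ((av Pl G l).card : ℝ)) x0 _ hx hx0 hx1 hδ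
  have d2 := SC_powApprox x0 hx0 hx1 S.card ⌊b1 * q⌋₊
  have hu := hB.u m hmG hP0m ham
  have hfl := Nat.floor_le (mul_nonneg hb1 hQ0.le)
  have hfl2 := Nat.lt_floor_add_one (b1 * (q : ℝ))
  have hr502 : (1 : ℝ) ≤ rr q ^ 502 := one_le_pow₀ hr1
  have d3 : |(S.card : ℝ) - (⌊b1 * (q : ℝ)⌋₊ : ℝ)| ≤ 3 * rr q ^ 502 := by
    have h1 : (S.card : ℝ) ≤ ((av Pl G m).card : ℝ) := by exact_mod_cast hSle
    have h2 : ((av Pl G m).card : ℝ) ≤ (S.card : ℝ) + 1 := by exact_mod_cast hSge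
    rw [abs_le] at hu ⊢
    constructor <;> linarith [hu.1, hu.2]
  have d4 : |(S.card : ℝ) - (⌊b1 * (q : ℝ)⌋₊ : ℝ)| * x0 ≤ 3 * rr q ^ 502 * (n / (β * q)) :=
    mul_le_mul d3 hx0' hx0 (by positivity)
  have d5 : (S.card : ℝ) * (2 * n * rr q ^ 502 / (β ^ 2 * (q : ℝ) ^ 2)) ≤
      2 * q * (2 * n * rr q ^ 502 / (β ^ 2 * (q : ℝ) ^ 2)) :=
    mul_le_mul_of_nonneg_right hSle2 (by positivity)
  calc |∏ l ∈ S, (1 - (n : ℝ) / ((av Pl G l).card : ℝ)) - (1 - x0) ^ ⌊b1 * (q : ℝ)⌋₊|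
      ≤ |∏ l ∈ S, (1 - (n : ℝ) / ((av Pl G l).card : ℝ)) - (1 - x0) ^ S.card| +
        |(1 - x0) ^ S.card - (1 - x0) ^ ⌊b1 * (q : ℝ)⌋₊| := abs_sub_le _ _ _
    _ ≤ 2 * q * (2 * n * rr q ^ 502 / (β ^ 2 * (q : ℝ) ^ 2)) +
        3 * rr q ^ 502 * (n / (β * q)) := add_le_add (d1.trans d5) (d2.trans d4)
    _ = (4 * n / β ^ 2 + 3 * n / β) * rr q ^ 502 / q := by
        field_simp
        ring

theorem sc_mean {Pl : Plane P L q} {P0 : P} {a : Pl.Prt P0 → P}
    {G : Pl.Prt P0 → Finset L} {n : ℕ} {b0 b1 β : ℝ} (hA : StatsA Pl P0 a)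
    (hB : StatsB Pl P0 a G b0 b1)
    (hβ : 0 < β) (hb0 : β ≤ b0) (hb1 : 0 ≤ b1) (hq : 1 ≤ q)
    (hr : rr q ^ 502 ≤ β * q / 2) (hn : (n : ℝ) ≤ β * q / 2) (hr1 : 1 ≤ rr q)
    (X : P) (hX : X ∉ univ.image a) (hX0 : X ≠ P0) :
    |avg (scT Pl G n) (fun ω => (scF Pl a X ω : ℝ)) -
      q * (1 - 1 / (q : ℝ)) ^ q * (1 - n / (b0 * q)) ^ ⌊b1 * q⌋₊| ≤
      (2 * (4 * n / β ^ 2 + 3 * n / β) + 1) * rr q ^ 502 := by
  have hQ : (1 : ℝ) ≤ (q : ℝ) := by exact_mod_cast hq
  have hQ0 : (0 : ℝ) < (q : ℝ) := by linarith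
  have hb0pos : 0 < b0 := hβ.trans_le hb0
  have hn0 : (0 : ℝ) ≤ (n : ℝ) := Nat.cast_nonneg n
  have h1 := SC_avg_card (scT Pl G n) (scM Pl a X) (fun ω m => scE Pl X m ω)
  have h1' : avg (scT Pl G n) (fun ω => (scF Pl a X ω : ℝ)) =
      ∑ m ∈ scM Pl a X, (((Fintype.piFinset (scT Pl G n)).filter
        (fun ω => scE Pl X m ω)).card : ℝ) / ((Fintype.piFinset (scT Pl G n)).card : ℝ) := by
    rw [← h1]
    rfl
  rw [h1']
  set ps : ℝ := (1 - n / (b0 * q)) ^ ⌊b1 * (q : ℝ)⌋₊ with hps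
  set E : ℝ := (4 * n / β ^ 2 + 3 * n / β) * rr q ^ 502 / q with hE
  have hE0 : 0 ≤ E := by
    rw [hE]
    have := rr_nonneg q
    positivity
  have hx0 : 0 ≤ n / (b0 * q) := by positivity
  have hx1 : n / (b0 * q) ≤ 1 := by
    rw [div_le_one (by positivity)]
    have : β * q ≤ b0 * q := mul_le_mul_of_nonneg_right hb0 hQ0.le
    nlinarith
  have hps0 : 0 ≤ ps := pow_nonneg (by linarith) _
  have hps1 : ps ≤ 1 := pow_le_one₀ (by linarith) (by linarith)
  have h2 : |∑ m ∈ scM Pl a X, (((Fintype.piFinset (scT Pl G n)).filter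
        (fun ω => scE Pl X m ω)).card : ℝ) / ((Fintype.piFinset (scT Pl G n)).card : ℝ) -
        ((scM Pl a X).card : ℝ) * ps| ≤ ((scM Pl a X).card : ℝ) * E := by
    rw [← nsmul_eq_mul, ← Finset.sum_const, ← Finset.sum_sub_distrib]
    refine (Finset.abs_sum_le_sum_abs _ _).trans ?_
    rw [← nsmul_eq_mul]
    refine Finset.sum_le_card_nsmul _ _ _ ?_
    intro m hm
    exact sc_probApprox hB hβ hb0 hb1 hq hr hn hr1 X m hm
  have hM : (scM Pl a X).card = eJ Pl a X 0 := scM_card hA.mem X hX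
  have hMle : (scM Pl a X).card ≤ q + 1 := by
    rw [← Pl.card_lns X]
    exact Finset.card_filter_le _ _
  have hMle' : ((scM Pl a X).card : ℝ) ≤ 2 * q := by
    have : ((scM Pl a X).card : ℝ) ≤ (q : ℝ) + 1 := by exact_mod_cast hMle
    linarith
  have h3 := hA.e0 X hX0
  rw [← hM] at h3
  have h4 : |((scM Pl a X).card : ℝ) * ps - q * (1 - 1 / (q : ℝ)) ^ q * ps| ≤ rr q ^ 501 := by
    rw [← sub_mul, abs_mul, abs_of_nonneg hps0]
    calc |((scM Pl a X).card : ℝ) - q * (1 - 1 / (q : ℝ)) ^ q| * ps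
        ≤ rr q ^ 501 * 1 := mul_le_mul h3 hps1 hps0 (pow_nonneg (rr_nonneg q) _)
      _ = rr q ^ 501 := mul_one _
  have h5 : rr q ^ 501 ≤ rr q ^ 502 := pow_le_pow_right₀ hr1 (by norm_num)
  have h6 : ((scM Pl a X).card : ℝ) * E ≤ 2 * q * E := mul_le_mul_of_nonneg_right hMle' hE0
  have h7 : 2 * q * E = 2 * (4 * n / β ^ 2 + 3 * n / β) * rr q ^ 502 := by
    rw [hE]
    field_simp
  refine (abs_sub_le _ (((scM Pl a X).card : ℝ) * ps) _).trans ?_
  calc _ ≤ 2 * (4 * n / β ^ 2 + 3 * n / β) * rr q ^ 502 + rr q ^ 502 := by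
        refine add_le_add (h2.trans (h6.trans h7.le)) (h4.trans h5)
    _ = _ := by ring

theorem sc_GLs_card {Pl : Plane P L q} {P0 : P} {a : Pl.Prt P0 → P}
    {G : Pl.Prt P0 → Finset L} {b0 b1 : ℝ} (hB : StatsB Pl P0 a G b0 b1) (hq : 1 ≤ q) :
    ((GLs Pl G).card : ℝ) ≤ 4 * q := by
  have h1 : (GLs Pl G).card ≤ 2 * (q + 1) := by
    unfold GLs
    refine Finset.card_biUnion_le.trans ?_
    rw [Finset.sum_congr rfl (fun k _ => hB.card k), Finset.sum_const, Finset.card_univ,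
      Fintype.card_of_subtype (Pl.lns P0) (fun x => Iff.rfl), Pl.card_lns, smul_eq_mul]
    omega
  have h2 : ((GLs Pl G).card : ℝ) ≤ 2 * ((q : ℝ) + 1) := by exact_mod_cast h1
  have hQ : (1 : ℝ) ≤ (q : ℝ) := by exact_mod_cast hq
  linarith

theorem sc_reg_bad {Pl : Plane P L q} {P0 : P} {a : Pl.Prt P0 → P}
    {G : Pl.Prt P0 → Finset L} {n : ℕ} {b0 b1 β : ℝ}
    (hB : StatsB Pl P0 a G b0 b1)
    (hβ : 0 < β) (hb0 : β ≤ b0) (hq : 1 ≤ q)
    (hr : rr q ^ 502 ≤ β * q / 2) (hn : (n : ℝ) ≤ β * q / 2) (X : P) :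
    (((Fintype.piFinset (scT Pl G n)).filter (fun ω => rr q ^ 503 / 4 ≤
      |(scF Pl a X ω : ℝ) - avg (scT Pl G n) (fun ω => (scF Pl a X ω : ℝ))|)).card : ℝ) ≤
      2 * Real.exp (-(rr q ^ 6 / (128 * ((n : ℝ) ^ 2 + 1)))) *
        ((Fintype.piFinset (scT Pl G n)).card : ℝ) := by
  have hQ : (1 : ℝ) ≤ (q : ℝ) := by exact_mod_cast hq
  have hQ0 : (0 : ℝ) < (q : ℝ) := by linarith
  have hav : ∀ l ∈ GLs Pl G, β * q / 2 ≤ ((av Pl G l).card : ℝ) := sc_av_ge hB hb0 hr
  have hn' : ∀ l ∈ GLs Pl G, n ≤ (av Pl G l).card := by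
    intro l hl
    have := hn.trans (hav l hl)
    exact_mod_cast this
  have hG := sc_GLs_card hB hq
  have hV : ∑ l : L, (if l ∈ GLs Pl G then (n : ℝ) else 0) ^ 2 ≤ 4 * ((n : ℝ) ^ 2 + 1) * q := by
    have h1 : ∑ l : L, (if l ∈ GLs Pl G then (n : ℝ) else 0) ^ 2 =
        ((GLs Pl G).card : ℝ) * (n : ℝ) ^ 2 := by
      rw [← nsmul_eq_mul, ← Finset.sum_const, ← Finset.sum_subset (Finset.subset_univ (GLs Pl G))]
      · exact Finset.sum_congr rfl (fun l hl => by rw [if_pos hl])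
      · intro l _ hl
        rw [if_neg hl]
        norm_num
    rw [h1]
    have h2 : ((GLs Pl G).card : ℝ) * (n : ℝ) ^ 2 ≤ 4 * q * (n : ℝ) ^ 2 :=
      mul_le_mul_of_nonneg_right hG (by positivity)
    nlinarith
  have h := mcdiarmid (scT Pl G n) (scT_nonempty hn') (fun ω => (scF Pl a X ω : ℝ))
    (fun l => if l ∈ GLs Pl G then (n : ℝ) else 0)
    (fun l => by split_ifs <;> positivity)
    (fun ω hω l S hS => scF_lip a X ω hω l S hS) (rr q ^ 503 / 4)
    (4 * ((n : ℝ) ^ 2 + 1) * q) (by have := rr_nonneg q; positivity) hV (by positivity)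
  have e : (rr q ^ 503 / 4) ^ 2 / (2 * (4 * ((n : ℝ) ^ 2 + 1) * q)) =
      rr q ^ 6 / (128 * ((n : ℝ) ^ 2 + 1)) := by
    have e1 : (rr q ^ 503 / 4) ^ 2 = rr q ^ 6 * rr q ^ 1000 / 16 := by ring
    rw [e1, rr_pow]
    field_simp
    ring
  rw [e] at h
  exact h

theorem sc_num1 (K : ℝ) (hK : 0 < K) : ∃ q0 : ℕ, ∀ q : ℕ, q0 ≤ q →
    ((q : ℝ) ^ 2 + q + 1) * (2 * Real.exp (-(rr q ^ 6 / K))) ≤ 1 / 4 := by
  obtain ⟨q1, h1⟩ := log_le_rr 1 one_pos
  obtain ⟨q2, h2⟩ := rr_pow_le (4 * K) 1 6 (by norm_num)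
  refine ⟨max (max q1 q2) 5, fun q hq => ?_⟩
  have hq1 : q1 ≤ q := (le_max_left _ _).trans ((le_max_left _ _).trans hq)
  have hq2 : q2 ≤ q := (le_max_right _ _).trans ((le_max_left _ _).trans hq)
  have hq5 : 5 ≤ q := (le_max_right _ _).trans hq
  have hQ : (5 : ℝ) ≤ (q : ℝ) := by exact_mod_cast hq5
  have hQ0 : (0 : ℝ) < (q : ℝ) := by linarith
  have e1 := h1 q hq1
  have e2 := h2 q hq2
  rw [pow_one] at e2
  have e3 : 4 * Real.log q ≤ rr q ^ 6 / K := by
    rw [le_div_iff₀ hK]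
    nlinarith
  have e4 : Real.exp (-(rr q ^ 6 / K)) ≤ 1 / (q : ℝ) ^ 4 := by
    calc Real.exp (-(rr q ^ 6 / K)) ≤ Real.exp (-(4 * Real.log q)) :=
          Real.exp_le_exp.2 (by linarith)
      _ = 1 / (q : ℝ) ^ 4 := by
          rw [Real.exp_neg, one_div]
          congr 1
          have : (4 : ℝ) * Real.log q = Real.log ((q : ℝ) ^ 4) := by
            rw [Real.log_pow]; norm_num
          rw [this, Real.exp_log (by positivity)]
  calc ((q : ℝ) ^ 2 + q + 1) * (2 * Real.exp (-(rr q ^ 6 / K)))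
      ≤ ((q : ℝ) ^ 2 + q + 1) * (2 * (1 / (q : ℝ) ^ 4)) := by
        apply mul_le_mul_of_nonneg_left _ (by positivity)
        linarith
    _ ≤ (3 * (q : ℝ) ^ 2) * (2 * (1 / (q : ℝ) ^ 4)) := by
        apply mul_le_mul_of_nonneg_right _ (by positivity)
        nlinarith
    _ = 6 / (q : ℝ) ^ 2 := by
        field_simp
        ring
    _ ≤ 1 / 4 := by
        rw [div_le_div_iff₀ (by positivity) (by norm_num)]
        nlinarith

/-- the test statistic -/
def scHit (Pl : Plane P L q) (τ : Test P L) (S : Finset P) (j : L) : Prop :=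
  ∃ Y ∈ S, Y ∉ τ.Y0 ∧ ∃ m ∈ τ.Λ j, Y ∈ Pl.pts m

instance (Pl : Plane P L q) (τ : Test P L) (S : Finset P) : DecidablePred (scHit Pl τ S) :=
  fun j => by unfold scHit; infer_instance

theorem sc_test_surv {Pl : Plane P L q} {P0 : P} {G : Pl.Prt P0 → Finset L} {n : ℕ}
    (τ : Test P L) (ω : L → Finset P) (hω : ω ∈ Fintype.piFinset (scT Pl G n)) :
    τ.surv Pl ((GLs Pl G).biUnion ω) =
      τ.J.filter (fun j => ∀ l, ¬ scHit Pl τ (ω l) j) := by
  unfold Test.surv
  refine Finset.filter_congr ?_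
  intro j _
  constructor
  · intro h l hh
    obtain ⟨Y, hY, hY0, m, hm, hYm⟩ := hh
    by_cases hl : l ∈ GLs Pl G
    · exact hY0 (h m hm Y (Finset.mem_biUnion.2 ⟨l, hl, hY⟩) hYm)
    · have := (scT_mem (Fintype.mem_piFinset.1 hω l)).2.2.2 hl
      rw [this] at hY
      exact Finset.notMem_empty _ hY
  · intro h m hm Y hY hYm
    by_contra hY0
    obtain ⟨l, _, hYl⟩ := Finset.mem_biUnion.1 hY
    exact h l ⟨Y, hYl, hY0, m, hm, hYm⟩

theorem sc_test_bad {Pl : Plane P L q} {P0 : P} {a : Pl.Prt P0 → P}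
    {G : Pl.Prt P0 → Finset L} {n w : ℕ} {b0 b1 β : ℝ}
    (hB : StatsB Pl P0 a G b0 b1)
    (hβ : 0 < β) (hb0 : β ≤ b0) (hq : 1 ≤ q)
    (hr : rr q ^ 502 ≤ β * q / 2) (hn : (n : ℝ) ≤ β * q / 2)
    (hp : 2 * (w * (n / (β * q / 2))) ≤ 1 / 2) (τ : Test P L) (hτ : τ.Valid Pl P0 w)
    (hτG : ∀ j ∈ τ.J, ∀ l ∈ τ.Λ j, l ∉ GLs Pl G) :
    (((Fintype.piFinset (scT Pl G n)).filter (fun ω =>
      ((τ.surv Pl ((GLs Pl G).biUnion ω)).card : ℝ) <
        Real.exp (-(32 * w * n / β)) / 2 * (τ.J.card : ℝ))).card : ℝ) ≤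
      Real.exp (-((Real.exp (-(32 * w * n / β)) / 2 / ((n : ℝ) + 1)) * (τ.J.card : ℝ) /
        (τ.M : ℝ))) * ((Fintype.piFinset (scT Pl G n)).card : ℝ) := by
  have hQ : (1 : ℝ) ≤ (q : ℝ) := by exact_mod_cast hq
  have hQ0 : (0 : ℝ) < (q : ℝ) := by linarith
  have hav : ∀ l ∈ GLs Pl G, β * q / 2 ≤ ((av Pl G l).card : ℝ) := sc_av_ge hB hb0 hr
  have hβq : 0 < β * q / 2 := by positivity
  have hn' : ∀ l ∈ GLs Pl G, n ≤ (av Pl G l).card := by
    intro l hl
    have := hn.trans (hav l hl)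
    exact_mod_cast this
  have hG := sc_GLs_card hB hq
  have hMpos : (0 : ℝ) < (τ.M : ℝ) := by exact_mod_cast hτ.M_pos
  set p : ℝ := w * (n / (β * q / 2)) with hpdef
  have hp0 : 0 ≤ p := by positivity
  have h := lemmaH (scT Pl G n) (scT_nonempty hn') τ.J (fun _ S j => scHit Pl τ S j)
    (((n : ℝ) + 1) * τ.M) (by positivity) ?_ (fun l => if l ∈ GLs Pl G then p else 0) ?_ ?_ ?_
  · have hprod := SC_prod_ge (GLs Pl G) p hp0 hp (4 * q) hG
    have e1 : 4 * p * (4 * (q : ℝ)) = 32 * w * n / β := by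
      rw [hpdef]
      field_simp
      ring
    rw [e1] at hprod
    set Pr : ℝ := ∏ l : L, (1 - 2 * (if l ∈ GLs Pl G then p else 0)) with hPr
    set e : ℝ := Real.exp (-(32 * w * n / β)) with he
    have hJ : (0 : ℝ) ≤ (τ.J.card : ℝ) := Nat.cast_nonneg _
    have h2 : (((Fintype.piFinset (scT Pl G n)).filter (fun ω =>
      ((τ.surv Pl ((GLs Pl G).biUnion ω)).card : ℝ) < e / 2 * (τ.J.card : ℝ))).card : ℝ) ≤
      (((Fintype.piFinset (scT Pl G n)).filter (fun ω =>
        ((τ.J.filter (fun j => ∀ i, ¬ scHit Pl τ (ω i) j)).card : ℝ) ≤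
        Pr / 2 * (τ.J.card : ℝ))).card : ℝ) := by
      have : ((Fintype.piFinset (scT Pl G n)).filter (fun ω =>
          ((τ.surv Pl ((GLs Pl G).biUnion ω)).card : ℝ) < e / 2 * (τ.J.card : ℝ))) ⊆
          ((Fintype.piFinset (scT Pl G n)).filter (fun ω =>
            ((τ.J.filter (fun j => ∀ i, ¬ scHit Pl τ (ω i) j)).card : ℝ) ≤
            Pr / 2 * (τ.J.card : ℝ))) := by
        intro ω hω
        rw [Finset.mem_filter] at hω ⊢
        refine ⟨hω.1, ?_⟩
        have h3 := hω.2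
        rw [sc_test_surv τ ω hω.1] at h3
        refine h3.le.trans ?_
        apply mul_le_mul_of_nonneg_right _ hJ
        linarith
      exact_mod_cast Finset.card_le_card this
    refine h2.trans (h.trans ?_)
    apply mul_le_mul_of_nonneg_right _ (Nat.cast_nonneg _)
    apply Real.exp_le_exp.2
    apply neg_le_neg
    have h4 : e / 2 / ((n : ℝ) + 1) * (τ.J.card : ℝ) / (τ.M : ℝ) =
        e / 2 * (τ.J.card : ℝ) / (((n : ℝ) + 1) * τ.M) := by
      field_simp
    rw [h4]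
    apply div_le_div_of_nonneg_right _ (by positivity)
    apply mul_le_mul_of_nonneg_right _ hJ
    linarith
  · intro l S hS
    have h1 : τ.J.filter (scHit Pl τ S) ⊆
        (S.filter (fun Y => Y ∉ τ.Y0)).biUnion (fun Y =>
          τ.J.filter (fun j => ∃ m ∈ τ.Λ j, Y ∈ Pl.pts m)) := by
      intro j hj
      obtain ⟨hj1, Y, hY, hY0, hm⟩ := Finset.mem_filter.1 hj
      exact Finset.mem_biUnion.2 ⟨Y, Finset.mem_filter.2 ⟨hY, hY0⟩, Finset.mem_filter.2 ⟨hj1, hm⟩⟩
    have h2 : (τ.J.filter (scHit Pl τ S)).card ≤ n * τ.M := by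
      refine (Finset.card_le_card h1).trans (Finset.card_biUnion_le.trans ?_)
      refine (Finset.sum_le_card_nsmul _ _ τ.M ?_).trans ?_
      · intro Y hY
        exact hτ.deg Y (Finset.mem_filter.1 hY).2
      · rw [smul_eq_mul]
        exact Nat.mul_le_mul_right _ ((Finset.card_filter_le _ _).trans (scT_mem hS).2.1)
    have h3 : ((τ.J.filter (scHit Pl τ S)).card : ℝ) ≤ n * τ.M := by exact_mod_cast h2
    calc ((τ.J.filter (scHit Pl τ S)).card : ℝ) ≤ n * τ.M := h3
      _ ≤ ((n : ℝ) + 1) * τ.M := by nlinarith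
  · intro l
    split_ifs
    · exact hp0
    · exact le_rfl
  · intro l
    split_ifs
    · linarith
    · norm_num
  · intro l j hj
    split_ifs with hl
    · have hT : scT Pl G n l = (av Pl G l).powersetCard n := by
        unfold scT; rw [if_pos hl]
      have h1 := SC_card_powerset_hit (av Pl G l) n
        (fun Y => Y ∉ τ.Y0 ∧ ∃ m ∈ τ.Λ j, Y ∈ Pl.pts m) (β * q / 2) hβq (hav l hl)
      rw [← hT] at h1
      refine (le_of_eq ?_).trans (h1.trans ?_)
      · rfl
      · apply mul_le_mul_of_nonneg_right _ (Nat.cast_nonneg _)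
        rw [hpdef]
        apply mul_le_mul_of_nonneg_right _ (by positivity)
        have h2 : ((av Pl G l).filter (fun Y => Y ∉ τ.Y0 ∧ ∃ m ∈ τ.Λ j, Y ∈ Pl.pts m)) ⊆
            (τ.Λ j).image (fun m => Pl.meet m l) := by
          intro Y hY
          obtain ⟨hY1, _, m, hm, hYm⟩ := Finset.mem_filter.1 hY
          have hYl : Y ∈ Pl.pts l := by
            unfold av at hY1
            exact (Finset.mem_filter.1 hY1).1
          have hne : m ≠ l := fun h => hτG j hj m hm (h ▸ hl)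
          rw [Finset.mem_image]
          exact ⟨m, hm, (Pl.meet_unique m l Y hne hYm hYl).symm⟩
        have h3 := (Finset.card_le_card h2).trans (Finset.card_image_le.trans (hτ.card_le j hj))
        exact_mod_cast h3
    · have hT : scT Pl G n l = {∅} := by
        unfold scT; rw [if_neg hl]
      rw [hT, Finset.filter_eq_empty_iff.2]
      · simp
      · intro S hS
        rw [Finset.mem_singleton] at hS
        subst hS
        rintro ⟨Y, hY, _⟩
        exact Finset.notMem_empty _ hY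

theorem sc_sum_W {Pl : Plane P L q} {P0 : P} {G : Pl.Prt P0 → Finset L} (W : Finset P) :
    ∑ l ∈ GLs Pl G, ((W ∩ Pl.pts l).card : ℝ) = ∑ Y ∈ W, (gam Pl G Y : ℝ) := by
  have h : ∑ l ∈ GLs Pl G, (W ∩ Pl.pts l).card = ∑ Y ∈ W, gam Pl G Y := by
    have h1 : ∀ l, (W ∩ Pl.pts l).card = (W.filter (fun Y => Y ∈ Pl.pts l)).card := by
      intro l
      rw [← Finset.filter_mem_eq_inter]
    rw [Finset.sum_congr rfl (fun l _ => h1 l)]
    unfold gam
    simp only [Finset.card_filter]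
    rw [Finset.sum_comm]
  exact_mod_cast h

theorem sc_W_bad {Pl : Plane P L q} {P0 : P} {a : Pl.Prt P0 → P}
    {G : Pl.Prt P0 → Finset L} {n : ℕ} {b0 b1 β : ℝ}
    (hB : StatsB Pl P0 a G b0 b1)
    (hβ : 0 < β) (hb0 : β ≤ b0) (hq : 3 ≤ q)
    (hr : rr q ^ 502 ≤ β * q / 2) (hn : (n : ℝ) ≤ β * q / 2)
    (hr1 : 1 ≤ rr q)
    (hr2 : (6 * n / β * (32 * ((n : ℝ) + 1))) * rr q ^ 135 ≤ rr q ^ 250)
    (W : Finset P) (h : ℝ) (hW : W.card ≤ 3 * q) (hh : rr q ^ 250 ≤ h) :
    (((Fintype.piFinset (scT Pl G n)).filter (fun ω =>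
      h / 2 < (((GLs Pl G).biUnion ω ∩ W).card : ℝ))).card : ℝ) ≤
      Real.exp (-(1 / (32 * ((n : ℝ) + 1)) * h * Real.log q)) *
        ((Fintype.piFinset (scT Pl G n)).card : ℝ) := by
  have hq1 : 1 ≤ q := by omega
  have hQ3 : (3 : ℝ) ≤ (q : ℝ) := by exact_mod_cast hq
  have hQ0 : (0 : ℝ) < (q : ℝ) := by linarith
  have hav : ∀ l ∈ GLs Pl G, β * q / 2 ≤ ((av Pl G l).card : ℝ) := sc_av_ge hB hb0 hr
  have hβq : 0 < β * q / 2 := by positivity
  have hn' : ∀ l ∈ GLs Pl G, n ≤ (av Pl G l).card := by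
    intro l hl
    have := hn.trans (hav l hl)
    exact_mod_cast this
  have hn0 : (0 : ℝ) ≤ (n : ℝ) := Nat.cast_nonneg n
  have hh0 : 0 ≤ h := (pow_nonneg (rr_nonneg q) _).trans hh
  have h1 := lemmaU (scT Pl G n) (scT_nonempty hn') (fun _ S => ∃ y ∈ S, y ∈ W)
    (fun l => if l ∈ GLs Pl G then ((W ∩ Pl.pts l).card : ℝ) * (n / (β * q / 2)) else 0) ?_
    (rr q ^ 125) (h / (2 * ((n : ℝ) + 1))) (one_le_pow₀ hr1)
  · have hsum : ∑ l : L, (if l ∈ GLs Pl G then ((W ∩ Pl.pts l).card : ℝ) * (n / (β * q / 2))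
        else 0) ≤ 6 * n / β * rr q ^ 10 := by
      rw [Finset.sum_ite_mem, Finset.univ_inter, ← Finset.sum_mul, sc_sum_W]
      have h2 : ∑ Y ∈ W, (gam Pl G Y : ℝ) ≤ 3 * q * rr q ^ 10 := by
        refine (Finset.sum_le_card_nsmul _ _ _ (fun Y _ => hB.gam_le Y)).trans ?_
        rw [nsmul_eq_mul]
        apply mul_le_mul_of_nonneg_right _ (pow_nonneg (rr_nonneg q) _)
        exact_mod_cast hW
      calc (∑ Y ∈ W, (gam Pl G Y : ℝ)) * (n / (β * q / 2)) ≤
          (3 * q * rr q ^ 10) * (n / (β * q / 2)) :=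
            mul_le_mul_of_nonneg_right h2 (by positivity)
        _ = 6 * n / β * rr q ^ 10 := by
            field_simp
            ring
    have hlog : Real.log (rr q ^ 125) = 1 / 8 * Real.log q := by
      rw [Real.log_pow]
      unfold rr
      rw [Real.log_rpow hQ0]
      norm_num
      ring
    have hlogq : 1 ≤ Real.log q := by
      rw [Real.le_log_iff_exp_le hQ0]
      linarith [Real.exp_one_lt_d9]
    have hsub : ((Fintype.piFinset (scT Pl G n)).filter (fun ω =>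
        h / 2 < (((GLs Pl G).biUnion ω ∩ W).card : ℝ))) ⊆
        ((Fintype.piFinset (scT Pl G n)).filter (fun ω => h / (2 * ((n : ℝ) + 1)) ≤
          ((univ.filter (fun i => ∃ y ∈ ω i, y ∈ W)).card : ℝ))) := by
      intro ω hω
      rw [Finset.mem_filter] at hω ⊢
      obtain ⟨hω1, hω2⟩ := hω
      refine ⟨hω1, ?_⟩
      have h3 : (GLs Pl G).biUnion ω ∩ W ⊆
          (univ.filter (fun i => ∃ y ∈ ω i, y ∈ W)).biUnion ω := by
        intro y hy
        rw [Finset.mem_inter, Finset.mem_biUnion] at hy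
        obtain ⟨⟨l, _, hyl⟩, hyW⟩ := hy
        exact Finset.mem_biUnion.2 ⟨l, Finset.mem_filter.2 ⟨Finset.mem_univ l, y, hyl, hyW⟩, hyl⟩
      have h4 : ((GLs Pl G).biUnion ω ∩ W).card ≤
          (univ.filter (fun i => ∃ y ∈ ω i, y ∈ W)).card * n := by
        refine (Finset.card_le_card h3).trans (Finset.card_biUnion_le.trans ?_)
        rw [← smul_eq_mul]
        refine Finset.sum_le_card_nsmul _ _ _ ?_
        intro l _
        exact (scT_mem (Fintype.mem_piFinset.1 hω1 l)).2.1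
      have h5 : (((GLs Pl G).biUnion ω ∩ W).card : ℝ) ≤
          ((univ.filter (fun i => ∃ y ∈ ω i, y ∈ W)).card : ℝ) * n := by exact_mod_cast h4
      rw [div_le_iff₀ (by positivity)]
      have h6 : (0 : ℝ) ≤ ((univ.filter (fun i => ∃ y ∈ ω i, y ∈ W)).card : ℝ) :=
        Nat.cast_nonneg _
      nlinarith
    have hcard : (((Fintype.piFinset (scT Pl G n)).filter (fun ω =>
        h / 2 < (((GLs Pl G).biUnion ω ∩ W).card : ℝ))).card : ℝ) ≤
        (((Fintype.piFinset (scT Pl G n)).filter (fun ω => h / (2 * ((n : ℝ) + 1)) ≤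
          ((univ.filter (fun i => ∃ y ∈ ω i, y ∈ W)).card : ℝ))).card : ℝ) := by
      exact_mod_cast Finset.card_le_card hsub
    refine hcard.trans (h1.trans ?_)
    apply mul_le_mul_of_nonneg_right _ (Nat.cast_nonneg _)
    apply Real.exp_le_exp.2
    rw [hlog]
    have hR : 0 ≤ rr q := rr_nonneg q
    have e1 : (rr q ^ 125 - 1) * ∑ l : L, (if l ∈ GLs Pl G then
        ((W ∩ Pl.pts l).card : ℝ) * (n / (β * q / 2)) else 0) ≤
        rr q ^ 125 * (6 * n / β * rr q ^ 10) := by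
      apply mul_le_mul (by linarith) hsum _ (by positivity)
      apply Finset.sum_nonneg
      intro l _
      split_ifs
      · positivity
      · exact le_rfl
    have e2 : rr q ^ 125 * (6 * n / β * rr q ^ 10) = 6 * n / β * rr q ^ 135 := by ring
    have e3 : 6 * n / β * rr q ^ 135 ≤ h / (32 * ((n : ℝ) + 1)) := by
      rw [le_div_iff₀ (by positivity)]
      calc 6 * n / β * rr q ^ 135 * (32 * ((n : ℝ) + 1)) =
          (6 * n / β * (32 * ((n : ℝ) + 1))) * rr q ^ 135 := by ring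
        _ ≤ rr q ^ 250 := hr2
        _ ≤ h := hh
    have e4 : h / (32 * ((n : ℝ) + 1)) ≤ h / (32 * ((n : ℝ) + 1)) * Real.log q :=
      le_mul_of_one_le_right (by positivity) hlogq
    have e5 : h / (2 * ((n : ℝ) + 1)) * (1 / 8 * Real.log q) =
        2 * (h / (32 * ((n : ℝ) + 1)) * Real.log q) := by
      field_simp
      ring
    have e6 : 1 / (32 * ((n : ℝ) + 1)) * h * Real.log q =
        h / (32 * ((n : ℝ) + 1)) * Real.log q := by ring
    rw [e5, e6]
    linarith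
  · intro l
    split_ifs with hl
    · have hT : scT Pl G n l = (av Pl G l).powersetCard n := by
        unfold scT; rw [if_pos hl]
      have h1 := SC_card_powerset_hit (av Pl G l) n (fun Y => Y ∈ W) (β * q / 2) hβq (hav l hl)
      rw [← hT] at h1
      refine h1.trans ?_
      apply mul_le_mul_of_nonneg_right _ (Nat.cast_nonneg _)
      apply mul_le_mul_of_nonneg_right _ (by positivity)
      have h2 : (av Pl G l).filter (fun Y => Y ∈ W) ⊆ W ∩ Pl.pts l := by
        intro Y hY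
        obtain ⟨hY1, hY2⟩ := Finset.mem_filter.1 hY
        rw [Finset.mem_inter]
        refine ⟨hY2, ?_⟩
        unfold av at hY1
        exact (Finset.mem_filter.1 hY1).1
      exact_mod_cast Finset.card_le_card h2
    · have hT : scT Pl G n l = {∅} := by
        unfold scT; rw [if_neg hl]
      rw [hT, Finset.filter_eq_empty_iff.2]
      · simp
      · intro S hS
        rw [Finset.mem_singleton] at hS
        subst hS
        rintro ⟨Y, hY, _⟩
        exact Finset.notMem_empty _ hY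

end SCplane

/-- SC. For each of the 2(q+1) G-lines l choose `Qs l` uniform in `powersetCard n (av G l)`, independent.
|av G l| = b0 q ± r^502 ≥ β q/2.  For a line m with no base point (so not a G-line, not through P0), the events
`m avoids Qs l` have probability 1 - n/|av G l| if meet m l ∈ av G l and 1 otherwise; #{l : meet m l ∈ av G l} =
|av G m| = b1 q ± r^502.  So P(m avoids all Qs (except possibly a given X ∈ m)) = p* ± C r^-498 with the same p* for
all m.  For X not a base point, the number of m through X without base points is eJ a X 0 = α0 q ± r^501, so the mean of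
F_X := #{m ∋ X : P0 ∉ m, no base point on m, no Q-point on m except possibly X} is α0 p* q ± C r^502; changing one
coordinate changes F_X by ≤ 2n; McDiarmid; |LX X| = F_X if X ∉ B.
Tests: lemmaH, hit l S j := ∃ X ∈ S, X ∉ Y0, ∃ m ∈ Λ j, X ∈ m; p = n w/|av G l|, M' = n M (here the lines in Λ j are not
G-lines).  W: lemmaU with θ = q^(1/8) for #{l : Qs l ∩ W ≠ ∅} ≥ h/(2n), p l = n |W ∩ l|/|av G l|,
∑_l |W ∩ l| = ∑_{Y ∈ W} gam Y ≤ 3 q r^10. -/
theorem stageC (n w : ℕ) (β : ℝ) (hβ : 0 < β) : ∃ cC > (0 : ℝ), ∃ csC > (0 : ℝ), ∃ q0 : ℕ, ∀ (q : ℕ), q0 ≤ q → ∀ (P L : Type) [Fintype P] [Fintype L] [DecidableEq P]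
      [DecidableEq L] (Pl : Plane P L q) (P0 : P)
      (a : Pl.Prt P0 → P) (G : Pl.Prt P0 → Finset L) (b0 b1 : ℝ), StatsA Pl P0 a →
      StatsB Pl P0 a G b0 b1 → β ≤ b0 → b0 ≤ 1 → 0 ≤ b1 → b1 ≤ 2 →
      ∀ (ι : Type) [Fintype ι] (T : ι → Test P L) (κ : Type) [Fintype κ] (W : κ → Finset P)
      (h : κ → ℝ), TClass Pl P0 w csC T → WClass q csC W h →
      (∀ i, ∀ j ∈ (T i).J, ∀ l ∈ (T i).Λ j, l ∉ GLs Pl G) →
      ∃ Qs : L → Finset P, StatsC Pl P0 a G n Qs ∧
        (∀ i, cC * ((T i).J.card : ℝ) ≤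
          (((T i).surv Pl ((GLs Pl G).biUnion Qs)).card : ℝ)) ∧
        (∀ k, (((GLs Pl G).biUnion Qs ∩ W k).card : ℝ) ≤ h k / 2) := by
  set cC : ℝ := Real.exp (-(32 * w * n / β)) / 2 with hcC
  have hcC0 : 0 < cC := by rw [hcC]; positivity
  set cs : ℝ := min (cC / ((n : ℝ) + 1)) (1 / (32 * ((n : ℝ) + 1))) with hcs
  have hcs0 : 0 < cs := by
    rw [hcs]
    apply lt_min <;> positivity
  set D : ℝ := 2 * (4 * n / β ^ 2 + 3 * n / β) + 1 with hD
  obtain ⟨q1, hq1⟩ := rr_pow_le (2 / β) 502 1000 (by norm_num)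
  obtain ⟨q2, hq2⟩ := rr_large (max 1 (max (4 * D) (max (2 * n / β) (8 * w * n / β))))
  obtain ⟨q3, hq3⟩ := sc_num1 (128 * ((n : ℝ) ^ 2 + 1)) (by positivity)
  obtain ⟨q4, hq4⟩ := rr_pow_le (6 * n / β * (32 * ((n : ℝ) + 1))) 135 250 (by norm_num)
  refine ⟨cC, hcC0, cs, hcs0, max (max q1 q2) (max (max q3 q4) 3), ?_⟩
  intro q hq P L _ _ _ _ Pl P0 a G b0 b1 hA hB hb0 hb0' hb1 hb1' ι _ T κ _ W h hT hW hTG
  have hqq1 : q1 ≤ q := by
    exact ((le_max_left _ _).trans (le_max_left _ _)).trans hq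
  have hqq2 : q2 ≤ q := ((le_max_right _ _).trans (le_max_left _ _)).trans hq
  have hqq3 : q3 ≤ q :=
    (((le_max_left _ _).trans (le_max_left _ _)).trans (le_max_right _ _)).trans hq
  have hqq4 : q4 ≤ q :=
    (((le_max_right _ _).trans (le_max_left _ _)).trans (le_max_right _ _)).trans hq
  have hqq5 : 3 ≤ q := ((le_max_right _ _).trans (le_max_right _ _)).trans hq
  have e1 := hq1 q hqq1
  have e2 := hq2 q hqq2
  have e3 := hq3 q hqq3
  have e4 := hq4 q hqq4
  have hr1 : 1 ≤ rr q := (le_max_left _ _).trans e2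
  have hr4D : 4 * D ≤ rr q := ((le_max_left _ _).trans (le_max_right _ _)).trans e2
  have hrn : 2 * n / β ≤ rr q :=
    (((le_max_left _ _).trans (le_max_right _ _)).trans (le_max_right _ _)).trans e2
  have hrw : 8 * w * n / β ≤ rr q :=
    (((le_max_right _ _).trans (le_max_right _ _)).trans (le_max_right _ _)).trans e2
  have hQ3 : (3 : ℝ) ≤ (q : ℝ) := by exact_mod_cast hqq5
  have hQ0 : (0 : ℝ) < (q : ℝ) := by linarith
  have hrQ : rr q ≤ q := by
    rw [← rr_pow q]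
    exact le_self_pow₀ hr1 (by norm_num)
  have hr : rr q ^ 502 ≤ β * q / 2 := by
    rw [rr_pow] at e1
    rw [div_mul_eq_mul_div, div_le_iff₀ hβ] at e1
    linarith
  have hn : (n : ℝ) ≤ β * q / 2 := by
    have := hrn.trans hrQ
    rw [div_le_iff₀ hβ] at this
    linarith
  have hp : 2 * (w * (n / (β * q / 2))) ≤ 1 / 2 := by
    have h1 := hrw.trans hrQ
    rw [div_le_iff₀ hβ] at h1
    have h2 : 2 * ((w : ℝ) * (n / (β * q / 2))) = 4 * w * n / (β * q) := by
      field_simp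
      ring
    rw [h2, div_le_iff₀ (by positivity)]
    linarith
  have hqone : 1 ≤ q := by omega
  set Ω := Fintype.piFinset (scT Pl G n) with hΩ
  have hβq : 0 < β * q / 2 := by positivity
  have hav : ∀ l ∈ GLs Pl G, β * q / 2 ≤ ((av Pl G l).card : ℝ) := sc_av_ge hB hb0 hr
  have hn' : ∀ l ∈ GLs Pl G, n ≤ (av Pl G l).card := by
    intro l hl
    have := hn.trans (hav l hl)
    exact_mod_cast this
  have hΩpos : (0 : ℝ) < (Ω.card : ℝ) := by
    have : Ω.Nonempty := Fintype.piFinset_nonempty.2 (scT_nonempty hn')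
    exact_mod_cast Finset.card_pos.2 this
  classical
  set B1 : Finset (L → Finset P) := (univ : Finset P).biUnion (fun X => Ω.filter (fun ω =>
    rr q ^ 503 / 4 ≤ |(scF Pl a X ω : ℝ) - avg (scT Pl G n) (fun ω => (scF Pl a X ω : ℝ))|))
    with hB1
  set B2 : Finset (L → Finset P) := (univ : Finset ι).biUnion (fun i => Ω.filter (fun ω =>
      (((T i).surv Pl ((GLs Pl G).biUnion ω)).card : ℝ) < cC * ((T i).J.card : ℝ))) with hB2
  set B3 : Finset (L → Finset P) := (univ : Finset κ).biUnion (fun k => Ω.filter (fun ω =>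
      h k / 2 < (((GLs Pl G).biUnion ω ∩ W k).card : ℝ))) with hB3
  have c1 : (B1.card : ℝ) ≤ 1 / 4 * (Ω.card : ℝ) := by
    have h1 : (B1.card : ℝ) ≤ ∑ X : P, ((Ω.filter (fun ω => rr q ^ 503 / 4 ≤
        |(scF Pl a X ω : ℝ) - avg (scT Pl G n) (fun ω => (scF Pl a X ω : ℝ))|)).card : ℝ) := by
      exact_mod_cast Finset.card_biUnion_le
    refine h1.trans ((Finset.sum_le_card_nsmul _ _ _ (fun X _ =>
      sc_reg_bad hB hβ hb0 hqone hr hn X)).trans ?_)
    rw [Finset.card_univ, Pl.card_P, nsmul_eq_mul, ← mul_assoc]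
    apply mul_le_mul_of_nonneg_right _ hΩpos.le
    push_cast
    exact e3
  have c2 : (B2.card : ℝ) ≤ 1 / 4 * (Ω.card : ℝ) := by
    have h1 : (B2.card : ℝ) ≤ ∑ i : ι, ((Ω.filter (fun ω =>
        (((T i).surv Pl ((GLs Pl G).biUnion ω)).card : ℝ) < cC * ((T i).J.card : ℝ))).card : ℝ) := by
      exact_mod_cast Finset.card_biUnion_le
    have h2 : ∑ i : ι, ((Ω.filter (fun ω =>
        (((T i).surv Pl ((GLs Pl G).biUnion ω)).card : ℝ) < cC * ((T i).J.card : ℝ))).card : ℝ) ≤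
        ∑ i : ι, Real.exp (-(cs * ((T i).J.card : ℝ) / ((T i).M : ℝ))) * (Ω.card : ℝ) := by
      refine Finset.sum_le_sum ?_
      intro i _
      have h3 := sc_test_bad hB hβ hb0 hqone hr hn hp (T i) (hT.valid i) (hTG i)
      refine h3.trans ?_
      apply mul_le_mul_of_nonneg_right _ hΩpos.le
      apply Real.exp_le_exp.2
      apply neg_le_neg
      apply div_le_div_of_nonneg_right _ (Nat.cast_nonneg _)
      apply mul_le_mul_of_nonneg_right _ (Nat.cast_nonneg _)
      exact min_le_left _ _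
    refine h1.trans (h2.trans ?_)
    rw [← Finset.sum_mul]
    exact mul_le_mul_of_nonneg_right hT.sum_le hΩpos.le
  have c3 : (B3.card : ℝ) ≤ 1 / 4 * (Ω.card : ℝ) := by
    have h1 : (B3.card : ℝ) ≤ ∑ k : κ, ((Ω.filter (fun ω =>
        h k / 2 < (((GLs Pl G).biUnion ω ∩ W k).card : ℝ))).card : ℝ) := by
      exact_mod_cast Finset.card_biUnion_le
    have hlog : 0 ≤ Real.log q := Real.log_nonneg (by linarith)
    have h2 : ∑ k : κ, ((Ω.filter (fun ω =>
        h k / 2 < (((GLs Pl G).biUnion ω ∩ W k).card : ℝ))).card : ℝ) ≤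
        ∑ k : κ, Real.exp (-(cs * h k * Real.log q)) * (Ω.card : ℝ) := by
      refine Finset.sum_le_sum ?_
      intro k _
      have h3 := sc_W_bad (n := n) hB hβ hb0 hqq5 hr hn hr1 e4 (W k) (h k) (hW.card_le k)
        (hW.h_ge k)
      refine h3.trans ?_
      apply mul_le_mul_of_nonneg_right _ hΩpos.le
      apply Real.exp_le_exp.2
      apply neg_le_neg
      apply mul_le_mul_of_nonneg_right _ hlog
      apply mul_le_mul_of_nonneg_right _ ((pow_nonneg (rr_nonneg q) _).trans (hW.h_ge k))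
      exact min_le_right _ _
    refine h1.trans (h2.trans ?_)
    rw [← Finset.sum_mul]
    exact mul_le_mul_of_nonneg_right hW.sum_le hΩpos.le
  have hex : ∃ ω ∈ Ω, ω ∉ B1 ∧ ω ∉ B2 ∧ ω ∉ B3 := by
    by_contra hcon
    push Not at hcon
    have hsub : Ω ⊆ B1 ∪ (B2 ∪ B3) := by
      intro ω hω
      by_cases h1 : ω ∈ B1
      · exact Finset.mem_union_left _ h1
      · by_cases h2 : ω ∈ B2
        · exact Finset.mem_union_right _ (Finset.mem_union_left _ h2)
        · exact Finset.mem_union_right _ (Finset.mem_union_right _ (hcon ω hω h1 h2))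
    have h1 := (Finset.card_le_card hsub).trans (Finset.card_union_le _ _)
    have h2 := Finset.card_union_le B2 B3
    have h3 : (Ω.card : ℝ) ≤ (B1.card : ℝ) + ((B2.card : ℝ) + (B3.card : ℝ)) := by
      exact_mod_cast h1.trans (Nat.add_le_add_left h2 _)
    linarith
  obtain ⟨ω, hω, hω1, hω2, hω3⟩ := hex
  refine ⟨ω, ⟨?_, ?_, ?_⟩, ?_, ?_⟩
  · intro l _
    exact (scT_mem (Fintype.mem_piFinset.1 hω l)).1
  · intro l hl
    exact (scT_mem (Fintype.mem_piFinset.1 hω l)).2.2.1 hl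
  · refine ⟨q * (1 - 1 / (q : ℝ)) ^ q * (1 - n / (b0 * q)) ^ ⌊b1 * (q : ℝ)⌋₊, ?_⟩
    intro X hX hX0
    rw [scF_eq_LX a X ω hω hX]
    have hXa : X ∉ univ.image a := fun h => hX (Finset.mem_union_left _ h)
    have hm := sc_mean (n := n) hA hB hβ hb0 hb1 hqone hr hn hr1 X hXa hX0
    have hb : ¬ (rr q ^ 503 / 4 ≤
        |(scF Pl a X ω : ℝ) - avg (scT Pl G n) (fun ω => (scF Pl a X ω : ℝ))|) := by
      intro hb
      apply hω1
      rw [hB1, Finset.mem_biUnion]
      exact ⟨X, Finset.mem_univ X, Finset.mem_filter.2 ⟨hω, hb⟩⟩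
    push Not at hb
    have h503 : D * rr q ^ 502 ≤ rr q ^ 503 / 4 := by
      have h1 : 4 * D * rr q ^ 502 ≤ rr q * rr q ^ 502 :=
        mul_le_mul_of_nonneg_right hr4D (pow_nonneg (rr_nonneg q) _)
      have h2 : rr q * rr q ^ 502 = rr q ^ 503 := by ring
      linarith
    have h1 := abs_sub_le (scF Pl a X ω : ℝ) (avg (scT Pl G n) (fun ω => (scF Pl a X ω : ℝ)))
      (q * (1 - 1 / (q : ℝ)) ^ q * (1 - n / (b0 * q)) ^ ⌊b1 * (q : ℝ)⌋₊)
    rw [← hD] at hm
    linarith
  · intro i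
    by_contra hcon
    push Not at hcon
    apply hω2
    rw [hB2, Finset.mem_biUnion]
    exact ⟨i, Finset.mem_univ i, Finset.mem_filter.2 ⟨hω, hcon⟩⟩
  · intro k
    by_contra hcon
    push Not at hcon
    apply hω3
    rw [hB3, Finset.mem_biUnion]
    exact ⟨k, Finset.mem_univ k, Finset.mem_filter.2 ⟨hω, hcon⟩⟩

end Crest.Agent.Ryser
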