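import Crest.Agent.Ryser.SDaux

/-! Row 34, chunk SD: stage D of the random construction (special lines, general position). -/

set_option autoImplicit false

open Finset

namespace Crest.Agent.Ryser

namespace SDaux

variable {P L : Type} [Fintype P] [Fintype L] [DecidableEq P] [DecidableEq L] {q : ℕ}
variable {Pl : Plane P L q} {P0 : P} {n : ℕ} (C : PreConfig Pl P0 n)

/-- the configuration given by good tuples -/
def mkC (ω : Pl.Prt P0 → Fin n → L) (hA : ∀ i t, ω i t ∈ A C i t) (hG : ∀ i, Good C i (ω i)) :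
    Config Pl P0 n where
  toPreConfig := C
  mu := ω
  mu_mem := fun i t => A_base C (hA i t)
  mu_P0 := fun i t => A_P0 C (hA i t)
  mu_inj := fun i t t' h => by
    by_contra hne
    exact (hG i).1 t t' hne h
  mu_ne_g := fun i t b => A_ne_g C (hA i t) b
  mu_ban := fun i t X hX hXm => m_ban C (hA i t) hX hXm
  sigma_ban := fun i b s t X hst hX hXm =>
    sg_ban C (hA i t) hst (fun u => (hG i).2.1 b s t u hst) hX hXm

variable {ω : Pl.Prt P0 → Fin n → L} (hA : ∀ i t, ω i t ∈ A C i t) (hG : ∀ i, Good C i (ω i))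

include hA in
theorem spec_rep {x : P × L} (hx : x ∈ (mkC C ω hA hG).spec) :
    ∃ i b s t, s ≠ some t ∧ x = (bp C i b s, ln C i b s t (ω i t)) := by
  rcases mem_union.mp hx with h | h
  · obtain ⟨y, _, hy⟩ := mem_image.mp h
    exact ⟨y.1, true, none, y.2, by simp, hy.symm⟩
  · obtain ⟨y, hy, hy'⟩ := mem_image.mp h
    refine ⟨y.1, y.2.1, some y.2.2.1, y.2.2.2, ?_, hy'.symm⟩
    have := (mem_filter.mp hy).2
    intro e
    exact this (Option.some.inj e)

include hA in
/-- general position for a G-line -/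
theorem GP_G (i : Pl.Prt P0) (b : Bool) {Y : P} (hY : Y ∉ Pl.pts (C.g i b))
    (hn : ∀ t, Y ≠ C.Rof i (ω i t) b t) :
    ((mkC C ω hA hG).spec.filter (fun x => x.1 ∈ Pl.pts (C.g i b) ∧ Y ∈ Pl.pts x.2)).card ≤ 2 := by
  set F := (mkC C ω hA hG).spec.filter (fun x => x.1 ∈ Pl.pts (C.g i b) ∧ Y ∈ Pl.pts x.2) with hF
  have hrep : ∀ x ∈ F, ∃ s t, s ≠ some t ∧ x = (bp C i b s, ln C i b s t (ω i t)) := by
    intro x hx
    rw [hF, mem_filter] at hx
    obtain ⟨j, b', s, t, hst, hxe⟩ := spec_rep C hA hG hx.1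
    have h1 : bp C j b' s ∈ C.ban := own_sub_ban C j (bp_mem_own C j b' s)
    have h2 : bp C j b' s ∈ Pl.pts (C.g i b) := by
      have := hx.2.1
      rw [hxe] at this
      exact this
    have h3 := ban_g C h1 h2
    cases s with
    | none =>
      have hij : j = i := by
        rcases h3 with h | ⟨u, h⟩
        · exact base_inj C h
        · exact absurd h.symm (Q_ne_base' C i j b u)
      subst hij
      exact ⟨none, t, by simp, hxe⟩
    | some s =>
      have hij : j = i ∧ b' = b := by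
        rcases h3 with h | ⟨u, h⟩
        · exact absurd h (Q_ne_base' C j i b' s)
        · have := Q_inj' C h
          exact ⟨this.1, this.2.1⟩
      obtain ⟨rfl, rfl⟩ := hij
      exact ⟨some s, t, hst, hxe⟩
  by_contra hcon
  push Not at hcon
  obtain ⟨x1, hx1, x2, hx2, x3, hx3, h12, h13, h23⟩ := two_lt_card.mp hcon
  have hY1 := (mem_filter.mp hx1).2.2
  have hY2 := (mem_filter.mp hx2).2.2
  have hY3 := (mem_filter.mp hx3).2.2
  obtain ⟨s1, t1, hs1, e1⟩ := hrep x1 hx1
  obtain ⟨s2, t2, hs2, e2⟩ := hrep x2 hx2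
  obtain ⟨s3, t3, hs3, e3⟩ := hrep x3 hx3
  have hYbp : ∀ s, Y ≠ bp C i b s := fun s h => hY (by rw [h]; exact bp_mem_g C i b s)
  -- distinct pairs have distinct banned points
  have hss : ∀ {s s' : Option (Fin n)} {t t' : Fin n} {x x' : P × L},
      Y ∈ Pl.pts x.2 → Y ∈ Pl.pts x'.2 → x = (bp C i b s, ln C i b s t (ω i t)) →
      x' = (bp C i b s', ln C i b s' t' (ω i t')) → x ≠ x' → s ≠ s' := by
    rintro s s' t t' x x' h h' rfl rfl hne rfl
    refine hne (Prod.ext rfl ?_)
    exact Pl.line_eq_of_two (hYbp s) h h' (bp_mem_ln C (hA i t) b s) (bp_mem_ln C (hA i t') b s)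
  -- distinct lines
  have hll : ∀ {s s' : Option (Fin n)} {t t' : Fin n}, s ≠ s' →
      ln C i b s t (ω i t) ≠ ln C i b s' t' (ω i t') := by
    intro s s' t t' hne he
    refine ln_ne_g C (hA i t) b s ?_
    refine Pl.line_eq_of_two (fun h => hne (bp_inj C i b h)) (bp_mem_ln C (hA i t) b s)
      (bp_mem_g C i b s) ?_ (bp_mem_g C i b s')
    rw [he]
    exact bp_mem_ln C (hA i t') b s'
  -- distinct indices
  have htt : ∀ {s s' : Option (Fin n)} {t t' : Fin n}, s ≠ s' →
      Y ∈ Pl.pts (ln C i b s t (ω i t)) → Y ∈ Pl.pts (ln C i b s' t' (ω i t')) → t ≠ t' := by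
    rintro s s' t t' hne h h' rfl
    exact hll hne (Pl.line_eq_of_two (hn t) h h' (R_mem_ln C (hA i t) b s)
      (R_mem_ln C (hA i t) b s'))
  have g12 := hss hY1 hY2 e1 e2 h12
  have g13 := hss hY1 hY3 e1 e3 h13
  have g23 := hss hY2 hY3 e2 e3 h23
  rw [e1] at hY1
  rw [e2] at hY2
  rw [e3] at hY3
  exact (hG i).2.2.2 b s1 s2 s3 t1 t2 t3 (htt g13 hY1 hY3).symm (htt g23 hY2 hY3).symm hs3
    (hll g12) Y hY hY1 hY2 hY3

theorem K_inter (i : Pl.Prt P0) (b : Bool) {l : L} (hl : l ≠ C.g i b) :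
    (C.K i b ∩ Pl.pts l).card ≤ 1 := by
  rw [card_le_one]
  intro X hX Y hY
  rw [mem_inter] at hX hY
  have hK : ∀ Z ∈ C.K i b, Z ∈ Pl.pts (C.g i b) := by
    intro Z hZ
    rcases mem_insert.mp hZ with h | h
    · rw [h]; exact C.g_mem i b
    · obtain ⟨t, _, rfl⟩ := mem_image.mp h
      exact C.Q_mem i b t
  exact Pl.eq_of_mem_two hl hX.2 (hK X hX.1) hY.2 (hK Y hY.1)

theorem own_inter (i : Pl.Prt P0) {l : L} (hl : ∀ b, l ≠ C.g i b) :
    (C.own i ∩ Pl.pts l).card ≤ 2 := by
  have h : C.own i ∩ Pl.pts l = (C.K i true ∩ Pl.pts l) ∪ (C.K i false ∩ Pl.pts l) := by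
    rw [PreConfig.own, union_inter_distrib_right]
  rw [h]
  refine (card_union_le _ _).trans ?_
  have h1 := K_inter C i true (hl true)
  have h2 := K_inter C i false (hl false)
  omega

open Classical in
include hA in
theorem GP_gen {l : L} {Y : P} (hY : Y ∉ Pl.pts l) (hl : ∀ i b, l ≠ C.g i b)
    (hh : (univ.filter (fun i => hit C l Y i (ω i))).card ≤ 5) :
    ((mkC C ω hA hG).spec.filter (fun x => x.1 ∈ Pl.pts l ∧ Y ∈ Pl.pts x.2)).card ≤ 10 := by
  set F := (mkC C ω hA hG).spec.filter (fun x => x.1 ∈ Pl.pts l ∧ Y ∈ Pl.pts x.2) with hF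
  have hinj : Set.InjOn (fun x : P × L => x.1) (F : Set (P × L)) := by
    intro x hx y hy hxy
    rw [mem_coe, hF, mem_filter] at hx hy
    obtain ⟨i, b, s, t, _, ex⟩ := spec_rep C hA hG hx.1
    obtain ⟨j, b', s', t', _, ey⟩ := spec_rep C hA hG hy.1
    have hx1 : x.1 ∈ Pl.pts x.2 := by rw [ex]; exact bp_mem_ln C (hA i t) b s
    have hy1 : y.1 ∈ Pl.pts y.2 := by rw [ey]; exact bp_mem_ln C (hA j t') b' s'
    have hne : Y ≠ x.1 := fun h => hY (by rw [h]; exact hx.2.1)
    have hxy' : x.1 = y.1 := hxy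
    refine Prod.ext hxy' (Pl.line_eq_of_two hne hx.2.2 hy.2.2 hx1 ?_)
    rw [hxy']; exact hy1
  have hcard : F.card = (F.image (fun x : P × L => x.1)).card := (card_image_of_injOn hinj).symm
  have hsub : F.image (fun x : P × L => x.1) ⊆
      (univ.filter (fun i => hit C l Y i (ω i))).biUnion (fun i => C.own i ∩ Pl.pts l) := by
    intro X hX
    obtain ⟨x, hx, rfl⟩ := mem_image.mp hX
    rw [hF, mem_filter] at hx
    obtain ⟨i, b, s, t, hst, ex⟩ := spec_rep C hA hG hx.1
    rw [mem_biUnion]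
    refine ⟨i, mem_filter.mpr ⟨mem_univ i, (b, s, t), hst, ?_, ?_⟩, mem_inter.mpr ⟨?_, hx.2.1⟩⟩
    · have := hx.2.1
      rw [ex] at this
      exact this
    · have := hx.2.2
      rw [ex] at this
      exact this
    · rw [ex]; exact bp_mem_own C i b s
  rw [hcard]
  refine (card_le_card hsub).trans (card_biUnion_le.trans ?_)
  refine (sum_le_card_nsmul _ _ 2 fun i _ => own_inter C i (hl i)).trans ?_
  rw [smul_eq_mul]
  omega

open Classical in
theorem final (hA : ∀ i t, ω i t ∈ A C i t) (hG : ∀ i, Good C i (ω i))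
    (hh : ∀ l Y, Y ∉ Pl.pts l → (univ.filter (fun i => hit C l Y i (ω i))).card ≤ 5) :
    ∃ C' : Config Pl P0 n, C'.toPreConfig = C ∧ C'.GP := by
  refine ⟨mkC C ω hA hG, rfl, ?_, ?_⟩
  · intro l Y hY hn
    by_cases hg : ∃ i b, l = C.g i b
    · obtain ⟨i, b, rfl⟩ := hg
      refine (GP_G C hA hG i b hY (fun t h => hn i b t ⟨rfl, h⟩)).trans (by norm_num)
    · push Not at hg
      exact GP_gen C hA hG hY hg (hh l Y hY)
  · intro i b t s t' h1 h2
    exact (hG i).2.2.1 b t s t' h1 h2

end SDaux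

open SDaux in
/-- SD. Valid choices for (i,t): m in J of dTest surviving, and such that moreover the lines of Lam i t m contain no own
banned point besides their defining one (excludes ≤ 4n² + … m's): ≥ c q/2 choices.  Own general position: choose
m_1,…,m_n greedily such that moreover no line of `{m_t} ∪ {sigma b s t}` passes, off g i b, through an intersection point of two
earlier lines of the same b-family (O(n^5) exclusions), R i b t is on no earlier line, no new line passes through an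
earlier R (this gives the second part of GP): then for Y ∉ g i b,
Y ≠ R i b t', at most 2 lines of the b-family {mu t} ∪ {sigma b s t : s ≠ t} pass through Y.  The set 𝒯_i of good tuples has ≥ (cq/4)^n
elements.  Choose the tuples independently uniformly.  For a line l and Y ∉ l, l not a G-line: gadget i has at most 2
banned points on l, so contributes ≤ 2 special pairs; it contributes with probability ≤ C/q, and only if it has a banned point on l
(≤ r^300 gadgets), so P(≥ 6 gadgets contribute) ≤ (C r^300/q)^6, union over (q²+q+1)² pairs.  For l = g i b only gadget i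
has banned points on l: own general position (the exceptional Y = R i b t are exempt in GP; the pairs with banned point
base i and Q i b s count). -/
theorem stageD (n : ℕ) (hn : 2 ≤ n) (c : ℝ) (hc : 0 < c) : ∃ q0 : ℕ, ∀ (q : ℕ), q0 ≤ q → ∀ (P L : Type) [Fintype P] [Fintype L] [DecidableEq P]
      [DecidableEq L] (Pl : Plane P L q) (P0 : P) (C0 : PreConfig Pl P0 n),
      (∀ i t, (C0.dTest i t).Rich Pl C0.ban c) →
      (∀ l, ((C0.ban ∩ Pl.pts l).card : ℝ) ≤ rr q ^ 300) →
      ∃ C : Config Pl P0 n, C.toPreConfig = C0 ∧ C.GP := by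
  classical
  set C1 : ℝ := 4 * (hN n : ℝ) / c with hC1
  have hC1nn : 0 ≤ C1 := by positivity
  obtain ⟨q1, hq1⟩ := rr_large (max 1 (9 * Real.exp C1 + 1))
  obtain ⟨q2, hq2⟩ := exists_nat_gt (4 * (Fintype.card (Ev n) : ℝ) / c)
  refine ⟨max q1 (max q2 4), ?_⟩
  intro q hq P L _ _ _ _ Pl P0 C hR hban
  have hr := hq1 q ((le_max_left _ _).trans hq)
  have hr1 : 1 ≤ rr q := (le_max_left _ _).trans hr
  have hr2 : 9 * Real.exp C1 + 1 ≤ rr q := (le_max_right _ _).trans hr
  have hq4 : 4 ≤ q := (le_max_right _ _).trans ((le_max_right _ _).trans hq)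
  have hq2' : q2 ≤ q := (le_max_left _ _).trans ((le_max_right _ _).trans hq)
  have hq4' : (4 : ℝ) ≤ q := by exact_mod_cast hq4
  have hqpos : (0 : ℝ) < q := by linarith
  set α0 : ℝ := c * q / 2 with hα0
  have hα : 0 < α0 := by positivity
  have hB : ∀ i t, α0 ≤ ((A C i t).card : ℝ) := by
    intro i t
    refine le_trans ?_ (A_card C hc.le i t (hR i t))
    rw [hα0]
    nlinarith
  have hEN : 2 * (Fintype.card (Ev n) : ℝ) ≤ α0 := by
    have h1 : 4 * (Fintype.card (Ev n) : ℝ) / c < q :=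
      lt_of_lt_of_le hq2 (by exact_mod_cast hq2')
    rw [div_lt_iff₀ hc] at h1
    rw [hα0]
    linarith
  -- the probability space
  set T : Pl.Prt P0 → Finset (Fin n → L) :=
    fun i => (Fintype.piFinset (A C i)).filter (Good C i) with hT
  have hTne : ∀ i, (T i).Nonempty := by
    intro i
    rw [← card_pos]
    have h1 := good_card C i hα (hB i) hEN
    have h2 : 0 < (Fintype.piFinset (A C i)).card := by
      rw [Fintype.card_piFinset]
      refine prod_pos fun t _ => ?_
      have := lt_of_lt_of_le hα (hB i t)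
      exact_mod_cast this
    have h3 : (0 : ℝ) < ((Fintype.piFinset (A C i)).card : ℝ) := by exact_mod_cast h2
    have h4 : (0 : ℝ) < ((T i).card : ℝ) := lt_of_lt_of_le (by linarith) h1
    exact_mod_cast h4
  set Ω := Fintype.piFinset T with hΩ
  have hΩpos : (0 : ℝ) < (Ω.card : ℝ) := by
    have : 0 < Ω.card := by
      rw [hΩ, Fintype.card_piFinset]
      exact prod_pos fun i _ => card_pos.mpr (hTne i)
    exact_mod_cast this
  set θ : ℝ := rr q ^ 700 with hθ
  have hθ1 : 1 ≤ θ := one_le_pow₀ hr1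
  have hrpos : 0 < rr q := by linarith
  -- bad events
  set Bad : L × P → Finset (Pl.Prt P0 → Fin n → L) := fun x =>
    if x.2 ∈ Pl.pts x.1 then ∅ else
      Ω.filter (fun ω => (6 : ℝ) ≤ ((univ.filter (fun i => hit C x.1 x.2 i (ω i))).card : ℝ))
    with hBad
  have hBadcard : ∀ x, ((Bad x).card : ℝ) ≤ Real.exp C1 / rr q ^ 4200 * Ω.card := by
    rintro ⟨l, Y⟩
    simp only [hBad]
    by_cases hY : Y ∈ Pl.pts l
    · rw [if_pos hY, card_empty, Nat.cast_zero]
      positivity
    · rw [if_neg hY]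
      set p : Pl.Prt P0 → ℝ := fun i =>
        if (C.own i ∩ Pl.pts l).Nonempty then 2 * (hN n : ℝ) / α0 else 0 with hp
      have h1 : ∀ i, (((T i).filter (hit C l Y i)).card : ℝ) ≤ p i * ((T i).card : ℝ) := by
        intro i
        simp only [hp]
        by_cases hne : (C.own i ∩ Pl.pts l).Nonempty
        · rw [if_pos hne]
          exact hit_card C hY i hα (hB i) hEN
        · rw [if_neg hne, zero_mul]
          have : (T i).filter (hit C l Y i) = ∅ := by
            rw [filter_eq_empty_iff]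
            rintro m _ ⟨e, _, h2, _⟩
            exact hne ⟨_, mem_inter.mpr ⟨bp_mem_own C i e.1 e.2.1, h2⟩⟩
          rw [this, card_empty, Nat.cast_zero]
      have h2 := lemmaU T hTne (hit C l Y) p h1 θ 6 hθ1
      refine h2.trans (mul_le_mul_of_nonneg_right ?_ hΩpos.le)
      have h3 : ∑ i, p i ≤ rr q ^ 300 * (2 * (hN n : ℝ) / α0) := by
        simp only [hp]
        rw [← sum_filter, sum_const, nsmul_eq_mul]
        refine mul_le_mul_of_nonneg_right ?_ (by positivity)
        refine le_trans ?_ (hban l)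
        exact_mod_cast gadgets_card C l
      have h4 : rr q ^ 300 * (2 * (hN n : ℝ) / α0) * θ = C1 := by
        have h5 : rr q ^ 300 * (2 * (hN n : ℝ) / α0) * θ =
            (rr q ^ 300 * rr q ^ 700) * (4 * (hN n : ℝ) / c) / q := by
          rw [hα0, hθ]
          field_simp
          ring
        have e1 : (1000 : ℕ) = 300 + 700 := rfl
        have h6 : rr q ^ 300 * rr q ^ 700 = q := by rw [← rr_pow q, e1, pow_add]
        rw [h5, h6, hC1]
        field_simp
      have hx0 : 0 ≤ rr q ^ 300 * (2 * (hN n : ℝ) / α0) :=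
        mul_nonneg (pow_nonneg hrpos.le _) (by positivity)
      have h5 : (θ - 1) * ∑ i, p i ≤ C1 := by
        calc (θ - 1) * ∑ i, p i ≤ (θ - 1) * (rr q ^ 300 * (2 * (hN n : ℝ) / α0)) :=
              mul_le_mul_of_nonneg_left h3 (by linarith)
          _ ≤ θ * (rr q ^ 300 * (2 * (hN n : ℝ) / α0)) :=
              mul_le_mul_of_nonneg_right (by linarith) hx0
          _ = C1 := (mul_comm _ _).trans h4
      have h6 : Real.exp (6 * Real.log θ) = rr q ^ 4200 := by
        rw [hθ, Real.log_pow, ← mul_assoc]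
        have : (6 : ℝ) * ((700 : ℕ) : ℝ) = ((4200 : ℕ) : ℝ) := by norm_num
        rw [this, ← Real.log_pow, Real.exp_log (by positivity)]
      calc Real.exp ((θ - 1) * ∑ i, p i - 6 * Real.log θ)
          ≤ Real.exp (C1 - 6 * Real.log θ) := Real.exp_le_exp.mpr (by linarith)
        _ = Real.exp C1 / rr q ^ 4200 := by rw [Real.exp_sub, h6]
  -- union bound
  have hex : ∃ ω ∈ Ω, ∀ x, ω ∉ Bad x := by
    by_contra hcon
    push Not at hcon
    have h1 : Ω ⊆ (univ : Finset (L × P)).biUnion Bad := by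
      intro ω hω
      obtain ⟨x, hx⟩ := hcon ω hω
      exact mem_biUnion.mpr ⟨x, mem_univ x, hx⟩
    have h2 : (Ω.card : ℝ) ≤ ∑ x : L × P, ((Bad x).card : ℝ) := by
      have := (card_le_card h1).trans card_biUnion_le
      exact_mod_cast this
    have h3 : ∑ x : L × P, ((Bad x).card : ℝ) ≤
        ((q : ℝ) ^ 2 + q + 1) ^ 2 * (Real.exp C1 / rr q ^ 4200 * Ω.card) := by
      calc _ ≤ ∑ _x : L × P, Real.exp C1 / rr q ^ 4200 * Ω.card :=
            sum_le_sum fun x _ => hBadcard x
        _ = _ := by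
          rw [sum_const, card_univ, Fintype.card_prod, Pl.card_L, Pl.card_P, nsmul_eq_mul]
          push_cast
          ring
    have h4 : ((q : ℝ) ^ 2 + q + 1) ^ 2 ≤ 9 * rr q ^ 4000 := by
      have h5 : (q : ℝ) ^ 2 + q + 1 ≤ 3 * (q : ℝ) ^ 2 := by nlinarith
      have h6 : (q : ℝ) ^ 4 = rr q ^ 4000 := by
        rw [← rr_pow q, ← pow_mul]
      calc ((q : ℝ) ^ 2 + q + 1) ^ 2 ≤ (3 * (q : ℝ) ^ 2) ^ 2 :=
            pow_le_pow_left₀ (by positivity) h5 2
        _ = 9 * (q : ℝ) ^ 4 := by ring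
        _ = _ := by rw [h6]
    have h5 : ((q : ℝ) ^ 2 + q + 1) ^ 2 * (Real.exp C1 / rr q ^ 4200 * Ω.card) ≤
        9 * Real.exp C1 / rr q ^ 200 * Ω.card := by
      calc _ ≤ 9 * rr q ^ 4000 * (Real.exp C1 / rr q ^ 4200 * Ω.card) :=
            mul_le_mul_of_nonneg_right h4 (by positivity)
        _ = _ := by
          have e1 : (4200 : ℕ) = 4000 + 200 := rfl
          have : rr q ^ 4200 = rr q ^ 4000 * rr q ^ 200 := by rw [e1, pow_add]
          rw [this]
          field_simp
    have h6 : 9 * Real.exp C1 / rr q ^ 200 < 1 := by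
      rw [div_lt_one (by positivity)]
      have h7 : rr q ≤ rr q ^ 200 := le_self_pow₀ hr1 (by norm_num)
      linarith
    have h7 := h2.trans (h3.trans h5)
    nlinarith
  obtain ⟨ω, hω, hgood⟩ := hex
  rw [hΩ, Fintype.mem_piFinset] at hω
  have hA : ∀ i t, ω i t ∈ A C i t := fun i t =>
    Fintype.mem_piFinset.mp (mem_filter.mp (hω i)).1 t
  have hG : ∀ i, Good C i (ω i) := fun i => (mem_filter.mp (hω i)).2
  refine final C hA hG ?_
  intro l Y hY
  have h1 := hgood (l, Y)
  simp only [hBad] at h1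
  rw [if_neg hY, mem_filter, not_and] at h1
  have h2 := h1 (by rw [hΩ, Fintype.mem_piFinset]; exact hω)
  push Not at h2
  have h3 : (univ.filter (fun i => hit C l Y i (ω i))).card < 6 := by exact_mod_cast h2
  omega

end Crest.Agent.Ryser
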