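import Crest.Agent.Ryser.SA
import Crest.Agent.Ryser.SB
import Crest.Agent.Ryser.SC
import Crest.Agent.Ryser.SD
import Crest.Agent.Ryser.PC
import Crest.Agent.Ryser.RR

/-! Row 34: existence of the configuration from stages A-D (glue, helper10). -/

set_option autoImplicit false

open Finset

namespace Crest.Agent.Ryser

section gen
variable {P L : Type} [Fintype P] [Fintype L] [DecidableEq P] [DecidableEq L] {q : ℕ}

theorem PE_valid_mono {Pl : Plane P L q} {P0 : P} {w w' : ℕ} (h : w ≤ w') {τ : Test P L}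
    (hv : τ.Valid Pl P0 w) : τ.Valid Pl P0 w' :=
  ⟨hv.M_pos, fun j hj => (hv.card_le j hj).trans h, hv.notP0, hv.deg, hv.degl⟩

/-- restrict the clauses of a test -/
def Test.restr (τ : Test P L) (J' : Finset L) : Test P L := { τ with J := J' }

theorem PE_valid_restr {Pl : Plane P L q} {P0 : P} {w : ℕ} {τ : Test P L}
    (hv : τ.Valid Pl P0 w) {J' : Finset L} (hJ : J' ⊆ τ.J) : (τ.restr J').Valid Pl P0 w := by
  refine ⟨hv.M_pos, fun j hj => hv.card_le j (hJ hj), fun j hj => hv.notP0 j (hJ hj), ?_, ?_⟩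
  · intro Z hZ
    exact (card_le_card (filter_subset_filter _ hJ)).trans (hv.deg Z hZ)
  · intro l
    exact (card_le_card (filter_subset_filter _ hJ)).trans (hv.degl l)

/-- the test giving the lower bound for the number of lines through `X` -/
def lowTest (Pl : Plane P L q) (P0 X : P) : Test P L where
  J := (Pl.lns X).filter (fun l => P0 ∉ Pl.pts l)
  Λ := fun l => {l}
  Y0 := {X}
  M := 1

theorem lowTest_valid (Pl : Plane P L q) (P0 X : P) : (lowTest Pl P0 X).Valid Pl P0 1 := by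
  refine ⟨Nat.one_pos, ?_, ?_, ?_, ?_⟩
  · intro j _; simp [lowTest]
  · intro j hj l hl
    simp only [lowTest, mem_singleton, mem_filter] at hj hl
    rw [hl]; exact hj.2
  · intro Z hZ
    simp only [lowTest, mem_singleton] at hZ ⊢
    rw [card_le_one]
    intro l hl l' hl'
    simp only [mem_filter, exists_eq_left, Pl.mem_lns] at hl hl'
    exact Pl.line_eq_of_two (p := X) (p' := Z) (fun h => hZ h.symm) hl.1.1 hl'.1.1 hl.2 hl'.2
  · intro l
    simp only [lowTest]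
    rw [card_le_one]
    intro l1 h1 l2 h2
    simp only [mem_filter, mem_singleton] at h1 h2
    rw [← h1.2, ← h2.2]

theorem lowTest_card (Pl : Plane P L q) (P0 X : P) (hX : X ≠ P0) :
    (lowTest Pl P0 X).J.card = q := by
  have h1 : (lowTest Pl P0 X).J = (Pl.lns X).erase (Pl.join X P0) := by
    ext l
    simp only [lowTest, mem_filter, mem_erase, Pl.mem_lns]
    constructor
    · rintro ⟨h1, h2⟩
      refine ⟨?_, h1⟩
      rintro rfl
      exact h2 (Pl.join_right X P0 hX)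
    · rintro ⟨h1, h2⟩
      refine ⟨h2, fun h3 => h1 (Pl.join_unique X P0 l hX h2 h3)⟩
  rw [h1, card_erase_of_mem, Pl.card_lns]
  · simp
  · rw [Pl.mem_lns]; exact Pl.join_left X P0 hX

theorem lowTest_rich (Pl : Plane P L q) (P0 X : P) (B : Finset P) (hX : X ≠ P0) (hB : X ∉ B)
    (c : ℝ) (h : (lowTest Pl P0 X).Rich Pl B c) : c * q ≤ ((Pl.LX P0 B X).card : ℝ) := by
  unfold Test.Rich at h
  rw [lowTest_card Pl P0 X hX] at h
  refine h.trans ?_
  norm_cast
  apply card_le_card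
  intro l hl
  simp only [Test.surv, lowTest, mem_filter, mem_singleton, forall_eq, Pl.mem_lns] at hl
  simp only [Plane.LX, Plane.LL, mem_filter, mem_univ, true_and]
  refine ⟨⟨hl.1.2, fun Y hY hYl => ?_⟩, hl.1.1⟩
  exact hB (hl.2 Y hY hYl ▸ hY)

end gen

/-- asymptotic estimate: `A * q^k * exp(-ε q) ≤ δ` eventually -/
theorem PE_exp_small (A : ℝ) (k : ℕ) (ε δ : ℝ) (hε : 0 < ε) (hδ : 0 < δ) :
    ∃ q0 : ℕ, ∀ q : ℕ, q0 ≤ q → A * (q : ℝ) ^ k * Real.exp (-(ε * q)) ≤ δ := by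
  have h1 : Filter.Tendsto (fun x : ℝ => A * (x ^ k * Real.exp (-(ε * x)))) Filter.atTop
      (nhds (A * 0)) := by
    apply Filter.Tendsto.const_mul
    have h2 := (Real.tendsto_pow_mul_exp_neg_atTop_nhds_zero k).comp
      (Filter.tendsto_id.const_mul_atTop hε)
    have h3 : Filter.Tendsto (fun x : ℝ => (ε⁻¹) ^ k * ((ε * x) ^ k * Real.exp (-(ε * x))))
        Filter.atTop (nhds ((ε⁻¹) ^ k * 0)) := h2.const_mul _
    rw [mul_zero] at h3
    refine h3.congr (fun x => ?_)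
    rw [mul_pow, inv_pow]
    field_simp
  rw [mul_zero] at h1
  have h4 := (h1.comp (tendsto_natCast_atTop_atTop (R := ℝ))).eventually (ge_mem_nhds hδ)
  obtain ⟨q0, hq0⟩ := Filter.eventually_atTop.1 h4
  refine ⟨q0, fun q hq => ?_⟩
  have := hq0 q hq
  simp only [Function.comp] at this
  rw [mul_assoc]; exact this

/-- raw data for the D-tests -/
abbrev RawIdx (P L : Type) (n : ℕ) : Type := P × L × L × (Bool → Fin n → P) × Fin n

/-- D-test of raw data -/
def rawT {P L : Type} [Fintype P] [Fintype L] [DecidableEq P] [DecidableEq L] {q : ℕ}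
    (Pl : Plane P L q) (P0 : P) {n : ℕ} (x : RawIdx P L n) : Test P L :=
  rawD Pl P0 x.1 x.2.1 x.2.2.1 x.2.2.2.1 x.2.2.2.2

/-- valid raw data -/
def DIdx {P L : Type} [Fintype P] [Fintype L] [DecidableEq P] [DecidableEq L] {q : ℕ}
    (Pl : Plane P L q) (P0 : P) (n : ℕ) : Type :=
  {x : RawIdx P L n // (rawT Pl P0 x).Valid Pl P0 (2 * n) ∧ q ≤ (rawT Pl P0 x).J.card + 2}

noncomputable instance {P L : Type} [Fintype P] [Fintype L] [DecidableEq P] [DecidableEq L] {q : ℕ}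
    (Pl : Plane P L q) (P0 : P) (n : ℕ) : Fintype (DIdx Pl P0 n) := by
  classical
  unfold DIdx
  infer_instance

theorem PE_sumD (n : ℕ) (hn : 2 ≤ n) (cs : ℝ) (hcs : 0 < cs) : ∃ q0 : ℕ, ∀ (q : ℕ), q0 ≤ q →
    ∀ (P L : Type) [Fintype P] [Fintype L] [DecidableEq P] [DecidableEq L] (Pl : Plane P L q)
      (P0 : P), ∑ i : DIdx Pl P0 n, Real.exp (-(cs * (((rawT Pl P0 i.1).J.card : ℝ)) /
        (((rawT Pl P0 i.1).M : ℝ)))) ≤ 1 / 16 := by
  obtain ⟨q0, h0⟩ := PE_exp_small ((n : ℝ) * 3 ^ (2 * n + 3) * Real.exp (cs / n)) (2 * (2 * n + 3))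
    (cs / (2 * n)) (1 / 16) (by positivity) (by norm_num)
  refine ⟨q0 + 1, fun q hq P L _ _ _ _ Pl P0 => ?_⟩
  have hn0 : (0 : ℝ) < n := by positivity
  have hq1 : (1 : ℝ) ≤ q := by exact_mod_cast (by omega : 1 ≤ q)
  have hterm : ∀ i : DIdx Pl P0 n, Real.exp (-(cs * (((rawT Pl P0 i.1).J.card : ℝ)) /
        (((rawT Pl P0 i.1).M : ℝ)))) ≤ Real.exp (cs / n) * Real.exp (-(cs / (2 * n) * q)) := by
    intro i
    rw [← Real.exp_add, Real.exp_le_exp]
    have hM : ((rawT Pl P0 i.1).M : ℝ) = 2 * n := by simp [rawT, rawD]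
    have hJ : (q : ℝ) ≤ ((rawT Pl P0 i.1).J.card : ℝ) + 2 := by exact_mod_cast i.2.2
    rw [hM]
    have e1 : cs * ((rawT Pl P0 i.1).J.card : ℝ) / (2 * n) =
      cs / (2 * n) * ((rawT Pl P0 i.1).J.card : ℝ) := by ring
    have e2 : cs / n = cs / (2 * n) * 2 := by field_simp
    rw [e1, e2]
    nlinarith [show 0 < cs / (2 * n) by positivity]
  have hcard : (Fintype.card (DIdx Pl P0 n) : ℝ) ≤ (n : ℝ) * 3 ^ (2 * n + 3) *
      (q : ℝ) ^ (2 * (2 * n + 3)) := by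
    have h1 : Fintype.card (DIdx Pl P0 n) ≤ Fintype.card (RawIdx P L n) := by
      classical
      unfold DIdx
      exact Fintype.card_subtype_le _
    have h2 : Fintype.card (RawIdx P L n) = (q ^ 2 + q + 1) ^ (2 * n + 3) * n := by
      simp only [RawIdx, Fintype.card_prod, Fintype.card_fun, Fintype.card_fin, Fintype.card_bool,
        Pl.card_P, Pl.card_L]
      ring
    have h3 : ((q ^ 2 + q + 1 : ℕ) : ℝ) ≤ 3 * (q : ℝ) ^ 2 := by
      push_cast; nlinarith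
    calc (Fintype.card (DIdx Pl P0 n) : ℝ) ≤ (Fintype.card (RawIdx P L n) : ℝ) := by
          exact_mod_cast h1
      _ = ((q ^ 2 + q + 1 : ℕ) : ℝ) ^ (2 * n + 3) * n := by rw [h2]; push_cast; ring
      _ ≤ (3 * (q : ℝ) ^ 2) ^ (2 * n + 3) * n := by
          gcongr
      _ = _ := by rw [mul_pow, ← pow_mul]; ring
  calc ∑ i : DIdx Pl P0 n, Real.exp (-(cs * (((rawT Pl P0 i.1).J.card : ℝ)) /
        (((rawT Pl P0 i.1).M : ℝ)))) ≤
      ∑ _i : DIdx Pl P0 n, Real.exp (cs / n) * Real.exp (-(cs / (2 * n) * q)) :=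
        Finset.sum_le_sum (fun i _ => hterm i)
    _ = (Fintype.card (DIdx Pl P0 n) : ℝ) * (Real.exp (cs / n) * Real.exp (-(cs / (2 * n) * q))) := by
        rw [Finset.sum_const, nsmul_eq_mul, Finset.card_univ]
    _ ≤ ((n : ℝ) * 3 ^ (2 * n + 3) * (q : ℝ) ^ (2 * (2 * n + 3))) *
        (Real.exp (cs / n) * Real.exp (-(cs / (2 * n) * q))) := by gcongr
    _ = (n : ℝ) * 3 ^ (2 * n + 3) * Real.exp (cs / n) * (q : ℝ) ^ (2 * (2 * n + 3)) *
        Real.exp (-(cs / (2 * n) * q)) := by ring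
    _ ≤ 1 / 16 := h0 q (by omega)

theorem PE_sumLow (cs : ℝ) (hcs : 0 < cs) : ∃ q0 : ℕ, ∀ (q : ℕ), q0 ≤ q →
    ∀ (P L : Type) [Fintype P] [Fintype L] [DecidableEq P] [DecidableEq L] (Pl : Plane P L q)
      (P0 : P), ∑ i : {X : P // X ≠ P0}, Real.exp (-(cs * (((lowTest Pl P0 i.1).J.card : ℝ)) /
        (((lowTest Pl P0 i.1).M : ℝ)))) ≤ 1 / 16 := by
  obtain ⟨q0, h0⟩ := PE_exp_small 3 2 cs (1 / 16) hcs (by norm_num)
  refine ⟨q0 + 1, fun q hq P L _ _ _ _ Pl P0 => ?_⟩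
  have hq1 : (1 : ℝ) ≤ q := by exact_mod_cast (by omega : 1 ≤ q)
  have hterm : ∀ i : {X : P // X ≠ P0}, Real.exp (-(cs * (((lowTest Pl P0 i.1).J.card : ℝ)) /
        (((lowTest Pl P0 i.1).M : ℝ)))) = Real.exp (-(cs * q)) := by
    intro i
    rw [lowTest_card Pl P0 i.1 i.2]
    simp [lowTest]
  rw [Finset.sum_congr rfl (fun i _ => hterm i), Finset.sum_const, nsmul_eq_mul]
  have h1 : ((Finset.univ : Finset {X : P // X ≠ P0}).card : ℝ) ≤ 3 * (q : ℝ) ^ 2 := by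
    have h2 : (Finset.univ : Finset {X : P // X ≠ P0}).card ≤ Fintype.card P := by
      rw [Finset.card_univ]; exact Fintype.card_subtype_le _
    have h3 : ((Finset.univ : Finset {X : P // X ≠ P0}).card : ℝ) ≤ (Fintype.card P : ℝ) := by
      exact_mod_cast h2
    rw [Pl.card_P] at h3
    push_cast at h3
    nlinarith
  calc _ ≤ 3 * (q : ℝ) ^ 2 * Real.exp (-(cs * q)) := by gcongr
    _ ≤ 1 / 16 := h0 q (by omega)

theorem PE_sumLines (cs : ℝ) (hcs : 0 < cs) : ∃ q0 : ℕ, ∀ (q : ℕ), q0 ≤ q →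
    ∀ (P L : Type) [Fintype P] [Fintype L] [DecidableEq P] [DecidableEq L] (_ : Plane P L q),
      ∑ _l : L, Real.exp (-(cs * rr q ^ 300 * Real.log q)) ≤ 1 / 8 := by
  obtain ⟨q0, h0⟩ := rr_large (4 / cs + 1)
  refine ⟨q0 + 100, fun q hq P L _ _ _ _ Pl => ?_⟩
  have hq1 : (100 : ℝ) ≤ q := by exact_mod_cast (by omega : 100 ≤ q)
  have hr := h0 q (by omega)
  have hr1 : 1 ≤ rr q := le_trans (by have : 0 < 4 / cs := by positivity
                                      linarith) hr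
  have hr2 : 4 ≤ cs * rr q ^ 300 := by
    have h1 : rr q ≤ rr q ^ 300 := le_self_pow₀ hr1 (by norm_num)
    have h2 : 4 / cs ≤ rr q ^ 300 := by linarith
    rw [div_le_iff₀ hcs] at h2
    linarith
  have hlog : 0 ≤ Real.log q := Real.log_nonneg (by linarith)
  rw [Finset.sum_const, nsmul_eq_mul, Finset.card_univ, Pl.card_L]
  have h3 : Real.exp (-(cs * rr q ^ 300 * Real.log q)) ≤ ((q : ℝ) ^ 4)⁻¹ := by
    have h4 : -(cs * rr q ^ 300 * Real.log q) ≤ -(4 * Real.log q) := by nlinarith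
    calc Real.exp (-(cs * rr q ^ 300 * Real.log q)) ≤ Real.exp (-(4 * Real.log q)) :=
          Real.exp_le_exp.2 h4
      _ = ((q : ℝ) ^ 4)⁻¹ := by
          rw [Real.exp_neg]
          congr 1
          rw [show (4 : ℝ) * Real.log q = ((4 : ℕ) : ℝ) * Real.log q by norm_num,
            ← Real.log_pow, Real.exp_log (by positivity)]
  calc ((q ^ 2 + q + 1 : ℕ) : ℝ) * Real.exp (-(cs * rr q ^ 300 * Real.log q))
      ≤ (3 * (q : ℝ) ^ 2) * ((q : ℝ) ^ 4)⁻¹ := by
        gcongr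
        push_cast; nlinarith
    _ = 3 / (q : ℝ) ^ 2 := by field_simp
    _ ≤ 1 / 8 := by
        rw [div_le_div_iff₀ (by positivity) (by norm_num)]
        nlinarith

section glue
variable {P L : Type} [Fintype P] [Fintype L] [DecidableEq P] [DecidableEq L] {q : ℕ}

/-- The union of three test classes -/
noncomputable def bigT (Pl : Plane P L q) (P0 : P) (n : ℕ) {ι : Type} (T : ι → Test P L) :
    ι ⊕ (DIdx Pl P0 n ⊕ {X : P // X ≠ P0}) → Test P L :=
  Sum.elim T (Sum.elim (fun i => rawT Pl P0 i.1) (fun i => lowTest Pl P0 i.1))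

theorem bigT_valid (Pl : Plane P L q) (P0 : P) (n : ℕ) (hn : 2 ≤ n) {ι : Type}
    (T : ι → Test P L) (hT : ∀ i, (T i).Valid Pl P0 1) (i) :
    (bigT Pl P0 n T i).Valid Pl P0 (2 * n) := by
  rcases i with i | i | i
  · exact PE_valid_mono (by omega) (hT i)
  · exact i.2.1
  · exact PE_valid_mono (by omega) (lowTest_valid Pl P0 i.1)

theorem bigT_sum (Pl : Plane P L q) (P0 : P) (n : ℕ) {ι : Type} [Fintype ι]
    (T : ι → Test P L) (cs : ℝ)
    (h1 : ∑ i, Real.exp (-(cs * ((T i).J.card : ℝ) / ((T i).M : ℝ))) ≤ 1 / 8)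
    (h2 : ∑ i : DIdx Pl P0 n, Real.exp (-(cs * (((rawT Pl P0 i.1).J.card : ℝ)) /
        (((rawT Pl P0 i.1).M : ℝ)))) ≤ 1 / 16)
    (h3 : ∑ i : {X : P // X ≠ P0}, Real.exp (-(cs * (((lowTest Pl P0 i.1).J.card : ℝ)) /
        (((lowTest Pl P0 i.1).M : ℝ)))) ≤ 1 / 16) :
    ∑ i, Real.exp (-(cs * ((bigT Pl P0 n T i).J.card : ℝ) / ((bigT Pl P0 n T i).M : ℝ))) ≤
      1 / 4 := by
  rw [Fintype.sum_sum_type, Fintype.sum_sum_type]
  simp only [bigT, Sum.elim_inl, Sum.elim_inr]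
  linarith

/-- restricting the clauses of a class by a fraction at least `c` -/
theorem TClass_restr {Pl : Plane P L q} {P0 : P} {w : ℕ} {ι : Type} [Fintype ι] {cs cs' c : ℝ}
    {T : ι → Test P L} (hv : ∀ i, (T i).Valid Pl P0 w)
    (hs : ∑ i, Real.exp (-(cs * ((T i).J.card : ℝ) / ((T i).M : ℝ))) ≤ 1 / 4)
    (J' : ι → Finset L) (hJ : ∀ i, J' i ⊆ (T i).J)
    (hJc : ∀ i, c * ((T i).J.card : ℝ) ≤ ((J' i).card : ℝ)) (hcs' : 0 ≤ cs')
    (hc : cs ≤ cs' * c) : TClass Pl P0 w cs' (fun i => (T i).restr (J' i)) := by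
  refine ⟨fun i => PE_valid_restr (hv i) (hJ i), le_trans (Finset.sum_le_sum fun i _ => ?_) hs⟩
  rw [Real.exp_le_exp]
  have hM : (0 : ℝ) < ((T i).M : ℝ) := by exact_mod_cast (hv i).M_pos
  change -(cs' * ((J' i).card : ℝ) / ((T i).M : ℝ)) ≤ _
  rw [neg_le_neg_iff]
  apply div_le_div_of_nonneg_right _ hM.le
  calc cs * ((T i).J.card : ℝ) ≤ (cs' * c) * ((T i).J.card : ℝ) := by gcongr
    _ = cs' * (c * ((T i).J.card : ℝ)) := by ring
    _ ≤ cs' * ((J' i).card : ℝ) := by gcongr; exact hJc i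

theorem sum_exp_mono {ι : Type} [Fintype ι] {cs cs' : ℝ} (h : cs ≤ cs') (f : ι → ℝ)
    (hf : ∀ i, 0 ≤ f i) (δ : ℝ) (hs : ∑ i, Real.exp (-(cs * f i)) ≤ δ) :
    ∑ i, Real.exp (-(cs' * f i)) ≤ δ := by
  refine le_trans (Finset.sum_le_sum fun i _ => ?_) hs
  rw [Real.exp_le_exp, neg_le_neg_iff]
  exact mul_le_mul_of_nonneg_right h (hf i)

end glue

theorem exists_config_gen (n : ℕ) (hn : 2 ≤ n) :
    ∃ c > (0 : ℝ), c ≤ 1 ∧ ∃ cs > (0 : ℝ), ∃ q0 : ℕ, ∀ (q : ℕ), q0 ≤ q →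
      ∀ (P L : Type) [Fintype P] [Fintype L] [DecidableEq P] [DecidableEq L] (Pl : Plane P L q)
      (P0 : P) (ι : Type) [Fintype ι] (T : ι → Test P L) (κ : Type) [Fintype κ]
      (W : κ → Finset P) (h : κ → ℝ),
      (∀ i, (T i).Valid Pl P0 1) →
      ∑ i, Real.exp (-(cs * ((T i).J.card : ℝ) / ((T i).M : ℝ))) ≤ 1 / 8 →
      (∀ k, (W k).card ≤ 3 * q) → (∀ k, rr q ^ 250 ≤ h k) →
      ∑ k, Real.exp (-(cs * h k * Real.log q)) ≤ 1 / 8 →
      ∃ C : Config Pl P0 n, C.GP ∧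
        (∀ X X', X ∉ C.ban → X ≠ P0 → X' ∉ C.ban → X' ≠ P0 →
          ((Pl.LX P0 C.ban X).card : ℝ) ≤ ((Pl.LX P0 C.ban X').card : ℝ) + rr q ^ 503) ∧
        (∀ X, X ∉ C.ban → X ≠ P0 → c * q ≤ ((Pl.LX P0 C.ban X).card : ℝ)) ∧
        (∀ i, (T i).Rich Pl C.ban c) ∧
        (∀ k, ((C.ban ∩ W k).card : ℝ) ≤ h k) := by
  obtain ⟨cA, hcA, csA, hcsA, qA, hA⟩ := stageA (2 * n)
  obtain ⟨cB, hcB, csB, hcsB, β, hβ, qB, hB⟩ := stageB (2 * n)
  obtain ⟨cC, hcC, csC, hcsC, qC, hC⟩ := stageC n (2 * n) β hβ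
  set c : ℝ := min 1 (cC * (cB * cA)) with hcdef
  have hc : 0 < c := lt_min one_pos (by positivity)
  have hc1 : c ≤ 1 := min_le_left _ _
  have hcle : c ≤ cC * (cB * cA) := min_le_right _ _
  obtain ⟨qD, hD⟩ := stageD n hn c hc
  set cs : ℝ := min (min csA csC) (min (csB * cA) (csC * (cB * cA))) with hcsdef
  have hcs : 0 < cs := lt_min (lt_min hcsA hcsC) (lt_min (by positivity) (by positivity))
  have h1 : cs ≤ csA := (min_le_left _ _).trans (min_le_left _ _)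
  have h2 : cs ≤ csC := (min_le_left _ _).trans (min_le_right _ _)
  have h3 : cs ≤ csB * cA := (min_le_right _ _).trans (min_le_left _ _)
  have h4 : cs ≤ csC * (cB * cA) := (min_le_right _ _).trans (min_le_right _ _)
  obtain ⟨q1, hq1⟩ := PE_sumD n hn cs hcs
  obtain ⟨q2, hq2⟩ := PE_sumLow cs hcs
  obtain ⟨q3, hq3⟩ := PE_sumLines cs hcs
  obtain ⟨q4, hq4⟩ := rr_large 1
  refine ⟨c, hc, hc1, cs, hcs, qA + qB + qC + qD + q1 + q2 + q3 + q4 + 10, ?_⟩
  intro q hq P L _ _ _ _ Pl P0 ι _ T κ _ W h hTv hTs hWc hWh hWs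
  have hr1 : 1 ≤ rr q := hq4 q (by omega)
  have hlog : 0 ≤ Real.log q := Real.log_nonneg (by exact_mod_cast (by omega : 1 ≤ q))
  -- the full classes
  set T' := bigT Pl P0 n T with hT'
  have hT'v := bigT_valid Pl P0 n hn T hTv
  have hT's := bigT_sum Pl P0 n T cs hTs (hq1 q (by omega) P L Pl P0) (hq2 q (by omega) P L Pl P0)
  set W' : κ ⊕ L → Finset P := Sum.elim W Pl.pts with hW'
  set h' : κ ⊕ L → ℝ := Sum.elim h (fun _ => rr q ^ 300) with hh'
  have hW's : ∀ cs', cs ≤ cs' → WClass q cs' W' h' := by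
    intro cs' hcs'
    refine ⟨?_, ?_, ?_⟩
    · rintro (k | l)
      · exact hWc k
      · change (Pl.pts l).card ≤ 3 * q
        rw [Pl.card_pts]; omega
    · rintro (k | l)
      · exact hWh k
      · exact pow_le_pow_right₀ hr1 (by norm_num)
    · rw [Fintype.sum_sum_type]
      simp only [hW', hh', Sum.elim_inl, Sum.elim_inr]
      have e1 : ∑ k, Real.exp (-(cs' * h k * Real.log q)) ≤ 1 / 8 := by
        have := sum_exp_mono hcs' (fun k => h k * Real.log q)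
          (fun k => mul_nonneg ((pow_nonneg (rr_nonneg q) _).trans (hWh k)) hlog) (1 / 8)
          (by simpa only [mul_assoc] using hWs)
        simpa only [mul_assoc] using this
      have e2 : ∑ _l : L, Real.exp (-(cs' * rr q ^ 300 * Real.log q)) ≤ 1 / 8 := by
        have := sum_exp_mono hcs' (fun _ : L => rr q ^ 300 * Real.log q)
          (fun k => mul_nonneg (pow_nonneg (rr_nonneg q) _) hlog) (1 / 8)
          (by simpa only [mul_assoc] using hq3 q (by omega) P L Pl)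
        simpa only [mul_assoc] using this
      linarith
  have hTA : TClass Pl P0 (2 * n) csA T' := by
    refine ⟨hT'v, ?_⟩
    have := sum_exp_mono h1 (fun i => ((T' i).J.card : ℝ) / ((T' i).M : ℝ))
          (fun i => by positivity) (1 / 4) (by simpa only [mul_div_assoc] using hT's)
    simpa only [mul_div_assoc] using this
  obtain ⟨a, hStA, hAT, hAW⟩ := hA q (by omega) P L Pl P0 _ T' _ W' h' hTA (hW's csA h1)
  -- stage B
  set J1 : _ → Finset L := fun i => (T' i).surv Pl (univ.image a) with hJ1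
  have hJ1s : ∀ i, J1 i ⊆ (T' i).J := fun i => filter_subset _ _
  have hTB : TClass Pl P0 (2 * n) csB (fun i => (T' i).restr (J1 i)) :=
    TClass_restr hT'v hT's J1 hJ1s hAT hcsB.le h3
  obtain ⟨G, b0, b1, hb0, hb0', hb1, hb1', hStB, hBT⟩ := hB q (by omega) P L Pl P0 a hStA _ _ hTB
  -- stage C
  set J2 : _ → Finset L := fun i => (J1 i).filter (fun j => ∀ l ∈ (T' i).Λ j, l ∉ GLs Pl G)
    with hJ2
  have hJ2s : ∀ i, J2 i ⊆ (T' i).J := fun i => (filter_subset _ _).trans (hJ1s i)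
  have hJ2c : ∀ i, (cB * cA) * ((T' i).J.card : ℝ) ≤ ((J2 i).card : ℝ) := by
    intro i
    have e1 := hBT i
    have e2 := hAT i
    calc (cB * cA) * ((T' i).J.card : ℝ) = cB * (cA * ((T' i).J.card : ℝ)) := by ring
      _ ≤ cB * ((J1 i).card : ℝ) := by gcongr
      _ ≤ _ := e1
  have hTC : TClass Pl P0 (2 * n) csC (fun i => (T' i).restr (J2 i)) :=
    TClass_restr hT'v hT's J2 hJ2s hJ2c hcsC.le h4
  obtain ⟨Qs, hStC, hCT, hCW⟩ := hC q (by omega) P L Pl P0 a G b0 b1 hStA hStB hb0 hb0' hb1 hb1'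
    _ _ _ W' h' hTC (hW's csC h2) (fun i j hj l hl => by
      have hj' : j ∈ J2 i := hj
      rw [hJ2, mem_filter] at hj'
      exact hj'.2 l hl)
  obtain ⟨C0, hban⟩ := to_preconfig Pl P0 n hn a G Qs b0 b1 hStA hStB hStC
  -- richness of all tests
  have hrich : ∀ i, (T' i).Rich Pl C0.ban c := by
    intro i
    have e1 := hCT i
    have e2 := hJ2c i
    have hsub : ((T' i).restr (J2 i)).surv Pl ((GLs Pl G).biUnion Qs) ⊆ (T' i).surv Pl C0.ban := by
      intro j hj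
      simp only [Test.surv, mem_filter] at hj ⊢
      have hj2 : j ∈ J2 i := hj.1
      rw [hJ2, mem_filter, hJ1] at hj2
      have hj1 := hj2.1
      simp only [Test.surv, mem_filter] at hj1
      refine ⟨hj1.1, fun l hl X hX hXl => ?_⟩
      rw [hban, mem_union] at hX
      rcases hX with hX | hX
      · exact hj1.2 l hl X hX hXl
      · exact hj.2 l hl X hX hXl
    have e3 : ((((T' i).restr (J2 i)).surv Pl ((GLs Pl G).biUnion Qs)).card : ℝ) ≤
        (((T' i).surv Pl C0.ban).card : ℝ) := by exact_mod_cast card_le_card hsub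
    unfold Test.Rich
    calc c * ((T' i).J.card : ℝ) ≤ (cC * (cB * cA)) * ((T' i).J.card : ℝ) := by gcongr
      _ = cC * ((cB * cA) * ((T' i).J.card : ℝ)) := by ring
      _ ≤ cC * ((J2 i).card : ℝ) := by gcongr
      _ ≤ _ := e1
      _ ≤ _ := e3
  have hWbound : ∀ k, ((C0.ban ∩ W' k).card : ℝ) ≤ h' k := by
    intro k
    rw [hban, Finset.union_inter_distrib_right]
    have e1 := hAW k
    have e2 := hCW k
    have e3 : (((univ.image a ∩ W' k) ∪ ((GLs Pl G).biUnion Qs ∩ W' k)).card : ℝ) ≤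
        ((univ.image a ∩ W' k).card : ℝ) + (((GLs Pl G).biUnion Qs ∩ W' k).card : ℝ) := by
      exact_mod_cast card_union_le _ _
    linarith
  have hdr : ∀ i t, (C0.dTest i t).Rich Pl C0.ban c := by
    intro i t
    have hv := dTest_valid Pl P0 n hn C0 i t
    rw [dTest_eq_rawD] at hv ⊢
    exact hrich (Sum.inr (Sum.inl ⟨(C0.base i, C0.g i true, C0.g i false, C0.Q i, t), hv⟩))
  obtain ⟨C, hCC0, hGP⟩ := hD q (by omega) P L Pl P0 C0 hdr (fun l => hWbound (Sum.inr l))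
  subst hCC0
  refine ⟨C, hGP, ?_, ?_, fun i => hrich (Sum.inl i), fun k => hWbound (Sum.inl k)⟩
  · obtain ⟨cbar, hreg⟩ := hStC.reg
    rw [← hban] at hreg
    intro X X' hX hX0 hX' hX0'
    have e1 := abs_le.1 (hreg X hX hX0)
    have e2 := abs_le.1 (hreg X' hX' hX0')
    linarith [e1.1, e1.2, e2.1, e2.2]
  · intro X hX hX0
    exact lowTest_rich Pl P0 X _ hX0 hX c (hrich (Sum.inr (Sum.inr ⟨X, hX0⟩)))

end Crest.Agent.Ryser
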