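import Crest.Agent.Ryser.GDefs
import Crest.Agent.Ryser.G8
import Crest.Agent.Ryser.RR

/-! Row 34, chunks S1, S2. -/

set_option autoImplicit false

open Finset

namespace Crest.Agent.Ryser

theorem SumsA_N_le {P L : Type} [Fintype P] [Fintype L] [DecidableEq P] [DecidableEq L] {q : ℕ}
    (Pl : Plane P L q) (hq : 3 ≤ q) : (Fintype.card P : ℝ) ≤ Real.exp (3 * Real.log q) := by
  have hq0 : (0 : ℝ) < q := by
    have : 0 < q := by omega
    exact_mod_cast this
  have h1 : Real.exp (3 * Real.log q) = (q : ℝ) ^ 3 := by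
    rw [mul_comm, Real.exp_mul, Real.exp_log hq0]; norm_cast
  rw [h1, Pl.card_P]
  have h3 : (3 : ℝ) ≤ q := by exact_mod_cast hq
  push_cast
  nlinarith [mul_pos hq0 hq0]

theorem SumsA_exp4 : Real.exp (-4) ≤ 1 / 32 := by
  have h1 : (2.7 : ℝ) ≤ Real.exp 1 := by
    have := Real.exp_one_gt_d9; linarith
  have h2 : (32 : ℝ) ≤ Real.exp 4 := by
    calc (32 : ℝ) ≤ 2.7 ^ 4 := by norm_num
      _ ≤ Real.exp 1 ^ 4 := pow_le_pow_left₀ (by norm_num) h1 4
      _ = Real.exp 4 := by rw [← Real.exp_nat_mul]; norm_num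
  rw [Real.exp_neg, one_div]
  exact inv_anti₀ (by norm_num) h2

theorem sumPD_proof (cs : ℝ) (hcs : 0 < cs) : ∃ q0 : ℕ, ∀ (q : ℕ), q0 ≤ q →
    ∀ (P L : Type) [Fintype P] [Fintype L] [DecidableEq P] [DecidableEq L] (Pl : Plane P L q)
      (P0 : P) [Fintype {x : (Fin (kPD q) → P) × (Fin (kPD q) → P) // okPD Pl P0 x.1 x.2}],
      ∑ i : {x : (Fin (kPD q) → P) × (Fin (kPD q) → P) // okPD Pl P0 x.1 x.2},
      Real.exp (-(cs * (((testPD Pl i.1.1 i.1.2).J.card : ℝ)) /
        (((testPD Pl i.1.1 i.1.2).M : ℝ)))) ≤ 1 / 32 := by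
  obtain ⟨q1, hq1⟩ := log_le_rr 1 one_pos
  obtain ⟨q2, hq2⟩ := rr_large (max 10 (300 / cs))
  refine ⟨q1 + q2 + 3, ?_⟩
  intro q hq P L _ _ _ _ Pl P0 _
  have hlog := hq1 q (by omega)
  have hR := hq2 q (by omega)
  set r := rr q with hr
  have hr10 : (10 : ℝ) ≤ r := (le_max_left _ _).trans hR
  have hrcs : 300 / cs ≤ r := (le_max_right _ _).trans hR
  have hcsr : 300 ≤ cs * r := by rwa [div_le_iff₀' hcs] at hrcs
  have hN := SumsA_N_le Pl (by omega : 3 ≤ q)
  have hlog0 : 0 ≤ Real.log q := Real.log_natCast_nonneg q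
  have hk1 : r ^ 3 ≤ ((kPD q) : ℝ) := by
    have h1 : r ^ 20 < ((kPD q) : ℝ) + 1 := Nat.lt_floor_add_one _
    have h2 : r ^ 3 + 1 ≤ r ^ 20 := by
      have h3 : (1 : ℝ) ≤ r ^ 3 := one_le_pow₀ (by linarith)
      have h4 : (2 : ℝ) ≤ r ^ 17 := by
        calc (2 : ℝ) ≤ r := by linarith
          _ ≤ r ^ 17 := le_self_pow₀ (by linarith) (by norm_num)
      calc r ^ 3 + 1 ≤ r ^ 3 * 2 := by linarith
        _ ≤ r ^ 3 * r ^ 17 := by gcongr
        _ = r ^ 20 := by rw [← pow_add]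
    linarith
  have hk0 : (1 : ℝ) ≤ (kPD q) := le_trans (one_le_pow₀ (by linarith)) hk1
  have hterm : ∀ i : {x : (Fin (kPD q) → P) × (Fin (kPD q) → P) // okPD Pl P0 x.1 x.2},
      Real.exp (-(cs * (((testPD Pl i.1.1 i.1.2).J.card : ℝ)) /
        (((testPD Pl i.1.1 i.1.2).M : ℝ)))) = Real.exp (-(cs * ((kPD q) : ℝ) ^ 2 / 33)) := by
    intro i
    rw [i.2.2]
    have : (testPD Pl i.1.1 i.1.2).M = 33 := rfl
    rw [this]
    push_cast
    rfl
  rw [sum_congr rfl (fun i _ => hterm i), sum_const, nsmul_eq_mul, card_univ]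
  have hcard : (Fintype.card {x : (Fin (kPD q) → P) × (Fin (kPD q) → P) // okPD Pl P0 x.1 x.2} : ℝ) ≤
      Real.exp (6 * (kPD q) * Real.log q) := by
    have h1 : Fintype.card {x : (Fin (kPD q) → P) × (Fin (kPD q) → P) // okPD Pl P0 x.1 x.2} ≤
        Fintype.card ((Fin (kPD q) → P) × (Fin (kPD q) → P)) := by
      exact Fintype.card_subtype_le _
    have h2 : Fintype.card ((Fin (kPD q) → P) × (Fin (kPD q) → P)) = Fintype.card P ^ (2 * (kPD q)) := by
      rw [Fintype.card_prod, Fintype.card_fun, Fintype.card_fin]; ring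
    rw [h2] at h1
    calc (Fintype.card {x : (Fin (kPD q) → P) × (Fin (kPD q) → P) // okPD Pl P0 x.1 x.2} : ℝ)
        ≤ (Fintype.card P : ℝ) ^ (2 * (kPD q)) := by exact_mod_cast h1
      _ ≤ Real.exp (3 * Real.log q) ^ (2 * (kPD q)) := by gcongr
      _ = Real.exp (6 * (kPD q) * Real.log q) := by
          rw [← Real.exp_nat_mul]; congr 1; push_cast; ring
  calc _ ≤ Real.exp (6 * (kPD q) * Real.log q) * Real.exp (-(cs * ((kPD q) : ℝ) ^ 2 / 33)) := by gcongr
    _ = Real.exp (6 * (kPD q) * Real.log q + -(cs * ((kPD q) : ℝ) ^ 2 / 33)) := by rw [Real.exp_add]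
    _ ≤ Real.exp (-4) := by
        apply Real.exp_le_exp.2
        have h1 : 6 * (kPD q) * Real.log q ≤ 6 * (kPD q) * r := by
          have : Real.log q ≤ r := by linarith
          gcongr
        have h2 : cs * ((kPD q) : ℝ) ^ 2 / 33 ≥ (kPD q) * (7 * r) := by
          rw [ge_iff_le, le_div_iff₀ (by norm_num)]
          have h3 : 300 * r ≤ cs * ((kPD q) : ℝ) := by
            calc 300 * r ≤ (cs * r) * r := by gcongr
              _ ≤ cs * r ^ 3 := by
                have : cs * r ^ 3 = cs * r * r * r := by ring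
                rw [this]
                have : 0 < cs * r * r := by positivity
                nlinarith
              _ ≤ cs * (kPD q) := by gcongr
          calc ((kPD q) : ℝ) * (7 * r) * 33 ≤ (kPD q) * (300 * r) := by nlinarith
            _ ≤ (kPD q) * (cs * (kPD q)) := by gcongr
            _ = cs * (kPD q) ^ 2 := by ring
        nlinarith
    _ ≤ 1 / 32 := SumsA_exp4

theorem sumF4_proof (cs : ℝ) (hcs : 0 < cs) : ∃ q0 : ℕ, ∀ (q : ℕ), q0 ≤ q →
    ∀ (P L : Type) [Fintype P] [Fintype L] [DecidableEq P] [DecidableEq L] (Pl : Plane P L q)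
      (P0 : P) [Fintype {x : Finset L × (Fin (k4 q) → P) // okF4 Pl P0 x.1 x.2}],
      ∑ i : {x : Finset L × (Fin (k4 q) → P) // okF4 Pl P0 x.1 x.2},
      Real.exp (-(cs * (((testF4 Pl P0 i.1.1 i.1.2).J.card : ℝ)) /
        (((testF4 Pl P0 i.1.1 i.1.2).M : ℝ)))) ≤ 1 / 32 := by
  obtain ⟨q1, hq1⟩ := log_le_rr 1 one_pos
  obtain ⟨q2, hq2⟩ := rr_large (max 10 (2000 / cs))
  refine ⟨q1 + q2 + 3, ?_⟩
  intro q hq P L _ _ _ _ Pl P0 inst
  classical
  have hlog := hq1 q (by omega)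
  have hR := hq2 q (by omega)
  set r := rr q with hr
  have hr10 : (10 : ℝ) ≤ r := (le_max_left _ _).trans hR
  have hrcs : 2000 / cs ≤ r := (le_max_right _ _).trans hR
  have hcsr : 2000 ≤ cs * r := by rwa [div_le_iff₀' hcs] at hrcs
  have hN := SumsA_N_le Pl (by omega : 3 ≤ q)
  have hNL : Fintype.card L = Fintype.card P := by rw [Pl.card_P, Pl.card_L]
  have hN2 : 2 ≤ Fintype.card L := by rw [Pl.card_L]; nlinarith
  have hlog0 : 0 ≤ Real.log q := Real.log_natCast_nonneg q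
  have hkr : ((k4 q) : ℝ) ≤ r ^ 270 := Nat.floor_le (by positivity)
  set hh := ⌊r ^ 525⌋₊ with hhdef
  have hhr : (hh : ℝ) ≤ r ^ 525 := Nat.floor_le (by positivity)
  have hterm : ∀ i : {x : Finset L × (Fin (k4 q) → P) // okF4 Pl P0 x.1 x.2},
      Real.exp (-(cs * (((testF4 Pl P0 i.1.1 i.1.2).J.card : ℝ)) /
        (((testF4 Pl P0 i.1.1 i.1.2).M : ℝ)))) ≤ Real.exp (-(cs * r ^ 528 / 101)) := by
    intro i
    have : (testF4 Pl P0 i.1.1 i.1.2).M = 101 := rfl
    rw [this]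
    push_cast
    apply Real.exp_le_exp.2
    rw [neg_le_neg_iff]
    have := i.2.2.2
    gcongr
  have hcard : (Fintype.card {x : Finset L × (Fin (k4 q) → P) // okF4 Pl P0 x.1 x.2} : ℝ) ≤
      Real.exp ((3 * (r ^ 525 + 1 + r ^ 270)) * Real.log q) := by
    have h1 : Fintype.card {x : Finset L × (Fin (k4 q) → P) // okF4 Pl P0 x.1 x.2} ≤
        ((univ.filter (fun D : Finset L => D.card ≤ hh)) ×ˢ (univ : Finset (Fin (k4 q) → P))).card := by
      rw [Fintype.card_subtype]
      apply card_le_card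
      intro x hx
      rw [mem_filter] at hx
      rw [mem_product, mem_filter]
      exact ⟨⟨mem_univ _, Nat.le_floor hx.2.1⟩, mem_univ _⟩
    rw [card_product, card_univ, Fintype.card_fun, Fintype.card_fin] at h1
    have h2 := h1.trans (Nat.mul_le_mul_right _ (g8_small L hh hN2))
    rw [hNL, ← pow_add] at h2
    calc (Fintype.card {x : Finset L × (Fin (k4 q) → P) // okF4 Pl P0 x.1 x.2} : ℝ)
        ≤ (Fintype.card P : ℝ) ^ (hh + 1 + (k4 q)) := by exact_mod_cast h2
      _ ≤ Real.exp (3 * Real.log q) ^ (hh + 1 + (k4 q)) := by gcongr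
      _ = Real.exp ((3 * (hh + 1 + (k4 q))) * Real.log q) := by
          rw [← Real.exp_nat_mul]; congr 1; push_cast; ring
      _ ≤ _ := by
          apply Real.exp_le_exp.2
          gcongr
  calc _ ≤ ∑ _i : {x : Finset L × (Fin (k4 q) → P) // okF4 Pl P0 x.1 x.2},
        Real.exp (-(cs * r ^ 528 / 101)) := sum_le_sum fun i _ => hterm i
    _ = (Fintype.card {x : Finset L × (Fin (k4 q) → P) // okF4 Pl P0 x.1 x.2} : ℝ) *
        Real.exp (-(cs * r ^ 528 / 101)) := by
        rw [sum_const, nsmul_eq_mul, card_univ]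
    _ ≤ Real.exp ((3 * (r ^ 525 + 1 + r ^ 270)) * Real.log q) *
        Real.exp (-(cs * r ^ 528 / 101)) := by gcongr
    _ = Real.exp ((3 * (r ^ 525 + 1 + r ^ 270)) * Real.log q + -(cs * r ^ 528 / 101)) := by
        rw [Real.exp_add]
    _ ≤ Real.exp (-4) := by
        apply Real.exp_le_exp.2
        have e1 : r ^ 270 ≤ r ^ 525 := pow_le_pow_right₀ (by linarith) (by norm_num)
        have e2 : (1 : ℝ) ≤ r ^ 525 := one_le_pow₀ (by linarith)
        have e3 : (3 * (r ^ 525 + 1 + r ^ 270)) * Real.log q ≤ 9 * r ^ 525 * r := by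
          have : Real.log q ≤ r := by linarith
          have h0 : 0 ≤ 3 * (r ^ 525 + 1 + r ^ 270) := by positivity
          calc (3 * (r ^ 525 + 1 + r ^ 270)) * Real.log q
              ≤ (3 * (r ^ 525 + 1 + r ^ 270)) * r := by gcongr
            _ ≤ 9 * r ^ 525 * r := by
              apply mul_le_mul_of_nonneg_right _ (by linarith)
              linarith
        have e4 : 13 * (r ^ 525 * r) ≤ cs * r ^ 528 / 101 := by
          rw [le_div_iff₀ (by norm_num)]
          have h1 : cs * r ^ 528 = (r ^ 525 * r) * (cs * r) * r := by ring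
          rw [h1]
          have h2 : 0 < r ^ 525 * r := by positivity
          calc 13 * (r ^ 525 * r) * 101 ≤ (r ^ 525 * r) * 2000 := by nlinarith
            _ ≤ (r ^ 525 * r) * (cs * r) := by gcongr
            _ ≤ (r ^ 525 * r) * (cs * r) * r := by
              apply le_mul_of_one_le_right (by positivity) (by linarith)
        have e5 : (1 : ℝ) ≤ r ^ 525 * r := by nlinarith
        linarith
    _ ≤ 1 / 32 := SumsA_exp4

end Crest.Agent.Ryser
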