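import Crest.Agent.Ryser.GDefs
import Crest.Agent.Ryser.G6
import Crest.Agent.Ryser.G8
import Crest.Agent.Ryser.RR

/-! Row 34, chunks S3, S4 (helper47). -/

set_option autoImplicit false

open Finset

namespace Crest.Agent.Ryser

theorem sb_exp_neg_five : Real.exp (-5) ≤ 1 / 32 := by
  have h1 : (2 : ℝ) ≤ Real.exp 1 := by
    have := Real.add_one_le_exp (1 : ℝ)
    linarith
  have h2 : (32 : ℝ) ≤ Real.exp 5 := by
    calc (32 : ℝ) = 2 ^ 5 := by norm_num
      _ ≤ (Real.exp 1) ^ 5 := by gcongr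
      _ = Real.exp 5 := by rw [← Real.exp_nat_mul]; norm_num
  rw [Real.exp_neg, ← one_div]
  exact one_div_le_one_div_of_le (by norm_num) h2

theorem sb_J_lower {P L : Type} [Fintype P] [Fintype L] [DecidableEq P] [DecidableEq L] {q : ℕ}
    (Pl : Plane P L q) (P0 : P) (S : Finset P) :
    Pl.mis S ≤ (testS7 Pl P0 S).J.card + (q + 1) := by
  have h1 : (univ.filter (fun l => Pl.tl S l = 0)) ⊆ (testS7 Pl P0 S).J ∪ Pl.lns P0 := by
    intro l hl
    rw [mem_filter] at hl
    rw [mem_union]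
    by_cases h : P0 ∈ Pl.pts l
    · right; exact (Pl.mem_lns P0 l).mpr h
    · left
      simp only [testS7, mem_filter, mem_univ, true_and]
      exact ⟨h, hl.2⟩
  have h2 := (card_le_card h1).trans (card_union_le _ _)
  rw [Pl.card_lns] at h2
  exact h2

/-- S3. at most `exp(r^995)` indices (lemmaE), each term is `≤ exp(-cs q/8)`: |J| ≥ μ - (q+1) ≥ μ/2,
M = 3μ/q + 1 ≤ 4μ/q (μ = mis S ≥ r^1494). -/
theorem sumS7_proof (cs : ℝ) (hcs : 0 < cs) : ∃ q0 : ℕ, ∀ (q : ℕ), q0 ≤ q →
    ∀ (P L : Type) [Fintype P] [Fintype L] [DecidableEq P] [DecidableEq L] (Pl : Plane P L q)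
      (P0 : P) [Fintype {S : Finset P // okS7 Pl S ∧ (testS7 Pl P0 S).Valid Pl P0 1}], Pl.Dich →
      ∑ i : {S : Finset P // okS7 Pl S ∧ (testS7 Pl P0 S).Valid Pl P0 1}, Real.exp (-(cs * (((testS7 Pl P0 i.1).J.card : ℝ)) /
        (((testS7 Pl P0 i.1).M : ℝ)))) ≤ 1 / 32 := by
  obtain ⟨q1, hE⟩ := lemmaE
  obtain ⟨q2, hr⟩ := rr_large 10
  obtain ⟨q3, h3⟩ := rr_pow_le (16 / cs) 996 1000 (by norm_num)
  refine ⟨max (max q1 q2) (max q3 2), ?_⟩
  intro q hq P L _ _ _ _ Pl P0 _ hD
  have hq1 : q1 ≤ q := by omega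
  have hq2 : q2 ≤ q := by omega
  have hq3 : q3 ≤ q := by omega
  have hq4 : 2 ≤ q := by omega
  have hR := hr q hq2
  have e3 := h3 q hq3
  set r := rr q with hrdef
  have hr1 : (1 : ℝ) ≤ r := by linarith
  have hr0 : (0 : ℝ) < r := by linarith
  have hrq : r ^ 1000 = (q : ℝ) := rr_pow q
  have hq0 : (0 : ℝ) < q := by positivity
  -- number of indices
  have hcard : (Fintype.card ({S : Finset P // okS7 Pl S ∧ (testS7 Pl P0 S).Valid Pl P0 1}) : ℝ) ≤ Real.exp (r ^ 995) := by
    classical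
    have hinj : Function.Injective (fun i : {S : Finset P // okS7 Pl S ∧ (testS7 Pl P0 S).Valid Pl P0 1} => i.1) := Subtype.val_injective
    have h1 := hE q hq1 P L Pl hD (univ.image (fun i : {S : Finset P // okS7 Pl S ∧ (testS7 Pl P0 S).Valid Pl P0 1} => i.1)) (by
      intro S hS
      rw [mem_image] at hS
      obtain ⟨i, -, rfl⟩ := hS
      exact i.2.1)
    rw [card_image_of_injective _ hinj, card_univ] at h1
    exact h1
  have hterm : ∀ i : {S : Finset P // okS7 Pl S ∧ (testS7 Pl P0 S).Valid Pl P0 1}, Real.exp (-(cs * (((testS7 Pl P0 i.1).J.card : ℝ)) /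
        (((testS7 Pl P0 i.1).M : ℝ)))) ≤ Real.exp (-(cs * ((q : ℝ) / 8))) := by
    intro i
    apply Real.exp_le_exp.mpr
    obtain ⟨⟨-, hm1, -⟩, -⟩ := i.2
    set μ := Pl.mis i.1 with hμ
    have hJ : (μ : ℝ) ≤ ((testS7 Pl P0 i.1).J.card : ℝ) + (q + 1) := by
      exact_mod_cast sb_J_lower Pl P0 i.1
    have hμq : 4 * (q : ℝ) ≤ μ := by
      refine le_trans ?_ hm1
      rw [← hrq]
      calc 4 * r ^ 1000 ≤ r * r ^ 1000 := by gcongr; linarith
        _ = r ^ 1001 := by ring
        _ ≤ r ^ 1494 := pow_le_pow_right₀ hr1 (by norm_num)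
    have hq1' : (1 : ℝ) ≤ q := by
      have : 1 ≤ q := by omega
      exact_mod_cast this
    have hJ2 : (μ : ℝ) / 2 ≤ ((testS7 Pl P0 i.1).J.card : ℝ) := by linarith
    have hM : (((testS7 Pl P0 i.1).M : ℕ) : ℝ) ≤ 4 * (μ : ℝ) / q := by
      have h1 : (testS7 Pl P0 i.1).M = 3 * μ / q + 1 := rfl
      rw [h1]
      push_cast
      have h2 : ((3 * μ / q : ℕ) : ℝ) ≤ 3 * (μ : ℝ) / q := by
        refine Nat.cast_div_le.trans ?_
        push_cast
        exact le_rfl
      have h4 : 1 ≤ (μ : ℝ) / q := by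
        rw [le_div_iff₀ hq0]
        linarith
      calc ((3 * μ / q : ℕ) : ℝ) + 1 ≤ 3 * (μ : ℝ) / q + (μ : ℝ) / q := by linarith
        _ = 4 * (μ : ℝ) / q := by ring
    have hM0 : (0 : ℝ) < ((testS7 Pl P0 i.1).M : ℕ) := by
      have h1 : (testS7 Pl P0 i.1).M = 3 * μ / q + 1 := rfl
      rw [h1]
      positivity
    have hμ0 : (0 : ℝ) < μ := by linarith
    rw [neg_le_neg_iff, mul_div_assoc]
    apply mul_le_mul_of_nonneg_left _ hcs.le
    rw [le_div_iff₀ hM0]
    calc (q : ℝ) / 8 * ((testS7 Pl P0 i.1).M : ℕ) ≤ (q : ℝ) / 8 * (4 * (μ : ℝ) / q) := by gcongr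
      _ = (μ : ℝ) / 2 := by field_simp; norm_num
      _ ≤ _ := hJ2
  calc ∑ i : {S : Finset P // okS7 Pl S ∧ (testS7 Pl P0 S).Valid Pl P0 1}, Real.exp (-(cs * (((testS7 Pl P0 i.1).J.card : ℝ)) /
        (((testS7 Pl P0 i.1).M : ℝ))))
      ≤ ∑ i : {S : Finset P // okS7 Pl S ∧ (testS7 Pl P0 S).Valid Pl P0 1}, Real.exp (-(cs * ((q : ℝ) / 8))) := sum_le_sum fun i _ => hterm i
    _ = (Fintype.card ({S : Finset P // okS7 Pl S ∧ (testS7 Pl P0 S).Valid Pl P0 1}) : ℝ) * Real.exp (-(cs * ((q : ℝ) / 8))) := by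
        rw [sum_const, card_univ, nsmul_eq_mul]
    _ ≤ Real.exp (r ^ 995) * Real.exp (-(cs * ((q : ℝ) / 8))) := by gcongr
    _ = Real.exp (r ^ 995 + -(cs * ((q : ℝ) / 8))) := by rw [Real.exp_add]
    _ ≤ Real.exp (-5) := by
        apply Real.exp_le_exp.mpr
        have h5 : 2 * r ^ 996 ≤ cs * ((q : ℝ) / 8) := by
          have h6 : 16 / cs * r ^ 996 * (cs / 8) ≤ r ^ 1000 * (cs / 8) := by gcongr
          have h7 : 16 / cs * r ^ 996 * (cs / 8) = 2 * r ^ 996 := by field_simp; ring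
          rw [h7, hrq] at h6
          linarith
        have h8 : r ^ 995 ≤ r ^ 996 := pow_le_pow_right₀ hr1 (by norm_num)
        have h9 : 5 ≤ r ^ 996 := by
          calc (5 : ℝ) ≤ r := by linarith
            _ = r ^ 1 := (pow_one r).symm
            _ ≤ r ^ 996 := pow_le_pow_right₀ hr1 (by norm_num)
        linarith
    _ ≤ 1 / 32 := sb_exp_neg_five

/-- S4. for each μ at most `(q²+q+1)^(k7 q μ)` indices, `k7 ≤ (μ/q) r^-5`, each term `exp(-cs c μ/(4q) log q)`,
μ/q ≥ r^494. -/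
theorem sumW7_proof (cs c : ℝ) (hcs : 0 < cs) (hc : 0 < c) : ∃ q0 : ℕ, ∀ (q : ℕ), q0 ≤ q →
    ∀ (P L : Type) [Fintype P] [Fintype L] [DecidableEq P] [DecidableEq L] (Pl : Plane P L q)
      [Fintype {x : IdxW P q // okW7 Pl x}],
      ∑ i : {x : IdxW P q // okW7 Pl x}, Real.exp (-(cs * hW7 q c i.1.1 * Real.log q)) ≤ 1 / 8 := by
  obtain ⟨q2, hr⟩ := rr_large 10
  obtain ⟨q3, h3⟩ := rr_pow_le (24 / (cs * c)) 0 5 (by norm_num)
  obtain ⟨q4, h4⟩ := rr_pow_le (64 / (cs * c)) 0 494 (by norm_num)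
  refine ⟨max (max q2 q3) (max q4 3), ?_⟩
  intro q hq P L _ _ _ _ Pl _
  have hq2 : q2 ≤ q := by omega
  have hq3 : q3 ≤ q := by omega
  have hq4 : q4 ≤ q := by omega
  have hq5 : 3 ≤ q := by omega
  have hR := hr q hq2
  have e3 := h3 q hq3
  have e4 := h4 q hq4
  rw [pow_zero, mul_one] at e3 e4
  set r := rr q with hrdef
  have hr1 : (1 : ℝ) ≤ r := by linarith
  have hr0 : (0 : ℝ) < r := by linarith
  have hrq : r ^ 1000 = (q : ℝ) := rr_pow q
  have hq0 : (0 : ℝ) < q := by positivity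
  have hqr3 : (3 : ℝ) ≤ q := by exact_mod_cast hq5
  have hcc : 0 < cs * c := by positivity
  have hlog1 : 1 ≤ Real.log q := by
    rw [Real.le_log_iff_exp_le hq0]
    have := Real.exp_one_lt_d9
    linarith
  set N := Fintype.card P with hN
  have hNle : (N : ℝ) ≤ (q : ℝ) ^ 3 := by
    rw [hN, Pl.card_P]
    push_cast
    nlinarith [sq_nonneg ((q : ℝ) - 2)]
  have hN1 : (1 : ℝ) ≤ (N : ℝ) := by
    rw [hN, Pl.card_P]
    push_cast
    nlinarith
  have hN0 : (0 : ℝ) < N := by linarith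
  classical
  let F : IdxW P q → ℝ := fun x => ((N : ℝ) ^ (k7 q x.1))⁻¹ * Real.exp (-8 * Real.log q)
  have hF0 : ∀ x, 0 ≤ F x := fun x => by positivity
  have hterm : ∀ i : {x : IdxW P q // okW7 Pl x}, Real.exp (-(cs * hW7 q c i.1.1 * Real.log q)) ≤ F i.1 := by
    intro i
    obtain ⟨hm1, -, -⟩ := i.2
    set μ : ℕ := (i.1.1 : ℕ) with hμ
    have hμq : r ^ 494 ≤ (μ : ℝ) / q := by
      rw [le_div_iff₀ hq0, ← hrq]
      calc r ^ 494 * r ^ 1000 = r ^ 1494 := by ring
        _ ≤ (μ : ℝ) := hm1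
    have hk : (k7 q μ : ℝ) ≤ (μ : ℝ) / q / r ^ 5 := by
      unfold k7
      exact Nat.floor_le (by positivity)
    have hNk : (N : ℝ) ^ (k7 q μ) ≤ Real.exp (Real.log q * (3 * (k7 q μ : ℝ))) := by
      calc (N : ℝ) ^ (k7 q μ) ≤ ((q : ℝ) ^ 3) ^ (k7 q μ) := by gcongr
        _ = Real.exp (Real.log q * (3 * (k7 q μ : ℝ))) := by
            rw [← pow_mul, ← Real.exp_log (pow_pos hq0 _), Real.log_pow]
            congr 1
            push_cast
            ring
    have hmain : Real.exp (-(cs * hW7 q c i.1.1 * Real.log q)) * (N : ℝ) ^ (k7 q μ) ≤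
        Real.exp (-8 * Real.log q) := by
      calc _ ≤ Real.exp (-(cs * hW7 q c i.1.1 * Real.log q)) *
            Real.exp (Real.log q * (3 * (k7 q μ : ℝ))) := by gcongr
        _ = Real.exp (-(cs * hW7 q c i.1.1 * Real.log q) +
            Real.log q * (3 * (k7 q μ : ℝ))) := by rw [Real.exp_add]
        _ ≤ _ := by
            apply Real.exp_le_exp.mpr
            have h5 : hW7 q c i.1.1 = c * (μ : ℝ) / (4 * q) := rfl
            rw [h5]
            set z : ℝ := (μ : ℝ) / q with hz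
            have h6 : c * (μ : ℝ) / (4 * q) = c * z / 4 := by
              rw [hz]; field_simp
            rw [h6]
            have hz0 : 0 < z := lt_of_lt_of_le (by positivity) hμq
            have h7 : 3 * (k7 q μ : ℝ) ≤ cs * c / 8 * z := by
              have h8 : z / r ^ 5 ≤ cs * c / 24 * z := by
                rw [div_le_iff₀ (by positivity)]
                have h9 : 24 / (cs * c) * (cs * c / 24) ≤ r ^ 5 * (cs * c / 24) := by gcongr
                have h10 : 24 / (cs * c) * (cs * c / 24) = 1 := by field_simp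
                rw [h10] at h9
                calc z = z * 1 := by ring
                  _ ≤ z * (r ^ 5 * (cs * c / 24)) := by gcongr
                  _ = cs * c / 24 * z * r ^ 5 := by ring
              calc 3 * (k7 q μ : ℝ) ≤ 3 * (z / r ^ 5) := by gcongr
                _ ≤ 3 * (cs * c / 24 * z) := by gcongr
                _ = cs * c / 8 * z := by ring
            have h11 : 8 ≤ cs * c / 8 * z := by
              have h12 : 64 / (cs * c) * (cs * c / 8) ≤ z * (cs * c / 8) := by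
                have := e4.trans hμq
                gcongr
              have h13 : 64 / (cs * c) * (cs * c / 8) = 8 := by field_simp; norm_num
              rw [h13] at h12
              linarith
            have h14 : -(cs * (c * z / 4) * Real.log q) + Real.log q * (3 * (k7 q μ : ℝ)) =
                Real.log q * (3 * (k7 q μ : ℝ) - cs * c / 4 * z) := by ring
            rw [h14]
            have h15 : 3 * (k7 q μ : ℝ) - cs * c / 4 * z ≤ -8 := by
              have : cs * c / 4 * z = cs * c / 8 * z + cs * c / 8 * z := by ring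
              linarith
            calc Real.log q * (3 * (k7 q μ : ℝ) - cs * c / 4 * z) ≤ Real.log q * (-8) := by
                  apply mul_le_mul_of_nonneg_left h15 (by linarith)
              _ = -8 * Real.log q := by ring
    show Real.exp (-(cs * hW7 q c i.1.1 * Real.log q)) ≤
      ((N : ℝ) ^ (k7 q μ))⁻¹ * Real.exp (-8 * Real.log q)
    rw [inv_mul_eq_div, le_div_iff₀ (by positivity)]
    exact hmain
  have hinj : Function.Injective (fun i : {x : IdxW P q // okW7 Pl x} => i.1) := Subtype.val_injective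
  calc ∑ i : {x : IdxW P q // okW7 Pl x}, Real.exp (-(cs * hW7 q c i.1.1 * Real.log q))
      ≤ ∑ i : {x : IdxW P q // okW7 Pl x}, F i.1 := sum_le_sum fun i _ => hterm i
    _ = ∑ x ∈ univ.image (fun i : {x : IdxW P q // okW7 Pl x} => i.1), F x := by
        rw [sum_image (fun a _ b _ h => hinj h)]
    _ ≤ ∑ x : IdxW P q, F x :=
        sum_le_sum_of_subset_of_nonneg (subset_univ _) (fun x _ _ => hF0 x)
    _ = ∑ μ : Fin (q ^ 2 + q + 2), ∑ y : Fin (k7 q μ) → P,
          ((N : ℝ) ^ (k7 q μ))⁻¹ * Real.exp (-8 * Real.log q) := by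
        rw [Fintype.sum_sigma]
    _ = ∑ μ : Fin (q ^ 2 + q + 2), Real.exp (-8 * Real.log q) := by
        refine sum_congr rfl fun μ _ => ?_
        rw [sum_const, card_univ, Fintype.card_fun, Fintype.card_fin, nsmul_eq_mul, ← hN]
        push_cast
        rw [← mul_assoc, mul_inv_cancel₀ (by positivity), one_mul]
    _ = ((q : ℝ) ^ 2 + q + 2) * Real.exp (-8 * Real.log q) := by
        rw [sum_const, card_univ, Fintype.card_fin, nsmul_eq_mul]
        push_cast
        ring
    _ ≤ (q : ℝ) ^ 3 * Real.exp (-8 * Real.log q) := by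
        gcongr
        nlinarith [sq_nonneg ((q : ℝ) - 2)]
    _ = Real.exp (-5 * Real.log q) := by
        rw [← Real.exp_log (pow_pos hq0 3), Real.log_pow, ← Real.exp_add]
        congr 1
        push_cast
        ring
    _ ≤ Real.exp (-5) := by
        apply Real.exp_le_exp.mpr
        linarith
    _ ≤ 1 / 32 := sb_exp_neg_five
    _ ≤ 1 / 8 := by norm_num

end Crest.Agent.Ryser
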