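import Crest.Agent.Ryser.GDefs
import Crest.Agent.Ryser.G6
import Crest.Agent.Ryser.G8
import Crest.Agent.Ryser.RR
import Crest.Agent.Ryser.SumsA
import Crest.Agent.Ryser.SumsB

/-! Row 34, chunks S1-S4: the union bound sums for the four classes of the global theorem. -/

set_option autoImplicit false

open Finset

namespace Crest.Agent.Ryser

section defs
variable {P L : Type} [Fintype P] [Fintype L] [DecidableEq P] [DecidableEq L] {q : ℕ}

def IdxPD (Pl : Plane P L q) (P0 : P) : Type :=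
  {x : (Fin (kPD q) → P) × (Fin (kPD q) → P) // okPD Pl P0 x.1 x.2}

noncomputable instance (Pl : Plane P L q) (P0 : P) : Fintype (IdxPD Pl P0) := by
  classical
  unfold IdxPD
  infer_instance

def IdxF4 (Pl : Plane P L q) (P0 : P) : Type :=
  {x : Finset L × (Fin (k4 q) → P) // okF4 Pl P0 x.1 x.2}

noncomputable instance (Pl : Plane P L q) (P0 : P) : Fintype (IdxF4 Pl P0) := by
  classical
  unfold IdxF4
  infer_instance

def IdxS7 (Pl : Plane P L q) (P0 : P) : Type :=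
  {S : Finset P // okS7 Pl S ∧ (testS7 Pl P0 S).Valid Pl P0 1}

noncomputable instance (Pl : Plane P L q) (P0 : P) : Fintype (IdxS7 Pl P0) := by
  classical
  unfold IdxS7
  infer_instance

def IdxW7 (Pl : Plane P L q) : Type := {x : IdxW P q // okW7 Pl x}

noncomputable instance (Pl : Plane P L q) : Fintype (IdxW7 Pl) := by
  classical
  unfold IdxW7 IdxW
  infer_instance

end defs

/-- S1. at most `(q²+q+1)^(2k)` indices, each term is `exp(-cs k²/33)`, `k = ⌊r^20⌋`. -/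
theorem sumPD (cs : ℝ) (hcs : 0 < cs) : ∃ q0 : ℕ, ∀ (q : ℕ), q0 ≤ q →
    ∀ (P L : Type) [Fintype P] [Fintype L] [DecidableEq P] [DecidableEq L] (Pl : Plane P L q)
      (P0 : P), ∑ i : IdxPD Pl P0, Real.exp (-(cs * (((testPD Pl i.1.1 i.1.2).J.card : ℝ)) /
        (((testPD Pl i.1.1 i.1.2).M : ℝ)))) ≤ 1 / 32 := by
  obtain ⟨q0, h⟩ := sumPD_proof cs hcs
  refine ⟨q0, fun q hq P L _ _ _ _ Pl P0 => ?_⟩
  letI : Fintype {x : (Fin (kPD q) → P) × (Fin (kPD q) → P) // okPD Pl P0 x.1 x.2} :=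
    (inferInstance : Fintype (IdxPD Pl P0))
  exact h q hq P L Pl P0

/-- S2. at most `(q²+q+2)^(r^525) (q²+q+1)^(k4)` indices (subsets of size ≤ h of an N-set: ≤ (N+1)^h), each term is
`≤ exp(-cs r^528/101)`. -/
theorem sumF4 (cs : ℝ) (hcs : 0 < cs) : ∃ q0 : ℕ, ∀ (q : ℕ), q0 ≤ q →
    ∀ (P L : Type) [Fintype P] [Fintype L] [DecidableEq P] [DecidableEq L] (Pl : Plane P L q)
      (P0 : P), ∑ i : IdxF4 Pl P0, Real.exp (-(cs * (((testF4 Pl P0 i.1.1 i.1.2).J.card : ℝ)) /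
        (((testF4 Pl P0 i.1.1 i.1.2).M : ℝ)))) ≤ 1 / 32 := by
  obtain ⟨q0, h⟩ := sumF4_proof cs hcs
  refine ⟨q0, fun q hq P L _ _ _ _ Pl P0 => ?_⟩
  letI : Fintype {x : Finset L × (Fin (k4 q) → P) // okF4 Pl P0 x.1 x.2} :=
    (inferInstance : Fintype (IdxF4 Pl P0))
  exact h q hq P L Pl P0

/-- S3. at most `exp(r^995)` indices (lemmaE), each term is `≤ exp(-cs q/8)`: |J| ≥ μ - (q+1) ≥ μ/2,
M = 3μ/q + 1 ≤ 4μ/q (μ = mis S ≥ r^1494). -/
theorem sumS7 (cs : ℝ) (hcs : 0 < cs) : ∃ q0 : ℕ, ∀ (q : ℕ), q0 ≤ q →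
    ∀ (P L : Type) [Fintype P] [Fintype L] [DecidableEq P] [DecidableEq L] (Pl : Plane P L q)
      (P0 : P), Pl.Dich →
      ∑ i : IdxS7 Pl P0, Real.exp (-(cs * (((testS7 Pl P0 i.1).J.card : ℝ)) /
        (((testS7 Pl P0 i.1).M : ℝ)))) ≤ 1 / 32 := by
  obtain ⟨q0, h⟩ := sumS7_proof cs hcs
  refine ⟨q0, fun q hq P L _ _ _ _ Pl P0 hD => ?_⟩
  letI : Fintype {S : Finset P // okS7 Pl S ∧ (testS7 Pl P0 S).Valid Pl P0 1} :=
    (inferInstance : Fintype (IdxS7 Pl P0))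
  exact h q hq P L Pl P0 hD

/-- S4. for each μ at most `(q²+q+1)^(k7 q μ)` indices, `k7 ≤ (μ/q) r^-5`, each term `exp(-cs c μ/(4q) log q)`,
μ/q ≥ r^494. -/
theorem sumW7 (cs c : ℝ) (hcs : 0 < cs) (hc : 0 < c) : ∃ q0 : ℕ, ∀ (q : ℕ), q0 ≤ q →
    ∀ (P L : Type) [Fintype P] [Fintype L] [DecidableEq P] [DecidableEq L] (Pl : Plane P L q),
      ∑ i : IdxW7 Pl, Real.exp (-(cs * hW7 q c i.1.1 * Real.log q)) ≤ 1 / 8 := by
  obtain ⟨q0, h⟩ := sumW7_proof cs c hcs hc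
  refine ⟨q0, fun q hq P L _ _ _ _ Pl => ?_⟩
  letI : Fintype {x : IdxW P q // okW7 Pl x} := (inferInstance : Fintype (IdxW7 Pl))
  exact h q hq P L Pl

end Crest.Agent.Ryser
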