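import Crest.Agent.Ryser.PE
import Crest.Agent.Ryser.Sums

/-! Row 34: existence of a good configuration (glue, helper10). -/

set_option autoImplicit false

open Finset

namespace Crest.Agent.Ryser

theorem exists_config (n : ℕ) (hn : 2 ≤ n) :
    ∃ c > (0 : ℝ), c ≤ 1 ∧ ∃ q0 : ℕ, ∀ (q : ℕ), q0 ≤ q →
      ∀ (P L : Type) [Fintype P] [Fintype L] [DecidableEq P] [DecidableEq L] (Pl : Plane P L q)
      (P0 : P), Pl.Dich →
      ∃ C : Config Pl P0 n, C.GP ∧ Good Pl P0 c (2 * n + 1) C.ban := by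
  obtain ⟨c, hc, hc1, cs, hcs, q0, h0⟩ := exists_config_gen n hn
  obtain ⟨q1, h1⟩ := sumPD cs hcs
  obtain ⟨q2, h2⟩ := sumF4 cs hcs
  obtain ⟨q3, h3⟩ := sumS7 cs hcs
  obtain ⟨q4, h4⟩ := sumW7 cs c hcs hc
  obtain ⟨q5, h5⟩ := rr_pow_le (4 / c) 250 494 (by norm_num)
  obtain ⟨q6, h6⟩ := rr_large 1
  refine ⟨c, hc, hc1, q0 + q1 + q2 + q3 + q4 + q5 + q6 + 1, ?_⟩
  intro q hq P L _ _ _ _ Pl P0 hD
  have hr1 : 1 ≤ rr q := h6 q (by omega)
  have hq0 : (0 : ℝ) < q := by exact_mod_cast (by omega : 0 < q)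
  let T : IdxPD Pl P0 ⊕ (IdxF4 Pl P0 ⊕ IdxS7 Pl P0) → Test P L :=
    Sum.elim (fun i => testPD Pl i.1.1 i.1.2)
      (Sum.elim (fun i => testF4 Pl P0 i.1.1 i.1.2) (fun i => testS7 Pl P0 i.1))
  let W : IdxW7 Pl → Finset P := fun i => Wx Pl i.1.1 i.1.2
  let h : IdxW7 Pl → ℝ := fun i => hW7 q c i.1.1
  obtain ⟨C, hGP, hpr, hlow, hrich, hW⟩ := h0 q (by omega) P L Pl P0 _ T _ W h
    (by
      rintro (i | i | i)
      · exact i.2.1
      · exact i.2.2.1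
      · exact i.2.2)
    (by
      rw [Fintype.sum_sum_type, Fintype.sum_sum_type]
      simp only [T, Sum.elim_inl, Sum.elim_inr]
      have e1 := h1 q (by omega) P L Pl P0
      have e2 := h2 q (by omega) P L Pl P0
      have e3 := h3 q (by omega) P L Pl P0 hD
      linarith)
    (fun i => i.2.2.2)
    (by
      intro i
      have e1 := i.2.1
      have e2 := h5 q (by omega)
      change rr q ^ 250 ≤ c * ((i.1.1 : ℕ) : ℝ) / (4 * q)
      rw [le_div_iff₀ (by positivity)]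
      have e3 : (q : ℝ) = rr q ^ 1000 := (rr_pow q).symm
      have e4 : rr q ^ 250 * (4 * (q : ℝ)) = c * ((4 / c * rr q ^ 250) * rr q ^ 1000) := by
        rw [e3]; field_simp
      rw [e4]
      apply mul_le_mul_of_nonneg_left _ hc.le
      refine le_trans ?_ e1
      calc (4 / c * rr q ^ 250) * rr q ^ 1000 ≤ rr q ^ 494 * rr q ^ 1000 := by
            apply mul_le_mul_of_nonneg_right e2 (pow_nonneg (rr_nonneg q) _)
        _ = rr q ^ 1494 := by rw [← pow_add])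
    (h4 q (by omega) P L Pl)
  refine ⟨C, hGP, ⟨?_, hpr, hlow, ?_, ?_, ?_, ?_⟩⟩
  · have := card_ban_le Pl P0 n C.toPreConfig
    exact_mod_cast this
  · intro x y hxy
    exact hrich (Sum.inl ⟨(x, y), hxy⟩)
  · intro 𝓛 x hx
    exact hrich (Sum.inr (Sum.inl ⟨(𝓛, x), hx⟩))
  · intro S hS hv
    exact hrich (Sum.inr (Sum.inr ⟨S, hS, hv⟩))
  · intro x hx
    exact hW ⟨x, hx⟩

end Crest.Agent.Ryser
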