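import Crest.Agent.Ryser.PDefs
import Crest.Agent.Ryser.Prob
import Crest.Agent.Ryser.RR

/-! Row 34, chunk SA: stage A of the random construction (base points). -/

set_option autoImplicit false

open Finset

namespace Crest.Agent.Ryser

namespace SA

/-- union bound, existence form -/
theorem exists_good {Ω I : Type} [Fintype I] (s : Finset Ω) (hs : s.Nonempty)
    (Bad : I → Ω → Prop) (δ : I → ℝ)
    (h : ∀ i, ∀ [DecidablePred (Bad i)], ((s.filter (Bad i)).card : ℝ) ≤ δ i * s.card)
    (hsum : ∑ i, δ i < 1) :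
    ∃ ω ∈ s, ∀ i, ¬ Bad i ω := by
  classical
  by_contra hcon
  push Not at hcon
  have h1 : s ⊆ univ.biUnion (fun i => s.filter (Bad i)) := by
    intro ω hω
    obtain ⟨i, hi⟩ := hcon ω hω
    rw [mem_biUnion]
    exact ⟨i, mem_univ _, mem_filter.2 ⟨hω, hi⟩⟩
  have h2 : (s.card : ℝ) ≤ (∑ i, δ i) * s.card := by
    calc (s.card : ℝ) ≤ ((univ.biUnion (fun i => s.filter (Bad i))).card : ℝ) := by
          exact_mod_cast card_le_card h1
      _ ≤ ((∑ i, (s.filter (Bad i)).card : ℕ) : ℝ) := by exact_mod_cast card_biUnion_le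
      _ = ∑ i, ((s.filter (Bad i)).card : ℝ) := by push_cast; rfl
      _ ≤ ∑ i, δ i * s.card := sum_le_sum fun i _ => h i
      _ = _ := by rw [sum_mul]
  have h3 : (0 : ℝ) < s.card := by exact_mod_cast hs.card_pos
  nlinarith

variable {P L : Type} [Fintype P] [Fintype L] [DecidableEq P] [DecidableEq L] {q : ℕ}

/-- the points of part `k` -/
def tt (Pl : Plane P L q) (P0 : P) (k : Pl.Prt P0) : Finset P := (Pl.pts k.1).erase P0

variable (Pl : Plane P L q) {P0 : P}

theorem P0_mem (k : Pl.Prt P0) : P0 ∈ Pl.pts k.1 := (Pl.mem_lns _ _).1 k.2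

theorem card_tt (k : Pl.Prt P0) : (tt Pl P0 k).card = q := by
  unfold tt
  rw [card_erase_of_mem (P0_mem Pl k), Pl.card_pts]; omega

theorem ne_of_P0 {l : L} (hl : P0 ∉ Pl.pts l) (k : Pl.Prt P0) : l ≠ k.1 := by
  rintro rfl
  exact hl (P0_mem Pl k)

theorem inter_eq {l : L} (hl : P0 ∉ Pl.pts l) (k : Pl.Prt P0) :
    (tt Pl P0 k).filter (fun x => x ∈ Pl.pts l) = {Pl.meet l k.1} := by
  have hne := ne_of_P0 Pl hl k
  ext x
  simp only [tt, mem_filter, mem_erase, mem_singleton]
  constructor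
  · rintro ⟨⟨_, h2⟩, h3⟩
    exact Pl.meet_unique l k.1 x hne h3 h2
  · rintro rfl
    refine ⟨⟨?_, Pl.meet_right l k.1 hne⟩, Pl.meet_left l k.1 hne⟩
    intro h
    exact hl (h ▸ Pl.meet_left l k.1 hne)

theorem inter_card {l : L} (hl : P0 ∉ Pl.pts l) (k : Pl.Prt P0) :
    ((tt Pl P0 k).filter (fun x => x ∈ Pl.pts l)).card = 1 := by
  rw [inter_eq Pl hl k, card_singleton]

theorem inter_card' {l : L} (hl : P0 ∉ Pl.pts l) (k : Pl.Prt P0) :
    ((tt Pl P0 k).filter (fun x => x ∉ Pl.pts l)).card = q - 1 := by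
  have := card_filter_add_card_filter_not (s := tt Pl P0 k) (fun x => x ∈ Pl.pts l)
  rw [inter_card Pl hl k, card_tt] at this
  omega

/-- lines through `X` avoiding `P0` -/
def lX (P0 : P) (X : P) : Finset L := (Pl.lns X).filter (fun l => P0 ∉ Pl.pts l)

theorem card_lX {X : P} (hX : X ≠ P0) : (lX Pl P0 X).card = q := by
  have h1 : (Pl.lns X).filter (fun l => ¬ P0 ∉ Pl.pts l) = {Pl.join X P0} := by
    ext l
    simp only [mem_filter, not_not, mem_singleton, Pl.mem_lns]
    constructor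
    · rintro ⟨h1, h2⟩
      exact Pl.join_unique X P0 l hX h1 h2
    · rintro rfl
      exact ⟨Pl.join_left X P0 hX, Pl.join_right X P0 hX⟩
  have := card_filter_add_card_filter_not (s := Pl.lns X) (fun l => P0 ∉ Pl.pts l)
  rw [h1, card_singleton, Pl.card_lns] at this
  unfold lX
  omega

theorem card_Prt : Fintype.card (Pl.Prt P0) = q + 1 := by
  rw [Fintype.card_coe, Pl.card_lns]

/-- parts through `X` -/
theorem card_KX' {X : P} (hX : X ≠ P0) :
    (univ.filter (fun k : Pl.Prt P0 => ¬ X ∉ Pl.pts k.1)).card = 1 := by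
  have h1 : univ.filter (fun k : Pl.Prt P0 => ¬ X ∉ Pl.pts k.1) =
      {⟨Pl.join X P0, (Pl.mem_lns _ _).2 (Pl.join_right X P0 hX)⟩} := by
    ext k
    simp only [mem_filter, mem_univ, true_and, not_not, mem_singleton]
    constructor
    · intro h
      apply Subtype.ext
      exact Pl.join_unique X P0 k.1 hX h (P0_mem Pl k)
    · rintro rfl
      exact Pl.join_left X P0 hX
  rw [h1, card_singleton]

theorem card_KX {X : P} (hX : X ≠ P0) :
    (univ.filter (fun k : Pl.Prt P0 => X ∉ Pl.pts k.1)).card = q := by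
  have := card_filter_add_card_filter_not (s := (univ : Finset (Pl.Prt P0)))
    (fun k => X ∉ Pl.pts k.1)
  rw [card_KX' Pl hX, card_univ, card_Prt Pl] at this
  omega

/-- number of base points of foreign parts on `l` -/
def NN (X : P) (a : Pl.Prt P0 → P) (l : L) : ℕ :=
  (univ.filter (fun k : Pl.Prt P0 => X ∉ Pl.pts k.1 ∧ a k ∈ Pl.pts l)).card

theorem eJ_eq (a : Pl.Prt P0 → P) (X : P) (j : ℕ) :
    eJ Pl a X j = ((lX Pl P0 X).filter (fun l => NN Pl X a l = j)).card := by
  unfold eJ lX NN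
  rw [filter_filter]

/-- one sided bounded differences -/
theorem eJ_diff (X : P) (j : ℕ) (a a' : Pl.Prt P0 → P) (k : Pl.Prt P0)
    (ha : a k ∈ Pl.pts k.1) (ha' : a' k ∈ Pl.pts k.1) (h : ∀ k', k' ≠ k → a' k' = a k') :
    eJ Pl a X j ≤ eJ Pl a' X j + 2 := by
  rw [eJ_eq, eJ_eq]
  by_cases hXk : X ∈ Pl.pts k.1
  · have : ∀ l, NN Pl X a l = NN Pl X a' l := by
      intro l
      unfold NN
      congr 1
      refine filter_congr fun k' _ => ?_
      by_cases hk : k' = k
      · subst hk; simp [hXk]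
      · rw [h k' hk]
    simp only [this]
    omega
  · have hsub : (lX Pl P0 X).filter (fun l => NN Pl X a l = j) ⊆
        (lX Pl P0 X).filter (fun l => NN Pl X a' l = j) ∪
          {Pl.join X (a k), Pl.join X (a' k)} := by
      intro l hl
      rw [mem_filter] at hl
      obtain ⟨hlX, hN⟩ := hl
      have hXl : X ∈ Pl.pts l := by
        unfold lX at hlX
        rw [mem_filter, Pl.mem_lns] at hlX
        exact hlX.1
      rw [mem_union, mem_filter, mem_insert, mem_singleton]
      by_cases h1 : a k ∈ Pl.pts l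
      · right; left
        refine Pl.join_unique X (a k) l ?_ hXl h1
        rintro rfl; exact hXk ha
      by_cases h2 : a' k ∈ Pl.pts l
      · right; right
        refine Pl.join_unique X (a' k) l ?_ hXl h2
        rintro rfl; exact hXk ha'
      left
      refine ⟨hlX, ?_⟩
      rw [← hN]
      unfold NN
      congr 1
      refine filter_congr fun k' _ => ?_
      by_cases hk : k' = k
      · subst hk; simp [h1, h2]
      · rw [h k' hk]
    calc _ ≤ _ := card_le_card hsub
      _ ≤ _ := card_union_le _ _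
      _ ≤ _ := Nat.add_le_add_left card_le_two _

theorem card_Omega : (Fintype.piFinset (tt Pl P0)).card = q ^ (q + 1) := by
  rw [Fintype.card_piFinset]
  simp only [card_tt]
  rw [prod_const, card_univ, card_Prt]

theorem prod_split {X : P} (hX : X ≠ P0) (f : Pl.Prt P0 → ℕ) (hf : ∀ k, X ∈ Pl.pts k.1 → f k = q) :
    ∏ k, f k = (∏ k ∈ univ.filter (fun k : Pl.Prt P0 => X ∉ Pl.pts k.1), f k) * q := by
  rw [← prod_filter_mul_prod_filter_not univ (fun k : Pl.Prt P0 => X ∉ Pl.pts k.1)]
  congr 1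
  rw [prod_congr rfl (g := fun _ => q), prod_const, card_KX' Pl hX, pow_one]
  intro k hk
  rw [mem_filter, not_not] at hk
  exact hf k hk.2

theorem count0 {X : P} (hX : X ≠ P0) {l : L} (hl : P0 ∉ Pl.pts l) :
    ((Fintype.piFinset (tt Pl P0)).filter (fun a => NN Pl X a l = 0)).card =
      (q - 1) ^ q * q := by
  have h1 : (Fintype.piFinset (tt Pl P0)).filter (fun a => NN Pl X a l = 0) =
      (Fintype.piFinset (tt Pl P0)).filter (fun a => ∀ k : Pl.Prt P0,
        ¬ (X ∉ Pl.pts k.1 ∧ a k ∈ Pl.pts l)) := by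
    refine filter_congr fun a _ => ?_
    unfold NN
    rw [card_eq_zero, filter_eq_empty_iff]
    simp
  rw [h1, card_pi_filter (tt Pl P0) (fun k x => ¬ (X ∉ Pl.pts k.1 ∧ x ∈ Pl.pts l)),
    prod_split Pl hX]
  · congr 1
    rw [prod_congr rfl (g := fun _ => q - 1), prod_const, card_KX Pl hX]
    intro k hk
    rw [mem_filter] at hk
    rw [← inter_card' Pl hl k]
    congr 1
    refine filter_congr fun x _ => ?_
    simp [hk.2]
  · intro k hk
    rw [filter_true_of_mem, card_tt]
    intro x _ h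
    exact h.1 hk

theorem count1 {X : P} (hX : X ≠ P0) {l : L} (hl : P0 ∉ Pl.pts l) :
    ((Fintype.piFinset (tt Pl P0)).filter (fun a => NN Pl X a l = 1)).card =
      q * ((q - 1) ^ (q - 1) * q) := by
  have h1 : (Fintype.piFinset (tt Pl P0)).filter (fun a => NN Pl X a l = 1) =
      (univ.filter (fun k : Pl.Prt P0 => X ∉ Pl.pts k.1)).biUnion (fun k0 =>
        (Fintype.piFinset (tt Pl P0)).filter (fun a => ∀ k : Pl.Prt P0,
          (if k = k0 then a k ∈ Pl.pts l else ¬ (X ∉ Pl.pts k.1 ∧ a k ∈ Pl.pts l)))) := by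
    ext a
    simp only [mem_filter, mem_biUnion, mem_univ, true_and]
    constructor
    · rintro ⟨ha, hN⟩
      unfold NN at hN
      obtain ⟨k0, hk0⟩ := card_eq_one.1 hN
      have hk0' : k0 ∈ univ.filter (fun k : Pl.Prt P0 => X ∉ Pl.pts k.1 ∧ a k ∈ Pl.pts l) := by
        rw [hk0]; exact mem_singleton_self _
      rw [mem_filter] at hk0'
      refine ⟨k0, hk0'.2.1, ha, fun k => ?_⟩
      split_ifs with h
      · rw [h]; exact hk0'.2.2
      · intro hh
        have : k ∈ univ.filter (fun k : Pl.Prt P0 => X ∉ Pl.pts k.1 ∧ a k ∈ Pl.pts l) :=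
          mem_filter.2 ⟨mem_univ _, hh⟩
        rw [hk0, mem_singleton] at this
        exact h this
    · rintro ⟨k0, hk0, ha, hall⟩
      refine ⟨ha, ?_⟩
      unfold NN
      rw [card_eq_one]
      refine ⟨k0, ?_⟩
      ext k
      simp only [mem_filter, mem_univ, true_and, mem_singleton]
      have hk := hall k
      constructor
      · intro hh
        by_contra hne
        rw [if_neg hne] at hk
        exact hk hh
      · rintro rfl
        rw [if_pos rfl] at hk
        exact ⟨hk0, hk⟩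
  rw [h1, card_biUnion]
  · rw [sum_congr rfl (g := fun _ => (q - 1) ^ (q - 1) * q), sum_const, card_KX Pl hX,
      smul_eq_mul]
    intro k0 hk0
    rw [card_pi_filter (tt Pl P0) (fun k x => if k = k0 then x ∈ Pl.pts l
      else ¬ (X ∉ Pl.pts k.1 ∧ x ∈ Pl.pts l)), prod_split Pl hX]
    · congr 1
      have hk0' := hk0
      rw [mem_filter] at hk0'
      rw [← mul_prod_erase _ _ hk0]
      have e1 : ((tt Pl P0 k0).filter (fun x => if k0 = k0 then x ∈ Pl.pts l
        else ¬ (X ∉ Pl.pts k0.1 ∧ x ∈ Pl.pts l))).card = 1 := by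
        simp only [if_true]
        exact inter_card Pl hl k0
      rw [e1, one_mul, prod_congr rfl (g := fun _ => q - 1), prod_const,
        card_erase_of_mem hk0, card_KX Pl hX]
      intro k hk
      rw [mem_erase, mem_filter] at hk
      rw [← inter_card' Pl hl k]
      congr 1
      refine filter_congr fun x _ => ?_
      simp [hk.1, hk.2.2]
    · intro k hk
      rw [filter_true_of_mem, card_tt]
      intro x _
      rw [mem_filter] at hk0
      rw [if_neg (by rintro rfl; exact hk0.2 hk)]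
      intro h
      exact h.1 hk
  · intro k0 hk0 k1 hk1 hne
    rw [mem_coe, mem_filter] at hk0 hk1
    rw [Function.onFun, disjoint_left]
    intro a h0 h1
    rw [mem_filter] at h0 h1
    have h2 := h0.2 k1
    have h3 := h1.2 k1
    rw [if_pos rfl] at h3
    rw [if_neg (Ne.symm hne)] at h2
    exact h2 ⟨hk1.2, h3⟩

theorem sum_eJ {X : P} (hX : X ≠ P0) (j c : ℕ)
    (hc : ∀ l ∈ lX Pl P0 X, ((Fintype.piFinset (tt Pl P0)).filter
      (fun a => NN Pl X a l = j)).card = c) :
    ∑ a ∈ Fintype.piFinset (tt Pl P0), (eJ Pl a X j : ℝ) = q * c := by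
  have h1 : ∀ a ∈ Fintype.piFinset (tt Pl P0), (eJ Pl a X j : ℝ) =
      ∑ l ∈ lX Pl P0 X, if NN Pl X a l = j then (1 : ℝ) else 0 := by
    intro a _
    rw [eJ_eq, sum_boole]
  rw [sum_congr rfl h1, sum_comm]
  have h2 : ∀ l ∈ lX Pl P0 X, ∑ a ∈ Fintype.piFinset (tt Pl P0),
      (if NN Pl X a l = j then (1 : ℝ) else 0) = c := by
    intro l hl
    rw [sum_boole, hc l hl]
  rw [sum_congr rfl h2, sum_const, card_lX Pl hX, nsmul_eq_mul]

theorem avg0 (hq : 1 ≤ q) {X : P} (hX : X ≠ P0) :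
    avg (tt Pl P0) (fun a => (eJ Pl a X 0 : ℝ)) = q * (1 - 1 / (q : ℝ)) ^ q := by
  unfold avg
  rw [sum_eJ Pl hX 0 ((q - 1) ^ q * q), card_Omega]
  · push_cast [Nat.cast_sub hq]
    have : (q : ℝ) ≠ 0 := by positivity
    have h1 : (1 - 1 / (q : ℝ)) = ((q : ℝ) - 1) / q := by field_simp
    rw [h1, div_pow, pow_succ]
    field_simp
  · intro l hl
    unfold lX at hl
    rw [mem_filter] at hl
    exact count0 Pl hX hl.2

theorem avg1 (hq : 1 ≤ q) {X : P} (hX : X ≠ P0) :
    avg (tt Pl P0) (fun a => (eJ Pl a X 1 : ℝ)) = q * (1 - 1 / (q : ℝ)) ^ (q - 1) := by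
  unfold avg
  rw [sum_eJ Pl hX 1 (q * ((q - 1) ^ (q - 1) * q)), card_Omega]
  · push_cast [Nat.cast_sub hq]
    have : (q : ℝ) ≠ 0 := by positivity
    have h1 : (1 - 1 / (q : ℝ)) = ((q : ℝ) - 1) / q := by field_simp
    obtain ⟨m, rfl⟩ : ∃ m, q = m + 1 := ⟨q - 1, by omega⟩
    simp only [Nat.add_sub_cancel] at *
    rw [h1, div_pow, pow_succ, pow_succ]
    field_simp
  · intro l hl
    unfold lX at hl
    rw [mem_filter] at hl
    exact count1 Pl hX hl.2

/-- McDiarmid for `eJ` -/
theorem conc_eJ (hq : 1 ≤ q) (X : P) (j : ℕ) (s : ℝ) (hs : 0 ≤ s) :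
    (((Fintype.piFinset (tt Pl P0)).filter (fun a =>
      s ≤ |(eJ Pl a X j : ℝ) - avg (tt Pl P0) (fun a => (eJ Pl a X j : ℝ))|)).card : ℝ) ≤
      2 * Real.exp (-(s ^ 2 / (2 * (4 * (q + 1))))) *
        ((Fintype.piFinset (tt Pl P0)).card : ℝ) := by
  refine mcdiarmid (tt Pl P0) ?_ (fun a => (eJ Pl a X j : ℝ)) (fun _ => 2) (by intro; norm_num)
    ?_ s (4 * (q + 1)) hs ?_ (by positivity)
  · intro k
    rw [← card_pos, card_tt]; omega
  · intro a ha k x hx
    have hm : ∀ k, a k ∈ Pl.pts k.1 := fun k => (mem_erase.1 (Fintype.mem_piFinset.1 ha k)).2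
    have hx' : x ∈ Pl.pts k.1 := (mem_erase.1 hx).2
    have e1 := eJ_diff Pl X j a (Function.update a k x) k (hm k) (by simpa using hx')
      (fun k' hk' => by simp [hk'])
    have e2 := eJ_diff Pl X j (Function.update a k x) a k (by simpa using hx') (hm k)
      (fun k' hk' => by simp [hk'])
    have e1' : (eJ Pl a X j : ℝ) ≤ eJ Pl (Function.update a k x) X j + 2 := by exact_mod_cast e1
    have e2' : (eJ Pl (Function.update a k x) X j : ℝ) ≤ eJ Pl a X j + 2 := by exact_mod_cast e2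
    rw [abs_le]; constructor <;> linarith
  · rw [sum_const, card_univ, card_Prt]
    simp only [nsmul_eq_mul]
    push_cast
    linarith

/-- tests -/
theorem test_bound (w : ℕ) (hq : 4 * w + 1 ≤ q) (T : Test P L) (hT : T.Valid Pl P0 w) :
    (((Fintype.piFinset (tt Pl P0)).filter (fun a =>
      ((T.surv Pl (univ.image a)).card : ℝ) ≤ Real.exp (-(8 * (w : ℝ))) / 2 * (T.J.card : ℝ))).card : ℝ) ≤
      Real.exp (-(Real.exp (-(8 * (w : ℝ))) / 2 * (T.J.card : ℝ) / (T.M : ℝ))) *
        ((Fintype.piFinset (tt Pl P0)).card : ℝ) := by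
  classical
  have hq0 : (0 : ℝ) < q := by
    have : 0 < q := by omega
    exact_mod_cast this
  have hM : (0 : ℝ) < T.M := by exact_mod_cast hT.M_pos
  have hwq : 4 * (w : ℝ) ≤ q := by
    have : 4 * w ≤ q := by omega
    exact_mod_cast this
  have hH := lemmaH (tt Pl P0) (fun k => by rw [← card_pos, card_tt]; omega) T.J
    (fun _ x j => x ∉ T.Y0 ∧ ∃ l ∈ T.Λ j, x ∈ Pl.pts l) (T.M : ℝ) hM
    (by
      intro k x _
      by_cases hx : x ∈ T.Y0
      · rw [filter_false_of_mem (by intro j _ h; exact h.1 hx)]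
        simp
      · have := hT.deg x hx
        have h2 : T.J.filter (fun j => x ∉ T.Y0 ∧ ∃ l ∈ T.Λ j, x ∈ Pl.pts l) =
            T.J.filter (fun j => ∃ l ∈ T.Λ j, x ∈ Pl.pts l) := by
          refine filter_congr fun j _ => ?_
          simp [hx]
        rw [h2]; exact_mod_cast this)
    (fun _ => (w : ℝ) / q) (fun _ => by positivity)
    (fun _ => by rw [div_le_div_iff₀ hq0 (by norm_num)]; linarith)
    (by
      intro k j hj
      rw [card_tt, div_mul_cancel₀ _ hq0.ne']
      have h1 : (tt Pl P0 k).filter (fun x => x ∉ T.Y0 ∧ ∃ l ∈ T.Λ j, x ∈ Pl.pts l) ⊆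
          (T.Λ j).biUnion (fun l => (tt Pl P0 k).filter (fun x => x ∈ Pl.pts l)) := by
        intro x hx
        rw [mem_filter] at hx
        obtain ⟨hx1, _, l, hl, hxl⟩ := hx
        rw [mem_biUnion]
        exact ⟨l, hl, mem_filter.2 ⟨hx1, hxl⟩⟩
      have h2 : ((tt Pl P0 k).filter (fun x => x ∉ T.Y0 ∧ ∃ l ∈ T.Λ j, x ∈ Pl.pts l)).card ≤ w := by
        calc _ ≤ _ := card_le_card h1
          _ ≤ ∑ l ∈ T.Λ j, ((tt Pl P0 k).filter (fun x => x ∈ Pl.pts l)).card := card_biUnion_le
          _ = ∑ _l ∈ T.Λ j, 1 := sum_congr rfl fun l hl => inter_card Pl (hT.notP0 j hj l hl) k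
          _ = (T.Λ j).card := by simp
          _ ≤ w := hT.card_le j hj
      exact_mod_cast h2)
  -- the product
  have hprod : Real.exp (-(8 * (w : ℝ))) ≤ ∏ _k : Pl.Prt P0, (1 - 2 * ((w : ℝ) / q)) := by
    rw [prod_const, card_univ, card_Prt]
    have hx0 : (0 : ℝ) ≤ 2 * ((w : ℝ) / q) := by positivity
    have hx1 : 2 * ((w : ℝ) / q) ≤ 1 / 2 := by
      have : (w : ℝ) / q ≤ 1 / 4 := by rw [div_le_div_iff₀ hq0 (by norm_num)]; linarith
      linarith
    have h1 : Real.exp (-(2 * (2 * ((w : ℝ) / q)))) ≤ 1 - 2 * ((w : ℝ) / q) := by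
      set x := 2 * ((w : ℝ) / q) with hxdef
      have h2 : 1 + 2 * x ≤ Real.exp (2 * x) := by
        have := Real.add_one_le_exp (2 * x); linarith
      rw [Real.exp_neg, inv_le_comm₀ (Real.exp_pos _) (by linarith)]
      refine le_trans ?_ h2
      rw [inv_le_iff_one_le_mul₀ (by linarith)]
      nlinarith
    calc Real.exp (-(8 * (w : ℝ))) ≤ Real.exp (((q + 1 : ℕ) : ℝ) * (-(2 * (2 * ((w : ℝ) / q))))) := by
          apply Real.exp_le_exp.2
          push_cast
          have h3 : (w : ℝ) / q * (q + 1) ≤ 2 * w := by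
            rw [div_mul_eq_mul_div, div_le_iff₀ hq0]
            have : (1 : ℝ) ≤ q := by
              have : 1 ≤ q := by omega
              exact_mod_cast this
            have hw0 : (0 : ℝ) ≤ w := by positivity
            nlinarith
          linarith
      _ = Real.exp (-(2 * (2 * ((w : ℝ) / q)))) ^ (q + 1) := by rw [← Real.exp_nat_mul]
      _ ≤ _ := pow_le_pow_left₀ (Real.exp_pos _).le h1 _
  have hsurv : ∀ a : Pl.Prt P0 → P, T.surv Pl (univ.image a) =
      T.J.filter (fun j => ∀ k, ¬ (a k ∉ T.Y0 ∧ ∃ l ∈ T.Λ j, a k ∈ Pl.pts l)) := by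
    intro a
    unfold Test.surv
    refine filter_congr fun j _ => ?_
    constructor
    · rintro h k ⟨h1, l, hl, h2⟩
      exact h1 (h l hl (a k) (mem_image_of_mem _ (mem_univ _)) h2)
    · intro h l hl X hX hXl
      rw [mem_image] at hX
      obtain ⟨k, _, rfl⟩ := hX
      by_contra hY
      exact h k ⟨hY, l, hl, hXl⟩
  calc _ ≤ (((Fintype.piFinset (tt Pl P0)).filter (fun ω =>
      ((T.J.filter (fun j => ∀ i, ¬ (ω i ∉ T.Y0 ∧ ∃ l ∈ T.Λ j, ω i ∈ Pl.pts l))).card : ℝ) ≤
        (∏ _k : Pl.Prt P0, (1 - 2 * ((w : ℝ) / q))) / 2 * (T.J.card : ℝ))).card : ℝ) := by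
        refine Nat.cast_le.2 (card_le_card ?_)
        intro a ha
        rw [mem_filter] at ha ⊢
        refine ⟨ha.1, ?_⟩
        rw [← hsurv a]
        refine ha.2.trans ?_
        gcongr
    _ ≤ _ := hH
    _ ≤ _ := by
        gcongr

/-- upper tail -/
theorem W_bound (hq : 2 ≤ q) (W : Finset P) (hW : W.card ≤ 3 * q) (h : ℝ)
    (hh : 3 * rr q ^ 125 ≤ h * Real.log q / 32) :
    (((Fintype.piFinset (tt Pl P0)).filter (fun a =>
      h / 2 ≤ ((univ.filter (fun k => a k ∈ W)).card : ℝ))).card : ℝ) ≤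
      Real.exp (-(1 / 32 * h * Real.log q)) * ((Fintype.piFinset (tt Pl P0)).card : ℝ) := by
  classical
  have hq0 : (0 : ℝ) < q := by positivity
  have hq1 : (1 : ℝ) ≤ q := by exact_mod_cast (by omega : 1 ≤ q)
  have hr1 : 1 ≤ rr q := Real.one_le_rpow hq1 (by norm_num)
  have hr0 : 0 < rr q := by linarith
  have hlog : Real.log (rr q ^ 125) = Real.log q / 8 := by
    have : Real.log (q : ℝ) = 1000 * Real.log (rr q) := by
      rw [← rr_pow q, Real.log_pow]; norm_num
    rw [Real.log_pow, this]; push_cast; ring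
  have hU := lemmaU (tt Pl P0) (fun k => by rw [← card_pos, card_tt]; omega)
    (fun _ x => x ∈ W) (fun k => (((tt Pl P0 k).filter (fun x => x ∈ W)).card : ℝ) / q)
    (by intro k; rw [card_tt, div_mul_cancel₀ _ hq0.ne'])
    (rr q ^ 125) (h / 2) (one_le_pow₀ hr1)
  refine hU.trans ?_
  have hsum : ∑ k : Pl.Prt P0, (((tt Pl P0 k).filter (fun x => x ∈ W)).card : ℝ) / q ≤ 3 := by
    rw [← sum_div, div_le_iff₀ hq0]
    have h1 : ∑ k : Pl.Prt P0, ((tt Pl P0 k).filter (fun x => x ∈ W)).card ≤ W.card := by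
      rw [← card_biUnion]
      · apply card_le_card
        intro x hx
        rw [mem_biUnion] at hx
        obtain ⟨k, _, hk⟩ := hx
        exact (mem_filter.1 hk).2
      · intro k _ k' _ hkk
        rw [Function.onFun, disjoint_left]
        intro x h1 h2
        rw [mem_filter] at h1 h2
        unfold tt at h1 h2
        rw [mem_erase] at h1 h2
        exact h1.1.1 (Pl.eq_of_mem_two (fun h => hkk (Subtype.ext h)) h1.1.2 h2.1.2
          (P0_mem Pl k) (P0_mem Pl k'))
    exact_mod_cast h1.trans hW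
  gcongr
  rw [hlog]
  have h125 : (1 : ℝ) ≤ rr q ^ 125 := one_le_pow₀ hr1
  have : (rr q ^ 125 - 1) * ∑ k : Pl.Prt P0, (((tt Pl P0 k).filter (fun x => x ∈ W)).card : ℝ) / q ≤
      3 * rr q ^ 125 := by
    calc _ ≤ (rr q ^ 125 - 1) * 3 := by
          apply mul_le_mul_of_nonneg_left hsum; linarith
      _ ≤ _ := by linarith
  linarith

end SA

open SA in
/-- SA. `a` uniform in the product over parts `k` of `(pts k).erase P0` (q points each, q+1 parts).
(1) For X ≠ P0: the q parts k not containing X throw balls into the q lines through X not through P0 (each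
`a k` is on exactly one line through X, uniform): E eJ 0 = q (1-1/q)^q, E eJ 1 = q (1-1/q)^(q-1); changing one
coordinate changes eJ by ≤ 2; McDiarmid with s = r^501, V = 4(q+1); union over q²+q+1 points X.
(2) tests: lemmaH with hit k x j := x ∉ Y0 ∧ ∃ l ∈ Λ j, x ∈ l; each Λ j has ≤ w lines, each meets part k in one
point ≠ P0, so p = w/q; ∏ (1-2w/q) over q+1 parts ≥ e^{-3w}.
(3) W: lemmaU with θ = q^(1/8), p k = |W ∩ k|/q (so ∑ p ≤ 3), threshold h/2. -/
theorem stageA (w : ℕ) : ∃ cA > (0 : ℝ), ∃ csA > (0 : ℝ), ∃ q0 : ℕ, ∀ (q : ℕ), q0 ≤ q → ∀ (P L : Type) [Fintype P] [Fintype L] [DecidableEq P]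
      [DecidableEq L] (Pl : Plane P L q) (P0 : P)
      (ι : Type) [Fintype ι] (T : ι → Test P L) (κ : Type) [Fintype κ] (W : κ → Finset P)
      (h : κ → ℝ), TClass Pl P0 w csA T → WClass q csA W h →
      ∃ a : Pl.Prt P0 → P, StatsA Pl P0 a ∧
        (∀ i, cA * ((T i).J.card : ℝ) ≤ (((T i).surv Pl (univ.image a)).card : ℝ)) ∧
        (∀ k, ((univ.image a ∩ W k).card : ℝ) ≤ h k / 2) := by
  classical
  obtain ⟨q1, hq1⟩ := log_le_rr (1 / 100) (by norm_num)
  obtain ⟨q2, hq2⟩ := rr_large 1000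
  refine ⟨Real.exp (-(8 * (w : ℝ))) / 2, by positivity, min (Real.exp (-(8 * (w : ℝ))) / 2) (1 / 32),
    by positivity, q1 + q2 + 4 * w + 3, ?_⟩
  intro q hq P L _ _ _ _ Pl P0 ι _ T κ _ W h hT hW
  have hlogle := hq1 q (by omega)
  have hr := hq2 q (by omega)
  have hqpos : (0 : ℝ) < q := by
    have : 0 < q := by omega
    exact_mod_cast this
  have hq3 : (3 : ℝ) ≤ q := by
    have : 3 ≤ q := by omega
    exact_mod_cast this
  have hlog1 : 1 ≤ Real.log q := by
    rw [Real.le_log_iff_exp_le hqpos]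
    exact (Real.exp_one_lt_d9.le.trans (by norm_num)).trans hq3
  have hrpow := rr_pow q
  set r := rr q with hrdef
  have hr0 : 0 < r := by linarith
  have hne : (Fintype.piFinset (tt Pl P0)).Nonempty := by
    rw [← card_pos, card_Omega]
    exact pow_pos (by omega) _
  -- the union bound
  let I := ({X : P // X ≠ P0} × Fin 2) ⊕ ι ⊕ κ
  let Bad : I → (Pl.Prt P0 → P) → Prop := Sum.elim
    (fun X a => r ^ 501 ≤ |(eJ Pl a X.1.1 X.2 : ℝ) -
      avg (tt Pl P0) (fun a => (eJ Pl a X.1.1 X.2 : ℝ))|)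
    (Sum.elim
      (fun i a => (((T i).surv Pl (univ.image a)).card : ℝ) ≤
        Real.exp (-(8 * (w : ℝ))) / 2 * ((T i).J.card : ℝ))
      (fun k a => h k / 2 ≤ ((univ.filter (fun p => a p ∈ W k)).card : ℝ)))
  let δ : I → ℝ := Sum.elim
    (fun _ => 2 * Real.exp (-((r ^ 501) ^ 2 / (2 * (4 * (q + 1))))))
    (Sum.elim
      (fun i => Real.exp (-(Real.exp (-(8 * (w : ℝ))) / 2 * ((T i).J.card : ℝ) / ((T i).M : ℝ))))
      (fun k => Real.exp (-(1 / 32 * h k * Real.log q))))
  have hWh : ∀ k, 3 * r ^ 125 ≤ h k * Real.log q / 32 := by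
    intro k
    have h1 := hW.h_ge k
    have h2 : (96 : ℝ) * r ^ 125 ≤ r ^ 250 := by
      have : (96 : ℝ) ≤ r ^ 125 := by
        calc (96 : ℝ) ≤ r := by linarith
          _ ≤ r ^ 125 := le_self_pow₀ (by linarith) (by norm_num)
      calc 96 * r ^ 125 ≤ r ^ 125 * r ^ 125 := by gcongr
        _ = r ^ 250 := by rw [← pow_add]
    have h3 : r ^ 250 ≤ h k * Real.log q := by
      have h4 : 0 ≤ h k := le_trans (by positivity) h1
      nlinarith
    linarith
  obtain ⟨a, ha, hgood⟩ := exists_good (Fintype.piFinset (tt Pl P0)) hne Bad δ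
    (by
      rintro (X | i | k) inst
      · simp only [Bad, δ, Sum.elim_inl]
        convert conc_eJ Pl (by omega) X.1.1 X.2 (r ^ 501) (by positivity) using 3
      · simp only [Bad, δ, Sum.elim_inr, Sum.elim_inl]
        convert test_bound Pl w (by omega) (T i) (hT.valid i) using 3
      · simp only [Bad, δ, Sum.elim_inr]
        convert W_bound Pl (by omega) (W k) (hW.card_le k) (h k) (hWh k) using 3)
    (by
      simp only [δ, I]
      rw [Fintype.sum_sum_type, Fintype.sum_sum_type]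
      simp only [Sum.elim_inl, Sum.elim_inr]
      have e1 : ∑ _X : {X : P // X ≠ P0} × Fin 2,
          2 * Real.exp (-((r ^ 501) ^ 2 / (2 * (4 * ((q : ℝ) + 1))))) ≤ 1 / 4 := by
        rw [sum_const, card_univ, nsmul_eq_mul]
        have hcard : (Fintype.card ({X : P // X ≠ P0} × Fin 2) : ℝ) ≤ 6 * q ^ 2 := by
          rw [Fintype.card_prod, Fintype.card_fin]
          have h1 : Fintype.card {X : P // X ≠ P0} ≤ Fintype.card P := Fintype.card_subtype_le _
          rw [Pl.card_P] at h1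
          have h2 : (Fintype.card {X : P // X ≠ P0} : ℝ) ≤ q ^ 2 + q + 1 := by exact_mod_cast h1
          push_cast
          nlinarith
        have hexp : Real.exp (-((r ^ 501) ^ 2 / (2 * (4 * ((q : ℝ) + 1))))) ≤
            Real.exp (-(4 * Real.log q)) := by
          apply Real.exp_le_exp.2
          have h1 : 4 * Real.log q ≤ r := by linarith
          have h2 : r ≤ (r ^ 501) ^ 2 / (2 * (4 * ((q : ℝ) + 1))) := by
            rw [le_div_iff₀ (by positivity)]
            have h3 : (r ^ 501) ^ 2 = r ^ 2 * q := by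
              rw [← pow_mul, ← hrpow, ← pow_add]
            rw [h3]
            nlinarith [mul_pos hr0 hqpos]
          linarith
        have hexp2 : Real.exp (-(4 * Real.log q)) = ((q : ℝ) ^ 4)⁻¹ := by
          rw [Real.exp_neg]
          congr 1
          rw [mul_comm, Real.exp_mul, Real.exp_log hqpos]
          norm_cast
        have hq1000 : (1000 : ℝ) ≤ q := by
          rw [← hrpow]
          calc (1000 : ℝ) ≤ r := hr
            _ ≤ r ^ 1000 := le_self_pow₀ (by linarith) (by norm_num)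
        calc _ ≤ (6 * (q : ℝ) ^ 2) * (2 * ((q : ℝ) ^ 4)⁻¹) := by
              rw [hexp2] at hexp
              gcongr
          _ = 12 / (q : ℝ) ^ 2 := by field_simp; ring
          _ ≤ 1 / 4 := by
              rw [div_le_div_iff₀ (by positivity) (by norm_num)]
              nlinarith
      have e2 : ∑ i, Real.exp (-(Real.exp (-(8 * (w : ℝ))) / 2 * ((T i).J.card : ℝ) /
          ((T i).M : ℝ))) ≤ 1 / 4 := by
        refine le_trans (sum_le_sum fun i _ => ?_) hT.sum_le
        apply Real.exp_le_exp.2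
        have hM : (0 : ℝ) < (T i).M := by exact_mod_cast (hT.valid i).M_pos
        rw [neg_le_neg_iff]
        gcongr
        exact min_le_left _ _
      have e3 : ∑ k, Real.exp (-(1 / 32 * h k * Real.log q)) ≤ 1 / 4 := by
        refine le_trans (sum_le_sum fun k _ => ?_) hW.sum_le
        apply Real.exp_le_exp.2
        have h4 : 0 ≤ h k := le_trans (by positivity) (hW.h_ge k)
        rw [neg_le_neg_iff]
        gcongr
        exact min_le_right _ _
      linarith)
  have hmem : ∀ k, a k ∈ tt Pl P0 k := fun k => Fintype.mem_piFinset.1 ha k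
  refine ⟨a, ⟨fun k => (mem_erase.1 (hmem k)).2, fun k => (mem_erase.1 (hmem k)).1, ?_, ?_⟩, ?_, ?_⟩
  · intro X hX
    have h1 := hgood (Sum.inl (⟨X, hX⟩, 0))
    simp only [Bad, Sum.elim_inl, not_le] at h1
    have h2 := avg0 Pl (by omega) hX
    simp only [Fin.val_zero] at h1
    rw [h2] at h1
    exact h1.le
  · intro X hX
    have h1 := hgood (Sum.inl (⟨X, hX⟩, 1))
    simp only [Bad, Sum.elim_inl, not_le] at h1
    have h2 := avg1 Pl (by omega) hX
    simp only [Fin.val_one] at h1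
    rw [h2] at h1
    exact h1.le
  · intro i
    have h1 := hgood (Sum.inr (Sum.inl i))
    simp only [Bad, Sum.elim_inr, Sum.elim_inl, not_le] at h1
    exact h1.le
  · intro k
    have h1 := hgood (Sum.inr (Sum.inr k))
    simp only [Bad, Sum.elim_inr, not_le] at h1
    refine le_trans ?_ h1.le
    have h2 : univ.image a ∩ W k ⊆ (univ.filter (fun p => a p ∈ W k)).image a := by
      intro x hx
      rw [mem_inter, mem_image] at hx
      obtain ⟨⟨p, _, rfl⟩, hp⟩ := hx
      exact mem_image_of_mem _ (mem_filter.2 ⟨mem_univ _, hp⟩)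
    exact_mod_cast (card_le_card h2).trans card_image_le

end Crest.Agent.Ryser
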