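import Crest.Agent.Ryser.PDefs
import Crest.Agent.Ryser.Prob
import Crest.Agent.Ryser.RR

set_option autoImplicit false

open Finset

namespace Crest.Agent.Ryser

namespace SBx

variable {P L : Type} [Fintype P] [Fintype L] [DecidableEq P] [DecidableEq L] {q : ℕ}
variable {Pl : Plane P L q} {P0 : P} {a : Pl.Prt P0 → P}

theorem P0_mem (k : Pl.Prt P0) : P0 ∈ Pl.pts k.1 := (Pl.mem_lns _ _).1 k.2

theorem part_eq {X : P} (hX : X ≠ P0) {k k' : Pl.Prt P0} (h : X ∈ Pl.pts k.1)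
    (h' : X ∈ Pl.pts k'.1) : k = k' :=
  Subtype.ext (Pl.line_eq_of_two hX h h' (P0_mem k) (P0_mem k'))

/-- `Y` is on a line of `g` -/
def hit (Pl : Plane P L q) (Y : P) (g : Finset L) : Prop := ∃ l ∈ g, Y ∈ Pl.pts l

instance (Y : P) : DecidablePred (hit Pl Y) := fun g => by unfold hit; infer_instance

theorem a_notMem (hm : ∀ k, a k ∈ Pl.pts k.1) (hn : ∀ k, a k ≠ P0) {k k' : Pl.Prt P0}
    (h : k ≠ k') : a k ∉ Pl.pts k'.1 := fun hc => h (part_eq (hn k) (hm k) hc)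

theorem a_inj (hm : ∀ k, a k ∈ Pl.pts k.1) (hn : ∀ k, a k ≠ P0) {k k' : Pl.Prt P0}
    (h : a k = a k') : k = k' := part_eq (hn k) (hm k) (h ▸ hm k')

theorem mem_AA {k : Pl.Prt P0} {l : L} : l ∈ AA Pl a k ↔
    a k ∈ Pl.pts l ∧ P0 ∉ Pl.pts l ∧ ∀ k', k' ≠ k → a k' ∉ Pl.pts l := by
  unfold AA; rw [mem_filter, Pl.mem_lns]

theorem AA_disj {k k' : Pl.Prt P0} {l : L} (h : l ∈ AA Pl a k) (h' : l ∈ AA Pl a k') : k = k' := by
  by_contra hne
  exact (mem_AA.1 h').2.2 k hne (mem_AA.1 h).1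

/-- a line not through `P0` meets each part in one point -/
theorem meet_part {l : L} (hl : P0 ∉ Pl.pts l) {k : Pl.Prt P0} {X Y : P} (hX : X ∈ Pl.pts l)
    (hY : Y ∈ Pl.pts l) (hX' : X ∈ Pl.pts k.1) (hY' : Y ∈ Pl.pts k.1) : X = Y := by
  by_contra hne
  have := Pl.line_eq_of_two hne hX hX' hY hY'
  exact hl (this ▸ P0_mem k)

theorem card_AA (hm : ∀ k, a k ∈ Pl.pts k.1) (hn : ∀ k, a k ≠ P0) (k : Pl.Prt P0) :
    (AA Pl a k).card = eJ Pl a (a k) 0 := by
  unfold eJ AA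
  congr 1
  apply filter_congr
  intro l _
  rw [card_eq_zero, filter_eq_empty_iff]
  constructor
  · rintro ⟨h1, h2⟩
    refine ⟨h1, ?_⟩
    rintro k' - ⟨h3, h4⟩
    by_cases hk : k' = k
    · exact h3 (hk ▸ hm k)
    · exact h2 k' hk h4
  · rintro ⟨h1, h2⟩
    refine ⟨h1, ?_⟩
    intro k' hk hc
    exact h2 (mem_univ k') ⟨a_notMem hm hn (fun e => hk e.symm), hc⟩

/-- parts with a candidate line through `Y` -/
def KY (Pl : Plane P L q) {P0 : P} (a : Pl.Prt P0 → P) (Y : P) : Finset (Pl.Prt P0) :=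
  univ.filter (fun k => ∃ l ∈ AA Pl a k, Y ∈ Pl.pts l)

theorem mem_KY {Y : P} {k : Pl.Prt P0} : k ∈ KY Pl a Y ↔ ∃ l ∈ AA Pl a k, Y ∈ Pl.pts l := by
  unfold KY; rw [mem_filter]; simp

theorem line_eq_join {Y : P} {k : Pl.Prt P0} (hY : Y ≠ a k) {l : L} (hl : l ∈ AA Pl a k)
    (hYl : Y ∈ Pl.pts l) : l = Pl.join Y (a k) :=
  Pl.join_unique Y (a k) l hY hYl (mem_AA.1 hl).1

theorem card_KY (hm : ∀ k, a k ∈ Pl.pts k.1) {Y : P} (hYa : ∀ k, Y ≠ a k) :
    (KY Pl a Y).card = eJ Pl a Y 1 := by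
  unfold eJ
  apply card_bij (fun k _ => Pl.join Y (a k))
  · intro k hk
    obtain ⟨l, hl, hYl⟩ := mem_KY.1 hk
    have e := line_eq_join (hYa k) hl hYl
    rw [← e, mem_filter, Pl.mem_lns]
    refine ⟨hYl, (mem_AA.1 hl).2.1, ?_⟩
    rw [card_eq_one]
    refine ⟨k, ?_⟩
    ext k'
    simp only [mem_filter, mem_univ, true_and, mem_singleton]
    constructor
    · rintro ⟨-, h2⟩
      by_contra hne
      exact (mem_AA.1 hl).2.2 k' hne h2
    · rintro rfl
      refine ⟨?_, (mem_AA.1 hl).1⟩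
      intro hc
      exact hYa k' (meet_part (mem_AA.1 hl).2.1 hYl (mem_AA.1 hl).1 hc (hm k'))
  · intro k hk k' hk' h
    obtain ⟨l, hl, hYl⟩ := mem_KY.1 hk
    obtain ⟨l', hl', hYl'⟩ := mem_KY.1 hk'
    have e := line_eq_join (hYa k) hl hYl
    have e' := line_eq_join (hYa k') hl' hYl'
    rw [← e, ← e'] at h
    subst h
    exact AA_disj hl hl'
  · intro l hl
    rw [mem_filter, Pl.mem_lns] at hl
    obtain ⟨hYl, hP0, hc⟩ := hl
    rw [card_eq_one] at hc
    obtain ⟨k, hk⟩ := hc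
    have hk1 : k ∈ univ.filter (fun k : Pl.Prt P0 => Y ∉ Pl.pts k.1 ∧ a k ∈ Pl.pts l) := by
      rw [hk]; exact mem_singleton_self _
    rw [mem_filter] at hk1
    have hAA : l ∈ AA Pl a k := by
      rw [mem_AA]
      refine ⟨hk1.2.2, hP0, ?_⟩
      intro k' hne hc'
      by_cases hY' : Y ∈ Pl.pts k'.1
      · exact hYa k' (meet_part hP0 hYl hc' hY' (hm k'))
      · have : k' ∈ univ.filter (fun k : Pl.Prt P0 => Y ∉ Pl.pts k.1 ∧ a k ∈ Pl.pts l) := by
          rw [mem_filter]; exact ⟨mem_univ _, hY', hc'⟩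
        rw [hk, mem_singleton] at this
        exact hne this
    refine ⟨k, mem_KY.2 ⟨l, hAA, hYl⟩, ?_⟩
    exact (line_eq_join (hYa k) hAA hYl).symm

/-! ### counting in `powersetCard 2` -/

/-- sample space of part `k` -/
def tt (Pl : Plane P L q) {P0 : P} (a : Pl.Prt P0 → P) (k : Pl.Prt P0) : Finset (Finset L) :=
  (AA Pl a k).powersetCard 2

theorem card_tt (k : Pl.Prt P0) : (tt Pl a k).card = (AA Pl a k).card.choose 2 := by
  unfold tt; rw [card_powersetCard]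

theorem card_AA_filter {Y : P} {k : Pl.Prt P0} (hY : Y ≠ a k) :
    ((AA Pl a k).filter (fun l => Y ∉ Pl.pts l)).card + (if k ∈ KY Pl a Y then 1 else 0) =
      (AA Pl a k).card := by
  have h1 := card_filter_add_card_filter_not (s := AA Pl a k) (fun l => Y ∈ Pl.pts l)
  have h2 : ((AA Pl a k).filter (fun l => Y ∈ Pl.pts l)).card = if k ∈ KY Pl a Y then 1 else 0 := by
    split_ifs with h
    · obtain ⟨l, hl, hYl⟩ := mem_KY.1 h
      rw [card_eq_one]
      refine ⟨l, ?_⟩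
      ext l'
      rw [mem_filter, mem_singleton]
      constructor
      · rintro ⟨h3, h4⟩
        rw [line_eq_join hY h3 h4, line_eq_join hY hl hYl]
      · rintro rfl; exact ⟨hl, hYl⟩
    · rw [card_eq_zero, filter_eq_empty_iff]
      intro l hl hYl
      exact h (mem_KY.2 ⟨l, hl, hYl⟩)
  omega

theorem not_hit_filter (Y : P) (k : Pl.Prt P0) :
    (tt Pl a k).filter (fun g => ¬ hit Pl Y g) =
      ((AA Pl a k).filter (fun l => Y ∉ Pl.pts l)).powersetCard 2 := by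
  ext g
  unfold tt hit
  simp only [mem_filter, mem_powersetCard, subset_iff]
  constructor
  · rintro ⟨⟨h1, h2⟩, h3⟩
    refine ⟨fun l hl => ⟨h1 hl, fun hc => h3 ⟨l, hl, hc⟩⟩, h2⟩
  · rintro ⟨h1, h2⟩
    refine ⟨⟨fun l hl => (h1 hl).1, h2⟩, ?_⟩
    rintro ⟨l, hl, hc⟩
    exact (h1 hl).2 hc

/-- probability of a hit -/
noncomputable def hp (Pl : Plane P L q) {P0 : P} (a : Pl.Prt P0 → P) (Y : P) (k : Pl.Prt P0) : ℝ :=
  if k ∈ KY Pl a Y then 2 / ((AA Pl a k).card : ℝ) else 0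

theorem choose_two_real (n : ℕ) : ((n.choose 2 : ℕ) : ℝ) = (n : ℝ) * (n - 1) / 2 := by
  rw [Nat.cast_choose_two]

theorem frac_not_hit {Y : P} {k : Pl.Prt P0} (hY : Y ≠ a k) (h2 : 2 ≤ (AA Pl a k).card) :
    (((tt Pl a k).filter (fun g => ¬ hit Pl Y g)).card : ℝ) =
      (1 - hp Pl a Y k) * ((tt Pl a k).card : ℝ) := by
  have h1 := card_AA_filter (a := a) hY
  rw [not_hit_filter, card_powersetCard, card_tt]
  unfold hp
  have h2' : (2 : ℝ) ≤ (AA Pl a k).card := by exact_mod_cast h2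
  by_cases h : k ∈ KY Pl a Y
  · rw [if_pos h] at h1 ⊢
    have h3 : (((AA Pl a k).filter (fun l => Y ∉ Pl.pts l)).card : ℝ) = (AA Pl a k).card - 1 := by
      rw [← h1]; push_cast; ring
    rw [choose_two_real, choose_two_real, h3]
    have : ((AA Pl a k).card : ℝ) ≠ 0 := by positivity
    field_simp
    ring
  · rw [if_neg h] at h1 ⊢
    rw [add_zero] at h1
    rw [h1]; ring

theorem frac_hit {Y : P} {k : Pl.Prt P0} (hY : Y ≠ a k) (h2 : 2 ≤ (AA Pl a k).card) :
    (((tt Pl a k).filter (fun g => hit Pl Y g)).card : ℝ) =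
      hp Pl a Y k * ((tt Pl a k).card : ℝ) := by
  have h1 := frac_not_hit (a := a) hY h2
  have h3 := card_filter_add_card_filter_not (s := tt Pl a k) (fun g => hit Pl Y g)
  have h4 : (((tt Pl a k).filter (fun g => hit Pl Y g)).card : ℝ) +
    (((tt Pl a k).filter (fun g => ¬ hit Pl Y g)).card : ℝ) = (tt Pl a k).card := by
    exact_mod_cast h3
  linarith

/-! ### the number of G-lines through a point -/

theorem gam_eq_sum {G : Pl.Prt P0 → Finset L} (hG : ∀ k, G k ⊆ AA Pl a k) (Y : P) :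
    gam Pl G Y = ∑ k, ((G k).filter (fun l => Y ∈ Pl.pts l)).card := by
  unfold gam GLs
  rw [filter_biUnion, card_biUnion]
  intro k _ k' _ hne
  rw [Function.onFun, disjoint_left]
  intro l hl hl'
  exact hne (AA_disj (hG k (mem_filter.1 hl).1) (hG k' (mem_filter.1 hl').1))

theorem card_filter_hit {G : Finset L} {k : Pl.Prt P0} (hG : G ⊆ AA Pl a k) {Y : P}
    (hY : Y ≠ a k) : (G.filter (fun l => Y ∈ Pl.pts l)).card = if hit Pl Y G then 1 else 0 := by
  split_ifs with h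
  · obtain ⟨l, hl, hYl⟩ := h
    rw [card_eq_one]
    refine ⟨l, ?_⟩
    ext l'
    rw [mem_filter, mem_singleton]
    constructor
    · rintro ⟨h3, h4⟩
      rw [line_eq_join hY (hG h3) h4, line_eq_join hY (hG hl) hYl]
    · rintro rfl; exact ⟨hl, hYl⟩
  · rw [card_eq_zero, filter_eq_empty_iff]
    intro l hl hYl
    exact h ⟨l, hl, hYl⟩

theorem gam_eq_card {G : Pl.Prt P0 → Finset L} (hG : ∀ k, G k ⊆ AA Pl a k) {Y : P}
    (hY : ∀ k, Y ≠ a k) : gam Pl G Y = (univ.filter (fun k => hit Pl Y (G k))).card := by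
  rw [gam_eq_sum hG, card_filter]
  apply sum_congr rfl
  intro k _
  exact card_filter_hit (hG k) (hY k)

theorem gam_le_two {G : Pl.Prt P0 → Finset L} (hG : ∀ k, G k ⊆ AA Pl a k)
    (hc : ∀ k, (G k).card = 2) (Y : P) :
    gam Pl G Y ≤ 2 * (univ.filter (fun k => hit Pl Y (G k))).card := by
  rw [gam_eq_sum hG, card_filter, mul_sum]
  apply sum_le_sum
  intro k _
  split_ifs with h
  · exact (card_filter_le _ _).trans (by rw [hc k, mul_one])
  · rw [mul_zero, Nat.le_zero, card_eq_zero, filter_eq_empty_iff]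
    intro l hl hYl
    exact h ⟨l, hl, hYl⟩

theorem gam_base {G : Pl.Prt P0 → Finset L} (hG : ∀ k, G k ⊆ AA Pl a k)
    (hc : ∀ k, (G k).card = 2) (k : Pl.Prt P0) : gam Pl G (a k) = 2 := by
  rw [gam_eq_sum hG, Finset.sum_eq_single k]
  · rw [filter_true_of_mem, hc k]
    intro l hl
    exact (mem_AA.1 (hG k hl)).1
  · intro k' _ hne
    rw [card_eq_zero, filter_eq_empty_iff]
    intro l hl
    exact (mem_AA.1 (hG k' hl)).2.2 k (fun e => hne e.symm)
  · intro h; exact absurd (mem_univ k) h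

theorem av_eq {G : Pl.Prt P0 → Finset L} (hG : ∀ k, G k ⊆ AA Pl a k)
    (hc : ∀ k, (G k).card = 2) {k : Pl.Prt P0} {l : L} (hl : l ∈ G k) :
    av Pl G l = (Pl.pts l).filter (fun Y => Y ≠ a k ∧ ∀ k', k' ≠ k → ¬ hit Pl Y (G k')) := by
  unfold av
  apply filter_congr
  intro Y hYl
  have hlA := hG k hl
  by_cases hY : Y = a k
  · subst hY
    rw [gam_base hG hc]
    simp
  · have hYa : ∀ k', Y ≠ a k' := by
      intro k' e
      by_cases hk : k' = k
      · exact hY (hk ▸ e)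
      · exact (mem_AA.1 hlA).2.2 k' hk (e ▸ hYl)
    rw [gam_eq_card hG hYa, card_eq_one]
    constructor
    · rintro ⟨k0, hk0⟩
      refine ⟨hY, ?_⟩
      have hk : k ∈ univ.filter (fun k => hit Pl Y (G k)) := by
        rw [mem_filter]; exact ⟨mem_univ _, l, hl, hYl⟩
      rw [hk0, mem_singleton] at hk
      intro k' hne hh
      have : k' ∈ univ.filter (fun k => hit Pl Y (G k)) := by
        rw [mem_filter]; exact ⟨mem_univ _, hh⟩
      rw [hk0, mem_singleton] at this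
      exact hne (this.trans hk.symm)
    · rintro ⟨-, h⟩
      refine ⟨k, ?_⟩
      ext k'
      rw [mem_filter, mem_singleton]
      constructor
      · rintro ⟨-, hh⟩
        by_contra hne
        exact h k' hne hh
      · rintro rfl
        exact ⟨mem_univ _, l, hl, hYl⟩

end SBx

end Crest.Agent.Ryser
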