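import Crest.Agent.Ryser.SB1

set_option autoImplicit false

open Finset

namespace Crest.Agent.Ryser

namespace SBx

/-! ### generic facts on product spaces -/

section generic

variable {ι α : Type} [Fintype ι] [DecidableEq ι] [DecidableEq α]

theorem card_pi_real (t : ι → Finset α) (A : ι → α → Prop) [∀ i, DecidablePred (A i)] (p : ι → ℝ)
    (hp : ∀ i, (((t i).filter (A i)).card : ℝ) = p i * (t i).card) :
    (((Fintype.piFinset t).filter (fun ω => ∀ i, A i (ω i))).card : ℝ) =
      (∏ i, p i) * ((Fintype.piFinset t).card : ℝ) := by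
  rw [card_pi_filter, Fintype.card_piFinset]
  push_cast
  rw [← prod_mul_distrib]
  exact prod_congr rfl (fun i _ => hp i)

theorem avg_card {β : Type} (t : ι → Finset α) (ht : ∀ i, (t i).Nonempty) (s : Finset β)
    (Q : (ι → α) → β → Prop) [∀ ω, DecidablePred (Q ω)] (e : β → ℝ)
    (he : ∀ Y ∈ s, (((Fintype.piFinset t).filter (fun ω => Q ω Y)).card : ℝ) =
      e Y * ((Fintype.piFinset t).card : ℝ)) :
    avg t (fun ω => ((s.filter (Q ω)).card : ℝ)) = ∑ Y ∈ s, e Y := by
  unfold avg
  have hpos : (0 : ℝ) < ((Fintype.piFinset t).card : ℝ) := by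
    have : (Fintype.piFinset t).Nonempty := Fintype.piFinset_nonempty.2 ht
    exact_mod_cast card_pos.2 this
  rw [div_eq_iff hpos.ne', sum_mul]
  have h1 : ∀ ω, ((s.filter (Q ω)).card : ℝ) = ∑ Y ∈ s, if Q ω Y then (1 : ℝ) else 0 := by
    intro ω
    rw [card_filter]; push_cast; rfl
  simp only [h1]
  rw [sum_comm]
  apply sum_congr rfl
  intro Y hY
  rw [← he Y hY, card_filter]
  push_cast
  rfl

theorem card_filter_lip {β : Type} [DecidableEq β] {s : Finset β} {Q Q' : β → Prop}
    [DecidablePred Q] [DecidablePred Q'] {D : Finset β}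
    (h : ∀ Y ∈ s, Y ∉ D → (Q Y ↔ Q' Y)) :
    |((s.filter Q).card : ℝ) - ((s.filter Q').card : ℝ)| ≤ D.card := by
  have h1 : s.filter Q ⊆ s.filter Q' ∪ D := by
    intro Y hY
    rw [mem_union, mem_filter]
    rw [mem_filter] at hY
    by_cases hD : Y ∈ D
    · exact Or.inr hD
    · exact Or.inl ⟨hY.1, (h Y hY.1 hD).1 hY.2⟩
  have h2 : s.filter Q' ⊆ s.filter Q ∪ D := by
    intro Y hY
    rw [mem_union, mem_filter]
    rw [mem_filter] at hY
    by_cases hD : Y ∈ D
    · exact Or.inr hD
    · exact Or.inl ⟨hY.1, (h Y hY.1 hD).2 hY.2⟩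
  have h3 : ((s.filter Q).card : ℝ) ≤ (s.filter Q').card + D.card := by
    exact_mod_cast (card_le_card h1).trans (card_union_le _ _)
  have h4 : ((s.filter Q').card : ℝ) ≤ (s.filter Q).card + D.card := by
    exact_mod_cast (card_le_card h2).trans (card_union_le _ _)
  rw [abs_le]; constructor <;> linarith

/-- one coordinate is `1`, all the others `0` -/
theorem card_exactly_one (t : ι → Finset α) (H : α → Prop) [DecidablePred H] (p : ι → ℝ)
    (hp : ∀ i, (((t i).filter H).card : ℝ) = p i * (t i).card) :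
    (((Fintype.piFinset t).filter (fun ω => (univ.filter (fun i => H (ω i))).card = 1)).card : ℝ) =
      (∑ i, p i * ∏ j ∈ univ.erase i, (1 - p j)) * ((Fintype.piFinset t).card : ℝ) := by
  have hn : ∀ i, (((t i).filter (fun x => ¬ H x)).card : ℝ) = (1 - p i) * (t i).card := by
    intro i
    have h3 := card_filter_add_card_filter_not (s := t i) H
    have h4 : (((t i).filter H).card : ℝ) + (((t i).filter (fun x => ¬ H x)).card : ℝ) =
      (t i).card := by exact_mod_cast h3
    have := hp i
    linarith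
  have h1 : (Fintype.piFinset t).filter (fun ω => (univ.filter (fun i => H (ω i))).card = 1) =
      univ.biUnion (fun i => (Fintype.piFinset t).filter
        (fun ω => ∀ j, if j = i then H (ω j) else ¬ H (ω j))) := by
    ext ω
    simp only [mem_filter, mem_biUnion, mem_univ, true_and]
    constructor
    · rintro ⟨hω, hc⟩
      rw [card_eq_one] at hc
      obtain ⟨i, hi⟩ := hc
      refine ⟨i, hω, ?_⟩
      intro j
      have hj : j ∈ univ.filter (fun i => H (ω i)) ↔ j = i := by rw [hi, mem_singleton]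
      rw [mem_filter] at hj
      split_ifs with hji
      · exact (hj.2 hji).2
      · intro hc
        exact hji (hj.1 ⟨mem_univ _, hc⟩)
    · rintro ⟨i, hω, h⟩
      refine ⟨hω, ?_⟩
      rw [card_eq_one]
      refine ⟨i, ?_⟩
      ext j
      have := h j
      rw [mem_filter, mem_singleton]
      split_ifs at this with hji
      · exact ⟨fun _ => hji, fun _ => ⟨mem_univ _, this⟩⟩
      · exact ⟨fun hc => absurd hc.2 this, fun hc => absurd hc hji⟩
  rw [h1, card_biUnion]
  · push_cast
    rw [sum_mul]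
    apply sum_congr rfl
    intro i _
    have h2 := card_pi_real t (fun j x => if j = i then H x else ¬ H x)
      (fun j => if j = i then p j else 1 - p j) (by
        intro j
        by_cases hji : j = i
        · simp only [if_pos hji]; exact hp j
        · simp only [if_neg hji]; exact hn j)
    rw [h2]
    congr 1
    rw [← mul_prod_erase univ _ (mem_univ i), if_pos rfl]
    congr 1
    apply prod_congr rfl
    intro j hj
    rw [if_neg (ne_of_mem_erase hj)]
  · intro i _ j _ hij
    rw [Function.onFun, disjoint_left]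
    intro ω hω hω'
    rw [mem_filter] at hω hω'
    have e1 := hω.2 i
    have e2 := hω'.2 i
    rw [if_pos rfl] at e1
    rw [if_neg hij] at e2
    exact e2 e1

/-- all coordinates except `k` are `0` -/
theorem card_all_but (t : ι → Finset α) (H : α → Prop) [DecidablePred H] (p : ι → ℝ) (k : ι)
    (hp : ∀ i, i ≠ k → (((t i).filter H).card : ℝ) = p i * (t i).card) :
    (((Fintype.piFinset t).filter (fun ω => ∀ i, i ≠ k → ¬ H (ω i))).card : ℝ) =
      (∏ j ∈ univ.erase k, (1 - p j)) * ((Fintype.piFinset t).card : ℝ) := by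
  have hn : ∀ i, i ≠ k → (((t i).filter (fun x => ¬ H x)).card : ℝ) = (1 - p i) * (t i).card := by
    intro i hi
    have h3 := card_filter_add_card_filter_not (s := t i) H
    have h4 : (((t i).filter H).card : ℝ) + (((t i).filter (fun x => ¬ H x)).card : ℝ) =
      (t i).card := by exact_mod_cast h3
    have := hp i hi
    linarith
  have h2 := card_pi_real t (fun i x => i ≠ k → ¬ H x)
      (fun j => if j = k then 1 else 1 - p j) (by
        intro j
        by_cases hji : j = k
        · simp only [if_pos hji, hji]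
          simp
        · simp only [if_neg hji]
          rw [← hn j hji]
          congr 2
          apply filter_congr
          intro x _
          exact ⟨fun h => h hji, fun h _ => h⟩)
  rw [h2]
  congr 1
  rw [← mul_prod_erase univ _ (mem_univ k), if_pos rfl, one_mul]
  apply prod_congr rfl
  intro j hj
  rw [if_neg (ne_of_mem_erase hj)]

/-- union bound -/
theorem exists_good {τ : Type} [Fintype τ] (Ω : Finset α) (bad : τ → Finset α)
    (h : ∑ i, ((bad i).card : ℝ) < (Ω.card : ℝ)) : ∃ ω ∈ Ω, ∀ i, ω ∉ bad i := by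
  by_contra hcon
  push Not at hcon
  have hsub : Ω ⊆ univ.biUnion bad := by
    intro x hx
    obtain ⟨Y, hY⟩ := hcon x hx
    exact mem_biUnion.2 ⟨Y, mem_univ _, hY⟩
  have h1 : (Ω.card : ℝ) ≤ ∑ i, ((bad i).card : ℝ) := by
    have := (card_le_card hsub).trans card_biUnion_le
    exact_mod_cast this
  linarith

end generic

variable {P L : Type} [Fintype P] [Fintype L] [DecidableEq P] [DecidableEq L] {q : ℕ}
variable {Pl : Plane P L q} {P0 : P} {a : Pl.Prt P0 → P}

theorem card_hitset {l : L} {g : Finset L} (hl : l ∉ g) :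
    ((Pl.pts l).filter (fun Y => hit Pl Y g)).card ≤ g.card := by
  have h : (Pl.pts l).filter (fun Y => hit Pl Y g) ⊆ g.image (fun l' => Pl.meet l l') := by
    intro Y hY
    rw [mem_filter] at hY
    obtain ⟨hYl, l', hl', hYl'⟩ := hY
    rw [mem_image]
    refine ⟨l', hl', ?_⟩
    exact (Pl.meet_unique l l' Y (fun e => hl (e ▸ hl')) hYl hYl').symm
  exact (card_le_card h).trans card_image_le

/-- the statistic for G-lines -/
def fv (Pl : Plane P L q) {P0 : P} (a : Pl.Prt P0 → P) (k : Pl.Prt P0) (l : L)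
    (ω : Pl.Prt P0 → Finset L) : ℕ :=
  ((Pl.pts l).filter (fun Y => Y ≠ a k ∧ ∀ k', k' ≠ k → ¬ hit Pl Y (ω k'))).card

/-- the statistic for the other lines -/
def fu (Pl : Plane P L q) {P0 : P} (l : L) (ω : Pl.Prt P0 → Finset L) : ℕ :=
  ((Pl.pts l).filter (fun Y => (univ.filter (fun k => hit Pl Y (ω k))).card = 1)).card

theorem mem_tt {k : Pl.Prt P0} {g : Finset L} : g ∈ tt Pl a k ↔ g ⊆ AA Pl a k ∧ g.card = 2 := by
  unfold tt; rw [mem_powersetCard]

theorem lipD {l : L} {g g' : Finset L} (hl : l ∉ g) (hl' : l ∉ g') (hg : g.card = 2)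
    (hg' : g'.card = 2) :
    (((Pl.pts l).filter (fun Y => hit Pl Y g ∨ hit Pl Y g')).card : ℝ) ≤ 4 := by
  have h1 := card_hitset (Pl := Pl) hl
  have h2 := card_hitset (Pl := Pl) hl'
  rw [filter_or]
  have h3 := card_union_le ((Pl.pts l).filter (fun Y => hit Pl Y g))
    ((Pl.pts l).filter (fun Y => hit Pl Y g'))
  have h4 : (((Pl.pts l).filter (fun Y => hit Pl Y g)) ∪
    ((Pl.pts l).filter (fun Y => hit Pl Y g'))).card ≤ 4 := by omega
  exact_mod_cast h4

theorem fv_lip {k : Pl.Prt P0} {l : L} (hl : l ∈ AA Pl a k) {ω : Pl.Prt P0 → Finset L}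
    (hω : ω ∈ Fintype.piFinset (tt Pl a)) (i : Pl.Prt P0) {g : Finset L} (hg : g ∈ tt Pl a i) :
    |(fv Pl a k l (Function.update ω i g) : ℝ) - (fv Pl a k l ω : ℝ)| ≤ 4 := by
  rw [Fintype.mem_piFinset] at hω
  unfold fv
  by_cases hik : i = k
  · have h : (Pl.pts l).filter (fun Y => Y ≠ a k ∧ ∀ k', k' ≠ k →
        ¬ hit Pl Y (Function.update ω i g k')) =
        (Pl.pts l).filter (fun Y => Y ≠ a k ∧ ∀ k', k' ≠ k → ¬ hit Pl Y (ω k')) := by
      apply filter_congr
      intro Y _
      have : ∀ k', k' ≠ k → Function.update ω i g k' = ω k' := by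
        intro k' h
        rw [Function.update_of_ne]
        rw [hik]; exact h
      constructor
      · rintro ⟨h1, h2⟩
        exact ⟨h1, fun k' hk' => by rw [← this k' hk']; exact h2 k' hk'⟩
      · rintro ⟨h1, h2⟩
        exact ⟨h1, fun k' hk' => by rw [this k' hk']; exact h2 k' hk'⟩
    rw [h, sub_self, abs_zero]
    norm_num
  · refine (card_filter_lip (D := (Pl.pts l).filter (fun Y => hit Pl Y g ∨ hit Pl Y (ω i)))
      ?_).trans (lipD ?_ ?_ (mem_tt.1 hg).2 (mem_tt.1 (hω i)).2)
    · intro Y hYl hYD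
      rw [mem_filter, not_and, not_or] at hYD
      have hYD' := hYD hYl
      have key : ∀ k', (hit Pl Y (Function.update ω i g k') ↔ hit Pl Y (ω k')) := by
        intro k'
        by_cases hk : k' = i
        · subst hk
          rw [Function.update_self]
          exact ⟨fun h => absurd h hYD'.1, fun h => absurd h hYD'.2⟩
        · rw [Function.update_of_ne hk]
      simp only [key]
    · intro hc; exact hik (AA_disj ((mem_tt.1 hg).1 hc) hl)
    · intro hc; exact hik (AA_disj ((mem_tt.1 (hω i)).1 hc) hl)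

theorem fu_lip {l : L} (hl : ∀ k, a k ∉ Pl.pts l) {ω : Pl.Prt P0 → Finset L}
    (hω : ω ∈ Fintype.piFinset (tt Pl a)) (i : Pl.Prt P0) {g : Finset L} (hg : g ∈ tt Pl a i) :
    |(fu Pl l (Function.update ω i g) : ℝ) - (fu Pl l ω : ℝ)| ≤ 4 := by
  rw [Fintype.mem_piFinset] at hω
  unfold fu
  refine (card_filter_lip (D := (Pl.pts l).filter (fun Y => hit Pl Y g ∨ hit Pl Y (ω i)))
      ?_).trans (lipD ?_ ?_ (mem_tt.1 hg).2 (mem_tt.1 (hω i)).2)
  · intro Y hYl hYD
    rw [mem_filter, not_and, not_or] at hYD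
    have hYD' := hYD hYl
    have key : ∀ k', (hit Pl Y (Function.update ω i g k') ↔ hit Pl Y (ω k')) := by
      intro k'
      by_cases hk : k' = i
      · subst hk
        rw [Function.update_self]
        exact ⟨fun h => absurd h hYD'.1, fun h => absurd h hYD'.2⟩
      · rw [Function.update_of_ne hk]
    simp only [key]
  · intro hc; exact hl i (mem_AA.1 ((mem_tt.1 hg).1 hc)).1
  · intro hc; exact hl i (mem_AA.1 ((mem_tt.1 (hω i)).1 hc)).1

theorem tt_nonempty {k : Pl.Prt P0} (h2 : 2 ≤ (AA Pl a k).card) : (tt Pl a k).Nonempty := by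
  unfold tt; exact powersetCard_nonempty.2 h2

theorem avg_fv (h2 : ∀ k, 2 ≤ (AA Pl a k).card) {k : Pl.Prt P0} {l : L} (hl : l ∈ AA Pl a k) :
    avg (tt Pl a) (fun ω => (fv Pl a k l ω : ℝ)) =
      ∑ Y ∈ (Pl.pts l).erase (a k), ∏ j ∈ univ.erase k, (1 - hp Pl a Y j) := by
  have h1 : ∀ ω : Pl.Prt P0 → Finset L, (fv Pl a k l ω : ℝ) =
      ((((Pl.pts l).erase (a k)).filter (fun Y => ∀ k', k' ≠ k → ¬ hit Pl Y (ω k'))).card : ℝ) := by
    intro ω
    unfold fv
    congr 2
    ext Y
    simp only [mem_filter, mem_erase]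
    tauto
  simp only [h1]
  apply avg_card (tt Pl a) (fun k => tt_nonempty (h2 k))
  intro Y hY
  rw [mem_erase] at hY
  apply card_all_but (tt Pl a) (hit Pl Y)
  intro i hi
  refine frac_hit ?_ (h2 i)
  intro e
  exact (mem_AA.1 hl).2.2 i hi (e ▸ hY.2)

theorem avg_fu (h2 : ∀ k, 2 ≤ (AA Pl a k).card) {l : L} (hl : ∀ k, a k ∉ Pl.pts l) :
    avg (tt Pl a) (fun ω => (fu Pl l ω : ℝ)) =
      ∑ Y ∈ Pl.pts l, ∑ k, hp Pl a Y k * ∏ j ∈ univ.erase k, (1 - hp Pl a Y j) := by
  unfold fu
  apply avg_card (tt Pl a) (fun k => tt_nonempty (h2 k))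
  intro Y hY
  apply card_exactly_one (tt Pl a) (hit Pl Y)
  intro i
  refine frac_hit ?_ (h2 i)
  intro e
  exact hl i (e ▸ hY)

end SBx

end Crest.Agent.Ryser
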