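import Crest.Agent.Ryser.SB2

set_option autoImplicit false

open Finset

namespace Crest.Agent.Ryser

namespace SBx

/-! ### numbers -/

noncomputable def al0 (q : ℕ) : ℝ := (1 - 1 / (q : ℝ)) ^ q
noncomputable def xx (q : ℕ) : ℝ := 2 / (q * al0 q)
noncomputable def M0 (q : ℕ) : ℕ := ⌊(q : ℝ) * (1 - 1 / (q : ℝ)) ^ (q - 1)⌋₊
noncomputable def bb0 (q : ℕ) : ℝ := (1 - xx q) ^ (M0 q)
noncomputable def bb1 (q : ℕ) : ℝ := M0 q * xx q * bb0 q

theorem one_sub_ge_exp {y : ℝ} (h0 : 0 ≤ y) (h1 : y ≤ 1 / 2) : Real.exp (-(2 * y)) ≤ 1 - y := by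
  have h2 : 1 + 2 * y ≤ Real.exp (2 * y) := by
    have := Real.add_one_le_exp (2 * y); linarith
  rw [Real.exp_neg, inv_le_comm₀ (Real.exp_pos _) (by linarith)]
  refine le_trans ?_ h2
  rw [inv_le_comm₀ (by linarith) (by linarith), ← one_div, div_le_iff₀ (by linarith)]
  nlinarith

theorem al0_ge {q : ℕ} (hq : 2 ≤ q) : 1 / 8 ≤ al0 q := by
  have hq2 : (2 : ℝ) ≤ q := by exact_mod_cast hq
  have hq0 : (0 : ℝ) < q := by linarith
  have h1 : 1 / (q : ℝ) ≤ 1 / 2 := one_div_le_one_div_of_le (by norm_num) hq2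
  have h2 := one_sub_ge_exp (y := 1 / (q : ℝ)) (by positivity) h1
  have h3 : Real.exp (-(2 * (1 / (q : ℝ)))) ^ q ≤ al0 q :=
    pow_le_pow_left₀ (Real.exp_pos _).le h2 q
  have h4 : Real.exp (-(2 * (1 / (q : ℝ)))) ^ q = Real.exp (-2) := by
    rw [← Real.exp_nat_mul]; congr 1; field_simp
  have h5 : 1 / 8 ≤ Real.exp (-2) := by
    rw [Real.exp_neg, ← one_div]
    apply one_div_le_one_div_of_le (Real.exp_pos _)
    have e1 := Real.exp_one_lt_d9
    have e2 : Real.exp 2 = Real.exp 1 ^ 2 := by rw [← Real.exp_nat_mul]; norm_num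
    rw [e2]
    have := Real.exp_pos 1
    nlinarith
  linarith

theorem al0_le {q : ℕ} (hq : 2 ≤ q) : al0 q ≤ 1 := by
  have hq2 : (2 : ℝ) ≤ q := by exact_mod_cast hq
  have hq0 : (0 : ℝ) < q := by linarith
  unfold al0
  apply pow_le_one₀
  · have : 1 / (q : ℝ) ≤ 1 := by rw [div_le_one hq0]; linarith
    linarith
  · have : 0 ≤ 1 / (q : ℝ) := by positivity
    linarith

theorem xx_pos {q : ℕ} (hq : 2 ≤ q) : 0 < xx q := by
  have h1 := al0_ge hq
  have hq2 : (2 : ℝ) ≤ q := by exact_mod_cast hq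
  unfold xx; positivity

theorem xx_le {q : ℕ} (hq : 2 ≤ q) : xx q ≤ 16 / q := by
  have h1 := al0_ge hq
  have hq2 : (2 : ℝ) ≤ q := by exact_mod_cast hq
  unfold xx
  rw [div_le_div_iff₀ (by positivity) (by positivity)]
  nlinarith

theorem xx_le_half {q : ℕ} (hq : 32 ≤ q) : xx q ≤ 1 / 2 := by
  have h1 := xx_le (q := q) (by omega)
  have hq2 : (32 : ℝ) ≤ q := by exact_mod_cast hq
  refine h1.trans ?_
  rw [div_le_div_iff₀ (by positivity) (by norm_num)]
  linarith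

theorem M0_le {q : ℕ} (hq : 2 ≤ q) : M0 q ≤ q := by
  have hq2 : (2 : ℝ) ≤ q := by exact_mod_cast hq
  have hq0 : (0 : ℝ) < q := by linarith
  unfold M0
  have h1 : (1 - 1 / (q : ℝ)) ^ (q - 1) ≤ 1 := by
    apply pow_le_one₀
    · have : 1 / (q : ℝ) ≤ 1 := by rw [div_le_one hq0]; linarith
      linarith
    · have : 0 ≤ 1 / (q : ℝ) := by positivity
      linarith
  have h2 : (q : ℝ) * (1 - 1 / (q : ℝ)) ^ (q - 1) ≤ q := by nlinarith
  exact Nat.floor_le_of_le h2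

theorem bb0_le {q : ℕ} (hq : 32 ≤ q) : bb0 q ≤ 1 := by
  have h1 := xx_le_half hq
  have h2 := xx_pos (q := q) (by omega)
  unfold bb0
  exact pow_le_one₀ (by linarith) (by linarith)

theorem bb0_nonneg {q : ℕ} (hq : 32 ≤ q) : 0 ≤ bb0 q := by
  have h1 := xx_le_half hq
  unfold bb0
  exact pow_nonneg (by linarith) _

theorem bb0_ge {q : ℕ} (hq : 32 ≤ q) : Real.exp (-32) ≤ bb0 q := by
  have h1 := xx_le_half hq
  have h2 := xx_pos (q := q) (by omega)
  have h3 := xx_le (q := q) (by omega)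
  have h4 := M0_le (q := q) (by omega)
  have hq2 : (32 : ℝ) ≤ q := by exact_mod_cast hq
  have h5 := one_sub_ge_exp h2.le h1
  unfold bb0
  calc Real.exp (-32) ≤ Real.exp (-(2 * xx q)) ^ (M0 q) := by
        rw [← Real.exp_nat_mul]
        apply Real.exp_le_exp.2
        have h6 : (M0 q : ℝ) * xx q ≤ q * (16 / q) :=
          mul_le_mul (by exact_mod_cast h4) h3 h2.le (by positivity)
        have h7 : (q : ℝ) * (16 / q) = 16 := by field_simp
        rw [h7] at h6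
        linarith
    _ ≤ (1 - xx q) ^ (M0 q) := pow_le_pow_left₀ (Real.exp_pos _).le h5 _

theorem bb1_nonneg {q : ℕ} (hq : 32 ≤ q) : 0 ≤ bb1 q := by
  have h1 := bb0_nonneg hq
  have h2 := xx_pos (q := q) (by omega)
  unfold bb1; positivity

theorem bb1_le {q : ℕ} (hq : 32 ≤ q) : bb1 q ≤ 1 := by
  have h1 := xx_le_half hq
  have h2 := xx_pos (q := q) (by omega)
  unfold bb1 bb0
  set y : ℝ := M0 q * xx q with hy
  have h3 : (1 - xx q) ^ (M0 q) ≤ Real.exp (-y) := by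
    have e1 : 1 - xx q ≤ Real.exp (-xx q) := by
      have := Real.add_one_le_exp (-xx q); linarith
    calc (1 - xx q) ^ (M0 q) ≤ Real.exp (-xx q) ^ (M0 q) :=
          pow_le_pow_left₀ (by linarith) e1 _
      _ = Real.exp (-y) := by rw [← Real.exp_nat_mul]; congr 1; rw [hy]; ring
  have hy0 : 0 ≤ y := by positivity
  have h4 : y ≤ Real.exp y := by
    have := Real.add_one_le_exp y; linarith
  calc y * (1 - xx q) ^ (M0 q) ≤ y * Real.exp (-y) := mul_le_mul_of_nonneg_left h3 hy0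
    _ ≤ Real.exp y * Real.exp (-y) := mul_le_mul_of_nonneg_right h4 (Real.exp_pos _).le
    _ = 1 := by rw [← Real.exp_add]; simp

theorem N_facts {q : ℕ} (hq : 32 ≤ q) {R N : ℝ} (hR : 40 * R ≤ q)
    (hN : |N - q * al0 q| ≤ R) : (q : ℝ) / 10 ≤ N ∧ |2 / N - xx q| ≤ 160 * R / q ^ 2 := by
  have h1 := al0_ge (q := q) (by omega)
  have hq2 : (32 : ℝ) ≤ q := by exact_mod_cast hq
  have hq0 : (0 : ℝ) < q := by linarith
  have h3 := abs_le.1 hN
  have h4 : (q : ℝ) / 8 ≤ q * al0 q := by nlinarith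
  have h5 : (q : ℝ) / 10 ≤ N := by linarith [h3.1]
  have hN0 : 0 < N := by linarith
  refine ⟨h5, ?_⟩
  have ha : 0 < q * al0 q := by linarith
  unfold xx
  have e1 : 2 / N - 2 / (q * al0 q) = 2 * (q * al0 q - N) / (N * (q * al0 q)) := by
    field_simp
  rw [e1, abs_div, abs_mul, abs_of_pos (by positivity : 0 < N * (q * al0 q)), abs_two,
    abs_sub_comm]
  rw [div_le_div_iff₀ (by positivity) (by positivity)]
  have e2 : (q : ℝ) / 10 * (q / 8) ≤ N * (q * al0 q) :=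
    mul_le_mul h5 h4 (by positivity) hN0.le
  have hR0 : 0 ≤ R := (abs_nonneg _).trans hN
  calc 2 * |N - q * al0 q| * q ^ 2 ≤ 2 * R * q ^ 2 := by
        apply mul_le_mul_of_nonneg_right _ (by positivity)
        linarith
    _ = 160 * R * ((q : ℝ) / 10 * (q / 8)) := by ring
    _ ≤ 160 * R * (N * (q * al0 q)) := mul_le_mul_of_nonneg_left e2 (by positivity)

theorem pow_sub_pow_abs {y : ℝ} (h0 : 0 ≤ y) (h1 : y ≤ 1) (m n : ℕ) :
    |y ^ m - y ^ n| ≤ |(m : ℝ) - n| * (1 - y) := by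
  wlog h : m ≤ n generalizing m n
  · rw [abs_sub_comm, abs_sub_comm (m : ℝ)]
    exact this n m (by omega)
  · obtain ⟨k, rfl⟩ := Nat.exists_eq_add_of_le h
    have e1 : 1 - (k : ℝ) * (1 - y) ≤ y ^ k := by
      have := one_add_mul_le_pow (a := y - 1) (by linarith) k
      have e : (1 + (y - 1)) ^ k = y ^ k := by congr 1; ring
      rw [e] at this
      linarith
    have e2 : 0 ≤ 1 - y ^ k := by
      have := pow_le_one₀ h0 h1 (n := k); linarith
    have e3 : y ^ m - y ^ (m + k) = y ^ m * (1 - y ^ k) := by rw [pow_add]; ring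
    have e4 : |((m : ℕ) : ℝ) - ((m + k : ℕ) : ℝ)| = k := by
      push_cast
      rw [show (m : ℝ) - (m + k) = -k by ring, abs_neg, abs_of_nonneg (Nat.cast_nonneg k)]
    rw [e3, e4, abs_of_nonneg (mul_nonneg (pow_nonneg h0 m) e2)]
    calc y ^ m * (1 - y ^ k) ≤ 1 * (1 - y ^ k) :=
          mul_le_mul_of_nonneg_right (pow_le_one₀ h0 h1) e2
      _ ≤ (k : ℝ) * (1 - y) := by linarith

/-- a product of nearly equal factors -/
theorem prod_close {ι : Type} [Fintype ι] [DecidableEq ι] (I : Finset ι) (p : ι → ℝ) {x δ : ℝ}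
    (hx0 : 0 ≤ x) (hx1 : x ≤ 1) (hp0 : ∀ i ∈ I, 0 ≤ p i) (hp1 : ∀ i ∈ I, p i ≤ 1)
    (h : ∀ i ∈ I, |p i - x| ≤ δ) (M : ℕ) :
    |∏ i ∈ I, (1 - p i) - (1 - x) ^ M| ≤ I.card * δ + |(I.card : ℝ) - M| * x := by
  have h1 : |∏ i ∈ I, (1 - p i) - ∏ _i ∈ I, (1 - x)| ≤ ∑ i ∈ I, |(1 - p i) - (1 - x)| :=
    abs_prod_sub_prod_le I _ _ (fun i hi => ⟨by linarith [hp1 i hi], by linarith [hp0 i hi]⟩)
      (fun i _ => ⟨by linarith, by linarith⟩)
  have h2 : ∑ i ∈ I, |(1 - p i) - (1 - x)| ≤ I.card * δ := by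
    rw [← nsmul_eq_mul]
    apply sum_le_card_nsmul
    intro i hi
    have : (1 - p i) - (1 - x) = -(p i - x) := by ring
    rw [this, abs_neg]
    exact h i hi
  rw [prod_const] at h1
  have h3 := pow_sub_pow_abs (y := 1 - x) (by linarith) (by linarith) I.card M
  have h4 : 1 - (1 - x) = x := by ring
  rw [h4] at h3
  calc |∏ i ∈ I, (1 - p i) - (1 - x) ^ M| ≤
        |∏ i ∈ I, (1 - p i) - (1 - x) ^ I.card| + |(1 - x) ^ I.card - (1 - x) ^ M| :=
        abs_sub_le _ _ _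
    _ ≤ _ := by linarith

variable {P L : Type} [Fintype P] [Fintype L] [DecidableEq P] [DecidableEq L] {q : ℕ}
variable {Pl : Plane P L q} {P0 : P} {a : Pl.Prt P0 → P}

theorem card_Prt : Fintype.card (Pl.Prt P0) = q + 1 := by
  rw [Fintype.card_coe]; exact Pl.card_lns P0

theorem prod_hp (Y : P) (k : Pl.Prt P0) :
    ∏ j ∈ univ.erase k, (1 - hp Pl a Y j) =
      ∏ j ∈ (KY Pl a Y).erase k, (1 - 2 / ((AA Pl a j).card : ℝ)) := by
  symm
  apply prod_subset_one_on_sdiff (erase_subset_erase k (subset_univ _))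
  · intro j hj
    rw [mem_sdiff, mem_erase, mem_erase, not_and] at hj
    unfold hp
    rw [if_neg (hj.2 hj.1.1)]
    ring
  · intro j hj
    unfold hp
    rw [if_pos (mem_of_mem_erase hj)]

/-- hypotheses on the sizes -/
structure Num (Pl : Plane P L q) (P0 : P) (a : Pl.Prt P0 → P) (R : ℝ) : Prop where
  hq : 32 ≤ q
  hR1 : 1 ≤ R
  hR : 40 * R ≤ q
  hN : ∀ k, |((AA Pl a k).card : ℝ) - q * al0 q| ≤ R
  hm : ∀ Y, Y ≠ P0 → (∀ k, Y ≠ a k) →
    |((KY Pl a Y).card : ℝ) - q * (1 - 1 / (q : ℝ)) ^ (q - 1)| ≤ R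

theorem Num.q0 {R : ℝ} (h : Num Pl P0 a R) : (32 : ℝ) ≤ q := by exact_mod_cast h.hq

theorem Num.cardAA {R : ℝ} (h : Num Pl P0 a R) (k : Pl.Prt P0) :
    (q : ℝ) / 10 ≤ (AA Pl a k).card := (N_facts h.hq h.hR (h.hN k)).1

theorem Num.close {R : ℝ} (h : Num Pl P0 a R) (k : Pl.Prt P0) :
    |2 / ((AA Pl a k).card : ℝ) - xx q| ≤ 160 * R / q ^ 2 := (N_facts h.hq h.hR (h.hN k)).2

theorem Num.two_le {R : ℝ} (h : Num Pl P0 a R) (k : Pl.Prt P0) : 2 ≤ (AA Pl a k).card := by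
  have h1 := h.cardAA k
  have h2 := h.q0
  have : (2 : ℝ) ≤ (AA Pl a k).card := by linarith
  exact_mod_cast this

theorem Num.frac_le {R : ℝ} (h : Num Pl P0 a R) (k : Pl.Prt P0) :
    2 / ((AA Pl a k).card : ℝ) ≤ 20 / q := by
  have h1 := h.cardAA k
  have h2 := h.q0
  rw [div_le_div_iff₀ (by linarith) (by linarith)]
  linarith

theorem Num.M0_close {R : ℝ} (h : Num Pl P0 a R) {Y : P} (hY : Y ≠ P0) (hYa : ∀ k, Y ≠ a k) :
    |((KY Pl a Y).card : ℝ) - M0 q| ≤ 2 * R := by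
  have h1 := abs_le.1 (h.hm Y hY hYa)
  have h2 := h.q0
  have h3 : (M0 q : ℝ) ≤ q * (1 - 1 / (q : ℝ)) ^ (q - 1) := by
    apply Nat.floor_le
    apply mul_nonneg (by linarith)
    apply pow_nonneg
    have : 1 / (q : ℝ) ≤ 1 := by rw [div_le_one (by linarith)]; linarith
    linarith
  have h4 : q * (1 - 1 / (q : ℝ)) ^ (q - 1) < M0 q + 1 := Nat.lt_floor_add_one _
  have h5 := h.hR1
  rw [abs_le]
  constructor
  · linarith [h1.1]
  · linarith [h1.2]

theorem Num.E0_close {R : ℝ} (h : Num Pl P0 a R) {Y : P} (hY : Y ≠ P0) (hYa : ∀ k, Y ≠ a k)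
    (k : Pl.Prt P0) :
    |∏ j ∈ univ.erase k, (1 - hp Pl a Y j) - bb0 q| ≤ 400 * R / q := by
  have hq0 := h.q0
  have hqpos : (0 : ℝ) < q := by linarith
  have hR0 : 0 ≤ R := by linarith [h.hR1]
  have hx0 := xx_pos (q := q) (by have := h.hq; omega)
  have hx1 := xx_le_half h.hq
  have hx2 := xx_le (q := q) (by have := h.hq; omega)
  rw [prod_hp]
  unfold bb0
  have h1 := prod_close ((KY Pl a Y).erase k) (fun j => 2 / ((AA Pl a j).card : ℝ))
    (x := xx q) (δ := 160 * R / q ^ 2) hx0.le (by linarith) (fun i _ => by positivity)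
    (fun i _ => by
      have := h.frac_le i
      refine this.trans ?_
      rw [div_le_one hqpos]; linarith) (fun i _ => h.close i) (M0 q)
  refine h1.trans ?_
  have hc1 : (((KY Pl a Y).erase k).card : ℝ) ≤ 2 * q := by
    have e1 : ((KY Pl a Y).erase k).card ≤ Fintype.card (Pl.Prt P0) := card_le_univ _
    rw [card_Prt] at e1
    have e2 : (((KY Pl a Y).erase k).card : ℝ) ≤ q + 1 := by exact_mod_cast e1
    linarith
  have hc2 : |(((KY Pl a Y).erase k).card : ℝ) - M0 q| ≤ 3 * R := by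
    have e1 := abs_le.1 (h.M0_close hY hYa)
    have e2 : ((KY Pl a Y).card : ℝ) - 1 ≤ (((KY Pl a Y).erase k).card : ℝ) := by
      have : (KY Pl a Y).card - 1 ≤ ((KY Pl a Y).erase k).card := pred_card_le_card_erase
      have h2 : (KY Pl a Y).card ≤ ((KY Pl a Y).erase k).card + 1 := by omega
      have h3 : ((KY Pl a Y).card : ℝ) ≤ (((KY Pl a Y).erase k).card : ℝ) + 1 := by
        exact_mod_cast h2
      linarith
    have e3 : (((KY Pl a Y).erase k).card : ℝ) ≤ (KY Pl a Y).card := by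
      exact_mod_cast card_le_card (erase_subset _ _)
    have := h.hR1
    rw [abs_le]; constructor
    · linarith [e1.1]
    · linarith [e1.2]
  have e1 : (((KY Pl a Y).erase k).card : ℝ) * (160 * R / q ^ 2) ≤ 2 * q * (160 * R / q ^ 2) :=
    mul_le_mul_of_nonneg_right hc1 (by positivity)
  have e2 : |(((KY Pl a Y).erase k).card : ℝ) - M0 q| * xx q ≤ 3 * R * (16 / q) :=
    mul_le_mul hc2 hx2 hx0.le (by positivity)
  have e3 : 2 * (q : ℝ) * (160 * R / q ^ 2) = 320 * R / q := by field_simp; ring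
  have e4 : 3 * R * (16 / (q : ℝ)) = 48 * R / q := by ring
  have e5 : 320 * R / q + 48 * R / q ≤ 400 * R / (q : ℝ) := by
    rw [← add_div]
    apply div_le_div_of_nonneg_right _ hqpos.le
    linarith
  linarith

theorem Num.E1_close {R : ℝ} (h : Num Pl P0 a R) {Y : P} (hY : Y ≠ P0) (hYa : ∀ k, Y ≠ a k) :
    |∑ k, hp Pl a Y k * ∏ j ∈ univ.erase k, (1 - hp Pl a Y j) - bb1 q| ≤ 20000 * R / q := by
  have hq0 := h.q0
  have hqpos : (0 : ℝ) < q := by linarith
  have hR0 : 0 ≤ R := by linarith [h.hR1]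
  have hx0 := xx_pos (q := q) (by have := h.hq; omega)
  have hx1 := xx_le_half h.hq
  have hx2 := xx_le (q := q) (by have := h.hq; omega)
  have hb0 := bb0_nonneg h.hq
  have hb1 := bb0_le h.hq
  have h1 : ∑ k, hp Pl a Y k * ∏ j ∈ univ.erase k, (1 - hp Pl a Y j) =
      ∑ k ∈ KY Pl a Y, 2 / ((AA Pl a k).card : ℝ) * ∏ j ∈ univ.erase k, (1 - hp Pl a Y j) := by
    rw [← sum_filter_add_sum_filter_not univ (fun k => k ∈ KY Pl a Y)]
    have e1 : ∑ k ∈ univ.filter (fun k => ¬ k ∈ KY Pl a Y), hp Pl a Y k *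
        ∏ j ∈ univ.erase k, (1 - hp Pl a Y j) = 0 := by
      apply sum_eq_zero
      intro k hk
      rw [mem_filter] at hk
      unfold hp
      rw [if_neg hk.2, zero_mul]
    rw [e1, add_zero]
    apply sum_congr
    · ext k; simp
    · intro k hk
      have : hp Pl a Y k = 2 / ((AA Pl a k).card : ℝ) := by unfold hp; rw [if_pos hk]
      rw [this]
  rw [h1]
  have h2 : ∀ k ∈ KY Pl a Y, |2 / ((AA Pl a k).card : ℝ) *
      ∏ j ∈ univ.erase k, (1 - hp Pl a Y j) - xx q * bb0 q| ≤ 8160 * R / q ^ 2 := by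
    intro k _
    have e1 := h.E0_close hY hYa k
    have e2 := h.close k
    have e4 := h.frac_le k
    set p := 2 / ((AA Pl a k).card : ℝ)
    set Pi := ∏ j ∈ univ.erase k, (1 - hp Pl a Y j)
    have e3 : p * Pi - xx q * bb0 q = p * (Pi - bb0 q) + (p - xx q) * bb0 q := by ring
    rw [e3]
    have hp0 : 0 ≤ p := by positivity
    calc |p * (Pi - bb0 q) + (p - xx q) * bb0 q| ≤ |p * (Pi - bb0 q)| + |(p - xx q) * bb0 q| :=
          abs_add_le _ _
      _ = p * |Pi - bb0 q| + |p - xx q| * bb0 q := by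
          rw [abs_mul, abs_mul, abs_of_nonneg hp0, abs_of_nonneg hb0]
      _ ≤ (20 / q) * (400 * R / q) + (160 * R / q ^ 2) * 1 := by
          apply add_le_add
          · exact mul_le_mul e4 e1 (abs_nonneg _) (by positivity)
          · exact mul_le_mul e2 hb1 hb0 (by positivity)
      _ = 8160 * R / q ^ 2 := by field_simp; ring
  have h3 : |∑ k ∈ KY Pl a Y, (2 / ((AA Pl a k).card : ℝ) *
      ∏ j ∈ univ.erase k, (1 - hp Pl a Y j) - xx q * bb0 q)| ≤
      (KY Pl a Y).card * (8160 * R / q ^ 2) := by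
    refine (abs_sum_le_sum_abs _ _).trans ?_
    rw [← nsmul_eq_mul]
    exact sum_le_card_nsmul _ _ _ h2
  rw [sum_sub_distrib, sum_const, nsmul_eq_mul] at h3
  have hc1 : ((KY Pl a Y).card : ℝ) ≤ 2 * q := by
    have e1 : (KY Pl a Y).card ≤ Fintype.card (Pl.Prt P0) := card_le_univ _
    rw [card_Prt] at e1
    have e2 : ((KY Pl a Y).card : ℝ) ≤ q + 1 := by exact_mod_cast e1
    linarith
  have hc2 := h.M0_close hY hYa
  have e1 : ((KY Pl a Y).card : ℝ) * (8160 * R / q ^ 2) ≤ 2 * q * (8160 * R / q ^ 2) :=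
    mul_le_mul_of_nonneg_right hc1 (by positivity)
  have e2 : 2 * (q : ℝ) * (8160 * R / q ^ 2) = 16320 * R / q := by field_simp; ring
  have e3 : |((KY Pl a Y).card : ℝ) * (xx q * bb0 q) - bb1 q| ≤ 32 * R / q := by
    unfold bb1
    have e4 : ((KY Pl a Y).card : ℝ) * (xx q * bb0 q) - M0 q * xx q * bb0 q =
      (((KY Pl a Y).card : ℝ) - M0 q) * (xx q * bb0 q) := by ring
    rw [e4, abs_mul, abs_of_nonneg (by positivity : 0 ≤ xx q * bb0 q)]
    calc |((KY Pl a Y).card : ℝ) - M0 q| * (xx q * bb0 q) ≤ (2 * R) * ((16 / q) * 1) := by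
          apply mul_le_mul hc2 _ (by positivity) (by positivity)
          exact mul_le_mul hx2 hb1 hb0 (by positivity)
      _ = 32 * R / q := by ring
  have e5 : 16320 * R / q + 32 * R / q ≤ 20000 * R / (q : ℝ) := by
    rw [← add_div]
    apply div_le_div_of_nonneg_right _ hqpos.le
    linarith
  set Sg := ∑ k ∈ KY Pl a Y, 2 / ((AA Pl a k).card : ℝ) * ∏ j ∈ univ.erase k, (1 - hp Pl a Y j)
  calc |Sg - bb1 q| ≤ |Sg - ((KY Pl a Y).card : ℝ) * (xx q * bb0 q)| +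
        |((KY Pl a Y).card : ℝ) * (xx q * bb0 q) - bb1 q| := abs_sub_le _ _ _
    _ ≤ _ := by linarith

theorem Num.Efv_close {R : ℝ} (h : Num Pl P0 a R) {k : Pl.Prt P0} {l : L}
    (hl : l ∈ AA Pl a k) :
    |avg (tt Pl a) (fun ω => (fv Pl a k l ω : ℝ)) - bb0 q * q| ≤ 400 * R := by
  have hq0 := h.q0
  have hqpos : (0 : ℝ) < q := by linarith
  rw [avg_fv (fun k => h.two_le k) hl]
  have hA := mem_AA.1 hl
  have hcard : ((Pl.pts l).erase (a k)).card = q := by
    rw [card_erase_of_mem hA.1, Pl.card_pts]; omega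
  have h1 : |∑ Y ∈ (Pl.pts l).erase (a k), (∏ j ∈ univ.erase k, (1 - hp Pl a Y j) - bb0 q)| ≤
      ((Pl.pts l).erase (a k)).card * (400 * R / q) := by
    refine (abs_sum_le_sum_abs _ _).trans ?_
    rw [← nsmul_eq_mul]
    apply sum_le_card_nsmul
    intro Y hY
    rw [mem_erase] at hY
    apply h.E0_close
    · rintro rfl; exact hA.2.1 hY.2
    · intro k' e
      by_cases hk : k' = k
      · exact hY.1 (hk ▸ e)
      · exact hA.2.2 k' hk (e ▸ hY.2)
  rw [sum_sub_distrib, sum_const, nsmul_eq_mul, hcard] at h1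
  have e1 : (q : ℝ) * (400 * R / q) = 400 * R := by field_simp
  rw [e1] at h1
  rw [mul_comm (bb0 q)]
  exact h1

theorem Num.Efu_close {R : ℝ} (h : Num Pl P0 a R) {l : L} (hP0 : P0 ∉ Pl.pts l)
    (hl : ∀ k, a k ∉ Pl.pts l) :
    |avg (tt Pl a) (fun ω => (fu Pl l ω : ℝ)) - bb1 q * q| ≤ 40001 * R := by
  have hq0 := h.q0
  have hqpos : (0 : ℝ) < q := by linarith
  have hR1 := h.hR1
  rw [avg_fu (fun k => h.two_le k) hl]
  have h1 : |∑ Y ∈ Pl.pts l, (∑ k, hp Pl a Y k * ∏ j ∈ univ.erase k, (1 - hp Pl a Y j) - bb1 q)| ≤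
      (Pl.pts l).card * (20000 * R / q) := by
    refine (abs_sum_le_sum_abs _ _).trans ?_
    rw [← nsmul_eq_mul]
    apply sum_le_card_nsmul
    intro Y hY
    apply h.E1_close
    · rintro rfl; exact hP0 hY
    · intro k' e
      exact hl k' (e ▸ hY)
  rw [sum_sub_distrib, sum_const, nsmul_eq_mul, Pl.card_pts] at h1
  have e1 : ((q + 1 : ℕ) : ℝ) * (20000 * R / q) ≤ 40000 * R := by
    push_cast
    have : ((q : ℝ) + 1) * (20000 * R / q) = 20000 * R + 20000 * R / q := by field_simp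
    rw [this]
    have : 20000 * R / q ≤ 20000 * R := div_le_self (by linarith) (by linarith)
    linarith
  have hb := bb1_nonneg h.hq
  have hb' := bb1_le h.hq
  set Sg := ∑ Y ∈ Pl.pts l, ∑ k, hp Pl a Y k * ∏ j ∈ univ.erase k, (1 - hp Pl a Y j)
  have e2 : ((q + 1 : ℕ) : ℝ) * bb1 q = bb1 q * q + bb1 q := by push_cast; ring
  rw [e2] at h1
  have h3 := abs_le.1 h1
  rw [abs_le]
  constructor
  · linarith [h3.1]
  · linarith [h3.2]

end SBx

end Crest.Agent.Ryser
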