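import Crest.Agent.Ryser.SB3

set_option autoImplicit false

open Finset

namespace Crest.Agent.Ryser

namespace SBx

variable {P L : Type} [Fintype P] [Fintype L] [DecidableEq P] [DecidableEq L] {q : ℕ}
variable {Pl : Plane P L q} {P0 : P} {a : Pl.Prt P0 → P}

/-- the sample space -/
def Om (Pl : Plane P L q) {P0 : P} (a : Pl.Prt P0 → P) : Finset (Pl.Prt P0 → Finset L) :=
  Fintype.piFinset (tt Pl a)

theorem bad_v {R : ℝ} (h : Num Pl P0 a R) {k : Pl.Prt P0} {l : L} (hl : l ∈ AA Pl a k) {s : ℝ}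
    (hs : 0 ≤ s) :
    (((Om Pl a).filter (fun ω => s ≤ |(fv Pl a k l ω : ℝ) -
      avg (tt Pl a) (fun ω => (fv Pl a k l ω : ℝ))|)).card : ℝ) ≤
      2 * Real.exp (-(s ^ 2 / (2 * (32 * q)))) * ((Om Pl a).card : ℝ) := by
  have hq0 := h.q0
  apply mcdiarmid (tt Pl a) (fun k => tt_nonempty (h.two_le k)) (fun ω => (fv Pl a k l ω : ℝ))
    (fun _ => 4) (fun _ => by norm_num) _ s (32 * q) hs _ (by linarith)
  · intro ω hω i g hg
    exact fv_lip hl hω i hg
  · rw [sum_const, card_univ, card_Prt, nsmul_eq_mul]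
    push_cast
    linarith

theorem bad_u {R : ℝ} (h : Num Pl P0 a R) {l : L} (hl : ∀ k, a k ∉ Pl.pts l) {s : ℝ}
    (hs : 0 ≤ s) :
    (((Om Pl a).filter (fun ω => s ≤ |(fu Pl l ω : ℝ) -
      avg (tt Pl a) (fun ω => (fu Pl l ω : ℝ))|)).card : ℝ) ≤
      2 * Real.exp (-(s ^ 2 / (2 * (32 * q)))) * ((Om Pl a).card : ℝ) := by
  have hq0 := h.q0
  apply mcdiarmid (tt Pl a) (fun k => tt_nonempty (h.two_le k)) (fun ω => (fu Pl l ω : ℝ))
    (fun _ => 4) (fun _ => by norm_num) _ s (32 * q) hs _ (by linarith)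
  · intro ω hω i g hg
    exact fu_lip hl hω i hg
  · rw [sum_const, card_univ, card_Prt, nsmul_eq_mul]
    push_cast
    linarith

theorem bad_g {R : ℝ} (h : Num Pl P0 a R) (hm : ∀ k, a k ∈ Pl.pts k.1) (hn : ∀ k, a k ≠ P0)
    (Y : P) (H : ℝ) (hH : 0 ≤ H) :
    (((Om Pl a).filter (fun ω => H ≤ ((univ.filter (fun k => hit Pl Y (ω k))).card : ℝ))).card : ℝ)
      ≤ Real.exp (41 - H / 2) * ((Om Pl a).card : ℝ) := by
  have hq0 := h.q0
  have hqpos : (0 : ℝ) < q := by linarith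
  have h1 := lemmaU (tt Pl a) (fun k => tt_nonempty (h.two_le k)) (fun _ g => hit Pl Y g)
    (fun k => (if Y = a k then 1 else 0) + 20 / q) (by
      intro k
      by_cases hY : Y = a k
      · rw [if_pos hY]
        have e1 : (((tt Pl a k).filter (fun g => hit Pl Y g)).card : ℝ) ≤ (tt Pl a k).card := by
          exact_mod_cast card_filter_le _ _
        have e2 : 0 ≤ 20 / (q : ℝ) * (tt Pl a k).card := by positivity
        linarith
      · rw [if_neg hY, zero_add, frac_hit hY (h.two_le k)]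
        apply mul_le_mul_of_nonneg_right _ (Nat.cast_nonneg _)
        unfold hp
        split_ifs
        · exact h.frac_le k
        · positivity) 2 H (by norm_num)
  refine h1.trans ?_
  apply mul_le_mul_of_nonneg_right _ (Nat.cast_nonneg _)
  apply Real.exp_le_exp.2
  have e1 : ∑ k : Pl.Prt P0, ((if Y = a k then (1 : ℝ) else 0) + 20 / q) ≤ 41 := by
    rw [sum_add_distrib, sum_const, card_univ, card_Prt, nsmul_eq_mul]
    have e2 : ∑ k : Pl.Prt P0, (if Y = a k then (1 : ℝ) else 0) ≤ 1 := by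
      rw [← sum_filter, sum_const, nsmul_eq_mul, mul_one]
      have : (univ.filter (fun k : Pl.Prt P0 => Y = a k)).card ≤ 1 := by
        rw [card_le_one]
        intro k hk k' hk'
        rw [mem_filter] at hk hk'
        exact a_inj hm hn (hk.2.symm.trans hk'.2)
      exact_mod_cast this
    have e3 : ((q + 1 : ℕ) : ℝ) * (20 / q) ≤ 40 := by
      push_cast
      have : ((q : ℝ) + 1) * (20 / q) = 20 + 20 / q := by field_simp
      rw [this]
      have : 20 / (q : ℝ) ≤ 20 := div_le_self (by norm_num) (by linarith)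
      linarith
    linarith
  have e2 : H / 2 ≤ H * Real.log 2 := by
    have := Real.log_two_gt_d9
    nlinarith
  linarith

/-- probability that a given line is chosen -/
theorem frac_line {R : ℝ} (h : Num Pl P0 a R) (k : Pl.Prt P0) (l : L) :
    (((tt Pl a k).filter (fun g => l ∈ g)).card : ℝ) ≤ 20 / q * ((tt Pl a k).card : ℝ) := by
  have hq0 := h.q0
  have h2 := h.two_le k
  by_cases hl : l ∈ AA Pl a k
  · have h1 : (tt Pl a k).filter (fun g => ¬ l ∈ g) = ((AA Pl a k).erase l).powersetCard 2 := by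
      ext g
      unfold tt
      simp only [mem_filter, mem_powersetCard, subset_iff, mem_erase]
      constructor
      · rintro ⟨⟨h1, h2⟩, h3⟩
        exact ⟨fun x hx => ⟨fun e => h3 (e ▸ hx), h1 hx⟩, h2⟩
      · rintro ⟨h1, h2⟩
        exact ⟨⟨fun x hx => (h1 hx).2, h2⟩, fun hc => (h1 hc).1 rfl⟩
    have h3 := card_filter_add_card_filter_not (s := tt Pl a k) (fun g => l ∈ g)
    rw [h1, card_powersetCard, card_erase_of_mem hl] at h3
    have h4 : (((tt Pl a k).filter (fun g => l ∈ g)).card : ℝ) +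
        ((((AA Pl a k).card - 1).choose 2 : ℕ) : ℝ) = (tt Pl a k).card := by exact_mod_cast h3
    rw [choose_two_real, Nat.cast_sub (by omega)] at h4
    have h5 : ((tt Pl a k).card : ℝ) = ((AA Pl a k).card : ℝ) * ((AA Pl a k).card - 1) / 2 := by
      rw [card_tt, choose_two_real]
    have h6 : (((tt Pl a k).filter (fun g => l ∈ g)).card : ℝ) =
        2 / ((AA Pl a k).card : ℝ) * (tt Pl a k).card := by
      have hN : (2 : ℝ) ≤ (AA Pl a k).card := by exact_mod_cast h2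
      have hN0 : ((AA Pl a k).card : ℝ) ≠ 0 := by positivity
      rw [h5] at h4 ⊢
      push_cast at h4
      have : 2 / ((AA Pl a k).card : ℝ) * (((AA Pl a k).card : ℝ) * ((AA Pl a k).card - 1) / 2) =
        (AA Pl a k).card - 1 := by field_simp
      rw [this]
      linarith
    rw [h6]
    exact mul_le_mul_of_nonneg_right (h.frac_le k) (Nat.cast_nonneg _)
  · have : (tt Pl a k).filter (fun g => l ∈ g) = ∅ := by
      rw [filter_eq_empty_iff]
      intro g hg hc
      exact hl ((mem_tt.1 hg).1 hc)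
    rw [this, card_empty]
    push_cast
    positivity

theorem frac_test {R : ℝ} (h : Num Pl P0 a R) (k : Pl.Prt P0) (Λ : Finset L) {w : ℕ}
    (hΛ : Λ.card ≤ w) :
    (((tt Pl a k).filter (fun g => ∃ l ∈ Λ, l ∈ g)).card : ℝ) ≤
      20 * w / q * ((tt Pl a k).card : ℝ) := by
  have hq0 := h.q0
  have h1 : (tt Pl a k).filter (fun g => ∃ l ∈ Λ, l ∈ g) ⊆
      Λ.biUnion (fun l => (tt Pl a k).filter (fun g => l ∈ g)) := by
    intro g hg
    rw [mem_filter] at hg
    obtain ⟨hg1, l, hl, hlg⟩ := hg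
    rw [mem_biUnion]
    exact ⟨l, hl, mem_filter.2 ⟨hg1, hlg⟩⟩
  have h2 : (((tt Pl a k).filter (fun g => ∃ l ∈ Λ, l ∈ g)).card : ℝ) ≤
      ∑ l ∈ Λ, (((tt Pl a k).filter (fun g => l ∈ g)).card : ℝ) := by
    exact_mod_cast (card_le_card h1).trans card_biUnion_le
  refine h2.trans ((sum_le_card_nsmul Λ _ _ (fun l _ => frac_line h k l)).trans ?_)
  rw [nsmul_eq_mul]
  have h3 : (Λ.card : ℝ) ≤ w := by exact_mod_cast hΛ
  have h4 : 0 ≤ 20 / (q : ℝ) * ((tt Pl a k).card : ℝ) := by positivity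
  calc (Λ.card : ℝ) * (20 / q * ((tt Pl a k).card : ℝ)) ≤ w * (20 / q * ((tt Pl a k).card : ℝ)) :=
        mul_le_mul_of_nonneg_right h3 h4
    _ = _ := by ring

theorem deg_test {Pl : Plane P L q} {w : ℕ} {T : Test P L} (hT : T.Valid Pl P0 w) {g : Finset L}
    (hg : g.card = 2) : ((T.J.filter (fun j => ∃ l ∈ T.Λ j, l ∈ g)).card : ℝ) ≤ 2 * T.M := by
  have h1 : T.J.filter (fun j => ∃ l ∈ T.Λ j, l ∈ g) ⊆
      g.biUnion (fun l => T.J.filter (fun j => l ∈ T.Λ j)) := by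
    intro j hj
    rw [mem_filter] at hj
    obtain ⟨hj1, l, hl, hlg⟩ := hj
    rw [mem_biUnion]
    exact ⟨l, hlg, mem_filter.2 ⟨hj1, hl⟩⟩
  have h2 : (T.J.filter (fun j => ∃ l ∈ T.Λ j, l ∈ g)).card ≤ g.card * T.M := by
    refine (card_le_card h1).trans (card_biUnion_le.trans ?_)
    rw [← smul_eq_mul]
    exact sum_le_card_nsmul _ _ _ (fun l _ => hT.degl l)
  rw [hg] at h2
  exact_mod_cast h2

theorem bad_T {R : ℝ} (h : Num Pl P0 a R) {w : ℕ} (hw : 80 * w ≤ q) {T : Test P L}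
    (hT : T.Valid Pl P0 w) :
    (((Om Pl a).filter (fun ω => ((T.J.filter (fun j => ∀ k, ¬ ∃ l ∈ T.Λ j, l ∈ ω k)).card : ℝ) ≤
      Real.exp (-(160 * w)) / 2 * (T.J.card : ℝ))).card : ℝ) ≤
      Real.exp (-(Real.exp (-(160 * w)) / 4 * (T.J.card : ℝ) / (T.M : ℝ))) *
        ((Om Pl a).card : ℝ) := by
  have hq0 := h.q0
  have hqpos : (0 : ℝ) < q := by linarith
  have hMpos : (0 : ℝ) < T.M := by exact_mod_cast hT.M_pos
  have hwq : 80 * (w : ℝ) ≤ q := by exact_mod_cast hw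
  have hp1 : 20 * (w : ℝ) / q ≤ 1 / 4 := by
    rw [div_le_iff₀ hqpos]; linarith
  have h1 := lemmaH (tt Pl a) (fun k => tt_nonempty (h.two_le k)) T.J
    (fun _ g j => ∃ l ∈ T.Λ j, l ∈ g) (2 * T.M) (by positivity)
    (fun k g hg => deg_test hT (mem_tt.1 hg).2) (fun _ => 20 * w / q) (fun _ => by positivity)
    (fun _ => by linarith) (fun k j hj => frac_test h k (T.Λ j) (hT.card_le j hj))
  have hprod : Real.exp (-(160 * w)) ≤ ∏ _k : Pl.Prt P0, (1 - 2 * (20 * (w : ℝ) / q)) := by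
    rw [prod_const, card_univ, card_Prt]
    have e1 := one_sub_ge_exp (y := 2 * (20 * (w : ℝ) / q)) (by positivity) (by linarith)
    calc Real.exp (-(160 * w)) ≤ Real.exp (-(2 * (2 * (20 * (w : ℝ) / q)))) ^ (q + 1) := by
          rw [← Real.exp_nat_mul]
          apply Real.exp_le_exp.2
          push_cast
          have e2 : ((q : ℝ) + 1) * (-(2 * (2 * (20 * (w : ℝ) / q)))) =
            -(80 * w * ((q + 1) / q)) := by field_simp; ring
          rw [e2]
          have e3 : ((q : ℝ) + 1) / q ≤ 2 := by rw [div_le_iff₀ hqpos]; linarith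
          have e4 : 80 * (w : ℝ) * (((q : ℝ) + 1) / q) ≤ 80 * w * 2 :=
            mul_le_mul_of_nonneg_left e3 (by positivity)
          linarith
      _ ≤ _ := pow_le_pow_left₀ (Real.exp_pos _).le e1 _
  set Pr := ∏ _k : Pl.Prt P0, (1 - 2 * (20 * (w : ℝ) / q)) with hPr
  have hJ : (0 : ℝ) ≤ T.J.card := Nat.cast_nonneg _
  have hsub : (Om Pl a).filter (fun ω => ((T.J.filter (fun j => ∀ k, ¬ ∃ l ∈ T.Λ j, l ∈ ω k)).card : ℝ) ≤
      Real.exp (-(160 * w)) / 2 * (T.J.card : ℝ)) ⊆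
      (Om Pl a).filter (fun ω => ((T.J.filter (fun j => ∀ k, ¬ ∃ l ∈ T.Λ j, l ∈ ω k)).card : ℝ) ≤
      Pr / 2 * (T.J.card : ℝ)) := by
    intro ω hω
    rw [mem_filter] at hω ⊢
    refine ⟨hω.1, hω.2.trans ?_⟩
    apply mul_le_mul_of_nonneg_right _ hJ
    linarith
  have h2 : (((Om Pl a).filter (fun ω => ((T.J.filter (fun j => ∀ k, ¬ ∃ l ∈ T.Λ j, l ∈ ω k)).card : ℝ) ≤
      Real.exp (-(160 * w)) / 2 * (T.J.card : ℝ))).card : ℝ) ≤
      Real.exp (-(Pr / 2 * (T.J.card : ℝ) / (2 * T.M))) * ((Om Pl a).card : ℝ) := by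
    refine le_trans ?_ h1
    exact_mod_cast card_le_card hsub
  refine h2.trans ?_
  apply mul_le_mul_of_nonneg_right _ (Nat.cast_nonneg _)
  apply Real.exp_le_exp.2
  have e1 : Real.exp (-(160 * w)) / 4 * (T.J.card : ℝ) / (T.M : ℝ) ≤
      Pr / 2 * (T.J.card : ℝ) / (2 * T.M) := by
    have e2 : Pr / 2 * (T.J.card : ℝ) / (2 * T.M) = Pr / 4 * (T.J.card : ℝ) / T.M := by
      field_simp; ring
    rw [e2]
    apply div_le_div_of_nonneg_right _ hMpos.le
    apply mul_le_mul_of_nonneg_right _ hJ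
    linarith
  linarith

end SBx

end Crest.Agent.Ryser
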