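import Crest.Agent.Ryser.PDefs
import Crest.Agent.Ryser.Prob
import Crest.Agent.Ryser.RR

/-! Row 34, chunk SD: auxiliary lemmas for stage D. -/

set_option autoImplicit false

open Finset

namespace Crest.Agent.Ryser

namespace SDaux

variable {P L : Type} [Fintype P] [Fintype L] [DecidableEq P] [DecidableEq L] {q : ℕ}
variable {Pl : Plane P L q} {P0 : P} {n : ℕ} (C : PreConfig Pl P0 n)

theorem P0_mem_part (i : Pl.Prt P0) : P0 ∈ Pl.pts i.1 := (Pl.mem_lns _ _).mp i.2

theorem base_mem_ban (i : Pl.Prt P0) : C.base i ∈ C.ban :=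
  mem_union_left _ (mem_image_of_mem _ (mem_univ i))

theorem Q_mem_ban (i : Pl.Prt P0) (b : Bool) (t : Fin n) : C.Q i b t ∈ C.ban :=
  mem_union_right _ (mem_image_of_mem (fun x : Pl.Prt P0 × Bool × Fin n => C.Q x.1 x.2.1 x.2.2)
    (mem_univ (i, b, t)))

theorem ban_cases {X : P} (hX : X ∈ C.ban) :
    (∃ i, X = C.base i) ∨ ∃ i b t, X = C.Q i b t := by
  rcases mem_union.mp hX with h | h
  · obtain ⟨i, _, hi⟩ := mem_image.mp h
    exact Or.inl ⟨i, hi.symm⟩
  · obtain ⟨x, _, hx⟩ := mem_image.mp h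
    exact Or.inr ⟨x.1, x.2.1, x.2.2, hx.symm⟩

theorem Q_ne_P0 (i : Pl.Prt P0) (b : Bool) (t : Fin n) : C.Q i b t ≠ P0 := fun h => by
  have h1 := C.Q_mem i b t
  rw [h] at h1
  exact C.g_P0 i b h1

theorem Q_ne_base' (i j : Pl.Prt P0) (b : Bool) (t : Fin n) : C.Q i b t ≠ C.base j := by
  intro h
  by_cases hj : j = i
  · subst hj; exact C.Q_ne_base _ _ _ h
  · exact C.base_not_g i j b hj (h ▸ C.Q_mem i b t)

theorem Q_inj' {i j : Pl.Prt P0} {b b' : Bool} {t t' : Fin n} (h : C.Q i b t = C.Q j b' t') :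
    i = j ∧ b = b' ∧ t = t' := by
  by_cases hij : (i, b) = (j, b')
  · obtain ⟨rfl, rfl⟩ := Prod.mk.inj hij
    exact ⟨rfl, rfl, C.Q_inj _ _ h⟩
  · exact absurd (h ▸ C.Q_mem j b' t') (C.Q_not_g j b' i b t hij)

theorem base_inj {i j : Pl.Prt P0} (h : C.base i = C.base j) : i = j := by
  by_contra hij
  have h1 : i.1 ≠ j.1 := fun e => hij (Subtype.ext e)
  have := Pl.eq_of_mem_two h1 (C.base_mem i) (by rw [h]; exact C.base_mem j)
    (P0_mem_part i) (P0_mem_part j)
  exact C.base_ne i this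

theorem part_ne_g (i j : Pl.Prt P0) (b : Bool) : j.1 ≠ C.g i b := fun h =>
  C.g_P0 i b (h ▸ P0_mem_part j)

/-- a banned point on `g i b` lies in `K i b`. -/
theorem ban_g {i : Pl.Prt P0} {b : Bool} {X : P} (hX : X ∈ C.ban) (hg : X ∈ Pl.pts (C.g i b)) :
    X = C.base i ∨ ∃ t, X = C.Q i b t := by
  rcases ban_cases C hX with ⟨j, rfl⟩ | ⟨j, b', t, rfl⟩
  · by_cases hj : j = i
    · subst hj; exact Or.inl rfl
    · exact absurd hg (C.base_not_g i j b hj)
  · by_cases hij : (j, b') = (i, b)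
    · obtain ⟨rfl, rfl⟩ := Prod.mk.inj hij
      exact Or.inr ⟨t, rfl⟩
    · exact absurd hg (C.Q_not_g i b j b' t hij)

theorem g_inj {i j : Pl.Prt P0} {b b' : Bool} (h : C.g i b = C.g j b') : i = j ∧ b = b' := by
  have hij : i = j := by
    by_contra hij
    exact C.base_not_g j i b' hij (h ▸ C.g_mem i b)
  subst hij
  refine ⟨rfl, ?_⟩
  by_contra hb
  cases b <;> cases b' <;> simp_all
  · exact C.g_ne i h.symm
  · exact C.g_ne i h

theorem own_cases {i : Pl.Prt P0} {X : P} (hX : X ∈ C.own i) :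
    X = C.base i ∨ ∃ b t, X = C.Q i b t := by
  rcases mem_union.mp hX with h | h <;> rcases mem_insert.mp h with h | h
  · exact Or.inl h
  · obtain ⟨t, _, rfl⟩ := mem_image.mp h
    exact Or.inr ⟨_, t, rfl⟩
  · exact Or.inl h
  · obtain ⟨t, _, rfl⟩ := mem_image.mp h
    exact Or.inr ⟨_, t, rfl⟩

/-- candidates for `mu i t` -/
def A (i : Pl.Prt P0) (t : Fin n) : Finset L := (C.dTest i t).surv Pl C.ban

theorem A_base {i : Pl.Prt P0} {t : Fin n} {m : L} (hm : m ∈ A C i t) : C.base i ∈ Pl.pts m :=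
  (Pl.mem_lns _ _).mp (mem_filter.mp (mem_filter.mp hm).1).1

theorem A_P0 {i : Pl.Prt P0} {t : Fin n} {m : L} (hm : m ∈ A C i t) : P0 ∉ Pl.pts m :=
  (mem_filter.mp (mem_filter.mp hm).1).2.1

theorem A_ne_g {i : Pl.Prt P0} {t : Fin n} {m : L} (hm : m ∈ A C i t) (b : Bool) :
    m ≠ C.g i b := by
  have := (mem_filter.mp (mem_filter.mp hm).1).2.2
  cases b
  · exact this.2
  · exact this.1

theorem A_ban {i : Pl.Prt P0} {t : Fin n} {m : L} (hm : m ∈ A C i t) {l : L}
    (hl : l ∈ C.Lam i t m) {X : P} (hX : X ∈ C.ban) (hXl : X ∈ Pl.pts l) : X ∈ C.own i :=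
  (mem_filter.mp hm).2 l hl X hX hXl

theorem mem_Lam_self (i : Pl.Prt P0) (t : Fin n) (m : L) : m ∈ C.Lam i t m :=
  mem_insert_self _ _

/-- `sigma` -/
def sg (i : Pl.Prt P0) (b : Bool) (s t : Fin n) (m : L) : L :=
  Pl.join (C.Q i b s) (C.Rof i m b t)

theorem mem_Lam_sg (i : Pl.Prt P0) (b : Bool) {s t : Fin n} (hst : s ≠ t) (m : L) :
    sg C i b s t m ∈ C.Lam i t m :=
  mem_insert_of_mem (mem_image.mpr ⟨(b, s), mem_filter.mpr ⟨mem_univ _, hst⟩, rfl⟩)

section
variable {i : Pl.Prt P0} {t : Fin n} {m : L}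

theorem A_ne_part (hm : m ∈ A C i t) (X : P) (hX : P0 ≠ X) : m ≠ Pl.join P0 X :=
  fun h => A_P0 C hm (by rw [h]; exact Pl.join_left _ _ hX)

theorem R_mem_m (hm : m ∈ A C i t) (b : Bool) : C.Rof i m b t ∈ Pl.pts m :=
  Pl.meet_left _ _ (A_ne_part C hm _ (Q_ne_P0 C i b t).symm)

theorem R_mem_part (hm : m ∈ A C i t) (b : Bool) :
    C.Rof i m b t ∈ Pl.pts (Pl.join P0 (C.Q i b t)) :=
  Pl.meet_right _ _ (A_ne_part C hm _ (Q_ne_P0 C i b t).symm)

theorem R_ne_base (hm : m ∈ A C i t) (b : Bool) : C.Rof i m b t ≠ C.base i := by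
  intro h
  have h1 := R_mem_part C hm b
  rw [h] at h1
  have h2 : i.1 = Pl.join P0 (C.Q i b t) :=
    Pl.line_eq_of_two (C.base_ne i) (C.base_mem i) h1 (P0_mem_part i)
      (Pl.join_left _ _ (Q_ne_P0 C i b t).symm)
  have h3 : C.Q i b t ∈ Pl.pts i.1 := by
    rw [h2]; exact Pl.join_right _ _ (Q_ne_P0 C i b t).symm
  exact C.Q_ne_base i b t
    (Pl.eq_of_mem_two (part_ne_g C i i b) h3 (C.Q_mem i b t) (C.base_mem i) (C.g_mem i b))

theorem R_not_g (hm : m ∈ A C i t) (b b' : Bool) : C.Rof i m b t ∉ Pl.pts (C.g i b') :=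
  fun h => R_ne_base C hm b
    (Pl.eq_of_mem_two (A_ne_g C hm b') (R_mem_m C hm b) h (A_base C hm) (C.g_mem i b'))

theorem Q_ne_R (hm : m ∈ A C i t) (b : Bool) (s : Fin n) : C.Q i b s ≠ C.Rof i m b t :=
  fun h => R_not_g C hm b b (h ▸ C.Q_mem i b s)

theorem Q_mem_sg (hm : m ∈ A C i t) (b : Bool) (s : Fin n) :
    C.Q i b s ∈ Pl.pts (sg C i b s t m) := Pl.join_left _ _ (Q_ne_R C hm b s)

theorem R_mem_sg (hm : m ∈ A C i t) (b : Bool) (s : Fin n) :
    C.Rof i m b t ∈ Pl.pts (sg C i b s t m) := Pl.join_right _ _ (Q_ne_R C hm b s)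

theorem sg_ne_g (hm : m ∈ A C i t) (b : Bool) (s : Fin n) : sg C i b s t m ≠ C.g i b :=
  fun h => R_not_g C hm b b (h ▸ R_mem_sg C hm b s)

theorem sg_P0 (hm : m ∈ A C i t) (b : Bool) {s : Fin n} (hst : s ≠ t) :
    P0 ∉ Pl.pts (sg C i b s t m) := by
  intro h
  have h1 : (sg C i b s t m) ∈ Pl.lns P0 := (Pl.mem_lns _ _).mpr h
  set j : Pl.Prt P0 := ⟨sg C i b s t m, h1⟩ with hj
  have h2 : C.base j ∈ Pl.pts (sg C i b s t m) := C.base_mem j
  have h3 := A_ban C hm (mem_Lam_sg C i b hst m) (base_mem_ban C j) h2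
  rcases own_cases C h3 with h4 | ⟨b', u, h4⟩
  · have hji := base_inj C h4
    have h5 : C.Q i b s ∈ Pl.pts j.1 := Q_mem_sg C hm b s
    rw [hji] at h5
    exact C.Q_ne_base i b s
      (Pl.eq_of_mem_two (part_ne_g C i i b) h5 (C.Q_mem i b s) (C.base_mem i) (C.g_mem i b))
  · exact Q_ne_base' C i j b' u h4.symm

/-- a line of `A` meets the banned set only in the base -/
theorem m_ban (hm : m ∈ A C i t) {X : P} (hX : X ∈ C.ban) (hXm : X ∈ Pl.pts m) :
    X = C.base i := by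
  have h1 := A_ban C hm (mem_Lam_self C i t m) hX hXm
  rcases own_cases C h1 with h | ⟨b, u, h⟩
  · exact h
  · exfalso
    have h2 : X ∈ Pl.pts (C.g i b) := h ▸ C.Q_mem i b u
    have h3 := Pl.eq_of_mem_two (A_ne_g C hm b) hXm h2 (A_base C hm) (C.g_mem i b)
    exact C.Q_ne_base i b u (h.symm.trans h3)

/-- a line `sg` meets the banned set only in `Q i b s` and possibly points of the other line -/
theorem sg_ban (hm : m ∈ A C i t) {b : Bool} {s : Fin n} (hst : s ≠ t)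
    (hother : ∀ u, C.Q i (!b) u ∉ Pl.pts (sg C i b s t m))
    {X : P} (hX : X ∈ C.ban) (hXm : X ∈ Pl.pts (sg C i b s t m)) :
    X = C.Q i b s := by
  have h1 := A_ban C hm (mem_Lam_sg C i b hst m) hX hXm
  have key : ∀ Z, Z ∈ Pl.pts (C.g i b) → Z ∈ Pl.pts (sg C i b s t m) → Z = C.Q i b s :=
    fun Z hZ hZ' => Pl.eq_of_mem_two (sg_ne_g C hm b s) hZ' hZ (Q_mem_sg C hm b s) (C.Q_mem i b s)
  rcases own_cases C h1 with h | ⟨b', u, h⟩
  · exact key X (h ▸ C.g_mem i b) hXm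
  · by_cases hb : b' = b
    · subst hb
      exact key X (h ▸ C.Q_mem i b' u) hXm
    · have hb' : b' = !b := by cases b <;> cases b' <;> simp_all
      subst hb'
      exact absurd (h ▸ hXm) (hother u)

end

/-- determination of `m` -/
theorem m_det {i : Pl.Prt P0} {t : Fin n} {m m' : L} (hm : m ∈ A C i t) (hm' : m' ∈ A C i t)
    (b : Bool) (h : C.Rof i m b t = C.Rof i m' b t) : m = m' :=
  Pl.line_eq_of_two (R_ne_base C hm b) (R_mem_m C hm b) (by rw [h]; exact R_mem_m C hm' b)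
    (A_base C hm) (A_base C hm')

theorem det_point {i : Pl.Prt P0} {t : Fin n} {m m' : L} (hm : m ∈ A C i t) (hm' : m' ∈ A C i t)
    {Z : P} (hZ : Z ≠ C.base i) (h : Z ∈ Pl.pts m) (h' : Z ∈ Pl.pts m') : m = m' :=
  Pl.line_eq_of_two hZ h h' (A_base C hm) (A_base C hm')

theorem det_R {i : Pl.Prt P0} {t : Fin n} {m m' : L} (hm : m ∈ A C i t) (hm' : m' ∈ A C i t)
    {b : Bool} {l : L} (hl : P0 ∉ Pl.pts l) (h : C.Rof i m b t ∈ Pl.pts l)
    (h' : C.Rof i m' b t ∈ Pl.pts l) : m = m' := by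
  refine m_det C hm hm' b ?_
  have hne : l ≠ Pl.join P0 (C.Q i b t) := fun e =>
    hl (by rw [e]; exact Pl.join_left _ _ (Q_ne_P0 C i b t).symm)
  exact Pl.eq_of_mem_two hne h (R_mem_part C hm b) h' (R_mem_part C hm' b)

theorem det_sg {i : Pl.Prt P0} {t : Fin n} {m m' : L} (hm : m ∈ A C i t) (hm' : m' ∈ A C i t)
    {b : Bool} {s : Fin n} (hst : s ≠ t) {Y : P} (hY : Y ≠ C.Q i b s)
    (h : Y ∈ Pl.pts (sg C i b s t m)) (h' : Y ∈ Pl.pts (sg C i b s t m')) : m = m' := by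
  have e : sg C i b s t m = sg C i b s t m' :=
    Pl.line_eq_of_two hY h h' (Q_mem_sg C hm b s) (Q_mem_sg C hm' b s)
  refine det_R C hm hm' (b := b) (l := sg C i b s t m) (sg_P0 C hm b hst) (R_mem_sg C hm b s) ?_
  rw [e]
  exact R_mem_sg C hm' b s

/-- the general line: `none` is the line through the base, `some s` the line through `Q s` -/
def ln (i : Pl.Prt P0) (b : Bool) (s : Option (Fin n)) (t : Fin n) (m : L) : L :=
  match s with
  | none => m
  | some s => sg C i b s t m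

/-- its banned point -/
def bp (i : Pl.Prt P0) (b : Bool) (s : Option (Fin n)) : P :=
  match s with
  | none => C.base i
  | some s => C.Q i b s

theorem bp_mem_g (i : Pl.Prt P0) (b : Bool) (s : Option (Fin n)) :
    bp C i b s ∈ Pl.pts (C.g i b) := by
  cases s with
  | none => exact C.g_mem i b
  | some s => exact C.Q_mem i b s

theorem bp_inj (i : Pl.Prt P0) (b : Bool) {s s' : Option (Fin n)}
    (h : bp C i b s = bp C i b s') : s = s' := by
  cases s with
  | none =>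
    cases s' with
    | none => rfl
    | some s' => exact absurd h.symm (C.Q_ne_base i b s')
  | some s =>
    cases s' with
    | none => exact absurd h (C.Q_ne_base i b s)
    | some s' => rw [C.Q_inj i b h]

section
variable {i : Pl.Prt P0} {t : Fin n} {m : L}

theorem bp_mem_ln (hm : m ∈ A C i t) (b : Bool) (s : Option (Fin n)) :
    bp C i b s ∈ Pl.pts (ln C i b s t m) := by
  cases s with
  | none => exact A_base C hm
  | some s => exact Q_mem_sg C hm b s

theorem R_mem_ln (hm : m ∈ A C i t) (b : Bool) (s : Option (Fin n)) :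
    C.Rof i m b t ∈ Pl.pts (ln C i b s t m) := by
  cases s with
  | none => exact R_mem_m C hm b
  | some s => exact R_mem_sg C hm b s

theorem ln_ne_g (hm : m ∈ A C i t) (b : Bool) (s : Option (Fin n)) :
    ln C i b s t m ≠ C.g i b := by
  cases s with
  | none => exact A_ne_g C hm b
  | some s => exact sg_ne_g C hm b s

theorem det_ln {m' : L} (hm : m ∈ A C i t) (hm' : m' ∈ A C i t)
    {b : Bool} {s : Option (Fin n)} (hst : s ≠ some t) {Y : P} (hY : Y ≠ bp C i b s)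
    (h : Y ∈ Pl.pts (ln C i b s t m)) (h' : Y ∈ Pl.pts (ln C i b s t m')) : m = m' := by
  cases s with
  | none => exact det_point C hm hm' hY h h'
  | some s => exact det_sg C hm hm' (fun e => hst (by rw [e])) hY h h'

end

/-- counting lemma -/
theorem count_le {ι α : Type} [Fintype ι] [DecidableEq ι] [DecidableEq α] (B : ι → Finset α)
    (E : (ι → α) → Prop) [DecidablePred E] (t : ι)
    (h : ∀ ω ∈ Fintype.piFinset B, ∀ x ∈ B t, ∀ x' ∈ B t, E (Function.update ω t x) →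
      E (Function.update ω t x') → x = x') :
    ((Fintype.piFinset B).filter E).card * (B t).card ≤ (Fintype.piFinset B).card := by
  rw [← card_product]
  refine card_le_card_of_injOn (fun p => Function.update p.1 t p.2) ?_ ?_
  · rintro ⟨ω, x⟩ hp
    rw [mem_coe, mem_product, mem_filter] at hp
    rw [mem_coe, Fintype.mem_piFinset]
    intro i
    by_cases hi : i = t
    · subst hi
      simpa using hp.2
    · simp only [Function.update_of_ne hi]
      exact Fintype.mem_piFinset.mp hp.1.1 i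
  · rintro ⟨ω, x⟩ hp ⟨ω', x'⟩ hp' heq
    rw [mem_coe, mem_product, mem_filter] at hp hp'
    have hx : x = x' := by
      have := congrFun heq t
      simpa using this
    have hω : ∀ i, i ≠ t → ω i = ω' i := by
      intro i hi
      have := congrFun heq i
      simpa [hi] using this
    have h1 : ω' = Function.update ω t (ω' t) := by
      funext i
      by_cases hi : i = t
      · subst hi; simp
      · rw [Function.update_of_ne hi]; exact (hω i hi).symm
    have h2 : ω = Function.update ω t (ω t) := by simp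
    have h3 : ω t = ω' t := by
      refine h ω hp.1.1 (ω t) (Fintype.mem_piFinset.mp hp.1.1 t) (ω' t)
        (Fintype.mem_piFinset.mp hp'.1.1 t) ?_ ?_
      · rw [← h2]; exact hp.1.2
      · rw [← h1]; exact hp'.1.2
    have h4 : ω = ω' := by
      rw [h1, ← h3, ← h2]
    exact Prod.ext h4 hx

/-- union bound of events each of which determines a coordinate -/
theorem union_le {ι α ε : Type} [Fintype ι] [DecidableEq ι] [DecidableEq α] [Fintype ε]
    (B : ι → Finset α) (α0 : ℝ) (hα : 0 < α0) (hB : ∀ t, α0 ≤ ((B t).card : ℝ))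
    (bad : ε → (ι → α) → Prop) [DecidablePred (fun ω => ∃ e, bad e ω)] (τ : ε → ι)
    (h : ∀ e, ∀ ω ∈ Fintype.piFinset B, ∀ x ∈ B (τ e), ∀ x' ∈ B (τ e),
      bad e (Function.update ω (τ e) x) → bad e (Function.update ω (τ e) x') → x = x') :
    (((Fintype.piFinset B).filter (fun ω => ∃ e, bad e ω)).card : ℝ) ≤
      (Fintype.card ε : ℝ) / α0 * ((Fintype.piFinset B).card : ℝ) := by
  classical
  have h1 : (Fintype.piFinset B).filter (fun ω => ∃ e, bad e ω) ⊆
      univ.biUnion (fun e => (Fintype.piFinset B).filter (bad e)) := by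
    intro ω hω
    rw [mem_filter] at hω
    obtain ⟨hω, e, he⟩ := hω
    exact mem_biUnion.mpr ⟨e, mem_univ e, mem_filter.mpr ⟨hω, he⟩⟩
  have h2 : ∀ e, (((Fintype.piFinset B).filter (bad e)).card : ℝ) ≤
      1 / α0 * ((Fintype.piFinset B).card : ℝ) := by
    intro e
    have h3 := count_le B (bad e) (τ e) (h e)
    have h4 : (((Fintype.piFinset B).filter (bad e)).card : ℝ) * ((B (τ e)).card : ℝ) ≤
        ((Fintype.piFinset B).card : ℝ) := by exact_mod_cast h3
    have h5 : (((Fintype.piFinset B).filter (bad e)).card : ℝ) * α0 ≤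
        ((Fintype.piFinset B).card : ℝ) :=
      (mul_le_mul_of_nonneg_left (hB _) (Nat.cast_nonneg _)).trans h4
    rw [one_div, inv_mul_eq_div, le_div_iff₀ hα]
    exact h5
  calc (((Fintype.piFinset B).filter (fun ω => ∃ e, bad e ω)).card : ℝ)
      ≤ ((univ.biUnion (fun e => (Fintype.piFinset B).filter (bad e))).card : ℝ) := by
        exact_mod_cast card_le_card h1
    _ ≤ ((∑ e, ((Fintype.piFinset B).filter (bad e)).card : ℕ) : ℝ) := by
        exact_mod_cast card_biUnion_le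
    _ = ∑ e, (((Fintype.piFinset B).filter (bad e)).card : ℝ) := by push_cast; rfl
    _ ≤ ∑ _e : ε, 1 / α0 * ((Fintype.piFinset B).card : ℝ) := sum_le_sum fun e _ => h2 e
    _ = _ := by
        rw [sum_const, card_univ, nsmul_eq_mul]
        ring

/-- own general position -/
def Good (i : Pl.Prt P0) (m : Fin n → L) : Prop :=
  (∀ t t', t ≠ t' → m t ≠ m t') ∧
  (∀ b s t u, s ≠ t → C.Q i (!b) u ∉ Pl.pts (sg C i b s t (m t))) ∧
  (∀ b t s t', t' ≠ t → s ≠ t' → C.Rof i (m t) b t ∉ Pl.pts (sg C i b s t' (m t'))) ∧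
  (∀ (b : Bool) (s1 s2 s3 : Option (Fin n)) (t1 t2 t3 : Fin n), t3 ≠ t1 → t3 ≠ t2 →
    s3 ≠ some t3 → ln C i b s1 t1 (m t1) ≠ ln C i b s2 t2 (m t2) →
    ∀ Y, Y ∉ Pl.pts (C.g i b) → Y ∈ Pl.pts (ln C i b s1 t1 (m t1)) →
      Y ∈ Pl.pts (ln C i b s2 t2 (m t2)) → Y ∉ Pl.pts (ln C i b s3 t3 (m t3)))

/-- indices of bad events -/
abbrev Ev (n : ℕ) : Type := (Fin n × Fin n) ⊕ (Bool × Fin n × Fin n × Fin n) ⊕
  (Bool × Fin n × Fin n × Fin n) ⊕
  (Bool × (Option (Fin n) × Option (Fin n) × Option (Fin n)) × (Fin n × Fin n × Fin n))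

/-- bad events -/
def badE (i : Pl.Prt P0) : Ev n → (Fin n → L) → Prop
  | .inl (t, t'), m => t ≠ t' ∧ m t = m t'
  | .inr (.inl (b, s, t, u)), m => s ≠ t ∧ C.Q i (!b) u ∈ Pl.pts (sg C i b s t (m t))
  | .inr (.inr (.inl (b, t, s, t'))), m =>
      (t' ≠ t ∧ s ≠ t') ∧ C.Rof i (m t) b t ∈ Pl.pts (sg C i b s t' (m t'))
  | .inr (.inr (.inr (b, (s1, s2, s3), (t1, t2, t3)))), m =>
      (t3 ≠ t1 ∧ t3 ≠ t2 ∧ s3 ≠ some t3) ∧ ln C i b s1 t1 (m t1) ≠ ln C i b s2 t2 (m t2) ∧
      ∃ Y, Y ∉ Pl.pts (C.g i b) ∧ Y ∈ Pl.pts (ln C i b s1 t1 (m t1)) ∧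
        Y ∈ Pl.pts (ln C i b s2 t2 (m t2)) ∧ Y ∈ Pl.pts (ln C i b s3 t3 (m t3))

/-- determined coordinate -/
def tau : Ev n → Fin n
  | .inl (t, _) => t
  | .inr (.inl (_, _, t, _)) => t
  | .inr (.inr (.inl (_, t, _, _))) => t
  | .inr (.inr (.inr (_, _, (_, _, t3)))) => t3

theorem exists_bad {i : Pl.Prt P0} {m : Fin n → L} (h : ¬ Good C i m) : ∃ e, badE C i e m := by
  by_contra hcon
  push Not at hcon
  refine h ⟨?_, ?_, ?_, ?_⟩
  · intro t t' hne he
    exact hcon (.inl (t, t')) ⟨hne, he⟩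
  · intro b s t u hst he
    exact hcon (.inr (.inl (b, s, t, u))) ⟨hst, he⟩
  · intro b t s t' h1 h2 he
    exact hcon (.inr (.inr (.inl (b, t, s, t')))) ⟨⟨h1, h2⟩, he⟩
  · intro b s1 s2 s3 t1 t2 t3 h1 h2 h3 hne Y hY h4 h5 h6
    exact hcon (.inr (.inr (.inr (b, (s1, s2, s3), (t1, t2, t3)))))
      ⟨⟨h1, h2, h3⟩, hne, Y, hY, h4, h5, h6⟩

theorem bad_det (i : Pl.Prt P0) (e : Ev n) {ω : Fin n → L}
    (hω : ω ∈ Fintype.piFinset (A C i)) {x x' : L} (hx : x ∈ A C i (tau e))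
    (hx' : x' ∈ A C i (tau e)) (h : badE C i e (Function.update ω (tau e) x))
    (h' : badE C i e (Function.update ω (tau e) x')) : x = x' := by
  rw [Fintype.mem_piFinset] at hω
  match e with
  | .inl (t, t') =>
    simp only [tau, badE] at *
    obtain ⟨hne, h⟩ := h
    obtain ⟨_, h'⟩ := h'
    rw [Function.update_self, Function.update_of_ne hne.symm] at h h'
    rw [h, h']
  | .inr (.inl (b, s, t, u)) =>
    simp only [tau, badE] at *
    obtain ⟨hst, h⟩ := h
    obtain ⟨_, h'⟩ := h'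
    rw [Function.update_self] at h h'
    refine det_sg C hx hx' hst (fun e => ?_) h h'
    have := (Q_inj' C e).2.1
    cases b <;> simp at this
  | .inr (.inr (.inl (b, t, s, t'))) =>
    simp only [tau, badE] at *
    obtain ⟨⟨h1, h2⟩, h⟩ := h
    obtain ⟨_, h'⟩ := h'
    rw [Function.update_self, Function.update_of_ne h1] at h h'
    exact det_R C hx hx' (sg_P0 C (hω t') b h2) h h'
  | .inr (.inr (.inr (b, (s1, s2, s3), (t1, t2, t3)))) =>
    simp only [tau, badE] at *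
    obtain ⟨⟨h1, h2, h3⟩, hne, Y, hY, h4, h5, h6⟩ := h
    obtain ⟨_, hne', Y', hY', h4', h5', h6'⟩ := h'
    rw [Function.update_of_ne h1.symm] at hne hne' h4 h4'
    rw [Function.update_of_ne h2.symm] at hne hne' h5 h5'
    rw [Function.update_self] at h6 h6'
    have hYY : Y' = Y := Pl.eq_of_mem_two hne h4' h5' h4 h5
    subst hYY
    exact det_ln C hx hx' h3 (fun e => hY (by rw [e]; exact bp_mem_g C i b s3)) h6 h6'

/-- gadget `i` with the choice `m` contributes to `(l, Y)` -/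
def hit (l : L) (Y : P) (i : Pl.Prt P0) (m : Fin n → L) : Prop :=
  ∃ e : Bool × Option (Fin n) × Fin n, e.2.1 ≠ some e.2.2 ∧ bp C i e.1 e.2.1 ∈ Pl.pts l ∧
    Y ∈ Pl.pts (ln C i e.1 e.2.1 e.2.2 (m e.2.2))

theorem hit_det {l : L} {Y : P} (hY : Y ∉ Pl.pts l) (i : Pl.Prt P0)
    (e : Bool × Option (Fin n) × Fin n) {ω : Fin n → L}
    {x x' : L} (hx : x ∈ A C i e.2.2)
    (hx' : x' ∈ A C i e.2.2)
    (h : e.2.1 ≠ some e.2.2 ∧ bp C i e.1 e.2.1 ∈ Pl.pts l ∧
      Y ∈ Pl.pts (ln C i e.1 e.2.1 e.2.2 (Function.update ω e.2.2 x e.2.2)))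
    (h' : e.2.1 ≠ some e.2.2 ∧ bp C i e.1 e.2.1 ∈ Pl.pts l ∧
      Y ∈ Pl.pts (ln C i e.1 e.2.1 e.2.2 (Function.update ω e.2.2 x' e.2.2))) : x = x' := by
  rw [Function.update_self] at h h'
  exact det_ln C (b := e.1) (s := e.2.1) hx hx' h.1 (fun he => hY (by rw [he]; exact h.2.1))
    h.2.2 h'.2.2

open Classical in
/-- many good tuples -/
theorem good_card (i : Pl.Prt P0) {α0 : ℝ} (hα : 0 < α0)
    (hB : ∀ t, α0 ≤ ((A C i t).card : ℝ)) (hN : 2 * (Fintype.card (Ev n) : ℝ) ≤ α0) :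
    ((Fintype.piFinset (A C i)).card : ℝ) / 2 ≤
      (((Fintype.piFinset (A C i)).filter (Good C i)).card : ℝ) := by
  have h1 := union_le (A C i) α0 hα hB (badE C i) tau
    (fun e ω hω x hx x' hx' h h' => bad_det C i e hω hx hx' h h')
  have h2 : (Fintype.piFinset (A C i)).card ≤
      ((Fintype.piFinset (A C i)).filter (Good C i)).card +
      ((Fintype.piFinset (A C i)).filter (fun ω => ∃ e, badE C i e ω)).card := by
    rw [← card_filter_add_card_filter_not (s := Fintype.piFinset (A C i)) (Good C i)]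
    refine Nat.add_le_add_left (card_le_card fun ω hω => ?_) _
    rw [mem_filter] at hω ⊢
    exact ⟨hω.1, exists_bad C hω.2⟩
  have h3 : ((Fintype.piFinset (A C i)).card : ℝ) ≤
      (((Fintype.piFinset (A C i)).filter (Good C i)).card : ℝ) +
      (((Fintype.piFinset (A C i)).filter (fun ω => ∃ e, badE C i e ω)).card : ℝ) := by
    exact_mod_cast h2
  have h4 : (Fintype.card (Ev n) : ℝ) / α0 ≤ 1 / 2 := by
    rw [div_le_iff₀ hα]; linarith
  have h5 := mul_le_mul_of_nonneg_right h4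
    (Nat.cast_nonneg ((Fintype.piFinset (A C i)).card) : (0 : ℝ) ≤ _)
  linarith

/-- number of pairs -/
def hN (n : ℕ) : ℕ := Fintype.card (Bool × Option (Fin n) × Fin n)

theorem arith1 {x a b c N α0 : ℝ} (hα : 0 < α0) (hN : 0 ≤ N) (h1 : x ≤ a) (h2 : a ≤ N / α0 * b)
    (h3 : b / 2 ≤ c) : x ≤ 2 * N / α0 * c := by
  have h4 : 0 ≤ N / α0 := div_nonneg hN hα.le
  have h5 := mul_le_mul_of_nonneg_left h3 h4
  have h6 : 2 * N / α0 * c = 2 * (N / α0 * c) := by ring
  rw [h6]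
  linarith

open Classical in
/-- hitting probability -/
theorem hit_card {l : L} {Y : P} (hY : Y ∉ Pl.pts l) (i : Pl.Prt P0) {α0 : ℝ} (hα : 0 < α0)
    (hB : ∀ t, α0 ≤ ((A C i t).card : ℝ)) (hEN : 2 * (Fintype.card (Ev n) : ℝ) ≤ α0) :
    ((((Fintype.piFinset (A C i)).filter (Good C i)).filter (hit C l Y i)).card : ℝ) ≤
      2 * (hN n : ℝ) / α0 *
        (((Fintype.piFinset (A C i)).filter (Good C i)).card : ℝ) := by
  have h1 := union_le (A C i) α0 hα hB
    (fun (e : Bool × Option (Fin n) × Fin n) m => e.2.1 ≠ some e.2.2 ∧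
      bp C i e.1 e.2.1 ∈ Pl.pts l ∧ Y ∈ Pl.pts (ln C i e.1 e.2.1 e.2.2 (m e.2.2)))
    (fun e => e.2.2)
    (fun e ω _ x hx x' hx' h h' => hit_det C hY i e hx hx' h h')
  have h2 := good_card C i hα hB hEN
  refine arith1 hα (Nat.cast_nonneg (hN n)) ?_ h1 h2
  rw [Nat.cast_le]
  refine card_le_card (fun ω hω => ?_)
  rw [mem_filter, mem_filter] at hω
  exact mem_filter.mpr ⟨hω.1.1, hω.2⟩

/-- size of `A` -/
theorem A_card {c : ℝ} (hc : 0 ≤ c) (i : Pl.Prt P0) (t : Fin n)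
    (hR : (C.dTest i t).Rich Pl C.ban c) : c * ((q : ℝ) - 2) ≤ ((A C i t).card : ℝ) := by
  unfold Test.Rich at hR
  refine le_trans ?_ hR
  apply mul_le_mul_of_nonneg_left _ hc
  have h1 : q + 1 ≤ (C.dTest i t).J.card + 3 := by
    have h2 : Pl.lns (C.base i) ⊆ (C.dTest i t).J ∪ {i.1, C.g i true, C.g i false} := by
      intro m hm
      rw [mem_union]
      by_cases hP : P0 ∈ Pl.pts m
      · right
        have : m = i.1 := Pl.line_eq_of_two (C.base_ne i) ((Pl.mem_lns _ _).mp hm) (C.base_mem i)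
          hP (P0_mem_part i)
        rw [this]; simp
      · by_cases h1 : m = C.g i true
        · right; rw [h1]; simp
        · by_cases h2 : m = C.g i false
          · right; rw [h2]; simp
          · left
            exact mem_filter.mpr ⟨hm, hP, h1, h2⟩
    rw [← Pl.card_lns (C.base i)]
    refine (card_le_card h2).trans ((card_union_le _ _).trans (Nat.add_le_add_left ?_ _))
    exact card_le_three
  have h3 : (q : ℝ) + 1 ≤ ((C.dTest i t).J.card : ℝ) + 3 := by exact_mod_cast h1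
  linarith

theorem own_sub_ban (i : Pl.Prt P0) : C.own i ⊆ C.ban := by
  intro X hX
  rcases own_cases C hX with h | ⟨b, t, h⟩
  · rw [h]; exact base_mem_ban C i
  · rw [h]; exact Q_mem_ban C i b t

theorem own_disj {i j : Pl.Prt P0} {X : P} (h : X ∈ C.own i) (h' : X ∈ C.own j) : i = j := by
  rcases own_cases C h with h | ⟨b, t, h⟩ <;> rcases own_cases C h' with h' | ⟨b', t', h'⟩
  · exact base_inj C (h.symm.trans h')
  · exact absurd (h'.symm.trans h) (Q_ne_base' C j i b' t')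
  · exact absurd (h.symm.trans h') (Q_ne_base' C i j b t)
  · exact (Q_inj' C (h.symm.trans h')).1

theorem bp_mem_own (i : Pl.Prt P0) (b : Bool) (s : Option (Fin n)) : bp C i b s ∈ C.own i := by
  have hK : bp C i b s ∈ C.K i b := by
    cases s with
    | none => exact mem_insert_self _ _
    | some s => exact mem_insert_of_mem (mem_image_of_mem _ (mem_univ s))
  cases b
  · exact mem_union_right _ hK
  · exact mem_union_left _ hK

/-- few gadgets have a banned point on `l` -/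
theorem gadgets_card (l : L) :
    (univ.filter (fun i : Pl.Prt P0 => (C.own i ∩ Pl.pts l).Nonempty)).card ≤
      (C.ban ∩ Pl.pts l).card := by
  classical
  have h : ∀ i ∈ univ.filter (fun i : Pl.Prt P0 => (C.own i ∩ Pl.pts l).Nonempty),
      ∃ X, X ∈ C.own i ∩ Pl.pts l := fun i hi => (mem_filter.mp hi).2
  have : Nonempty P := ⟨P0⟩
  choose! f hf using h
  refine card_le_card_of_injOn f (fun i hi => ?_) ?_
  · have := mem_inter.mp (hf i (mem_coe.mp hi))
    exact mem_coe.mpr (mem_inter.mpr ⟨own_sub_ban C i this.1, this.2⟩)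
  · intro i hi j hj hij
    have h1 := mem_inter.mp (hf i (mem_coe.mp hi))
    have h2 := mem_inter.mp (hf j (mem_coe.mp hj))
    rw [← hij] at h2
    exact own_disj C h1.1 h2.1

end SDaux

end Crest.Agent.Ryser
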